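import Mathlib

/-!
# P084: smooth rotund norms, basic facts

`SmoothRotund E`: the norm of `E` is `C^3` away from the origin and its second derivative is
positive definite transversally to the radial direction.
-/

namespace Vale.P084

open Metric Filter Topology

/-- The norm of `E` is three times continuously differentiable away from `0`, and its second
derivative at every `x ≠ 0` is positive on every vector that is not a multiple of `x`. -/
structure SmoothRotund (E : Type*) [NormedAddCommGroup E] [NormedSpace ℝ E] : Prop where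
  contDiffOn : ContDiffOn ℝ 3 (fun x : E => ‖x‖) {0}ᶜ
  pos : ∀ x v : E, x ≠ 0 → v ∉ Submodule.span ℝ {x} →
    0 < fderiv ℝ (fun y => fderiv ℝ (fun z : E => ‖z‖) y) x v v

variable {E : Type*} [NormedAddCommGroup E] [NormedSpace ℝ E]

/-- first derivative of the norm -/
noncomputable def nm (x : E) : E →L[ℝ] ℝ := fderiv ℝ (fun z : E => ‖z‖) x

/-- second derivative of the norm -/
noncomputable def hs (x : E) : E →L[ℝ] E →L[ℝ] ℝ := fderiv ℝ (nm (E := E)) x

lemma hasDerivAt_apply {F G : Type*} [NormedAddCommGroup F] [NormedSpace ℝ F]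
    [NormedAddCommGroup G] [NormedSpace ℝ G] {c : ℝ → F →L[ℝ] G} {c' : F →L[ℝ] G} {t : ℝ}
    (hc : HasDerivAt c c' t) (v : F) : HasDerivAt (fun s => c s v) (c' v) t := by
  simpa using hc.clm_apply (hasDerivAt_const t v)

lemma hasFDerivAt_apply {D F G : Type*} [NormedAddCommGroup D] [NormedSpace ℝ D]
    [NormedAddCommGroup F] [NormedSpace ℝ F]
    [NormedAddCommGroup G] [NormedSpace ℝ G] {c : D → F →L[ℝ] G} {c' : D →L[ℝ] F →L[ℝ] G} {t : D}
    (hc : HasFDerivAt c c' t) (v : F) : HasFDerivAt (fun s => c s v) (c'.flip v) t := by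
  have := hc.clm_apply (hasFDerivAt_const v t)
  refine this.congr_fderiv ?_
  ext w
  simp

namespace SmoothRotund

variable (h : SmoothRotund E)
include h

lemma contDiffAt {x : E} (hx : x ≠ 0) : ContDiffAt ℝ 3 (fun z : E => ‖z‖) x :=
  h.contDiffOn.contDiffAt (isOpen_compl_singleton.mem_nhds hx)

lemma hasFDerivAt_norm {x : E} (hx : x ≠ 0) : HasFDerivAt (fun z : E => ‖z‖) (nm x) x :=
  ((h.contDiffAt hx).differentiableAt (by norm_num)).hasFDerivAt

lemma contDiffAt_nm {x : E} (hx : x ≠ 0) : ContDiffAt ℝ 2 (nm (E := E)) x :=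
  (h.contDiffAt hx).fderiv_right (by norm_num)

lemma hasFDerivAt_nm {x : E} (hx : x ≠ 0) : HasFDerivAt (nm (E := E)) (hs x) x :=
  ((h.contDiffAt_nm hx).differentiableAt (by norm_num)).hasFDerivAt

lemma contDiffAt_hs {x : E} (hx : x ≠ 0) : ContDiffAt ℝ 1 (hs (E := E)) x :=
  (h.contDiffAt_nm hx).fderiv_right (by norm_num)

lemma nm_self {x : E} (hx : x ≠ 0) : nm x x = ‖x‖ := by
  have h1 : HasDerivAt (fun t : ℝ => t • x) x 1 := by
    simpa using (hasDerivAt_id (1 : ℝ)).smul_const x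
  have h2 : HasDerivAt (fun t : ℝ => ‖t • x‖) (nm x x) 1 :=
    (h.hasFDerivAt_norm hx).comp_hasDerivAt_of_eq 1 h1 (by simp)
  have h3 : HasDerivAt (fun t : ℝ => ‖t • x‖) ‖x‖ 1 := by
    have h4 : HasDerivAt (fun t : ℝ => t * ‖x‖) ‖x‖ 1 := by
      simpa using (hasDerivAt_id (1 : ℝ)).mul_const ‖x‖
    refine h4.congr_of_eventuallyEq ?_
    filter_upwards [Ioi_mem_nhds (show (0 : ℝ) < 1 by norm_num)] with t ht
    rw [norm_smul, Real.norm_of_nonneg (le_of_lt ht)]
  exact h2.unique h3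

lemma nm_smul {x : E} (hx : x ≠ 0) {t : ℝ} (ht : 0 < t) : nm (t • x) = nm x := by
  have h1 : HasFDerivAt (fun z : E => t • z) (t • ContinuousLinearMap.id ℝ E) x :=
    (hasFDerivAt_id x).const_smul t
  have h2 : HasFDerivAt (fun z : E => ‖t • z‖) ((nm (t • x)).comp
      (t • ContinuousLinearMap.id ℝ E)) x :=
    (h.hasFDerivAt_norm (x := t • x) (smul_ne_zero ht.ne' hx)).comp x h1
  have h3 : HasFDerivAt (fun z : E => ‖t • z‖) (t • nm x) x := by
    have h4 := (h.hasFDerivAt_norm hx).const_smul t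
    refine h4.congr_of_eventuallyEq (Eventually.of_forall fun z => ?_)
    simp [norm_smul, abs_of_pos ht]
  have h5 := h2.unique h3
  ext v
  have h6 := congrArg (fun L : E →L[ℝ] ℝ => L v) h5
  simp only [ContinuousLinearMap.comp_apply, ContinuousLinearMap.coe_smul', Pi.smul_apply,
    ContinuousLinearMap.id_apply, map_smul, smul_eq_mul] at h6
  exact mul_left_cancel₀ ht.ne' h6

lemma nm_neg {x : E} (hx : x ≠ 0) : nm (-x) = -nm x := by
  have h1 : HasFDerivAt (fun z : E => -z) (-ContinuousLinearMap.id ℝ E) x :=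
    (hasFDerivAt_id x).neg
  have h2 : HasFDerivAt (fun z : E => ‖-z‖) ((nm (-x)).comp
      (-ContinuousLinearMap.id ℝ E)) x :=
    (h.hasFDerivAt_norm (x := -x) (neg_ne_zero.2 hx)).comp x h1
  have h3 : HasFDerivAt (fun z : E => ‖-z‖) (nm x) x := by
    refine (h.hasFDerivAt_norm hx).congr_of_eventuallyEq (Eventually.of_forall fun z => ?_)
    simp
  have h5 := h2.unique h3
  ext v
  have h6 := congrArg (fun L : E →L[ℝ] ℝ => L v) h5
  simp only [ContinuousLinearMap.comp_apply, ContinuousLinearMap.neg_apply,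
    ContinuousLinearMap.id_apply, map_neg] at h6
  simp only [ContinuousLinearMap.neg_apply]
  linarith

lemma abs_nm_le {x : E} (hx : x ≠ 0) (v : E) : |nm x v| ≤ ‖v‖ := by
  have h1 : ‖nm x‖ ≤ 1 := by
    have := (h.hasFDerivAt_norm hx).le_of_lipschitz (C := 1) (lipschitzWith_one_norm)
    simpa using this
  calc |nm x v| = ‖nm x v‖ := rfl
    _ ≤ ‖nm x‖ * ‖v‖ := (nm x).le_opNorm v
    _ ≤ 1 * ‖v‖ := by gcongr
    _ = ‖v‖ := one_mul _

lemma hs_symm {x : E} (hx : x ≠ 0) (u v : E) : hs x u v = hs x v u := by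
  have h1 : ∀ᶠ y in 𝓝 x, HasFDerivAt (fun z : E => ‖z‖) (nm y) y := by
    filter_upwards [isOpen_compl_singleton.mem_nhds hx] with y hy
    exact h.hasFDerivAt_norm hy
  exact second_derivative_symmetric_of_eventually h1 (h.hasFDerivAt_nm hx) u v

lemma hs_self_left {x : E} (hx : x ≠ 0) (v : E) : hs x x v = 0 := by
  have h1 : HasDerivAt (fun t : ℝ => t • x) x 1 := by
    simpa using (hasDerivAt_id (1 : ℝ)).smul_const x
  have h2 : HasDerivAt (fun t : ℝ => nm (t • x)) (hs x x) 1 :=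
    (h.hasFDerivAt_nm hx).comp_hasDerivAt_of_eq 1 h1 (by simp)
  have h3 : HasDerivAt (fun t : ℝ => nm (t • x)) 0 1 := by
    refine (hasDerivAt_const (1 : ℝ) (nm x)).congr_of_eventuallyEq ?_
    filter_upwards [Ioi_mem_nhds (show (0 : ℝ) < 1 by norm_num)] with t ht
    exact h.nm_smul hx ht
  have := h2.unique h3
  rw [this]; rfl

lemma hs_self_right {x : E} (hx : x ≠ 0) (v : E) : hs x v x = 0 := by
  rw [h.hs_symm hx, h.hs_self_left hx]

lemma hs_smul {x : E} (hx : x ≠ 0) {t : ℝ} (ht : 0 < t) : hs (t • x) = t⁻¹ • hs x := by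
  have h1 : HasFDerivAt (fun z : E => t • z) (t • ContinuousLinearMap.id ℝ E) x :=
    (hasFDerivAt_id x).const_smul t
  have h2 : HasFDerivAt (fun z : E => nm (t • z)) ((hs (t • x)).comp
      (t • ContinuousLinearMap.id ℝ E)) x :=
    (h.hasFDerivAt_nm (x := t • x) (smul_ne_zero ht.ne' hx)).comp x h1
  have h3 : HasFDerivAt (fun z : E => nm (t • z)) (hs x) x := by
    refine (h.hasFDerivAt_nm hx).congr_of_eventuallyEq ?_
    filter_upwards [isOpen_compl_singleton.mem_nhds hx] with y hy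
    exact h.nm_smul hy ht
  have h5 := h2.unique h3
  ext u v
  have h6 := congrArg (fun L : E →L[ℝ] E →L[ℝ] ℝ => L u v) h5
  simp only [ContinuousLinearMap.comp_apply, ContinuousLinearMap.coe_smul', Pi.smul_apply,
    ContinuousLinearMap.id_apply, map_smul, smul_eq_mul] at h6
  simp only [ContinuousLinearMap.smul_apply, smul_eq_mul]
  rw [← h6]
  field_simp

lemma hs_pos {x v : E} (hx : x ≠ 0) (hv : v ∉ Submodule.span ℝ {x}) : 0 < hs x v v :=
  h.pos x v hx hv

lemma hs_nonneg {x : E} (hx : x ≠ 0) (v : E) : 0 ≤ hs x v v := by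
  by_cases hv : v ∈ Submodule.span ℝ {x}
  · obtain ⟨c, rfl⟩ := Submodule.mem_span_singleton.1 hv
    simp [h.hs_self_left hx]
  · exact (h.hs_pos hx hv).le

/-- strict convexity -/
lemma eq_of_norm_add {a b : E} (ha : ‖a‖ = 1) (hb : ‖b‖ = 1) (hab : ‖a + b‖ = 2) : a = b := by
  by_contra hne
  set c : E := (1 / 2 : ℝ) • (a + b) with hc
  have hcn : ‖c‖ = 1 := by
    rw [hc, norm_smul, hab]; norm_num
  have hc0 : c ≠ 0 := by
    intro h0; rw [h0, norm_zero] at hcn; exact zero_ne_one hcn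
  set d : E := b - a with hd
  have hd0 : d ≠ 0 := by rw [hd]; exact sub_ne_zero.2 (Ne.symm hne)
  -- d not a multiple of c
  have hdc : d ∉ Submodule.span ℝ {c} := by
    intro hmem
    obtain ⟨t, ht⟩ := Submodule.mem_span_singleton.1 hmem
    have e1 : b = (1 + t / 2) • c := by
      have : b = c + (1 / 2 : ℝ) • d := by rw [hc, hd]; module
      rw [this, ← ht]; module
    have e2 : a = (1 - t / 2) • c := by
      have : a = c - (1 / 2 : ℝ) • d := by rw [hc, hd]; module
      rw [this, ← ht]; module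
    have e3 : |1 + t / 2| = 1 := by
      have := hb; rw [e1, norm_smul, hcn, mul_one] at this; simpa using this
    have e4 : |1 - t / 2| = 1 := by
      have := ha; rw [e2, norm_smul, hcn, mul_one] at this; simpa using this
    have e5 : t = 0 := by
      rcases abs_eq (zero_le_one) |>.1 e3 with h1 | h1 <;>
        rcases abs_eq (zero_le_one) |>.1 e4 with h2 | h2 <;> linarith
    rw [e5, zero_smul] at ht
    exact hd0 ht.symm
  -- norm is 1 along the segment
  have hseg : ∀ s : ℝ, |s| ≤ 1 / 2 → ‖c + s • d‖ = 1 := by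
    intro s hs'
    have key : ∀ s : ℝ, |s| ≤ 1 / 2 → ‖c + s • d‖ ≤ 1 := by
      intro s hs'
      have h1 : c + s • d = (1 / 2 - s) • a + (1 / 2 + s) • b := by rw [hc, hd]; module
      have h2 := abs_le.1 hs'
      rw [h1]
      calc ‖(1 / 2 - s) • a + (1 / 2 + s) • b‖
          ≤ ‖(1 / 2 - s) • a‖ + ‖(1 / 2 + s) • b‖ := norm_add_le _ _
        _ = (1 / 2 - s) + (1 / 2 + s) := by
            rw [norm_smul, norm_smul, ha, hb, Real.norm_of_nonneg (by linarith),
              Real.norm_of_nonneg (by linarith)]; ring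
        _ = 1 := by ring
    refine le_antisymm (key s hs') ?_
    have h3 := key (-s) (by rwa [abs_neg])
    have h4 : (c + s • d) + (c + (-s) • d) = (2 : ℝ) • c := by module
    have h5 : ‖(2 : ℝ) • c‖ = 2 := by rw [norm_smul, hcn]; norm_num
    have h6 := norm_add_le (c + s • d) (c + (-s) • d)
    rw [h4, h5] at h6
    linarith
  have hline : ∀ s : ℝ, HasDerivAt (fun s : ℝ => c + s • d) d s := fun s => by
    simpa using ((hasDerivAt_id s).smul_const d).const_add c
  have hne0 : ∀ s : ℝ, |s| ≤ 1 / 2 → c + s • d ≠ 0 := by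
    intro s hs' h0
    have := hseg s hs'; rw [h0, norm_zero] at this; exact zero_ne_one this
  have hzero : ∀ s : ℝ, |s| < 1 / 2 → nm (c + s • d) d = 0 := by
    intro s hs'
    have h1 : HasDerivAt (fun s : ℝ => ‖c + s • d‖) (nm (c + s • d) d) s :=
      (h.hasFDerivAt_norm (hne0 s hs'.le)).comp_hasDerivAt s (hline s)
    have h2 : HasDerivAt (fun s : ℝ => ‖c + s • d‖) 0 s := by
      refine (hasDerivAt_const s (1 : ℝ)).congr_of_eventuallyEq ?_
      have : ∀ᶠ r in 𝓝 s, |r| < 1 / 2 := (continuous_abs.tendsto s).eventually_lt_const hs'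
      filter_upwards [this] with r hr
      exact hseg r hr.le
    exact h1.unique h2
  have h1 : HasDerivAt (fun s : ℝ => nm (c + s • d) d) (hs c d d) 0 := by
    have h2 : HasDerivAt (fun s : ℝ => nm (c + s • d)) (hs c d) 0 :=
      (h.hasFDerivAt_nm hc0).comp_hasDerivAt_of_eq 0 (hline 0) (by simp)
    exact hasDerivAt_apply h2 d
  have h2 : HasDerivAt (fun s : ℝ => nm (c + s • d) d) 0 0 := by
    refine (hasDerivAt_const (0 : ℝ) (0 : ℝ)).congr_of_eventuallyEq ?_
    have : ∀ᶠ r in 𝓝 (0 : ℝ), |r| < 1 / 2 :=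
      (continuous_abs.tendsto 0).eventually_lt_const (by norm_num)
    filter_upwards [this] with r hr
    exact hzero r hr
  have := h1.unique h2
  exact (h.hs_pos hc0 hdc).ne' this

lemma nm_lt {a b : E} (ha : a ≠ 0) (hb : b ∉ Submodule.span ℝ {a}) : nm a b < ‖b‖ := by
  have hb0 : b ≠ 0 := by
    rintro rfl; exact hb (Submodule.zero_mem _)
  have hna : 0 < ‖a‖ := norm_pos_iff.2 ha
  have hnb : 0 < ‖b‖ := norm_pos_iff.2 hb0
  by_contra hcon
  have h1 : nm a b = ‖b‖ := le_antisymm ((le_abs_self _).trans (h.abs_nm_le ha b)) (not_lt.1 hcon)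
  have h2 : ‖‖a‖⁻¹ • a + ‖b‖⁻¹ • b‖ = 2 := by
    apply le_antisymm
    · refine (norm_add_le _ _).trans ?_
      rw [norm_smul, norm_smul, norm_inv, norm_inv, norm_norm, norm_norm,
        inv_mul_cancel₀ hna.ne', inv_mul_cancel₀ hnb.ne']
      norm_num
    · have h3 := (le_abs_self _).trans (h.abs_nm_le ha (‖a‖⁻¹ • a + ‖b‖⁻¹ • b))
      rw [map_add, map_smul, map_smul, h.nm_self ha, h1, smul_eq_mul, smul_eq_mul,
        inv_mul_cancel₀ hna.ne', inv_mul_cancel₀ hnb.ne'] at h3
      linarith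
  have h3 := h.eq_of_norm_add (a := ‖a‖⁻¹ • a) (b := ‖b‖⁻¹ • b)
    (by rw [norm_smul, norm_inv, norm_norm, inv_mul_cancel₀ hna.ne'])
    (by rw [norm_smul, norm_inv, norm_norm, inv_mul_cancel₀ hnb.ne']) h2
  apply hb
  rw [Submodule.mem_span_singleton]
  refine ⟨‖b‖ * ‖a‖⁻¹, ?_⟩
  rw [mul_smul, h3, smul_smul, mul_inv_cancel₀ hnb.ne', one_smul]

/-- `|dN_a b| < ‖b‖` if `b` is not a multiple of `a`. -/
lemma abs_nm_lt {a b : E} (ha : a ≠ 0) (hb : b ∉ Submodule.span ℝ {a}) : |nm a b| < ‖b‖ := by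
  rw [abs_lt]
  refine ⟨?_, h.nm_lt ha hb⟩
  have h1 : -b ∉ Submodule.span ℝ {a} := fun hmem => hb (by simpa using hmem)
  have := h.nm_lt ha h1
  rw [map_neg, norm_neg] at this
  linarith

/-- Two linearly independent directions: a combination killed by both normals vanishes. -/
lemma comb_eq_zero {a b : E} (ha : a ≠ 0) (hb : b ∉ Submodule.span ℝ {a})
    {s t : ℝ} (h1 : nm a (s • a + t • b) = 0) (h2 : nm b (s • a + t • b) = 0) :
    s = 0 ∧ t = 0 := by
  have hb0 : b ≠ 0 := by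
    rintro rfl; exact hb (Submodule.zero_mem _)
  have hna : 0 < ‖a‖ := norm_pos_iff.2 ha
  have hnb : 0 < ‖b‖ := norm_pos_iff.2 hb0
  rw [map_add, map_smul, map_smul, h.nm_self ha, smul_eq_mul, smul_eq_mul] at h1
  rw [map_add, map_smul, map_smul, h.nm_self hb0, smul_eq_mul, smul_eq_mul] at h2
  have h3 := h.abs_nm_lt ha hb
  have h4 := h.abs_nm_le hb0 a
  -- |s| ‖a‖ = |t| |nm a b|, |t| ‖b‖ = |s| |nm b a|
  have e1 : |s| * ‖a‖ = |t| * |nm a b| := by
    have : s * ‖a‖ = -(t * nm a b) := by linarith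
    have := congrArg abs this
    rwa [abs_neg, abs_mul, abs_mul, abs_norm] at this
  have e2 : |t| * ‖b‖ = |s| * |nm b a| := by
    have : t * ‖b‖ = -(s * nm b a) := by linarith
    have := congrArg abs this
    rwa [abs_neg, abs_mul, abs_mul, abs_norm] at this
  have ht : t = 0 := by
    by_contra ht0
    have htp : 0 < |t| := abs_pos.2 ht0
    have h5 : |s| * ‖a‖ < |t| * ‖b‖ := by rw [e1]; exact mul_lt_mul_of_pos_left h3 htp
    have h6 : |t| * ‖b‖ ≤ |s| * ‖a‖ := by
      rw [e2]; exact mul_le_mul_of_nonneg_left h4 (abs_nonneg _)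
    linarith
  refine ⟨?_, ht⟩
  rw [ht, abs_zero, zero_mul] at e1
  rcases mul_eq_zero.1 e1 with h5 | h5
  · exact abs_eq_zero.1 h5
  · exact absurd h5 hna.ne'

end SmoothRotund

end Vale.P084
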