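import Mathlib
import Vale.Agent.P084.Basic

/-!
# P084, module A: the algebraic lemma
-/

namespace Vale.P084

open Metric Filter Topology MeasureTheory

namespace Alg

variable {V : Type*} [NormedAddCommGroup V] [NormedSpace ℝ V] [FiniteDimensional ℝ V]


lemma exp_neg_mul (A : V →L[ℝ] V) (t : ℝ) : NormedSpace.exp ((-t) • A) * NormedSpace.exp (t • A) = 1 := by
  let _ : NormedAlgebra ℚ (V →L[ℝ] V) := NormedAlgebra.restrictScalars ℚ ℝ (V →L[ℝ] V)
  have h : Commute ((-t) • A) (t • A) :=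
    ((Commute.refl A).smul_left _).smul_right _
  rw [← NormedSpace.exp_add_of_commute h, neg_smul, neg_add_cancel, NormedSpace.exp_zero]

lemma exp_mul_neg (A : V →L[ℝ] V) (t : ℝ) : NormedSpace.exp (t • A) * NormedSpace.exp ((-t) • A) = 1 := by
  have := exp_neg_mul A (-t)
  rwa [neg_neg] at this

lemma exp_add' (A : V →L[ℝ] V) (s t : ℝ) : NormedSpace.exp ((s + t) • A) = NormedSpace.exp (s • A) * NormedSpace.exp (t • A) := by
  let _ : NormedAlgebra ℚ (V →L[ℝ] V) := NormedAlgebra.restrictScalars ℚ ℝ (V →L[ℝ] V)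
  have h : Commute (s • A) (t • A) :=
    ((Commute.refl A).smul_left _).smul_right _
  rw [← NormedSpace.exp_add_of_commute h, add_smul]

lemma exp_apply_ne (A : V →L[ℝ] V) (t : ℝ) {v : V} (hv : v ≠ 0) : NormedSpace.exp (t • A) v ≠ 0 := by
  intro h
  have h1 : (NormedSpace.exp ((-t) • A) * NormedSpace.exp (t • A)) v = v := by rw [exp_neg_mul]; rfl
  rw [mul_apply_eq_comp, h, map_zero] at h1
  exact hv h1.symm

lemma hasDerivAt_flow (A : V →L[ℝ] V) (v : V) (t : ℝ) :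
    HasDerivAt (fun u : ℝ => NormedSpace.exp (u • A) v) (A (NormedSpace.exp (t • A) v)) t := by
  have h := hasDerivAt_exp_smul_const' (𝕂 := ℝ) A t
  have h2 := h.clm_apply (hasDerivAt_const t v)
  simpa using h2

/-- the flow of an infinitesimal isometry preserves the norm -/
lemma flow {N : V → V →L[ℝ] ℝ} (hd : ∀ x : V, x ≠ 0 → HasFDerivAt (fun z : V => ‖z‖) (N x) x)
    {A : V →L[ℝ] V} (hA : ∀ x, x ≠ 0 → N x (A x) = 0) (t : ℝ) (v : V) :
    ‖NormedSpace.exp (t • A) v‖ = ‖v‖ := by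
  by_cases hv : v = 0
  · simp [hv]
  have h1 : ∀ s : ℝ, HasDerivAt (fun u : ℝ => ‖NormedSpace.exp (u • A) v‖) 0 s := by
    intro s
    have h2 := (hd _ (exp_apply_ne A s hv)).comp_hasDerivAt s (hasDerivAt_flow A v s)
    rw [hA _ (exp_apply_ne A s hv)] at h2
    exact h2
  have h3 := is_const_of_deriv_eq_zero (fun s => (h1 s).differentiableAt)
    (fun s => (h1 s).deriv) t 0
  simpa using h3

lemma flow_opNorm {A : V →L[ℝ] V} (hA : ∀ (t : ℝ) (v : V), ‖NormedSpace.exp (t • A) v‖ = ‖v‖) (t : ℝ) :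
    ‖NormedSpace.exp (t • A)‖ ≤ 1 :=
  ContinuousLinearMap.opNorm_le_bound _ zero_le_one fun v => by rw [hA, one_mul]

/-- recurrence of the flow -/
lemma recur {A : V →L[ℝ] V} (hA : ∀ (t : ℝ) (v : V), ‖NormedSpace.exp (t • A) v‖ = ‖v‖) {ε : ℝ} (hε : 0 < ε) :
    ∃ n : ℕ, 1 ≤ n ∧ ‖NormedSpace.exp ((n : ℝ) • A) - 1‖ < ε := by
  have : ProperSpace (V →L[ℝ] V) := FiniteDimensional.proper_real _
  have hmem : ∀ n : ℕ, NormedSpace.exp ((n : ℝ) • A) ∈ closedBall (0 : V →L[ℝ] V) 1 := fun n => by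
    simpa using flow_opNorm hA n
  obtain ⟨a, -, φ, hφ, hlim⟩ := (isCompact_closedBall (0 : V →L[ℝ] V) 1).tendsto_subseq hmem
  have hc := hlim.cauchySeq
  rw [Metric.cauchySeq_iff] at hc
  obtain ⟨M, hM⟩ := hc ε hε
  have h1 := hM (M + 1) (by omega) M le_rfl
  simp only [Function.comp] at h1
  rw [dist_eq_norm] at h1
  have hlt : φ M < φ (M + 1) := hφ (by omega)
  refine ⟨φ (M + 1) - φ M, by omega, ?_⟩
  have e1 : NormedSpace.exp ((φ (M + 1) : ℝ) • A) - NormedSpace.exp ((φ M : ℝ) • A) =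
      NormedSpace.exp ((φ M : ℝ) • A) * (NormedSpace.exp (((φ (M + 1) - φ M : ℕ) : ℝ) • A) - 1) := by
    rw [mul_sub, mul_one, ← exp_add', Nat.cast_sub hlt.le, add_sub_cancel]
  have e2 : NormedSpace.exp (((φ (M + 1) - φ M : ℕ) : ℝ) • A) - 1 =
      NormedSpace.exp ((-(φ M : ℝ)) • A) * (NormedSpace.exp ((φ (M + 1) : ℝ) • A) - NormedSpace.exp ((φ M : ℝ) • A)) := by
    rw [e1, ← mul_assoc, exp_neg_mul, one_mul]
  rw [e2]
  calc _ ≤ ‖NormedSpace.exp ((-(φ M : ℝ)) • A)‖ * ‖NormedSpace.exp ((φ (M + 1) : ℝ) • A) - NormedSpace.exp ((φ M : ℝ) • A)‖ := norm_mul_le _ _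
    _ ≤ 1 * ‖NormedSpace.exp ((φ (M + 1) : ℝ) • A) - NormedSpace.exp ((φ M : ℝ) • A)‖ := by
        gcongr; exact flow_opNorm hA _
    _ < ε := by rwa [one_mul]

/-- a quadratic form monotone along a recurrent flow is constant -/
lemma rec_lemma {L : V →L[ℝ] V} (hL : ∀ (t : ℝ) (v : V), ‖NormedSpace.exp (t • L) v‖ = ‖v‖)
    (R : V →L[ℝ] V →L[ℝ] ℝ) (hR : ∀ u v, R u v = R v u) (hpos : ∀ s, 0 ≤ R s (L s)) (s : V) :
    R s (L s) = 0 := by
  -- it suffices to treat the midpoint of the unit time interval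
  have key : ∀ s : V, R (NormedSpace.exp ((1 / 2 : ℝ) • L) s) (L (NormedSpace.exp ((1 / 2 : ℝ) • L) s)) = 0 := by
    intro s
    set f : ℝ → ℝ := fun t => R (NormedSpace.exp (t • L) s) (NormedSpace.exp (t • L) s) with hf
    have hder : ∀ t, HasDerivAt f (2 * R (NormedSpace.exp (t • L) s) (L (NormedSpace.exp (t • L) s))) t := by
      intro t
      have h1 := hasDerivAt_flow L s t
      have h2 : HasDerivAt (fun u : ℝ => R (NormedSpace.exp (u • L) s)) (R (L (NormedSpace.exp (t • L) s))) t :=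
        R.hasFDerivAt.comp_hasDerivAt t h1
      have h3 := h2.clm_apply h1
      have e : R (L (NormedSpace.exp (t • L) s)) (NormedSpace.exp (t • L) s) + R (NormedSpace.exp (t • L) s) (L (NormedSpace.exp (t • L) s))
          = 2 * R (NormedSpace.exp (t • L) s) (L (NormedSpace.exp (t • L) s)) := by
        rw [hR (L (NormedSpace.exp (t • L) s)) (NormedSpace.exp (t • L) s)]; ring
      rw [← e]
      exact h3
    have hmono : Monotone f := by
      apply monotone_of_deriv_nonneg (fun t => (hder t).differentiableAt)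
      intro t
      rw [(hder t).deriv]
      have := hpos (NormedSpace.exp (t • L) s)
      positivity
    -- upper bound f 1 ≤ f 0
    have hle : f 1 ≤ f 0 := by
      apply le_of_forall_pos_le_add
      intro ε hε
      set K : ℝ := ‖R‖ * ‖s‖ * ‖s‖ * 2 + 1 with hK
      have hKpos : 0 < K := by positivity
      obtain ⟨n, hn, hn2⟩ := recur hL (ε := ε / K) (by positivity)
      have h1 : f 1 ≤ f n := hmono (by exact_mod_cast hn)
      have h2 : f n - f 0 ≤ ε := by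
        have e0 : f 0 = R s s := by simp [hf]
        have e1 : f n - f 0 = R ((NormedSpace.exp ((n : ℝ) • L) - 1) s) (NormedSpace.exp ((n : ℝ) • L) s)
            + R s ((NormedSpace.exp ((n : ℝ) • L) - 1) s) := by
          rw [e0]
          simp only [hf, sub_apply, one_apply_eq_self, map_sub]
          ring
        rw [e1]
        have hδ : ‖(NormedSpace.exp ((n : ℝ) • L) - 1) s‖ ≤ ε / K * ‖s‖ :=
          ((NormedSpace.exp ((n : ℝ) • L) - 1).le_opNorm s).trans (by gcongr)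
        have b1 : R ((NormedSpace.exp ((n : ℝ) • L) - 1) s) (NormedSpace.exp ((n : ℝ) • L) s) ≤ ‖R‖ * (ε / K * ‖s‖) * ‖s‖ := by
          calc _ ≤ ‖R ((NormedSpace.exp ((n : ℝ) • L) - 1) s) (NormedSpace.exp ((n : ℝ) • L) s)‖ := Real.le_norm_self _
            _ ≤ ‖R‖ * ‖(NormedSpace.exp ((n : ℝ) • L) - 1) s‖ * ‖NormedSpace.exp ((n : ℝ) • L) s‖ := R.le_opNorm₂ _ _
            _ ≤ _ := by rw [hL]; gcongr
        have b2 : R s ((NormedSpace.exp ((n : ℝ) • L) - 1) s) ≤ ‖R‖ * ‖s‖ * (ε / K * ‖s‖) := by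
          calc _ ≤ ‖R s ((NormedSpace.exp ((n : ℝ) • L) - 1) s)‖ := Real.le_norm_self _
            _ ≤ ‖R‖ * ‖s‖ * ‖(NormedSpace.exp ((n : ℝ) • L) - 1) s‖ := R.le_opNorm₂ _ _
            _ ≤ _ := by gcongr
        have b3 : ‖R‖ * (ε / K * ‖s‖) * ‖s‖ + ‖R‖ * ‖s‖ * (ε / K * ‖s‖) = (K - 1) * (ε / K) := by
          rw [hK]; ring
        have b4 : (K - 1) * (ε / K) ≤ ε := by
          have : (K - 1) * (ε / K) = ε - ε / K := by field_simp
          rw [this]
          have : 0 < ε / K := by positivity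
          linarith
        linarith
      linarith
    have hconst : ∀ t ∈ Set.Ioo (0 : ℝ) 1, f t = f 0 := by
      intro t ht
      exact le_antisymm ((hmono ht.2.le).trans hle) (hmono ht.1.le)
    have h0 : HasDerivAt f 0 (1 / 2) := by
      refine (hasDerivAt_const (1 / 2 : ℝ) (f 0)).congr_of_eventuallyEq ?_
      filter_upwards [isOpen_Ioo.mem_nhds (show (1 / 2 : ℝ) ∈ Set.Ioo (0 : ℝ) 1 by norm_num)]
        with t ht
      exact hconst t ht
    have h1 := (hder (1 / 2)).unique h0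
    linarith
  have h := key (NormedSpace.exp ((-(1 / 2) : ℝ) • L) s)
  have e : NormedSpace.exp ((1 / 2 : ℝ) • L) (NormedSpace.exp ((-(1 / 2) : ℝ) • L) s) = s := by
    rw [← mul_apply_eq_comp, exp_mul_neg]; rfl
  rwa [e] at h

/-- the linear isometry equivalence given by the flow -/
noncomputable def flowEquiv {A : V →L[ℝ] V} (hA : ∀ (t : ℝ) (v : V), ‖NormedSpace.exp (t • A) v‖ = ‖v‖) (t : ℝ) :
    V ≃ₗᵢ[ℝ] V where
  toFun := fun v => NormedSpace.exp (t • A) v
  invFun := fun v => NormedSpace.exp ((-t) • A) v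
  map_add' := map_add _
  map_smul' := map_smul _
  left_inv := fun v => by
    show NormedSpace.exp ((-t) • A) (NormedSpace.exp (t • A) v) = v
    rw [← mul_apply_eq_comp, exp_neg_mul]; rfl
  right_inv := fun v => by
    show NormedSpace.exp (t • A) (NormedSpace.exp ((-t) • A) v) = v
    rw [← mul_apply_eq_comp, exp_mul_neg]; rfl
  norm_map' := hA t

/-- general form of `skew_form` -/
theorem skew_form' {N : V → V →L[ℝ] ℝ}
    (hd : ∀ x : V, x ≠ 0 → HasFDerivAt (fun z : V => ‖z‖) (N x) x) :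
    ∃ B : V →L[ℝ] V →L[ℝ] ℝ, (∀ u w, B u w = B w u) ∧ (∀ u, u ≠ 0 → 0 < B u u) ∧
      ∀ A : V →L[ℝ] V, (∀ v, v ≠ 0 → N v (A v) = 0) → ∀ u w, B (A u) w = -B u (A w) := by
  set μ : Measure (V →L[ℝ] ℝ) := Measure.hausdorffMeasure (Module.finrank ℝ (V →L[ℝ] ℝ)) with hμ
  have hHaar : μ.IsAddHaarMeasure := by rw [hμ]; infer_instance
  set K : Set (V →L[ℝ] ℝ) := closedBall 0 1 with hK
  have hKc : IsCompact K := isCompact_closedBall _ _
  have hint : ∀ u w : V, IntegrableOn (fun ζ : V →L[ℝ] ℝ => ζ u * ζ w) K μ := fun u w =>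
    ContinuousOn.integrableOn_compact hKc (by fun_prop)
  let B0 : V →ₗ[ℝ] V →ₗ[ℝ] ℝ := LinearMap.mk₂ ℝ (fun u w => ∫ ζ in K, ζ u * ζ w ∂μ)
    (fun u u' w => by
      rw [← integral_add (hint u w) (hint u' w)]
      congr 1; ext ζ; rw [map_add]; ring)
    (fun c u w => by
      rw [smul_eq_mul, ← integral_const_mul]
      congr 1; ext ζ; rw [map_smul, smul_eq_mul]; ring)
    (fun u w w' => by
      rw [← integral_add (hint u w) (hint u w')]
      congr 1; ext ζ; rw [map_add]; ring)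
    (fun c u w => by
      rw [smul_eq_mul, ← integral_const_mul]
      congr 1; ext ζ; rw [map_smul, smul_eq_mul]; ring)
  let B : V →L[ℝ] V →L[ℝ] ℝ := LinearMap.toContinuousLinearMap
    ((LinearMap.toContinuousLinearMap : (V →ₗ[ℝ] ℝ) ≃ₗ[ℝ] V →L[ℝ] ℝ).toLinearMap ∘ₗ B0)
  have hBapp : ∀ u w, B u w = ∫ ζ in K, ζ u * ζ w ∂μ := fun u w => rfl
  refine ⟨B, fun u w => ?_, fun u hu => ?_, fun A hA u w => ?_⟩
  · rw [hBapp, hBapp]
    simp_rw [mul_comm]
  · rw [hBapp]
    have hnn : 0 ≤ fun ζ : V →L[ℝ] ℝ => ζ u * ζ u := fun ζ => mul_self_nonneg _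
    rw [setIntegral_pos_iff_support_of_nonneg_ae (ae_of_all _ hnn) (hint u u)]
    -- a nonempty open subset of the ball
    obtain ⟨ζ0, hζ0⟩ : ∃ ζ0 : V →L[ℝ] ℝ, ζ0 u ≠ 0 := by
      obtain ⟨g, hg, hg2⟩ := exists_dual_vector ℝ u (norm_ne_zero_iff.2 hu)
      refine ⟨g, ?_⟩
      rw [hg2]
      simpa using hu
    have hopen : IsOpen ({ζ : V →L[ℝ] ℝ | ζ u ≠ 0} ∩ ball 0 1) :=
      (isOpen_ne_fun (by fun_prop) (by fun_prop)).inter isOpen_ball
    have hne : ({ζ : V →L[ℝ] ℝ | ζ u ≠ 0} ∩ ball 0 1).Nonempty := by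
      refine ⟨((1 / 2) / (‖ζ0‖ + 1)) • ζ0, ?_, ?_⟩
      · simp only [Set.mem_ofPred_eq, smul_apply, smul_eq_mul]
        exact mul_ne_zero (by positivity) hζ0
      · rw [mem_ball_zero_iff, norm_smul, Real.norm_of_nonneg (by positivity)]
        rw [div_mul_eq_mul_div, div_lt_one (by positivity)]
        nlinarith [norm_nonneg ζ0]
    refine (hopen.measure_pos μ hne).trans_le (measure_mono ?_)
    rintro ζ ⟨h1, h2⟩
    refine ⟨?_, ball_subset_closedBall h2⟩
    simpa using h1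
  · have hfl := flow hd hA
    -- invariance
    have hinv : ∀ t : ℝ, B (NormedSpace.exp (t • A) u) (NormedSpace.exp (t • A) w) = B u w := by
      intro t
      set g := flowEquiv hfl t with hg
      -- the dual isometry
      let T : (V →L[ℝ] ℝ) ≃ᵢ (V →L[ℝ] ℝ) :=
        { toFun := fun ζ => ζ.comp (g : V →L[ℝ] V)
          invFun := fun ζ => ζ.comp (g.symm : V →L[ℝ] V)
          left_inv := fun ζ => by ext v; simp
          right_inv := fun ζ => by ext v; simp
          isometry_toFun := by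
            refine Isometry.of_dist_eq fun ζ ζ' => ?_
            rw [dist_eq_norm, dist_eq_norm, ← ContinuousLinearMap.sub_comp]
            exact ContinuousLinearMap.opNorm_comp_linearIsometryEquiv (ζ - ζ') g }
      have hmp : MeasurePreserving T μ μ := T.measurePreserving_hausdorffMeasure _
      have hpre : T ⁻¹' K = K := by
        ext ζ
        simp only [Set.mem_preimage, hK, mem_closedBall_zero_iff]
        rw [show ‖T ζ‖ = ‖ζ‖ from ContinuousLinearMap.opNorm_comp_linearIsometryEquiv ζ g]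
      rw [hBapp, hBapp]
      have h1 := hmp.setIntegral_preimage_emb T.toHomeomorph.measurableEmbedding
        (fun ζ : V →L[ℝ] ℝ => ζ u * ζ w) K
      rw [hpre] at h1
      rw [← h1]
      rfl
    have h1 : HasDerivAt (fun t : ℝ => B (NormedSpace.exp (t • A) u) (NormedSpace.exp (t • A) w))
        (B (A u) w + B u (A w)) 0 := by
      have hu := hasDerivAt_flow A u 0
      have hw := hasDerivAt_flow A w 0
      have e0 : ∀ v : V, NormedSpace.exp ((0 : ℝ) • A) v = v := fun v => by simp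
      have h2 : HasDerivAt (fun t : ℝ => B (NormedSpace.exp (t • A) u)) (B (A (NormedSpace.exp ((0 : ℝ) • A) u))) 0 :=
        B.hasFDerivAt.comp_hasDerivAt 0 hu
      have h3 := h2.clm_apply hw
      rw [e0, e0] at h3
      exact h3
    have h2 : HasDerivAt (fun t : ℝ => B (NormedSpace.exp (t • A) u) (NormedSpace.exp (t • A) w)) 0 0 := by
      simp_rw [hinv]
      exact hasDerivAt_const _ _
    have := h1.unique h2
    linarith

end Alg

variable {V : Type*} [NormedAddCommGroup V] [NormedSpace ℝ V] [FiniteDimensional ℝ V]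

lemma Alg.hasFDerivAt_norm (hN : ContDiffOn ℝ 1 (fun z : V => ‖z‖) {0}ᶜ) {x : V} (hx : x ≠ 0) :
    HasFDerivAt (fun z : V => ‖z‖) (nm x) x :=
  (((hN.contDiffAt (isOpen_compl_singleton.mem_nhds hx))).differentiableAt
    (by norm_num)).hasFDerivAt


/-- There is an inner product for which all infinitesimal isometries of the norm are skew:
`B u w = ∫ ζ in closedBall (0 : V →L[ℝ] ℝ) 1, ζ u * ζ w ∂μH[finrank]` on the dual space. -/
theorem skew_form (hN : ContDiffOn ℝ 1 (fun z : V => ‖z‖) {0}ᶜ) :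
    ∃ B : V →L[ℝ] V →L[ℝ] ℝ, (∀ u w, B u w = B w u) ∧ (∀ u, u ≠ 0 → 0 < B u u) ∧
      ∀ A : V →L[ℝ] V, (∀ v, v ≠ 0 → nm v (A v) = 0) → ∀ u w, B (A u) w = -B u (A w) :=
  Alg.skew_form' fun _ hx => Alg.hasFDerivAt_norm hN hx


namespace Alg

lemma nm_self (hN : ContDiffOn ℝ 1 (fun z : V => ‖z‖) {0}ᶜ) {x : V} (hx : x ≠ 0) :
    nm x x = ‖x‖ := by
  have h1 : HasDerivAt (fun t : ℝ => t • x) x 1 := by
    simpa using (hasDerivAt_id (1 : ℝ)).smul_const x
  have h2 : HasDerivAt (fun t : ℝ => ‖t • x‖) (nm x x) 1 :=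
    (hasFDerivAt_norm hN hx).comp_hasDerivAt_of_eq 1 h1 (by simp)
  have h3 : HasDerivAt (fun t : ℝ => ‖t • x‖) ‖x‖ 1 := by
    have h4 : HasDerivAt (fun t : ℝ => t * ‖x‖) ‖x‖ 1 := by
      simpa using (hasDerivAt_id (1 : ℝ)).mul_const ‖x‖
    refine h4.congr_of_eventuallyEq ?_
    filter_upwards [Ioi_mem_nhds (show (0 : ℝ) < 1 by norm_num)] with t ht
    rw [norm_smul, Real.norm_of_nonneg (le_of_lt ht)]
  exact h2.unique h3

lemma abs_nm_le (hN : ContDiffOn ℝ 1 (fun z : V => ‖z‖) {0}ᶜ) {x : V} (hx : x ≠ 0) (v : V) :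
    |nm x v| ≤ ‖v‖ := by
  have h1 : ‖nm x‖ ≤ 1 := by
    have := (hasFDerivAt_norm hN hx).le_of_lipschitz (C := 1) (lipschitzWith_one_norm)
    simpa using this
  calc |nm x v| = ‖nm x v‖ := rfl
    _ ≤ ‖nm x‖ * ‖v‖ := (nm x).le_opNorm v
    _ ≤ 1 * ‖v‖ := by gcongr
    _ = ‖v‖ := one_mul _

lemma continuousAt_nm (hN : ContDiffOn ℝ 1 (fun z : V => ‖z‖) {0}ᶜ) {x : V} (hx : x ≠ 0) :
    ContinuousAt (nm (E := V)) x := by
  have h1 : ContDiffAt ℝ 1 (fun z : V => ‖z‖) x :=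
    hN.contDiffAt (isOpen_compl_singleton.mem_nhds hx)
  exact (h1.fderiv_right (m := 0) (by norm_num)).continuousAt

lemma zero_of_isom (hN : ContDiffOn ℝ 1 (fun z : V => ‖z‖) {0}ᶜ)
    (G : V →L[ℝ] V →L[ℝ] V) (Gsym : ∀ u v, G u v = G v u)
    (hG : ∀ u v, v ≠ 0 → nm v (G u v) = 0) (u v : V) : G u v = 0 := by
  obtain ⟨B, hBs, hBp, hB⟩ := skew_form hN
  have hsk : ∀ u v w, B (G u v) w = -B (G u w) v := by
    intro u v w
    rw [hB (G u) (fun v hv => hG u v hv) v w, hBs v]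
  have key : ∀ u v w, B (G u v) w = 0 := by
    intro u v w
    have e1 := hsk u v w
    have e2 := hsk w u v
    have e3 := hsk v w u
    rw [Gsym w u, Gsym w v] at e2
    rw [Gsym v u] at e3
    linarith
  by_contra hne
  have := hBp _ hne
  rw [key] at this
  exact lt_irrefl _ this

lemma psd_zero (h : V →L[ℝ] V →L[ℝ] ℝ) (hsym : ∀ u v, h u v = h v u) (hpos : ∀ v, 0 ≤ h v v)
    {v : V} (hv : h v v = 0) (w : V) : h v w = 0 := by
  have h1 : ∀ t : ℝ, 0 ≤ h w w + 2 * t * h v w := by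
    intro t
    have := hpos (w + t • v)
    simp only [map_add, map_smul, add_apply, smul_apply, smul_eq_mul, hv, hsym w v] at this
    linarith
  by_contra hne
  have h2 := h1 (-(h w w + 1) / (2 * h v w))
  have e : 2 * (-(h w w + 1) / (2 * h v w)) * h v w = -(h w w + 1) := by
    field_simp
  rw [e] at h2
  linarith

lemma poly_lemma {H C t0 δ p q : ℝ} (hH : 0 ≤ H) (hC0 : 0 ≤ C) (ht0 : 0 < t0) (ht01 : t0 ≤ 1)
    (hh : ∀ t ∈ Set.Ioc (0 : ℝ) t0, H + t ^ 2 * δ + t ^ 3 * p + t ^ 4 / 4 * q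
      ≤ H * (1 + C * t ^ 3) ^ 2) : δ ≤ 0 := by
  by_contra hcon
  push Not at hcon
  set D := |p| + |q| + H * (2 * C + C ^ 2) + 1 with hD
  have hDpos : 0 < D := by positivity
  have hfin : ∀ t ∈ Set.Ioc (0 : ℝ) t0, δ ≤ D * t := by
    intro t ht
    have h1 := hh t ht
    have ht1 : t ≤ 1 := ht.2.trans ht01
    have ht0' : 0 < t := ht.1
    have ht3 : t ^ 3 ≤ 1 := pow_le_one₀ ht0'.le ht1
    have ht3' : 0 ≤ t ^ 3 := by positivity
    have h2 : (1 + C * t ^ 3) ^ 2 ≤ 1 + (2 * C + C ^ 2) * t ^ 3 := by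
      have e : 1 + (2 * C + C ^ 2) * t ^ 3 - (1 + C * t ^ 3) ^ 2 = C ^ 2 * t ^ 3 * (1 - t ^ 3) := by
        ring
      have : 0 ≤ C ^ 2 * t ^ 3 * (1 - t ^ 3) :=
        mul_nonneg (mul_nonneg (sq_nonneg C) ht3') (by linarith)
      linarith
    have h3 : H * (1 + C * t ^ 3) ^ 2 ≤ H * (1 + (2 * C + C ^ 2) * t ^ 3) := by gcongr
    have h6 : -(t ^ 3 * |p|) ≤ t ^ 3 * p := by
      rw [← mul_neg]; exact mul_le_mul_of_nonneg_left (neg_abs_le p) ht3'
    have h9 : t ^ 4 / 4 ≤ t ^ 3 := by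
      have e : t ^ 4 = t ^ 3 * t := by ring
      nlinarith
    have h8 : -(t ^ 3 * |q|) ≤ t ^ 4 / 4 * q := by
      have e1 : -(t ^ 4 / 4 * |q|) ≤ t ^ 4 / 4 * q := by
        rw [← mul_neg]; exact mul_le_mul_of_nonneg_left (neg_abs_le q) (by positivity)
      have e2 : t ^ 4 / 4 * |q| ≤ t ^ 3 * |q| := by gcongr
      linarith
    have h5 : t ^ 2 * δ ≤ t ^ 2 * (D * t) := by
      have e : t ^ 2 * (D * t) = t ^ 3 * |p| + t ^ 3 * |q| + H * ((2 * C + C ^ 2) * t ^ 3)
          + t ^ 3 := by rw [hD]; ring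
      rw [e]
      nlinarith
    exact le_of_mul_le_mul_left h5 (by positivity)
  have h1 := hfin (min t0 (δ / (2 * D))) ⟨by positivity, min_le_left _ _⟩
  have h2 : D * min t0 (δ / (2 * D)) ≤ D * (δ / (2 * D)) := by gcongr; exact min_le_right _ _
  have h3 : D * (δ / (2 * D)) = δ / 2 := by field_simp
  linarith

/-- step 3: the second order (Taylor) argument -/
lemma taylor (hN : ContDiffOn ℝ 1 (fun z : V => ‖z‖) {0}ᶜ)
    (h : V →L[ℝ] V →L[ℝ] ℝ) (hsym : ∀ u v, h u v = h v u)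
    (G : V →L[ℝ] V →L[ℝ] V) (Gsym : ∀ u v, G u v = G v u) (c : V → ℝ)
    (hc : ∀ v, v ≠ 0 → ∀ u, nm v (G u v) = h u v * c v)
    (v0 : V) (H : ℝ) (hH : H = h v0 v0) (hHpos : 0 < H) (hv0 : ‖v0‖ = 1)
    (hmax : ∀ v, h v v ≤ H * ‖v‖ ^ 2)
    (s a b : V) (hs : h v0 s = 0) (ha : a = G v0 s) (ha0 : h v0 a = 0)
    (hb : b = G s a - (h s a / H) • G v0 v0) : h a a + h v0 b ≤ 0 := by
  set x : ℝ → V := fun t => v0 + t • a + (t ^ 2 / 2) • b with hx
  set β := h v0 b with hβ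
  -- the remainder
  set P : ℝ → V := fun t =>
    (1 / H) • (-((β / 2) • (a + t • G s a + (t ^ 2 / 2) • G s b)) - (H / 2) • G s b
      + (h s b / 2) • (G v0 v0 + t • G v0 a + (t ^ 2 / 2) • G v0 b)
      + h s a • (G v0 a + (t / 2) • G v0 b)) with hP
  set W : ℝ → V := fun t => (1 / H) • (h v0 (x t) • G s (x t) - h s (x t) • G v0 (x t)) with hW
  have hPW : ∀ t, a + t • b - W t = (t ^ 2) • P t := by
    intro t
    have e1 : h v0 (x t) = H + t ^ 2 / 2 * β := by
      simp only [hx, map_add, map_smul, smul_eq_mul, ← hH, ha0, ← hβ]; ring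
    have e2 : G s (x t) = a + t • G s a + (t ^ 2 / 2) • G s b := by
      simp only [hx, map_add, map_smul]
      rw [Gsym s v0, ← ha]
    have e3 : h s (x t) = t * h s a + t ^ 2 / 2 * h s b := by
      simp only [hx, map_add, map_smul, smul_eq_mul]
      rw [hsym s v0, hs]; ring
    have e4 : G v0 (x t) = G v0 v0 + t • G v0 a + (t ^ 2 / 2) • G v0 b := by
      simp only [hx, map_add, map_smul]
    simp only [hW]
    rw [e1, e2, e3, e4]
    have hb' : a + t • b = (1 / H) • (H • a + t • (H • G s a - h s a • G v0 v0)) := by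
      rw [hb]
      simp only [smul_add, smul_sub, smul_smul]
      congr 1
      · rw [one_div_mul_cancel hHpos.ne', one_smul]
      · congr 1
        · congr 1; field_simp
        · congr 1; field_simp
    rw [hb']
    simp only [hP]
    rw [← smul_sub, smul_comm (t ^ 2) (1 / H)]
    congr 1
    module
  -- bound for P
  obtain ⟨C, hC⟩ : ∃ C, ∀ t ∈ Set.Icc (0 : ℝ) 1, ‖P t‖ ≤ C := by
    have hc : Continuous P := by
      simp only [hP]; fun_prop
    exact isCompact_Icc.exists_bound_of_continuousOn hc.continuousOn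
  have hC0 : 0 ≤ C := (norm_nonneg _).trans (hC 0 (by simp))
  -- range of t
  obtain ⟨t0, ht0, ht01, ht0β⟩ : ∃ t0 : ℝ, 0 < t0 ∧ t0 ≤ 1 ∧ t0 * |β| < H := by
    refine ⟨min 1 (H / (2 * (|β| + 1))), by positivity, min_le_left _ _, ?_⟩
    calc min 1 (H / (2 * (|β| + 1))) * |β| ≤ (H / (2 * (|β| + 1))) * |β| := by
          gcongr; exact min_le_right _ _
      _ = H * (|β| / (2 * (|β| + 1))) := by ring
      _ < H * 1 := by
          apply mul_lt_mul_of_pos_left _ hHpos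
          rw [div_lt_one (by positivity)]
          linarith [abs_nonneg β]
      _ = H := mul_one _
  have hx0 : ∀ t ∈ Set.Icc (0 : ℝ) t0, x t ≠ 0 := by
    intro t ht h0
    have e1 : h v0 (x t) = H + t ^ 2 / 2 * β := by
      simp only [hx, map_add, map_smul, smul_eq_mul, ← hH, ha0, ← hβ]; ring
    rw [h0, map_zero] at e1
    have h2 : t ^ 2 / 2 * |β| < H := by
      have : t ^ 2 / 2 ≤ t0 := by
        have h3 := ht.1; have h4 := ht.2
        nlinarith
      calc t ^ 2 / 2 * |β| ≤ t0 * |β| := by gcongr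
        _ < H := ht0β
    have h3 : -(t ^ 2 / 2 * |β|) ≤ t ^ 2 / 2 * β := by
      have := neg_abs_le β
      have h5 : 0 ≤ t ^ 2 / 2 := by positivity
      nlinarith
    linarith
  -- derivative of the norm
  have hxd : ∀ t, HasDerivAt x (a + t • b) t := by
    intro t
    have h1 : HasDerivAt (fun t : ℝ => t • a) ((1 : ℝ) • a) t := (hasDerivAt_id t).smul_const a
    have h2 : HasDerivAt (fun t : ℝ => t ^ 2 / 2) t t := by
      have := (hasDerivAt_pow 2 t).div_const 2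
      have e : ((2 : ℕ) : ℝ) * t ^ (2 - 1) / 2 = t := by norm_num
      rw [e] at this
      exact this
    have h3 : HasDerivAt (fun t : ℝ => v0 + t • a + (t ^ 2 / 2) • b) ((1 : ℝ) • a + t • b) t :=
      (h1.const_add v0).add (h2.smul_const b)
    rw [one_smul] at h3
    exact h3
  have hWnm : ∀ t, x t ≠ 0 → nm (x t) (W t) = 0 := by
    intro t ht
    simp only [hW, map_smul, map_sub, smul_eq_mul]
    rw [hc _ ht, hc _ ht]; ring
  have hn : ∀ t ∈ Set.Icc (0 : ℝ) t0, ‖x t‖ ≤ 1 + C * t ^ 3 := by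
    intro t ht
    have hseg := norm_image_sub_le_of_norm_deriv_le_segment' (f := fun t => ‖x t‖)
      (f' := fun r => nm (x r) (a + r • b)) (a := 0) (b := t) (C := C * t ^ 2)
      (fun r hr => by
        have := (hasFDerivAt_norm hN (hx0 r ⟨hr.1, hr.2.trans ht.2⟩)).comp_hasDerivAt r (hxd r)
        exact this.hasDerivWithinAt)
      (fun r hr => by
        have hne := hx0 r ⟨hr.1, hr.2.le.trans ht.2⟩
        have e : nm (x r) (a + r • b) = nm (x r) ((r ^ 2) • P r) := by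
          rw [← hPW, map_sub, hWnm r hne, sub_zero]
        rw [e]
        calc ‖nm (x r) ((r ^ 2) • P r)‖ ≤ ‖(r ^ 2) • P r‖ := abs_nm_le hN hne _
          _ = r ^ 2 * ‖P r‖ := by rw [norm_smul, Real.norm_of_nonneg (by positivity)]
          _ ≤ t ^ 2 * C := by
              have h1 : r ≤ t := hr.2.le
              have h2 : 0 ≤ r := hr.1
              have h3 := hC r ⟨hr.1, hr.2.le.trans (ht.2.trans ht01)⟩
              gcongr
          _ = C * t ^ 2 := mul_comm _ _)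
      t ⟨ht.1, le_rfl⟩
    have e0 : ‖x 0‖ = 1 := by simp [hx, hv0]
    simp only [e0] at hseg
    have h2 := le_abs_self (‖x t‖ - 1)
    have h3 : ‖x t‖ - 1 ≤ C * t ^ 2 * (t - 0) := h2.trans hseg
    linarith [h3, show C * t ^ 2 * (t - 0) = C * t ^ 3 by ring]
  -- expansion of h
  have hexp : ∀ t, h (x t) (x t) = H + t ^ 2 * (h a a + β) + t ^ 3 * h a b + t ^ 4 / 4 * h b b := by
    intro t
    simp only [hx, map_add, map_smul, add_apply, smul_apply, smul_eq_mul]
    rw [hsym a v0, ha0, hsym b v0, hsym b a, ← hβ, ← hH]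
    ring
  -- conclusion
  refine poly_lemma hHpos.le hC0 ht0 ht01 (p := h a b) (q := h b b) fun t ht => ?_
  have h1 := hn t ⟨ht.1.le, ht.2⟩
  have h3 := hmax (x t)
  rw [hexp] at h3
  have h4 : H * ‖x t‖ ^ 2 ≤ H * (1 + C * t ^ 3) ^ 2 := by gcongr
  linarith

omit [FiniteDimensional ℝ V] in
lemma tendsto_apply {α : Type*} {l : Filter α} {f : α → V →L[ℝ] ℝ} {g : α → V} {A : V →L[ℝ] ℝ}
    {x : V} (hf : Tendsto f l (𝓝 A)) (hg : Tendsto g l (𝓝 x)) :
    Tendsto (fun a => f a (g a)) l (𝓝 (A x)) :=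
  ((isBoundedBilinearMap_apply (𝕜 := ℝ) (E := V) (F := ℝ)).continuous.tendsto (A, x)).comp
    (hf.prodMk_nhds hg)

/-- the recurrence lemma on a space isometrically embedded in `V` -/
lemma rec_lin (hN : ContDiffOn ℝ 1 (fun z : V => ‖z‖) {0}ᶜ) {W : Type*} [NormedAddCommGroup W]
    [NormedSpace ℝ W] [FiniteDimensional ℝ W] (ι : W →ₗᵢ[ℝ] V) (l : W →ₗ[ℝ] W)
    (hl : ∀ x, x ≠ 0 → nm (ι x) (ι (l x)) = 0) (R : V →L[ℝ] V →L[ℝ] ℝ)
    (hR : ∀ u v : W, R (ι u) (ι v) = R (ι v) (ι u)) (hpos : ∀ s : W, 0 ≤ R (ι s) (ι (l s)))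
    (s : W) : R (ι s) (ι (l s)) = 0 := by
  set L : W →L[ℝ] W := LinearMap.toContinuousLinearMap l with hL
  have hfl : ∀ (t : ℝ) (v : W), ‖NormedSpace.exp (t • L) v‖ = ‖v‖ := by
    refine flow (N := fun x : W => (nm (ι x)).comp ι.toContinuousLinearMap) (fun x hx => ?_)
      (fun x hx => hl x hx)
    have hx' : ι x ≠ 0 := fun h => hx (ι.injective (by rw [h, map_zero]))
    have h1 := (hasFDerivAt_norm hN hx').comp x (ι.toContinuousLinearMap.hasFDerivAt (x := x))
    refine h1.congr_of_eventuallyEq (Eventually.of_forall fun z => ?_)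
    exact (ι.norm_map z).symm
  exact rec_lemma hfl (R.bilinearComp ι.toContinuousLinearMap ι.toContinuousLinearMap)
    (fun u v => hR u v) (fun s => hpos s) s

end Alg

open Alg in
/-- The algebraic lemma. -/
theorem alg_lemma (hN : ContDiffOn ℝ 1 (fun z : V => ‖z‖) {0}ᶜ)
    (h : V →L[ℝ] V →L[ℝ] ℝ) (hsym : ∀ u v, h u v = h v u) (hpos : ∀ v, 0 ≤ h v v)
    (G : V →L[ℝ] V →L[ℝ] V) (Gsym : ∀ u v, G u v = G v u) (c : V → ℝ) (M : ℝ)
    (hM : 0 ≤ M) (hcM : ∀ v, |c v| ≤ M)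
    (hc : ∀ v, v ≠ 0 → ∀ u, nm v (G u v) = h u v * c v) :
    ∃ k : V, ‖k‖ ≤ M ∧ ∀ u v, G u v = h u v • k := by
  by_cases hz : ∀ v, h v v = 0
  · have hz' : ∀ u v, h u v = 0 := fun u v => psd_zero h hsym hpos (hz u) v
    refine ⟨0, by simpa using hM, fun u v => ?_⟩
    rw [smul_zero]
    exact zero_of_isom hN G Gsym (fun u v hv => by rw [hc v hv, hz', zero_mul]) u v
  push Not at hz
  obtain ⟨v1, hv1⟩ := hz
  have hv1' : v1 ≠ 0 := fun h0 => hv1 (by simp [h0])
  have : Nontrivial V := ⟨⟨v1, 0, hv1'⟩⟩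
  -- the maximiser
  have hcont : Continuous fun v : V => h v v := by fun_prop
  obtain ⟨v0, hv0mem, hv0max⟩ := (isCompact_sphere (0 : V) 1).exists_isMaxOn
    (NormedSpace.sphere_nonempty.2 zero_le_one) hcont.continuousOn
  have hv0 : ‖v0‖ = 1 := by simpa using hv0mem
  have hv00 : v0 ≠ 0 := fun h0 => by simp [h0] at hv0
  set H := h v0 v0 with hH
  have hmax : ∀ v, h v v ≤ H * ‖v‖ ^ 2 := by
    intro v
    by_cases hv : v = 0
    · simp [hv]
    have hvn : 0 < ‖v‖ := norm_pos_iff.2 hv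
    have h1 : h (‖v‖⁻¹ • v) (‖v‖⁻¹ • v) ≤ H := hv0max (by
      simp [norm_smul, hvn.ne'])
    simp only [map_smul, smul_apply, smul_eq_mul] at h1
    have h2 : ‖v‖⁻¹ * (‖v‖⁻¹ * h v v) * ‖v‖ ^ 2 ≤ H * ‖v‖ ^ 2 := by gcongr
    have h3 : ‖v‖⁻¹ * (‖v‖⁻¹ * h v v) * ‖v‖ ^ 2 = h v v := by field_simp
    rwa [h3] at h2
  have hHpos : 0 < H := by
    have h1 := hmax v1
    have h2 : 0 < h v1 v1 := lt_of_le_of_ne (hpos v1) (Ne.symm hv1)
    have h3 : 0 < H * ‖v1‖ ^ 2 := lt_of_lt_of_le h2 h1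
    by_contra hcon
    push Not at hcon
    have : H * ‖v1‖ ^ 2 ≤ 0 := mul_nonpos_of_nonpos_of_nonneg hcon (by positivity)
    linarith
  -- step 1
  have step1 : ∀ u, h v0 u = H * nm v0 u := by
    intro u
    set g : ℝ → ℝ := fun t => h (v0 + t • u) (v0 + t • u) - H * ‖v0 + t • u‖ ^ 2 with hg
    have hl : HasDerivAt (fun t : ℝ => v0 + t • u) u 0 := by
      have := ((hasDerivAt_id (0 : ℝ)).smul_const u).const_add v0
      simpa using this
    have h1 : HasDerivAt (fun t : ℝ => h (v0 + t • u) (v0 + t • u)) (h u v0 + h v0 u) 0 := by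
      have h2 : HasDerivAt (fun t : ℝ => h (v0 + t • u)) (h u) 0 :=
        h.hasFDerivAt.comp_hasDerivAt 0 hl
      have h3 := h2.clm_apply hl
      simpa using h3
    have h2 : HasDerivAt (fun t : ℝ => ‖v0 + t • u‖) (nm v0 u) 0 :=
      (hasFDerivAt_norm hN hv00).comp_hasDerivAt_of_eq 0 hl (by simp)
    have h3 : HasDerivAt g (h u v0 + h v0 u - H * (2 * ‖v0‖ * nm v0 u)) 0 := by
      have h4 := (h2.pow 2).const_mul H
      have h5 : HasDerivAt g _ 0 := h1.sub h4
      convert h5 using 1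
      simp
    have hmaxg : IsLocalMax g 0 := by
      refine Eventually.of_forall fun t => ?_
      have h4 := hmax (v0 + t • u)
      have h5 : g 0 = 0 := by simp [hg, hv0, ← hH]
      rw [h5]
      simp only [hg]
      linarith
    have h4 := hmaxg.hasDerivAt_eq_zero h3
    rw [hsym u v0, hv0] at h4
    linarith
  -- step 2
  have step2 : ∀ s, h v0 s = 0 → h v0 (G v0 s) = 0 := by
    intro s hs
    have h1 := hc v0 hv00 s
    rw [hsym s v0, hs, zero_mul, Gsym s v0] at h1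
    rw [step1, h1, mul_zero]
  have hLnm : ∀ x, x ≠ 0 → h v0 x = 0 → nm x (G v0 x) = 0 := by
    intro x hx hx2
    rw [hc x hx, hx2, zero_mul]
  -- the subspace U
  let U : Submodule ℝ V := LinearMap.ker (h v0 : V →ₗ[ℝ] ℝ)
  have hU : ∀ x : V, x ∈ U ↔ h v0 x = 0 := fun x => LinearMap.mem_ker
  let lU : U →ₗ[ℝ] U := (G v0 : V →ₗ[ℝ] V).restrict
    (fun x hx => (hU _).2 (step2 _ ((hU _).1 hx)))
  have hlU : ∀ x : U, ((lU x : U) : V) = G v0 x := fun x => rfl
  -- step 3, 4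
  let R : V →L[ℝ] V →L[ℝ] ℝ := (h v0 (G v0 v0) / H) • h
    - (ContinuousLinearMap.compL ℝ V V ℝ (h v0)).comp G
  have hR : ∀ s a, R s a = (h v0 (G v0 v0) / H) * h s a - h v0 (G s a) := fun s a => rfl
  have hRge : ∀ s : V, h v0 s = 0 → h (G v0 s) (G v0 s) ≤ R s (G v0 s) := by
    intro s hs
    have h1 := taylor hN h hsym G Gsym c hc v0 H hH hHpos hv0 hmax s (G v0 s)
      (G s (G v0 s) - (h s (G v0 s) / H) • G v0 v0) hs rfl (step2 _ hs) rfl
    rw [hR]
    simp only [map_sub, map_smul, smul_eq_mul] at h1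
    have e : h (s : V) (G v0 s) / H * h v0 (G v0 v0) = h v0 (G v0 v0) / H * h s (G v0 s) := by ring
    rw [e] at h1
    linarith
  have step4 : ∀ s : V, h v0 s = 0 → h (G v0 s) (G v0 s) = 0 := by
    intro s hs
    have h1 : R s (G v0 s) = 0 := rec_lin hN U.subtypeₗᵢ lU
      (fun x hx => hLnm _ (fun h0 => hx (Subtype.ext h0)) ((hU _).1 x.2)) R
      (fun u v => by rw [hR, hR, hsym _ (U.subtypeₗᵢ v), Gsym _ (U.subtypeₗᵢ v)])
      (fun s => (hpos _).trans (hRge s ((hU _).1 s.2))) ⟨s, (hU s).2 hs⟩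
    have h2 := hRge s hs
    rw [h1] at h2
    exact le_antisymm h2 (hpos _)
  -- step 5
  obtain ⟨B, hBs, hBp, hB⟩ := skew_form hN
  let T : Submodule ℝ V := LinearMap.ker (h : V →ₗ[ℝ] V →L[ℝ] ℝ)
  have hT : ∀ x : V, x ∈ T ↔ h x = 0 := fun x => LinearMap.mem_ker
  have hT1 : ∀ x : V, x ∈ T → h v0 x = 0 := by
    intro x hx
    rw [hsym, (hT x).1 hx]; rfl
  have hT2 : ∀ x : V, h x x = 0 → x ∈ T := by
    intro x hx
    rw [hT]
    ext w
    exact psd_zero h hsym hpos hx w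
  let lT : T →ₗ[ℝ] T := (G v0 : V →ₗ[ℝ] V).restrict
    (fun x hx => hT2 _ (step4 _ (hT1 _ hx)))
  have hlT : ∀ x : T, ((lT x : T) : V) = G v0 x := fun x => rfl
  have step5 : ∀ s : V, s ∈ T → G v0 s = 0 := by
    intro s hs
    have hG0 : ∀ w : V, w ∈ T → ∀ v, v ≠ 0 → nm v (G w v) = 0 := by
      intro w hw v hv
      rw [hc v hv, (hT _).1 hw]
      simp
    have hBG : ∀ s a, (B.comp (G v0)) s a = B (G v0 s) a := fun s a => rfl
    have h1 : B (G v0 s) (G v0 s) = 0 := rec_lin hN T.subtypeₗᵢ lT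
      (fun x hx => hLnm _ (fun h0 => hx (Subtype.ext h0)) (hT1 _ x.2)) (B.comp (G v0))
      (fun u v => by
        have e1 : ∀ w : T, T.subtypeₗᵢ w = (w : V) := fun w => rfl
        rw [hBG, hBG, e1, e1, Gsym v0 u, Gsym v0 v, hB _ (hG0 u u.2), hB _ (hG0 v v.2),
          Gsym (u : V) v])
      (fun s => by
        show 0 ≤ B (G v0 (s : V)) (G v0 (s : V))
        by_cases h0 : G v0 (s : V) = 0
        · rw [h0]; simp
        · exact (hBp _ h0).le) ⟨s, hs⟩
    by_contra hne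
    exact absurd h1 (hBp _ hne).ne'
  -- step 6
  have step6 : ∀ s : V, h v0 s = 0 → G v0 s = 0 := by
    intro s hs
    by_contra hne
    set a := G v0 s with ha
    have haT : a ∈ T := hT2 _ (step4 s hs)
    have hLa : G v0 a = 0 := step5 a haT
    have hne' : ∀ r : ℝ, s + r • a ≠ 0 := by
      intro r h0
      have h1 : G v0 (s + r • a) = a := by
        rw [map_add, map_smul, hLa, smul_zero, add_zero]
      rw [h0, map_zero] at h1
      exact hne h1.symm
    have hd : ∀ r : ℝ, HasDerivAt (fun r : ℝ => ‖s + r • a‖) 0 r := by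
      intro r
      have hl : HasDerivAt (fun t : ℝ => s + t • a) a r := by
        have := ((hasDerivAt_id r).smul_const a).const_add s
        simpa using this
      have h1 := (hasFDerivAt_norm hN (hne' r)).comp_hasDerivAt r hl
      have h2 : nm (s + r • a) a = 0 := by
        have h3 := hLnm (s + r • a) (hne' r) (by
          rw [map_add, map_smul, hs, hT1 a haT]; simp)
        rwa [map_add, map_smul, hLa, smul_zero, add_zero] at h3
      rw [h2] at h1
      exact h1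
    have hconst := is_const_of_deriv_eq_zero (fun r => (hd r).differentiableAt)
      (fun r => (hd r).deriv)
    have han : 0 < ‖a‖ := norm_pos_iff.2 hne
    have h1 := hconst ((2 * ‖s‖ + 1) / ‖a‖) 0
    simp only [zero_smul, add_zero] at h1
    have h2 : ‖((2 * ‖s‖ + 1) / ‖a‖) • a‖ = 2 * ‖s‖ + 1 := by
      rw [norm_smul, Real.norm_of_nonneg (by positivity)]
      field_simp
    have h3 : ‖((2 * ‖s‖ + 1) / ‖a‖) • a‖ ≤ ‖s + ((2 * ‖s‖ + 1) / ‖a‖) • a‖ + ‖s‖ := by
      have e : ((2 * ‖s‖ + 1) / ‖a‖) • a = (s + ((2 * ‖s‖ + 1) / ‖a‖) • a) - s := by abel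
      calc _ = ‖(s + ((2 * ‖s‖ + 1) / ‖a‖) • a) - s‖ := by rw [← e]
        _ ≤ _ := norm_sub_le _ _
    linarith
  -- step 7
  set k : V := (1 / H) • G v0 v0 with hk
  let G' : V →L[ℝ] V →L[ℝ] V :=
    G - ((ContinuousLinearMap.smulRightL ℝ V V).flip k).comp h
  have hG' : ∀ u v, G' u v = G u v - h u v • k := fun u v => rfl
  have hG'v0 : ∀ x, G' v0 x = 0 := by
    intro x
    have e : x = (h v0 x / H) • v0 + (x - (h v0 x / H) • v0) := by abel
    have hs : h v0 (x - (h v0 x / H) • v0) = 0 := by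
      rw [map_sub, map_smul, smul_eq_mul, ← hH]; field_simp; ring
    have h1 : G' v0 v0 = 0 := by
      rw [hG', ← hH, hk, smul_smul, mul_one_div_cancel hHpos.ne', one_smul, sub_self]
    have h2 : G' v0 (x - (h v0 x / H) • v0) = 0 := by
      rw [hG', step6 _ hs, hs, zero_smul, sub_zero]
    rw [e, map_add, map_smul, h1, h2, smul_zero, add_zero]
  have hck : ∀ x, h v0 x ≠ 0 → c x = nm x k := by
    intro x hx
    have hx0 : x ≠ 0 := fun h0 => hx (by simp [h0])
    have h1 := hc x hx0 v0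
    have h2 : G v0 x = h v0 x • k := by
      have := hG'v0 x
      rw [hG', sub_eq_zero] at this
      exact this
    rw [h2, map_smul, smul_eq_mul] at h1
    exact (mul_left_cancel₀ hx h1).symm
  have hoff : ∀ u x, h v0 x ≠ 0 → nm x (G' u x) = 0 := by
    intro u x hx
    have hx0 : x ≠ 0 := fun h0 => hx (by simp [h0])
    rw [hG', map_sub, map_smul, smul_eq_mul, hc x hx0, hck x hx, sub_self]
  -- approximation
  have happ : ∀ x : V, ∀ᶠ ε : ℝ in 𝓝[≠] 0, h v0 (x + ε • v0) ≠ 0 := by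
    intro x
    by_cases hx : h v0 x = 0
    · filter_upwards [self_mem_nhdsWithin] with ε hε
      rw [map_add, map_smul, hx, ← hH, zero_add, smul_eq_mul]
      exact mul_ne_zero hε hHpos.ne'
    · have hc1 : ContinuousAt (fun ε : ℝ => h v0 (x + ε • v0)) 0 := by fun_prop
      have h2 : h v0 (x + (0 : ℝ) • v0) ≠ 0 := by simpa using hx
      exact (hc1.eventually_ne h2).filter_mono nhdsWithin_le_nhds
  have hiso : ∀ u x, x ≠ 0 → nm x (G' u x) = 0 := by
    intro u x hx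
    have hl : Tendsto (fun ε : ℝ => x + ε • v0) (𝓝[≠] 0) (𝓝 x) := by
      have : ContinuousAt (fun ε : ℝ => x + ε • v0) 0 := by fun_prop
      have h2 := this.tendsto
      simp only [zero_smul, add_zero] at h2
      exact h2.mono_left nhdsWithin_le_nhds
    have h1 : Tendsto (fun ε : ℝ => nm (x + ε • v0) (G' u (x + ε • v0))) (𝓝[≠] 0)
        (𝓝 (nm x (G' u x))) := by
      have hA : Tendsto (fun ε : ℝ => nm (x + ε • v0)) (𝓝[≠] 0) (𝓝 (nm x)) :=
        (continuousAt_nm hN hx).tendsto.comp hl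
      have hB : Tendsto (fun ε : ℝ => G' u (x + ε • v0)) (𝓝[≠] 0) (𝓝 (G' u x)) :=
        ((G' u).continuous.tendsto x).comp hl
      exact tendsto_apply hA hB
    have h2 : Tendsto (fun ε : ℝ => nm (x + ε • v0) (G' u (x + ε • v0))) (𝓝[≠] 0) (𝓝 0) := by
      refine tendsto_const_nhds.congr' ?_
      filter_upwards [happ x] with ε hε
      exact (hoff u _ hε).symm
    exact tendsto_nhds_unique h1 h2
  have hG'0 : ∀ u v, G' u v = 0 := zero_of_isom hN G' (fun u v => by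
    rw [hG', hG', Gsym u v, hsym u v]) (fun u v hv => hiso u v hv)
  refine ⟨k, ?_, fun u v => ?_⟩
  · by_cases hk0 : k = 0
    · rw [hk0, norm_zero]; exact hM
    have hl : Tendsto (fun ε : ℝ => k + ε • v0) (𝓝[≠] 0) (𝓝 k) := by
      have : ContinuousAt (fun ε : ℝ => k + ε • v0) 0 := by fun_prop
      have h2 := this.tendsto
      simp only [zero_smul, add_zero] at h2
      exact h2.mono_left nhdsWithin_le_nhds
    have hA : Tendsto (fun ε : ℝ => nm (k + ε • v0)) (𝓝[≠] 0) (𝓝 (nm k)) :=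
      (continuousAt_nm hN hk0).tendsto.comp hl
    have h1 : Tendsto (fun ε : ℝ => nm (k + ε • v0) k) (𝓝[≠] 0) (𝓝 (nm k k)) :=
      tendsto_apply hA tendsto_const_nhds
    rw [nm_self hN hk0] at h1
    refine le_of_tendsto h1 ?_
    filter_upwards [happ k] with ε hε
    rw [← hck _ hε]
    exact (le_abs_self _).trans (hcM _)
  · have := hG'0 u v
    rw [hG', sub_eq_zero] at this
    exact this

end Vale.P084
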