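import Mathlib
import Vale.Agent.P084.Basic

/-!
# P084: `C^1` norms, basic facts
-/

namespace Vale.P084

open Metric Filter Topology

variable {E : Type*} [NormedAddCommGroup E] [NormedSpace ℝ E]

/-- the norm is `C^1` away from the origin -/
def C1 (E : Type*) [NormedAddCommGroup E] [NormedSpace ℝ E] : Prop :=
  ContDiffOn ℝ 1 (fun z : E => ‖z‖) {0}ᶜ

namespace C1

variable (h : C1 E)
include h

lemma contDiffAt {x : E} (hx : x ≠ 0) : ContDiffAt ℝ 1 (fun z : E => ‖z‖) x :=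
  ContDiffOn.contDiffAt h (isOpen_compl_singleton.mem_nhds hx)

lemma hasFDerivAt {x : E} (hx : x ≠ 0) : HasFDerivAt (fun z : E => ‖z‖) (nm x) x :=
  ((h.contDiffAt hx).differentiableAt (by norm_num)).hasFDerivAt

lemma continuousAt_nm {x : E} (hx : x ≠ 0) : ContinuousAt (nm (E := E)) x :=
  ((h.contDiffAt hx).fderiv_right (m := 0) (by norm_num)).continuousAt

lemma nm_self {x : E} (hx : x ≠ 0) : nm x x = ‖x‖ := by
  have h1 : HasDerivAt (fun t : ℝ => t • x) x 1 := by
    simpa using (hasDerivAt_id (1 : ℝ)).smul_const x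
  have h2 : HasDerivAt (fun t : ℝ => ‖t • x‖) (nm x x) 1 :=
    (h.hasFDerivAt hx).comp_hasDerivAt_of_eq 1 h1 (by simp)
  have h3 : HasDerivAt (fun t : ℝ => ‖t • x‖) ‖x‖ 1 := by
    have h4 : HasDerivAt (fun t : ℝ => t * ‖x‖) ‖x‖ 1 := by
      simpa using (hasDerivAt_id (1 : ℝ)).mul_const ‖x‖
    refine h4.congr_of_eventuallyEq ?_
    filter_upwards [Ioi_mem_nhds (show (0 : ℝ) < 1 by norm_num)] with t ht
    rw [norm_smul, Real.norm_of_nonneg (le_of_lt ht)]
  exact h2.unique h3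

lemma nm_smul {x : E} (hx : x ≠ 0) {t : ℝ} (ht : 0 < t) : nm (t • x) = nm x := by
  have h1 : HasFDerivAt (fun z : E => t • z) (t • ContinuousLinearMap.id ℝ E) x :=
    (hasFDerivAt_id x).const_smul t
  have h2 : HasFDerivAt (fun z : E => ‖t • z‖) ((nm (t • x)).comp
      (t • ContinuousLinearMap.id ℝ E)) x :=
    (h.hasFDerivAt (x := t • x) (smul_ne_zero ht.ne' hx)).comp x h1
  have h3 : HasFDerivAt (fun z : E => ‖t • z‖) (t • nm x) x := by
    have h4 := (h.hasFDerivAt hx).const_smul t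
    refine h4.congr_of_eventuallyEq (Eventually.of_forall fun z => ?_)
    simp [norm_smul, abs_of_pos ht]
  have h5 := h2.unique h3
  ext v
  have h6 := congrArg (fun L : E →L[ℝ] ℝ => L v) h5
  simp only [ContinuousLinearMap.comp_apply, FunLike.coe_smul, Pi.smul_apply,
    ContinuousLinearMap.id_apply, map_smul, smul_eq_mul] at h6
  exact mul_left_cancel₀ ht.ne' h6

lemma nm_neg {x : E} (hx : x ≠ 0) : nm (-x) = -nm x := by
  have h1 : HasFDerivAt (fun z : E => -z) (-ContinuousLinearMap.id ℝ E) x :=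
    (hasFDerivAt_id x).neg
  have h2 : HasFDerivAt (fun z : E => ‖-z‖) ((nm (-x)).comp
      (-ContinuousLinearMap.id ℝ E)) x :=
    (h.hasFDerivAt (x := -x) (neg_ne_zero.2 hx)).comp x h1
  have h3 : HasFDerivAt (fun z : E => ‖-z‖) (nm x) x := by
    refine (h.hasFDerivAt hx).congr_of_eventuallyEq (Eventually.of_forall fun z => ?_)
    simp
  have h5 := h2.unique h3
  ext v
  have h6 := congrArg (fun L : E →L[ℝ] ℝ => L v) h5
  simp only [ContinuousLinearMap.comp_apply, neg_apply,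
    ContinuousLinearMap.id_apply, map_neg] at h6
  simp only [neg_apply]
  linarith

omit h in
lemma _root_.Vale.P084.norm_nm_le (x : E) : ‖nm x‖ ≤ 1 := by
  by_cases hd : DifferentiableAt ℝ (fun z : E => ‖z‖) x
  · have h1 : HasFDerivAt (fun z : E => ‖z‖) (nm x) x := hd.hasFDerivAt
    have := h1.le_of_lipschitz (C := 1) (lipschitzWith_one_norm)
    simpa using this
  · have : nm x = 0 := fderiv_zero_of_not_differentiableAt hd
    rw [this, norm_zero]; exact zero_le_one

omit h in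
lemma _root_.Vale.P084.abs_nm_le (x v : E) : |nm x v| ≤ ‖v‖ := by
  calc |nm x v| = ‖nm x v‖ := rfl
    _ ≤ ‖nm x‖ * ‖v‖ := (nm x).le_opNorm v
    _ ≤ 1 * ‖v‖ := by gcongr; exact norm_nm_le x
    _ = ‖v‖ := one_mul _

/-- subgradient inequality -/
lemma sub_le {x : E} (hx : x ≠ 0) (y : E) : ‖x‖ + nm x (y - x) ≤ ‖y‖ := by
  have h1 := (le_abs_self _).trans (Vale.P084.abs_nm_le x y)
  rw [map_sub, h.nm_self hx]
  linarith

/-- monotonicity of the gradient -/
lemma mono {x y : E} (hx : x ≠ 0) (hy : y ≠ 0) : 0 ≤ (nm y - nm x) (y - x) := by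
  have h1 := h.sub_le hx y
  have h2 := h.sub_le hy x
  have h3 : nm y (x - y) = -nm y (y - x) := by rw [← map_neg]; congr 1; abel
  rw [sub_apply]
  linarith

variable {H : E →L[ℝ] E →L[ℝ] ℝ} {x : E}

lemma symm (hx : x ≠ 0) (hH : HasFDerivAt (nm (E := E)) H x) (u v : E) : H u v = H v u := by
  have h1 : ∀ᶠ y in 𝓝 x, HasFDerivAt (fun z : E => ‖z‖) (nm y) y := by
    filter_upwards [isOpen_compl_singleton.mem_nhds hx] with y hy
    exact h.hasFDerivAt hy
  exact second_derivative_symmetric_of_eventually h1 hH u v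

lemma self_left (hx : x ≠ 0) (hH : HasFDerivAt (nm (E := E)) H x) (v : E) : H x v = 0 := by
  have h1 : HasDerivAt (fun t : ℝ => t • x) x 1 := by
    simpa using (hasDerivAt_id (1 : ℝ)).smul_const x
  have h2 : HasDerivAt (fun t : ℝ => nm (t • x)) (H x) 1 :=
    hH.comp_hasDerivAt_of_eq 1 h1 (by simp)
  have h3 : HasDerivAt (fun t : ℝ => nm (t • x)) 0 1 := by
    refine (hasDerivAt_const (1 : ℝ) (nm x)).congr_of_eventuallyEq ?_
    filter_upwards [Ioi_mem_nhds (show (0 : ℝ) < 1 by norm_num)] with t ht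
    exact h.nm_smul hx ht
  have := h2.unique h3
  rw [this]; rfl

lemma self_right (hx : x ≠ 0) (hH : HasFDerivAt (nm (E := E)) H x) (v : E) : H v x = 0 := by
  rw [h.symm hx hH, h.self_left hx hH]

lemma hasFDerivAt_smul (hx : x ≠ 0) (hH : HasFDerivAt (nm (E := E)) H x) {t : ℝ} (ht : 0 < t) :
    HasFDerivAt (nm (E := E)) (t⁻¹ • H) (t • x) := by
  have hti : 0 < t⁻¹ := inv_pos.2 ht
  have h1 : HasFDerivAt (fun z : E => t⁻¹ • z) (t⁻¹ • ContinuousLinearMap.id ℝ E) (t • x) :=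
    (hasFDerivAt_id _).const_smul _
  have hx' : t⁻¹ • (t • x) = x := by rw [smul_smul, inv_mul_cancel₀ ht.ne', one_smul]
  have h2 : HasFDerivAt (fun z : E => nm (t⁻¹ • z)) (H.comp (t⁻¹ • ContinuousLinearMap.id ℝ E))
      (t • x) := by
    have : HasFDerivAt (nm (E := E)) H (t⁻¹ • (t • x)) := by rwa [hx']
    exact this.comp (t • x) h1
  have h3 : HasFDerivAt (nm (E := E)) (H.comp (t⁻¹ • ContinuousLinearMap.id ℝ E)) (t • x) := by
    refine h2.congr_of_eventuallyEq ?_
    filter_upwards [isOpen_compl_singleton.mem_nhds (smul_ne_zero ht.ne' hx)] with y hy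
    exact (h.nm_smul hy hti).symm
  refine h3.congr_fderiv ?_
  ext u v
  simp

lemma psd (hx : x ≠ 0) (hH : HasFDerivAt (nm (E := E)) H x) (v : E) : 0 ≤ H v v := by
  have hline : HasDerivAt (fun t : ℝ => x + t • v) v 0 := by
    simpa using ((hasDerivAt_id (0 : ℝ)).smul_const v).const_add x
  have h1 : HasDerivAt (fun t : ℝ => nm (x + t • v)) (H v) 0 :=
    hH.comp_hasDerivAt_of_eq 0 hline (by simp)
  have h2 : HasDerivAt (fun t : ℝ => nm (x + t • v) v) (H v v) 0 := hasDerivAt_apply h1 v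
  have h3 := h2.tendsto_slope_zero_right
  refine ge_of_tendsto h3 ?_
  have hne : ∀ᶠ t in 𝓝[>] (0 : ℝ), x + t • v ≠ 0 := by
    have : Tendsto (fun t : ℝ => x + t • v) (𝓝[>] 0) (𝓝 (x + (0 : ℝ) • v)) :=
      (hline.continuousAt.tendsto).mono_left nhdsWithin_le_nhds
    exact this.eventually_ne (by simpa using hx)
  filter_upwards [hne, self_mem_nhdsWithin] with t ht htpos
  have htpos' : (0 : ℝ) < t := htpos
  have h4 := h.mono hx ht
  rw [add_sub_cancel_left, map_smul, smul_eq_mul, sub_apply] at h4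
  have h5 : 0 ≤ nm (x + t • v) v - nm x v := by
    by_contra hcon
    have := mul_neg_of_pos_of_neg htpos' (not_le.1 hcon)
    linarith
  simp only [zero_add, zero_smul, add_zero, smul_eq_mul]
  exact mul_nonneg (inv_nonneg.2 htpos'.le) h5

end C1

end Vale.P084
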