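import Mathlib

/-!
# P084, module N: norming functionals
-/

namespace Vale.P084

open Metric Filter Topology

variable {E : Type*} [NormedAddCommGroup E] [NormedSpace ℝ E]

/-- the norming functionals of `x` (the subdifferential of the norm at `x`) -/
def J (x : E) : Set (E →L[ℝ] ℝ) := {ζ | ‖ζ‖ ≤ 1 ∧ ζ x = ‖x‖}

/-- the norm is `C^{1,1}` on the sphere: uniform quadratic upper bound -/
def C11 (E : Type*) [NormedAddCommGroup E] [NormedSpace ℝ E] : Prop :=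
  ∃ K : ℝ, ∀ x : E, ‖x‖ = 1 → ∀ ζ ∈ J x, ∀ u, ‖x + u‖ ≤ 1 + ζ u + K * ‖u‖ ^ 2

lemma J_nonempty (x : E) : (J x).Nonempty := by
  obtain ⟨g, hg, hx⟩ := exists_dual_vector'' ℝ x
  exact ⟨g, hg, by simpa using hx⟩

lemma J_le {x : E} {ζ : E →L[ℝ] ℝ} (h : ζ ∈ J x) (y : E) : ζ y ≤ ‖y‖ := by
  have h1 : ‖ζ y‖ ≤ ‖ζ‖ * ‖y‖ := ζ.le_opNorm y
  have h2 : ‖ζ‖ * ‖y‖ ≤ 1 * ‖y‖ := mul_le_mul_of_nonneg_right h.1 (norm_nonneg y)
  have h3 : ζ y ≤ ‖ζ y‖ := Real.le_norm_self _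
  linarith

lemma J_smul {t : ℝ} (ht : 0 < t) (x : E) : J (t • x) = J x := by
  ext ζ
  simp only [J, Set.mem_ofPred_eq, map_smul, smul_eq_mul, norm_smul, Real.norm_eq_abs,
    abs_of_pos ht]
  constructor
  · rintro ⟨h1, h2⟩
    exact ⟨h1, mul_left_cancel₀ ht.ne' h2⟩
  · rintro ⟨h1, h2⟩
    exact ⟨h1, by rw [h2]⟩

lemma J_neg {x : E} {ζ : E →L[ℝ] ℝ} (h : ζ ∈ J x) : -ζ ∈ J (-x) := by
  refine ⟨?_, ?_⟩
  · rw [norm_neg]; exact h.1
  · rw [norm_neg, neg_apply, map_neg, neg_neg]; exact h.2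

/-- subgradient inequality -/
lemma J_sub {x : E} {ζ : E →L[ℝ] ℝ} (h : ζ ∈ J x) (y : E) : ‖x‖ + ζ (y - x) ≤ ‖y‖ := by
  have h1 := J_le h y
  rw [map_sub, h.2]
  linarith

/-- the graph of `J` is closed -/
lemma J_closed {x : ℕ → E} {ζ : ℕ → E →L[ℝ] ℝ} {x₀ : E} {ζ₀ : E →L[ℝ] ℝ}
    (hx : Tendsto x atTop (𝓝 x₀)) (hζ : Tendsto ζ atTop (𝓝 ζ₀)) (h : ∀ n, ζ n ∈ J (x n)) :
    ζ₀ ∈ J x₀ := by
  refine ⟨?_, ?_⟩
  · exact le_of_tendsto hζ.norm (Eventually.of_forall fun n => (h n).1)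
  · have h1 : Tendsto (fun n => ζ n (x n)) atTop (𝓝 (ζ₀ x₀)) := by
      have hc : Continuous (fun p : (E →L[ℝ] ℝ) × E => p.1 p.2) := by fun_prop
      exact (hc.tendsto (ζ₀, x₀)).comp (hζ.prodMk_nhds hx)
    have h2 : Tendsto (fun n => ζ n (x n)) atTop (𝓝 ‖x₀‖) := by
      have : (fun n => ζ n (x n)) = fun n => ‖x n‖ := by
        ext n; exact (h n).2
      rw [this]
      exact hx.norm
    exact tendsto_nhds_unique h1 h2

/-- compactness: a sequence of norming functionals has a convergent subsequence. -/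
lemma J_subseq [FiniteDimensional ℝ E] {x : ℕ → E} {ζ : ℕ → E →L[ℝ] ℝ}
    (h : ∀ n, ζ n ∈ J (x n)) :
    ∃ (ζ₀ : E →L[ℝ] ℝ) (φ : ℕ → ℕ), StrictMono φ ∧ Tendsto (ζ ∘ φ) atTop (𝓝 ζ₀) := by
  have hc : IsCompact (closedBall (0 : E →L[ℝ] ℝ) 1) := isCompact_closedBall _ _
  obtain ⟨ζ₀, _, φ, hφ, hlim⟩ := hc.tendsto_subseq (x := ζ) (fun n => by
    rw [mem_closedBall, dist_zero_right]
    exact (h n).1)
  exact ⟨ζ₀, φ, hφ, hlim⟩

/-- upper semicontinuity at a smooth point -/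
lemma J_usc [FiniteDimensional ℝ E] {w : E} {ξ : E →L[ℝ] ℝ} (h : J w = {ξ}) {ε : ℝ}
    (hε : 0 < ε) : ∃ δ > 0, ∀ w', ‖w' - w‖ < δ → ∀ ζ ∈ J w', ‖ζ - ξ‖ < ε := by
  by_contra hcon
  push Not at hcon
  have hn : ∀ n : ℕ, ∃ w' : E, ‖w' - w‖ < 1 / ((n : ℝ) + 1) ∧ ∃ ζ ∈ J w', ε ≤ ‖ζ - ξ‖ :=
    fun n => hcon _ (by positivity)
  choose w' hw' ζ hζ hζε using hn
  have hlim : Tendsto w' atTop (𝓝 w) := by
    rw [tendsto_iff_norm_sub_tendsto_zero]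
    exact squeeze_zero (fun n => norm_nonneg _) (fun n => (hw' n).le)
      tendsto_one_div_add_atTop_nhds_zero_nat
  obtain ⟨ζ₀, φ, hφ, hφl⟩ := J_subseq hζ
  have h1 : ζ₀ ∈ J w := J_closed (hlim.comp hφ.tendsto_atTop) hφl (fun n => hζ (φ n))
  rw [h, Set.mem_singleton_iff] at h1
  subst h1
  have h2 : Tendsto (fun n => ‖(ζ ∘ φ) n - ζ₀‖) atTop (𝓝 0) :=
    tendsto_iff_norm_sub_tendsto_zero.mp hφl
  have h3 : ε ≤ 0 := ge_of_tendsto h2 (Eventually.of_forall fun n => hζε (φ n))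
  linarith

/-- strict differentiability at a smooth point -/
lemma strict_diff [FiniteDimensional ℝ E] {w : E} {ξ : E →L[ℝ] ℝ} (h : J w = {ξ}) {ε : ℝ}
    (hε : 0 < ε) : ∃ δ > 0, ∀ a b, ‖a - w‖ < δ → ‖b - w‖ < δ →
      |‖a‖ - ‖b‖ - ξ (a - b)| ≤ ε * ‖a - b‖ := by
  obtain ⟨δ, hδ, hJ⟩ := J_usc h hε
  refine ⟨δ, hδ, fun a b ha hb => ?_⟩
  obtain ⟨ζa, hζa⟩ := J_nonempty a
  obtain ⟨ζb, hζb⟩ := J_nonempty b
  have h1 := J_sub hζa b
  have h2 := J_sub hζb a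
  have h3 : |(ζa - ξ) (a - b)| ≤ ε * ‖a - b‖ := by
    have := (ζa - ξ).le_opNorm (a - b)
    rw [Real.norm_eq_abs] at this
    refine this.trans ?_
    exact mul_le_mul_of_nonneg_right (hJ a ha ζa hζa).le (norm_nonneg _)
  have h4 : |(ζb - ξ) (a - b)| ≤ ε * ‖a - b‖ := by
    have := (ζb - ξ).le_opNorm (a - b)
    rw [Real.norm_eq_abs] at this
    refine this.trans ?_
    exact mul_le_mul_of_nonneg_right (hJ b hb ζb hζb).le (norm_nonneg _)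
  rw [sub_apply] at h3 h4
  have h5 : ζa (b - a) = -(ζa (a - b)) := by rw [← map_neg, neg_sub]
  rw [h5] at h1
  rw [abs_le] at h3 h4 ⊢
  constructor
  · linarith [h4.1]
  · linarith [h3.2]

/-- for fixed `m`, the set of `w` for which `J w` has diameter `< ε` is open -/
lemma isOpen_small [FiniteDimensional ℝ E] (ε : ℝ) :
    IsOpen {w : E | ∀ ζ ∈ J w, ∀ ζ' ∈ J w, ‖ζ - ζ'‖ < ε} := by
  rw [← isClosed_compl_iff]
  apply IsSeqClosed.isClosed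
  intro x x₀ hx hlim
  have hn : ∀ n : ℕ, ∃ ζ ∈ J (x n), ∃ ζ' ∈ J (x n), ε ≤ ‖ζ - ζ'‖ := by
    intro n
    have := hx n
    simp only [Set.mem_compl_iff, Set.mem_ofPred_eq] at this
    push Not at this
    exact this
  choose ζ hζ ζ' hζ' hε using hn
  obtain ⟨ζ₀, φ, hφ, hφl⟩ := J_subseq hζ
  obtain ⟨ζ₀', ψ, hψ, hψl⟩ := J_subseq (x := x ∘ φ) (ζ := ζ' ∘ φ) (fun n => hζ' (φ n))
  have h1 : Tendsto ((ζ ∘ φ) ∘ ψ) atTop (𝓝 ζ₀) := hφl.comp hψ.tendsto_atTop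
  have h0 : Tendsto ((x ∘ φ) ∘ ψ) atTop (𝓝 x₀) :=
    (hlim.comp hφ.tendsto_atTop).comp hψ.tendsto_atTop
  have h2 : ζ₀ ∈ J x₀ := J_closed h0 h1 (fun n => hζ _)
  have h3 : ζ₀' ∈ J x₀ := J_closed h0 hψl (fun n => hζ' _)
  have h4 : Tendsto (fun n => ‖((ζ ∘ φ) ∘ ψ) n - ((ζ' ∘ φ) ∘ ψ) n‖) atTop (𝓝 ‖ζ₀ - ζ₀'‖) :=
    (h1.sub hψl).norm
  have h5 : ε ≤ ‖ζ₀ - ζ₀'‖ := ge_of_tendsto h4 (Eventually.of_forall fun n => hε _)
  intro hmem
  exact absurd (hmem ζ₀ h2 ζ₀' h3) (not_lt.mpr h5)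

/-- Quadratic upper bounds hold at a dense set of points, quantitatively: maximise
`‖w‖ - M q (w - w₀)` with `q` a Euclidean square norm (`toEuclidean`). -/
lemma exists_touch (E : Type*) [NormedAddCommGroup E] [NormedSpace ℝ E]
    [FiniteDimensional ℝ E] : ∃ C > 0, ∀ K ≥ (1 : ℝ), ∀ w₀ : E, ∃ (w : E) (ξ : E →L[ℝ] ℝ),
      ‖w - w₀‖ ≤ C / K ∧ ∀ u, ‖w + u‖ ≤ ‖w‖ + ξ u + K * ‖u‖ ^ 2 := by
  set T : E →L[ℝ] EuclideanSpace ℝ (Fin (Module.finrank ℝ E)) :=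
    (toEuclidean (E := E) : E →L[ℝ] EuclideanSpace ℝ (Fin (Module.finrank ℝ E))) with hT
  set S : EuclideanSpace ℝ (Fin (Module.finrank ℝ E)) →L[ℝ] E :=
    ((toEuclidean (E := E)).symm : EuclideanSpace ℝ (Fin (Module.finrank ℝ E)) →L[ℝ] E) with hS
  have hST : ∀ v, S (T v) = v := fun v => (toEuclidean (E := E)).symm_apply_apply v
  set c2 : ℝ := ‖T‖ ^ 2 + 1 with hc2
  set c1 : ℝ := ‖S‖ ^ 2 + 1 with hc1
  have hc2p : 0 < c2 := by positivity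
  have hc1p : 0 < c1 := by positivity
  have hup : ∀ v, ‖T v‖ ^ 2 ≤ c2 * ‖v‖ ^ 2 := by
    intro v
    have h1 := T.le_opNorm v
    have h2 : ‖T v‖ ^ 2 ≤ (‖T‖ * ‖v‖) ^ 2 := by gcongr
    nlinarith [sq_nonneg ‖v‖]
  have hlow : ∀ v, ‖v‖ ^ 2 ≤ c1 * ‖T v‖ ^ 2 := by
    intro v
    have h1 := S.le_opNorm (T v)
    rw [hST] at h1
    have h2 : ‖v‖ ^ 2 ≤ (‖S‖ * ‖T v‖) ^ 2 := by gcongr
    nlinarith [sq_nonneg ‖T v‖]
  refine ⟨c1 * c2, by positivity, fun K hK w₀ => ?_⟩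
  have hKp : 0 < K := by linarith
  set M : ℝ := K / c2 with hM
  have hMp : 0 < M := by positivity
  set R : ℝ := c1 * c2 / K with hR
  have hRp : 0 < R := by positivity
  have hRM : R * M = c1 := by
    rw [hR, hM]; field_simp
  have hgc : Continuous (fun w : E => ‖w‖ - M * ‖T (w - w₀)‖ ^ 2) := by fun_prop
  obtain ⟨w, hw, hmax⟩ := (isCompact_closedBall w₀ R).exists_isMaxOn
    ⟨w₀, mem_closedBall_self hRp.le⟩ hgc.continuousOn
  have hglob : ∀ y : E, ‖y‖ - M * ‖T (y - w₀)‖ ^ 2 ≤ ‖w‖ - M * ‖T (w - w₀)‖ ^ 2 := by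
    intro y
    by_cases hy : y ∈ closedBall w₀ R
    · exact hmax hy
    · have h1 : R < ‖y - w₀‖ := by
        rw [mem_closedBall, dist_eq_norm, not_le] at hy
        exact hy
      have h2 : ‖w₀‖ - M * ‖T (w₀ - w₀)‖ ^ 2 ≤ ‖w‖ - M * ‖T (w - w₀)‖ ^ 2 :=
        hmax (mem_closedBall_self hRp.le)
      rw [sub_self, map_zero, norm_zero] at h2
      have h3 := hlow (y - w₀)
      have h4 : ‖y‖ - ‖w₀‖ ≤ ‖y - w₀‖ := norm_sub_norm_le y w₀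
      have h5 : ‖y - w₀‖ ≤ M * ‖T (y - w₀)‖ ^ 2 := by
        have h6 : c1 * ‖y - w₀‖ ≤ c1 * (M * ‖T (y - w₀)‖ ^ 2) := by
          calc c1 * ‖y - w₀‖ = M * (R * ‖y - w₀‖) := by rw [← hRM]; ring
            _ ≤ M * (‖y - w₀‖ * ‖y - w₀‖) := by gcongr
            _ = M * ‖y - w₀‖ ^ 2 := by ring
            _ ≤ M * (c1 * ‖T (y - w₀)‖ ^ 2) := by gcongr
            _ = _ := by ring
        exact le_of_mul_le_mul_left h6 hc1p
      linarith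
  have hin : ∀ u : E, ‖T (w + u - w₀)‖ ^ 2 =
      ‖T (w - w₀)‖ ^ 2 + 2 * inner ℝ (T (w - w₀)) (T u) + ‖T u‖ ^ 2 := by
    intro u
    have : T (w + u - w₀) = T (w - w₀) + T u := by
      rw [← map_add]; congr 1; abel
    rw [this, norm_add_sq_real]
  refine ⟨w, (2 * M) • ((innerSL ℝ (T (w - w₀))).comp T), ?_, ?_⟩
  · rw [mem_closedBall, dist_eq_norm] at hw
    exact hw
  · intro u
    have h1 := hglob (w + u)
    rw [hin] at h1
    have h2 := hup u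
    have h3 : M * ‖T u‖ ^ 2 ≤ K * ‖u‖ ^ 2 := by
      calc M * ‖T u‖ ^ 2 ≤ M * (c2 * ‖u‖ ^ 2) := by gcongr
        _ = K * ‖u‖ ^ 2 := by rw [hM]; field_simp
    have h4 : ((2 * M) • ((innerSL ℝ (T (w - w₀))).comp T)) u =
        2 * M * inner ℝ (T (w - w₀)) (T u) := by
      rfl
    rw [h4]
    nlinarith

/-- a point with a quadratic upper bound is a smooth point -/
lemma J_of_touch {w : E} (hw : w ≠ 0) {ξ : E →L[ℝ] ℝ} {K : ℝ}
    (h : ∀ u, ‖w + u‖ ≤ ‖w‖ + ξ u + K * ‖u‖ ^ 2) : J w = {ξ} := by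
  have key : ∀ ζ ∈ J w, ζ = ξ := by
    intro ζ hζ
    have h1 : ∀ u, (ζ - ξ) u ≤ 0 := by
      intro u
      by_contra hcon
      push Not at hcon
      set a := (ζ - ξ) u with ha
      have h2 : ∀ t : ℝ, 0 < t → a ≤ K * ‖u‖ ^ 2 * t := by
        intro t ht
        have h3 := J_sub hζ (w + t • u)
        have h4 := h (t • u)
        rw [add_sub_cancel_left] at h3
        rw [norm_smul, Real.norm_eq_abs, abs_of_pos ht] at h4
        have h5 : ζ (t • u) - ξ (t • u) = t * a := by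
          rw [ha, sub_apply, map_smul, map_smul]
          simp only [smul_eq_mul]
          ring
        have h6 : t * a ≤ t * (K * ‖u‖ ^ 2 * t) := by nlinarith
        exact le_of_mul_le_mul_left h6 ht
      by_cases hK : K * ‖u‖ ^ 2 ≤ 0
      · have := h2 1 one_pos
        linarith
      · push Not at hK
        have := h2 (a / (2 * (K * ‖u‖ ^ 2))) (by positivity)
        have h7 : K * ‖u‖ ^ 2 * (a / (2 * (K * ‖u‖ ^ 2))) = a / 2 := by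
          generalize K * ‖u‖ ^ 2 = X at hK ⊢
          field_simp
        rw [h7] at this
        linarith
    ext u
    have h2 := h1 u
    have h3 := h1 (-u)
    rw [map_neg] at h3
    rw [sub_apply] at h2 h3
    linarith
  ext ζ
  rw [Set.mem_singleton_iff]
  constructor
  · exact key ζ
  · rintro rfl
    obtain ⟨ζ', hζ'⟩ := J_nonempty w
    have := key ζ' hζ'
    rwa [this] at hζ'

end Vale.P084
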