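import Vale.Agent.P084.Basic

/-!
# P084: regularity of the homogeneous extension of a sphere isometry
-/

namespace Vale.P084

open Metric Filter Topology

/-- A family of functionals with trivial common kernel has a finite subfamily with trivial common
kernel. -/
lemma exists_finite_tests {V : Type*} [NormedAddCommGroup V] [NormedSpace ℝ V]
    [FiniteDimensional ℝ V] {ι : Type*} (S : Set ι) (ℓ : ι → V →L[ℝ] ℝ)
    (hS : ∀ v, (∀ i ∈ S, ℓ i v = 0) → v = 0) :
    ∃ s : Finset ι, (↑s : Set ι) ⊆ S ∧ ∀ v, (∀ i ∈ s, ℓ i v = 0) → v = 0 := by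
  classical
  let K : Finset ι → Submodule ℝ V := fun s => ⨅ i ∈ s, LinearMap.ker (ℓ i : V →ₗ[ℝ] ℝ)
  have hK : ∀ s v, v ∈ K s ↔ ∀ i ∈ s, ℓ i v = 0 := by
    intro s v
    simp only [K, Submodule.mem_iInf, LinearMap.mem_ker]
    rfl
  let A : Set (Finset ι) := {s | (↑s : Set ι) ⊆ S}
  have hA : A.Nonempty := ⟨∅, by simp [A]⟩
  obtain ⟨s, hsA, hmin⟩ := (measure (fun s : Finset ι => Module.finrank ℝ (K s))).wf.has_min A hA
  refine ⟨s, hsA, ?_⟩
  intro v hv
  by_contra hv0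
  have : ∃ i ∈ S, ℓ i v ≠ 0 := by
    by_contra hcon
    push Not at hcon
    exact hv0 (hS v hcon)
  obtain ⟨i, hiS, hiv⟩ := this
  apply hmin (insert i s)
  · simp only [A, Set.mem_ofPred_eq, Finset.coe_insert]
    exact Set.insert_subset hiS hsA
  · show Module.finrank ℝ (K (insert i s)) < Module.finrank ℝ (K s)
    apply Submodule.finrank_lt_finrank_of_lt
    rw [SetLike.lt_iff_le_and_exists]
    refine ⟨?_, v, (hK s v).2 hv, ?_⟩
    · intro w hw
      rw [hK] at hw ⊢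
      exact fun j hj => hw j (Finset.mem_insert_of_mem hj)
    · intro hw
      rw [hK] at hw
      exact hiv (hw i (Finset.mem_insert_self _ _))

/-- If enough smooth test functions of `φ` are smooth then `φ` is smooth. -/
lemma contDiffAt_of_tests {X V : Type*} [NormedAddCommGroup X] [NormedSpace ℝ X]
    [NormedAddCommGroup V] [NormedSpace ℝ V] [FiniteDimensional ℝ V] {n : WithTop ℕ∞} (hn : n ≠ 0)
    {φ : X → V} {x₀ : X}
    (hφ : ContinuousAt φ x₀) {ι : Type*} (S : Set ι) (θ' : ι → V → ℝ) (θ : ι → X → ℝ)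
    (h1 : ∀ i ∈ S, ContDiffAt ℝ n (θ' i) (φ x₀))
    (h2 : ∀ i ∈ S, ContDiffAt ℝ n (θ i) x₀)
    (h3 : ∀ i ∈ S, ∀ᶠ x in 𝓝 x₀, θ' i (φ x) = θ i x)
    (h4 : ∀ v, (∀ i ∈ S, fderiv ℝ (θ' i) (φ x₀) v = 0) → v = 0) :
    ContDiffAt ℝ n φ x₀ := by
  classical
  haveI : CompleteSpace V := FiniteDimensional.complete ℝ V
  obtain ⟨s, hsS, hs⟩ := exists_finite_tests S (fun i => fderiv ℝ (θ' i) (φ x₀)) h4
  let Θ' : V → (s → ℝ) := fun y i => θ' i y
  let Θ : X → (s → ℝ) := fun x i => θ i x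
  have hΘ' : ContDiffAt ℝ n Θ' (φ x₀) := contDiffAt_pi.2 fun i => h1 i (hsS i.2)
  have hΘ : ContDiffAt ℝ n Θ x₀ := contDiffAt_pi.2 fun i => h2 i (hsS i.2)
  have heq : ∀ᶠ x in 𝓝 x₀, Θ' (φ x) = Θ x := by
    have : ∀ᶠ x in 𝓝 x₀, ∀ i : s, θ' i (φ x) = θ i x :=
      Filter.eventually_all.2 fun i => h3 i (hsS i.2)
    filter_upwards [this] with x hx
    funext i
    exact hx i
  let D : V →L[ℝ] (s → ℝ) := ContinuousLinearMap.pi fun i : s => fderiv ℝ (θ' i) (φ x₀)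
  have hD : HasFDerivAt Θ' D (φ x₀) := by
    rw [hasFDerivAt_pi]
    intro i
    exact ((h1 i (hsS i.2)).differentiableAt hn).hasFDerivAt
  have hinj : Function.Injective (D : V →ₗ[ℝ] (s → ℝ)) := by
    rw [← LinearMap.ker_eq_bot, LinearMap.ker_eq_bot']
    intro v hv
    apply hs
    intro i hi
    exact congrFun hv ⟨i, hi⟩
  obtain ⟨p, hp⟩ := (D : V →ₗ[ℝ] (s → ℝ)).exists_leftInverse_of_injective
    (LinearMap.ker_eq_bot.2 hinj)
  let π : (s → ℝ) →L[ℝ] V := LinearMap.toContinuousLinearMap p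
  let G : V → V := fun y => π (Θ' y)
  have hG : ContDiffAt ℝ n G (φ x₀) := π.contDiff.contDiffAt.comp (φ x₀) hΘ'
  have hG' : HasFDerivAt G ((ContinuousLinearEquiv.refl ℝ V : V ≃L[ℝ] V) : V →L[ℝ] V) (φ x₀) := by
    have := π.hasFDerivAt.comp (φ x₀) hD
    refine this.congr_fderiv ?_
    ext v
    have h5 := congrArg (fun L : V →ₗ[ℝ] V => L v) hp
    show p (D v) = v
    simpa using h5
  have hinv : ∀ᶠ y in 𝓝 (φ x₀), hG.localInverse hG' hn (G y) = y :=
    (hG.hasStrictFDerivAt' hG' hn).eventually_left_inverse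
  have hφeq : (fun x => hG.localInverse hG' hn (π (Θ x))) =ᶠ[𝓝 x₀] φ := by
    filter_upwards [hφ.eventually hinv, heq] with x hx1 hx2
    rw [← hx2]
    exact hx1
  have hfin : ContDiffAt ℝ n (fun x => hG.localInverse hG' hn (π (Θ x))) x₀ := by
    have h6 : ContDiffAt ℝ n (hG.localInverse hG' hn) (π (Θ x₀)) := by
      have h7 := hG.to_localInverse hG' hn
      have h8 : G (φ x₀) = π (Θ x₀) := by
        show π (Θ' (φ x₀)) = π (Θ x₀)
        rw [heq.self_of_nhds]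
      rwa [h8] at h7
    exact h6.comp x₀ (π.contDiff.contDiffAt.comp x₀ hΘ)
  exact hfin.congr_of_eventuallyEq hφeq.symm

variable {X Y : Type*} [NormedAddCommGroup X] [NormedSpace ℝ X]
  [NormedAddCommGroup Y] [NormedSpace ℝ Y]

/-- The properties of the homogeneous extension of an odd surjective isometry between unit
spheres. -/
structure Ext (φ : X → Y) : Prop where
  norm : ∀ x, ‖φ x‖ = ‖x‖
  smul : ∀ (t : ℝ) x, φ (t • x) = t • φ x
  dist : ∀ x y, ‖x‖ = ‖y‖ → ‖φ x - φ y‖ = ‖x - y‖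
  surj : Function.Surjective φ

namespace Ext

variable {φ : X → Y} (e : Ext φ)
include e

lemma map_zero : φ 0 = 0 := by
  have := e.norm 0
  rwa [norm_zero, norm_eq_zero] at this

lemma ne_zero {x : X} (hx : x ≠ 0) : φ x ≠ 0 := by
  intro h0
  have := e.norm x
  rw [h0, norm_zero] at this
  exact hx (norm_eq_zero.1 this.symm)

lemma map_neg (x : X) : φ (-x) = -φ x := by
  have := e.smul (-1) x
  simpa using this

lemma ident (x y : X) : ‖‖y‖ • φ x - ‖x‖ • φ y‖ = ‖‖y‖ • x - ‖x‖ • y‖ := by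
  rw [← e.smul, ← e.smul]
  apply e.dist
  rw [norm_smul, norm_smul, norm_norm, norm_norm, mul_comm]

lemma ident_add (x y : X) : ‖‖y‖ • φ x + ‖x‖ • φ y‖ = ‖‖y‖ • x + ‖x‖ • y‖ := by
  have := e.ident x (-y)
  rw [norm_neg, e.map_neg] at this
  simpa using this

lemma norm_sub_le (x y : X) : ‖φ x - φ y‖ ≤ 3 * ‖x - y‖ := by
  by_cases hy : y = 0
  · subst hy
    rw [e.map_zero, sub_zero, sub_zero, e.norm]
    have := norm_nonneg x
    linarith
  have hny : 0 < ‖y‖ := norm_pos_iff.2 hy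
  set z : X := (‖x‖ * ‖y‖⁻¹) • y with hz
  have hzn : ‖z‖ = ‖x‖ := by
    rw [hz, norm_smul, norm_mul, norm_inv, norm_norm, norm_norm, mul_assoc,
      inv_mul_cancel₀ hny.ne', mul_one]
  have h1 : ‖φ x - φ z‖ = ‖x - z‖ := e.dist x z hzn.symm
  have h2 : φ z - φ y = (‖x‖ * ‖y‖⁻¹ - 1) • φ y := by
    rw [hz, e.smul]; module
  have h3 : z - y = (‖x‖ * ‖y‖⁻¹ - 1) • y := by
    rw [hz]; module
  have h4 : ‖z - y‖ = |‖x‖ - ‖y‖| := by
    rw [h3, norm_smul, Real.norm_eq_abs]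
    rw [show ‖x‖ * ‖y‖⁻¹ - 1 = (‖x‖ - ‖y‖) * ‖y‖⁻¹ by field_simp]
    rw [abs_mul, abs_inv, abs_norm, mul_assoc, inv_mul_cancel₀ hny.ne', mul_one]
  have h5 : ‖φ z - φ y‖ = ‖z - y‖ := by
    rw [h2, h3, norm_smul, norm_smul, e.norm]
  have h6 : |‖x‖ - ‖y‖| ≤ ‖x - y‖ := abs_norm_sub_norm_le x y
  calc ‖φ x - φ y‖ = ‖(φ x - φ z) + (φ z - φ y)‖ := by congr 1; abel
    _ ≤ ‖φ x - φ z‖ + ‖φ z - φ y‖ := norm_add_le _ _
    _ = ‖x - z‖ + ‖z - y‖ := by rw [h1, h5]
    _ = ‖(x - y) - (z - y)‖ + ‖z - y‖ := by congr 2; abel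
    _ ≤ (‖x - y‖ + ‖z - y‖) + ‖z - y‖ := by gcongr; exact _root_.norm_sub_le _ _
    _ ≤ 3 * ‖x - y‖ := by rw [h4]; linarith

lemma continuous : Continuous φ := by
  have : LipschitzWith 3 φ := LipschitzWith.of_dist_le_mul fun x y => by
    rw [dist_eq_norm, dist_eq_norm]
    simpa using e.norm_sub_le x y
  exact this.continuous

/-- The homogeneous extension is `C^3` away from `0`. -/
lemma contDiffAt [FiniteDimensional ℝ Y] (hX : SmoothRotund X) (hY : SmoothRotund Y) {x₀ : X}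
    (hx₀ : x₀ ≠ 0) : ContDiffAt ℝ 3 φ x₀ := by
  classical
  have hy₀ : φ x₀ ≠ 0 := e.ne_zero hx₀
  let S : Set (Option Y) := {o | ∀ q, o = some q → ‖q‖ • φ x₀ - ‖φ x₀‖ • q ≠ 0}
  let θ' : Option Y → Y → ℝ := fun o => match o with
    | none => fun y => ‖y‖
    | some q => fun y => ‖‖q‖ • y - ‖y‖ • q‖
  let inv : Y → X := Function.surjInv e.surj
  have hinv : ∀ q, φ (inv q) = q := Function.surjInv_eq e.surj
  let θ : Option Y → X → ℝ := fun o => match o with
    | none => fun x => ‖x‖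
    | some q => fun x => ‖‖inv q‖ • x - ‖x‖ • inv q‖
  refine contDiffAt_of_tests (by norm_num) e.continuous.continuousAt S θ' θ ?_ ?_ ?_ ?_
  · -- smoothness of the tests on `Y`
    intro o ho
    rcases o with _ | q
    · exact hY.contDiffAt hy₀
    · have hne := ho q rfl
      have h1 : ContDiffAt ℝ 3 (fun y : Y => ‖q‖ • y - ‖y‖ • q) (φ x₀) :=
        (contDiffAt_id.const_smul _).sub ((hY.contDiffAt hy₀).smul contDiffAt_const)
      exact (hY.contDiffAt hne).comp (φ x₀) h1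
  · intro o ho
    rcases o with _ | q
    · exact hX.contDiffAt hx₀
    · have hne := ho q rfl
      have hne' : ‖inv q‖ • x₀ - ‖x₀‖ • inv q ≠ 0 := by
        intro h0
        have h1 : ‖inv q‖ • x₀ = ‖x₀‖ • inv q := sub_eq_zero.1 h0
        have h2 := congrArg φ h1
        rw [e.smul, e.smul, hinv] at h2
        apply hne
        have h3 : ‖q‖ = ‖inv q‖ := by rw [← e.norm (inv q), hinv]
        rw [h3, e.norm, h2, sub_self]
      have h1 : ContDiffAt ℝ 3 (fun x : X => ‖inv q‖ • x - ‖x‖ • inv q) x₀ :=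
        (contDiffAt_id.const_smul _).sub ((hX.contDiffAt hx₀).smul contDiffAt_const)
      exact (hX.contDiffAt hne').comp x₀ h1
  · intro o ho
    rcases o with _ | q
    · exact Eventually.of_forall fun x => e.norm x
    · refine Eventually.of_forall fun x => ?_
      show ‖‖q‖ • φ x - ‖φ x‖ • q‖ = ‖‖inv q‖ • x - ‖x‖ • inv q‖
      have h3 : ‖q‖ = ‖inv q‖ := by rw [← e.norm (inv q), hinv]
      rw [h3, e.norm]
      have := e.ident x (inv q)
      rwa [hinv] at this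
  · intro v hv
    by_contra hv0
    have hn : nm (φ x₀) v = 0 := hv none (by intro q hq; cases hq)
    set y₀ : Y := φ x₀ with hy₀def
    have hny₀ : 0 < ‖y₀‖ := norm_pos_iff.2 hy₀
    -- the curve
    let Q : ℝ → Y := fun ε => ‖y₀ - ε • v‖ • y₀ - ‖y₀‖ • (y₀ - ε • v)
    have hline : HasDerivAt (fun ε : ℝ => y₀ - ε • v) (-v) 0 := by
      simpa using ((hasDerivAt_id (0 : ℝ)).smul_const v).const_sub y₀
    have hnd : HasDerivAt (fun ε : ℝ => ‖y₀ - ε • v‖) 0 0 := by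
      have := (hY.hasFDerivAt_norm hy₀).comp_hasDerivAt_of_eq 0 hline (by simp)
      simpa [hn, Function.comp_def] using this
    have hQd : HasDerivAt Q (‖y₀‖ • v) 0 := by
      have h := (hnd.smul_const y₀).sub (hline.const_smul ‖y₀‖)
      exact (h.congr_deriv (by simp)).congr_of_eventuallyEq
        (Eventually.of_forall fun ε => by simp [Q])
    have hQ0 : Q 0 = 0 := by simp [Q]
    have hlim : Tendsto (fun ε : ℝ => ε⁻¹ • Q ε) (𝓝[>] 0) (𝓝 (‖y₀‖ • v)) := by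
      have := hQd.tendsto_slope_zero_right
      simpa [hQ0] using this
    have hlimne : ‖y₀‖ • v ≠ 0 := smul_ne_zero hny₀.ne' hv0
    have hcont : ContinuousAt (fun z : Y => nm z v) (‖y₀‖ • v) :=
      ((hY.contDiffAt_nm hlimne).continuousAt).clm_apply continuousAt_const
    have hlim2 : Tendsto (fun ε : ℝ => nm (ε⁻¹ • Q ε) v) (𝓝[>] 0) (𝓝 (nm (‖y₀‖ • v) v)) :=
      hcont.tendsto.comp hlim
    have hev : ∀ᶠ ε in 𝓝[>] (0 : ℝ), nm (ε⁻¹ • Q ε) v = 0 := by
      have hne : ∀ᶠ ε in 𝓝[>] (0 : ℝ), ε⁻¹ • Q ε ≠ 0 := hlim.eventually_ne hlimne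
      have hq0 : ∀ᶠ ε in 𝓝[>] (0 : ℝ), y₀ - ε • v ≠ 0 := by
        have h1 : Tendsto (fun ε : ℝ => y₀ - ε • v) (𝓝[>] 0) (𝓝 (y₀ - (0 : ℝ) • v)) :=
          (hline.continuousAt.tendsto).mono_left nhdsWithin_le_nhds
        have h2 : y₀ - (0 : ℝ) • v ≠ 0 := by simpa using hy₀
        exact h1.eventually_ne h2
      filter_upwards [hne, hq0, self_mem_nhdsWithin] with ε hε hqε hpos
      have hpos' : (0 : ℝ) < ε := hpos
      have hQne : Q ε ≠ 0 := fun h0 => hε (by rw [h0, smul_zero])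
      rw [hY.nm_smul hQne (inv_pos.2 hpos')]
      -- use the test `q = y₀ - ε v`
      have hmem : (some (y₀ - ε • v) : Option Y) ∈ S := by
        intro q hq
        cases hq
        exact hQne
      have h5 := hv _ hmem
      have h6 : HasFDerivAt (fun y : Y => ‖y₀ - ε • v‖ • y - ‖y‖ • (y₀ - ε • v))
          (‖y₀ - ε • v‖ • ContinuousLinearMap.id ℝ Y - (nm y₀).smulRight (y₀ - ε • v)) y₀ :=
        ((hasFDerivAt_id y₀).const_smul _).sub
          ((hY.hasFDerivAt_norm hy₀).smul_const (y₀ - ε • v))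
      have h7 : HasFDerivAt (θ' (some (y₀ - ε • v))) ((nm (Q ε)).comp
          (‖y₀ - ε • v‖ • ContinuousLinearMap.id ℝ Y - (nm y₀).smulRight (y₀ - ε • v))) y₀ :=
        (hY.hasFDerivAt_norm hQne).comp y₀ h6
      rw [h7.fderiv] at h5
      have h8 : ‖y₀ - ε • v‖ * nm (Q ε) v = 0 := by
        simpa [hn] using h5
      rcases mul_eq_zero.1 h8 with h9 | h9
      · exact absurd (norm_eq_zero.1 h9) hqε
      · exact h9
    have h10 : nm (‖y₀‖ • v) v = 0 :=
      tendsto_nhds_unique (hlim2.congr' hev) tendsto_const_nhds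
    rw [hY.nm_smul hv0 hny₀, hY.nm_self hv0] at h10
    exact hv0 (norm_eq_zero.1 h10)

end Ext

end Vale.P084
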