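import Mathlib
import Vale.Agent.P084.Basic
import Vale.Agent.P084.Norming
import Vale.Agent.P084.Regular

/-!
# P084, module C: norms with a uniform quadratic upper bound
-/

namespace Vale.P084

open Metric Filter Topology

variable {E : Type*} [NormedAddCommGroup E] [NormedSpace ℝ E]

/-! ### Lipschitz near a point -/

section LL

variable {A B C D : Type*} [NormedAddCommGroup A] [NormedAddCommGroup B] [NormedAddCommGroup C]
  [NormedAddCommGroup D]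

/-- Lipschitz near a point -/
def LL (f : A → B) (x : A) : Prop :=
  ∃ K : ℝ, 0 ≤ K ∧ ∀ᶠ p : A × A in 𝓝 (x, x), ‖f p.1 - f p.2‖ ≤ K * ‖p.1 - p.2‖

lemma LL.continuousAt {f : A → B} {x : A} (h : LL f x) : ContinuousAt f x := by
  obtain ⟨K, hK, hf⟩ := h
  have h1 : Tendsto (fun a : A => (a, x)) (𝓝 x) (𝓝 (x, x)) :=
    (Continuous.prodMk_left x).tendsto x
  have h2 := h1.eventually hf
  rw [ContinuousAt, tendsto_iff_norm_sub_tendsto_zero]
  have h3 : Tendsto (fun a => K * ‖a - x‖) (𝓝 x) (𝓝 0) := by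
    have : Continuous (fun a => K * ‖a - x‖) := by fun_prop
    simpa using this.tendsto x
  exact squeeze_zero' (Eventually.of_forall fun a => norm_nonneg _) h2 h3

lemma LL.comp {f : B → C} {g : A → B} {x : A} (hf : LL f (g x)) (hg : LL g x) :
    LL (fun a => f (g a)) x := by
  have hc := hg.continuousAt
  obtain ⟨K, hK, hf⟩ := hf
  obtain ⟨L, hL, hg⟩ := hg
  refine ⟨K * L, by positivity, ?_⟩
  have h1 : Tendsto (fun p : A × A => (g p.1, g p.2)) (𝓝 (x, x)) (𝓝 (g x, g x)) := by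
    rw [nhds_prod_eq, nhds_prod_eq]
    exact Tendsto.prodMap hc hc
  filter_upwards [h1.eventually hf, hg] with p hp1 hp2
  calc ‖f (g p.1) - f (g p.2)‖ ≤ K * ‖g p.1 - g p.2‖ := hp1
    _ ≤ K * (L * ‖p.1 - p.2‖) := by gcongr
    _ = K * L * ‖p.1 - p.2‖ := by ring

lemma LL.prodMk {f : A → B} {g : A → C} {x : A} (hf : LL f x) (hg : LL g x) :
    LL (fun a => (f a, g a)) x := by
  obtain ⟨K, hK, hf⟩ := hf
  obtain ⟨L, hL, hg⟩ := hg
  refine ⟨K + L, by positivity, ?_⟩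
  filter_upwards [hf, hg] with p hp1 hp2
  rw [Prod.mk_sub_mk, Prod.norm_mk]
  refine max_le ?_ ?_
  · refine hp1.trans ?_
    have : 0 ≤ L * ‖p.1 - p.2‖ := by positivity
    linarith
  · refine hp2.trans ?_
    have : 0 ≤ K * ‖p.1 - p.2‖ := by positivity
    linarith

lemma LL.add {f g : A → B} {x : A} (hf : LL f x) (hg : LL g x) :
    LL (fun a => f a + g a) x := by
  obtain ⟨K, hK, hf⟩ := hf
  obtain ⟨L, hL, hg⟩ := hg
  refine ⟨K + L, by positivity, ?_⟩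
  filter_upwards [hf, hg] with p hp1 hp2
  calc ‖f p.1 + g p.1 - (f p.2 + g p.2)‖ = ‖(f p.1 - f p.2) + (g p.1 - g p.2)‖ := by
        congr 1; abel
    _ ≤ ‖f p.1 - f p.2‖ + ‖g p.1 - g p.2‖ := norm_add_le _ _
    _ ≤ (K + L) * ‖p.1 - p.2‖ := by linarith

lemma LL.const (b : B) (x : A) : LL (fun _ => b) x :=
  ⟨0, le_rfl, Eventually.of_forall fun p => by simp⟩

lemma LL.sum {ι : Type*} (s : Finset ι) {f : ι → A → B} {x : A} (h : ∀ i ∈ s, LL (f i) x) :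
    LL (fun a => ∑ i ∈ s, f i a) x := by
  classical
  induction s using Finset.induction_on with
  | empty => simpa using LL.const (0 : B) x
  | insert i s hi ih =>
    simp_rw [Finset.sum_insert hi]
    exact (h i (Finset.mem_insert_self _ _)).add
      (ih fun j hj => h j (Finset.mem_insert_of_mem hj))

lemma LL.congr {f g : A → B} {x : A} (hf : LL f x) (h : g =ᶠ[𝓝 x] f) : LL g x := by
  obtain ⟨K, hK, hf⟩ := hf
  refine ⟨K, hK, ?_⟩
  have h1 : ∀ᶠ p : A × A in 𝓝 (x, x), g p.1 = f p.1 := (continuous_fst.tendsto (x, x)).eventually h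
  have h2 : ∀ᶠ p : A × A in 𝓝 (x, x), g p.2 = f p.2 := (continuous_snd.tendsto (x, x)).eventually h
  filter_upwards [hf, h1, h2] with p hp h3 h4
  rw [h3, h4]; exact hp

lemma LL.exists_lipschitzOnWith {f : A → B} {x : A} (hf : LL f x) :
    ∃ K, ∃ t ∈ 𝓝 x, LipschitzOnWith K f t := by
  obtain ⟨K, hK, hf⟩ := hf
  rw [nhds_prod_eq, Filter.eventually_prod_self_iff'] at hf
  obtain ⟨t, ht, hft⟩ := hf
  refine ⟨⟨K, hK⟩, t, ht, LipschitzOnWith.of_dist_le_mul fun a ha b hb => ?_⟩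
  rw [dist_eq_norm, dist_eq_norm]
  exact hft a ha b hb

lemma LL.of_lipschitzOnWith {f : A → B} {x : A} {K : NNReal} {t : Set A} (ht : t ∈ 𝓝 x)
    (h : LipschitzOnWith K f t) : LL f x := by
  refine ⟨K, K.2, ?_⟩
  rw [nhds_prod_eq, Filter.eventually_prod_self_iff']
  refine ⟨t, ht, fun a ha b hb => ?_⟩
  have := h.dist_le_mul a ha b hb
  rwa [dist_eq_norm, dist_eq_norm] at this

lemma LL.locLip {f : A → B} {s : Set A} (h : ∀ x ∈ s, LL f x) : LocallyLipschitzOn s f := by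
  intro x hx
  obtain ⟨K, t, ht, hK⟩ := (h x hx).exists_lipschitzOnWith
  exact ⟨K, t, mem_nhdsWithin_of_mem_nhds ht, hK⟩

lemma LL.of_contDiffAt [NormedSpace ℝ A] [NormedSpace ℝ B] {f : A → B} {x : A}
    (h : ContDiffAt ℝ 1 f x) : LL f x := by
  obtain ⟨K, t, ht, hK⟩ := h.exists_lipschitzOnWith
  exact LL.of_lipschitzOnWith ht hK

end LL

/-! ### C11 norms -/

/-- the homogeneous form of the quadratic upper bound. -/
lemma C11.bound (h : C11 E) : ∃ K : ℝ, 0 ≤ K ∧ ∀ x : E, x ≠ 0 → ∀ ζ ∈ J x, ∀ u,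
    ‖x + u‖ ≤ ‖x‖ + ζ u + K / ‖x‖ * ‖u‖ ^ 2 := by
  obtain ⟨K, hK⟩ := h
  refine ⟨max K 0, le_max_right _ _, fun x hx ζ hζ u => ?_⟩
  have hn : 0 < ‖x‖ := norm_pos_iff.2 hx
  have h1 : ‖(‖x‖⁻¹ • x)‖ = 1 := by
    rw [norm_smul, norm_inv, norm_norm, inv_mul_cancel₀ hn.ne']
  have h2 : ζ ∈ J (‖x‖⁻¹ • x) := by
    refine ⟨hζ.1, ?_⟩
    rw [map_smul, hζ.2, h1, smul_eq_mul, inv_mul_cancel₀ hn.ne']
  have h3 := hK _ h1 ζ h2 (‖x‖⁻¹ • u)
  rw [← smul_add, norm_smul, norm_smul, map_smul, norm_inv, norm_norm, smul_eq_mul] at h3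
  have h4 : ‖x + u‖ = ‖x‖ * (‖x‖⁻¹ * ‖x + u‖) := by field_simp
  rw [h4]
  calc ‖x‖ * (‖x‖⁻¹ * ‖x + u‖)
      ≤ ‖x‖ * (1 + ‖x‖⁻¹ * ζ u + K * (‖x‖⁻¹ * ‖u‖) ^ 2) := by gcongr
    _ ≤ ‖x‖ * (1 + ‖x‖⁻¹ * ζ u + max K 0 * (‖x‖⁻¹ * ‖u‖) ^ 2) := by
        gcongr; exact le_max_left _ _
    _ = ‖x‖ + ζ u + max K 0 / ‖x‖ * ‖u‖ ^ 2 := by field_simp

lemma C11.hasFDerivAt (h : C11 E) {x : E} (hx : x ≠ 0) {ζ : E →L[ℝ] ℝ} (hζ : ζ ∈ J x) :
    HasFDerivAt (fun z : E => ‖z‖) ζ x := by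
  obtain ⟨K, hK0, hK⟩ := h.bound
  have hn : 0 < ‖x‖ := norm_pos_iff.2 hx
  rw [hasFDerivAt_iff_isLittleO_nhds_zero]
  have h1 : (fun u : E => ‖x + u‖ - ‖x‖ - ζ u) =O[𝓝 0] fun u => ‖u‖ ^ 2 := by
    refine Asymptotics.IsBigO.of_bound (K / ‖x‖) (Eventually.of_forall fun u => ?_)
    have h2 := hK x hx ζ hζ u
    have h3 : ‖x‖ + ζ u ≤ ‖x + u‖ := by
      have h4 := (ζ (x + u)).le_norm_self.trans ((ζ.le_of_opNorm_le hζ.1 (x + u)))
      rw [map_add, hζ.2, one_mul] at h4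
      exact h4
    rw [Real.norm_eq_abs, abs_of_nonneg (by linarith), Real.norm_of_nonneg (by positivity)]
    linarith
  refine h1.trans_isLittleO ?_
  exact Asymptotics.isLittleO_norm_pow_id (by norm_num)

lemma C11.nm_eq (h : C11 E) {x : E} (hx : x ≠ 0) {ζ : E →L[ℝ] ℝ} (hζ : ζ ∈ J x) :
    nm x = ζ := (h.hasFDerivAt hx hζ).fderiv

lemma C11.hasFDerivAt_norm (h : C11 E) {x : E} (hx : x ≠ 0) :
    HasFDerivAt (fun z : E => ‖z‖) (nm x) x := by
  obtain ⟨ζ, hζ⟩ := J_nonempty x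
  rw [h.nm_eq hx hζ]
  exact h.hasFDerivAt hx hζ

/-- the gradient estimate -/
lemma C11.nm_lip (h : C11 E) : ∃ K : ℝ, 0 ≤ K ∧ ∀ x y : E, x ≠ 0 → y ≠ 0 →
    ‖nm y - nm x‖ ≤ 4 * (K / ‖x‖) * ‖y - x‖ := by
  obtain ⟨K, hK0, hK⟩ := h.bound
  refine ⟨K, hK0, fun x y hx hy => ?_⟩
  obtain ⟨ζ, hζ⟩ := J_nonempty x
  obtain ⟨η, hη⟩ := J_nonempty y
  rw [h.nm_eq hx hζ, h.nm_eq hy hη]
  have hn : 0 < ‖x‖ := norm_pos_iff.2 hx
  set d := ‖y - x‖ with hd
  have key : ∀ u, (η - ζ) u ≤ K / ‖x‖ * (d + ‖u‖) ^ 2 := by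
    intro u
    have h1 := hK x hx ζ hζ (y - x + u)
    have h2 : ‖y‖ + η u ≤ ‖y + u‖ := by
      have h4 := (Real.le_norm_self _).trans ((η.le_of_opNorm_le hη.1 (y + u)))
      rw [map_add, hη.2, one_mul] at h4
      exact h4
    have h3 : ζ y ≤ ‖y‖ := by
      have h4 := (Real.le_norm_self _).trans ((ζ.le_of_opNorm_le hζ.1 y))
      rwa [one_mul] at h4
    rw [show x + (y - x + u) = y + u by abel, map_add, map_sub, hζ.2] at h1
    have h4 : ‖y - x + u‖ ^ 2 ≤ (d + ‖u‖) ^ 2 := by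
      gcongr; exact norm_add_le _ _
    have h5 : K / ‖x‖ * ‖y - x + u‖ ^ 2 ≤ K / ‖x‖ * (d + ‖u‖) ^ 2 := by gcongr
    rw [sub_apply]
    linarith
  have hd0 : 0 ≤ d := norm_nonneg _
  rcases hd0.eq_or_lt with h0 | h0
  · have : y = x := by
      rw [← sub_eq_zero, ← norm_eq_zero]; exact h0.symm
    subst this
    have : η = ζ := by rw [← h.nm_eq hx hζ, ← h.nm_eq hy hη]
    rw [this, sub_self, norm_zero]; positivity
  refine ContinuousLinearMap.opNorm_le_bound _ (by positivity) fun v => ?_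
  by_cases hv : v = 0
  · simp [hv]
  have hvn : 0 < ‖v‖ := norm_pos_iff.2 hv
  have key2 : ∀ w : E, ‖w‖ = d → (η - ζ) w ≤ 4 * (K / ‖x‖) * d ^ 2 := by
    intro w hw
    have := key w
    rw [hw] at this
    calc (η - ζ) w ≤ K / ‖x‖ * (d + d) ^ 2 := this
      _ = 4 * (K / ‖x‖) * d ^ 2 := by ring
  have hw : ‖(d / ‖v‖) • v‖ = d := by
    rw [norm_smul, Real.norm_of_nonneg (by positivity)]; field_simp
  have h1 := key2 _ hw
  have h2 := key2 (-((d / ‖v‖) • v)) (by rw [norm_neg, hw])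
  rw [map_neg, map_smul, smul_eq_mul] at h2
  rw [map_smul, smul_eq_mul] at h1
  have h3 : |d / ‖v‖ * (η - ζ) v| ≤ 4 * (K / ‖x‖) * d ^ 2 := abs_le.2 ⟨by linarith, h1⟩
  rw [abs_mul, abs_of_pos (by positivity)] at h3
  rw [Real.norm_eq_abs]
  have h4 : |(η - ζ) v| = (‖v‖ / d) * (d / ‖v‖ * |(η - ζ) v|) := by field_simp
  rw [h4]
  calc (‖v‖ / d) * (d / ‖v‖ * |(η - ζ) v|) ≤ (‖v‖ / d) * (4 * (K / ‖x‖) * d ^ 2) := by gcongr
    _ = 4 * (K / ‖x‖) * d * ‖v‖ := by field_simp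

lemma C11.LL_nm (h : C11 E) {x : E} (hx : x ≠ 0) : LL (nm (E := E)) x := by
  obtain ⟨K, hK0, hK⟩ := h.nm_lip
  have hn : 0 < ‖x‖ := norm_pos_iff.2 hx
  refine ⟨4 * (K / (‖x‖ / 2)), by positivity, ?_⟩
  have h1 : ∀ᶠ y in 𝓝 x, ‖x‖ / 2 < ‖y‖ :=
    continuous_norm.continuousAt.eventually (lt_mem_nhds (half_lt_self hn))
  have h2 : ∀ᶠ p : E × E in 𝓝 (x, x), ‖x‖ / 2 < ‖p.1‖ := (continuous_fst.tendsto (x, x)).eventually h1
  have h3 : ∀ᶠ p : E × E in 𝓝 (x, x), ‖x‖ / 2 < ‖p.2‖ := (continuous_snd.tendsto (x, x)).eventually h1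
  filter_upwards [h2, h3] with p hp1 hp2
  have h4 : p.1 ≠ 0 := norm_pos_iff.1 (by linarith)
  have h5 : p.2 ≠ 0 := norm_pos_iff.1 (by linarith)
  refine (hK p.2 p.1 h5 h4).trans ?_
  gcongr

/-- a `C11` norm is `C^1` away from the origin -/
theorem C11.contDiffOn (h : C11 E) : ContDiffOn ℝ 1 (fun z : E => ‖z‖) {0}ᶜ := by
  have ho : IsOpen ({0}ᶜ : Set E) := isOpen_compl_singleton
  have h1 : ContDiffOn ℝ (0 + 1) (fun z : E => ‖z‖) {0}ᶜ := by
    rw [contDiffOn_succ_iff_fderiv_of_isOpen ho]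
    refine ⟨fun x hx => (h.hasFDerivAt_norm hx).differentiableAt.differentiableWithinAt,
      by simp, ?_⟩
    rw [contDiffOn_zero]
    intro x hx
    exact (h.LL_nm hx).continuousAt.continuousWithinAt
  simpa using h1

/-- the gradient of a `C11` norm is locally Lipschitz away from the origin -/
theorem C11.locLip (h : C11 E) : LocallyLipschitzOn {0}ᶜ (nm (E := E)) :=
  LL.locLip fun _ hx => h.LL_nm hx


/-! ### `C^1` norms -/

lemma COne.contDiffAt (hN : ContDiffOn ℝ 1 (fun z : E => ‖z‖) {0}ᶜ) {x : E} (hx : x ≠ 0) :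
    ContDiffAt ℝ 1 (fun z : E => ‖z‖) x :=
  hN.contDiffAt (isOpen_compl_singleton.mem_nhds hx)

lemma COne.hasFDerivAt_norm (hN : ContDiffOn ℝ 1 (fun z : E => ‖z‖) {0}ᶜ) {x : E} (hx : x ≠ 0) :
    HasFDerivAt (fun z : E => ‖z‖) (nm x) x :=
  ((COne.contDiffAt hN hx).differentiableAt (by norm_num)).hasFDerivAt

lemma COne.continuousAt_nm (hN : ContDiffOn ℝ 1 (fun z : E => ‖z‖) {0}ᶜ) {x : E} (hx : x ≠ 0) :
    ContinuousAt (nm (E := E)) x := by
  have : ContDiffAt ℝ 0 (nm (E := E)) x := (COne.contDiffAt hN hx).fderiv_right (by norm_num)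
  exact this.continuousAt

/-- for a `C^1` norm the only norming functional is the derivative -/
theorem J_eq_nm (hN : ContDiffOn ℝ 1 (fun z : E => ‖z‖) {0}ᶜ) {x : E} (hx : x ≠ 0) :
    J x = {nm x} := by
  have key : ∀ ζ ∈ J x, ζ = nm x := by
    intro ζ hζ
    have h1 : HasFDerivAt (fun z : E => ‖z‖ - ζ z) (nm x - ζ) x :=
      (COne.hasFDerivAt_norm hN hx).sub ζ.hasFDerivAt
    have h2 : IsLocalMin (fun z : E => ‖z‖ - ζ z) x := by
      refine Eventually.of_forall fun z => ?_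
      have h3 : ζ z ≤ ‖z‖ := by
        have h4 := (Real.le_norm_self _).trans ((ζ.le_of_opNorm_le hζ.1 z))
        rwa [one_mul] at h4
      show ‖x‖ - ζ x ≤ ‖z‖ - ζ z
      rw [hζ.2]
      linarith
    have h4 := h2.hasFDerivAt_eq_zero h1
    exact (sub_eq_zero.1 h4).symm
  obtain ⟨ζ, hζ⟩ := J_nonempty x
  refine Set.eq_singleton_iff_unique_mem.2 ⟨?_, key⟩
  rw [← key ζ hζ]; exact hζ

lemma COne.nm_mem (hN : ContDiffOn ℝ 1 (fun z : E => ‖z‖) {0}ᶜ) {x : E} (hx : x ≠ 0) :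
    nm x ∈ J x := by
  rw [J_eq_nm hN hx]; exact Set.mem_singleton _

lemma COne.nm_self (hN : ContDiffOn ℝ 1 (fun z : E => ‖z‖) {0}ᶜ) {x : E} (hx : x ≠ 0) :
    nm x x = ‖x‖ := (COne.nm_mem hN hx).2

lemma COne.nm_smul (hN : ContDiffOn ℝ 1 (fun z : E => ‖z‖) {0}ᶜ) {x : E} (hx : x ≠ 0) {t : ℝ}
    (ht : 0 < t) : nm (t • x) = nm x := by
  have h1 := COne.nm_mem hN hx
  have h2 : nm x ∈ J (t • x) := by
    refine ⟨h1.1, ?_⟩
    rw [map_smul, h1.2, norm_smul, Real.norm_of_nonneg ht.le, smul_eq_mul]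
  rw [J_eq_nm hN (smul_ne_zero ht.ne' hx)] at h2
  exact (Set.mem_singleton_iff.1 h2).symm

/-- derivative of a test function -/
lemma COne.hasFDerivAt_test (hN : ContDiffOn ℝ 1 (fun z : E => ‖z‖) {0}ᶜ) {y : E} (hy : y ≠ 0)
    (q : E) (hQ : ‖q‖ • y - ‖y‖ • q ≠ 0) :
    HasFDerivAt (fun z : E => ‖‖q‖ • z - ‖z‖ • q‖)
      ((nm (‖q‖ • y - ‖y‖ • q)).comp
        (‖q‖ • ContinuousLinearMap.id ℝ E - (nm y).smulRight q)) y := by
  have h6 : HasFDerivAt (fun z : E => ‖q‖ • z - ‖z‖ • q)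
      (‖q‖ • ContinuousLinearMap.id ℝ E - (nm y).smulRight q) y :=
    ((hasFDerivAt_id y).const_smul _).sub ((COne.hasFDerivAt_norm hN hy).smul_const q)
  exact (COne.hasFDerivAt_norm hN hQ).comp y h6

/-- the tests separate vectors -/
lemma COne.sep (hN : ContDiffOn ℝ 1 (fun z : E => ‖z‖) {0}ᶜ) {y₀ : E} (hy₀ : y₀ ≠ 0) {v : E}
    (hn : nm y₀ v = 0)
    (hv : ∀ q : E, ‖q‖ • y₀ - ‖y₀‖ • q ≠ 0 →
      fderiv ℝ (fun z : E => ‖‖q‖ • z - ‖z‖ • q‖) y₀ v = 0) : v = 0 := by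
  by_contra hv0
  have hny₀ : 0 < ‖y₀‖ := norm_pos_iff.2 hy₀
  -- the curve
  let Q : ℝ → E := fun ε => ‖y₀ - ε • v‖ • y₀ - ‖y₀‖ • (y₀ - ε • v)
  have hline : HasDerivAt (fun ε : ℝ => y₀ - ε • v) (-v) 0 := by
    simpa using ((hasDerivAt_id (0 : ℝ)).smul_const v).const_sub y₀
  have hnd : HasDerivAt (fun ε : ℝ => ‖y₀ - ε • v‖) 0 0 := by
    have := (COne.hasFDerivAt_norm hN hy₀).comp_hasDerivAt_of_eq 0 hline (by simp)
    simpa [hn, Function.comp_def] using this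
  have hQd : HasDerivAt Q (‖y₀‖ • v) 0 := by
    have h := (hnd.smul_const y₀).sub (hline.const_smul ‖y₀‖)
    exact (h.congr_deriv (by simp)).congr_of_eventuallyEq
      (Eventually.of_forall fun ε => by simp [Q])
  have hQ0 : Q 0 = 0 := by simp [Q]
  have hlim : Tendsto (fun ε : ℝ => ε⁻¹ • Q ε) (𝓝[>] 0) (𝓝 (‖y₀‖ • v)) := by
    have := hQd.tendsto_slope_zero_right
    simpa [hQ0] using this
  have hlimne : ‖y₀‖ • v ≠ 0 := smul_ne_zero hny₀.ne' hv0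
  have hcont : ContinuousAt (fun z : E => nm z v) (‖y₀‖ • v) :=
    (COne.continuousAt_nm hN hlimne).clm_apply continuousAt_const
  have hlim2 : Tendsto (fun ε : ℝ => nm (ε⁻¹ • Q ε) v) (𝓝[>] 0) (𝓝 (nm (‖y₀‖ • v) v)) :=
    hcont.tendsto.comp hlim
  have hev : ∀ᶠ ε in 𝓝[>] (0 : ℝ), nm (ε⁻¹ • Q ε) v = 0 := by
    have hne : ∀ᶠ ε in 𝓝[>] (0 : ℝ), ε⁻¹ • Q ε ≠ 0 := hlim.eventually_ne hlimne
    have hq0 : ∀ᶠ ε in 𝓝[>] (0 : ℝ), y₀ - ε • v ≠ 0 := by
      have h1 : Tendsto (fun ε : ℝ => y₀ - ε • v) (𝓝[>] 0) (𝓝 (y₀ - (0 : ℝ) • v)) :=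
        (hline.continuousAt.tendsto).mono_left nhdsWithin_le_nhds
      have h2 : y₀ - (0 : ℝ) • v ≠ 0 := by simpa using hy₀
      exact h1.eventually_ne h2
    filter_upwards [hne, hq0, self_mem_nhdsWithin] with ε hε hqε hpos
    have hpos' : (0 : ℝ) < ε := hpos
    have hQne : Q ε ≠ 0 := fun h0 => hε (by rw [h0, smul_zero])
    rw [COne.nm_smul hN hQne (inv_pos.2 hpos')]
    have h5 := hv (y₀ - ε • v) hQne
    rw [(COne.hasFDerivAt_test hN hy₀ (y₀ - ε • v) hQne).fderiv] at h5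
    have h8 : ‖y₀ - ε • v‖ * nm (Q ε) v = 0 := by
      simpa [hn] using h5
    rcases mul_eq_zero.1 h8 with h9 | h9
    · exact absurd (norm_eq_zero.1 h9) hqε
    · exact h9
  have h10 : nm (‖y₀‖ • v) v = 0 :=
    tendsto_nhds_unique (hlim2.congr' hev) tendsto_const_nhds
  rw [COne.nm_smul hN hv0 hny₀, COne.nm_self hN hv0] at h10
  exact hv0 (norm_eq_zero.1 h10)

variable {X Y : Type*} [NormedAddCommGroup X] [NormedSpace ℝ X] [FiniteDimensional ℝ X]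
  [NormedAddCommGroup Y] [NormedSpace ℝ Y] [FiniteDimensional ℝ Y]

/-- the test functions -/
noncomputable def tst {E : Type*} [NormedAddCommGroup E] [NormedSpace ℝ E] (o : Option E) :
    E → ℝ := match o with
    | none => fun y => ‖y‖
    | some q => fun y => ‖‖q‖ • y - ‖y‖ • q‖

/-- the good test functions at `y₀` -/
def tstS {E : Type*} [NormedAddCommGroup E] [NormedSpace ℝ E] (y₀ : E) : Set (Option E) :=
  {o | ∀ q, o = some q → ‖q‖ • y₀ - ‖y₀‖ • q ≠ 0}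

lemma tst_contDiffAt (hN : ContDiffOn ℝ 1 (fun z : E => ‖z‖) {0}ᶜ) {y₀ : E} (hy₀ : y₀ ≠ 0)
    {o : Option E} (ho : o ∈ tstS y₀) : ContDiffAt ℝ 1 (tst o) y₀ := by
  rcases o with _ | q
  · exact COne.contDiffAt hN hy₀
  · have hne := ho q rfl
    have h1 : ContDiffAt ℝ 1 (fun y : E => ‖q‖ • y - ‖y‖ • q) y₀ :=
      (contDiffAt_id.const_smul _).sub ((COne.contDiffAt hN hy₀).smul contDiffAt_const)
    exact (COne.contDiffAt hN hne).comp y₀ h1

lemma tst_sep (hN : ContDiffOn ℝ 1 (fun z : E => ‖z‖) {0}ᶜ) {y₀ : E} (hy₀ : y₀ ≠ 0)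
    (v : E) (hv : ∀ o ∈ tstS y₀, fderiv ℝ (tst o) y₀ v = 0) : v = 0 := by
  refine COne.sep hN hy₀ (v := v) (hv none (by intro q hq; cases hq)) fun q hq => ?_
  exact hv (some q) (by intro q' hq'; cases hq'; exact hq)

/-- the corresponding test on the source -/
noncomputable def Ext.invF {φ : X → Y} (e : Ext φ) : Y → X := Function.surjInv e.surj

omit [FiniteDimensional ℝ X] [FiniteDimensional ℝ Y] in
lemma Ext.map_invF {φ : X → Y} (e : Ext φ) (q : Y) : φ (e.invF q) = q :=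
  Function.surjInv_eq e.surj q

omit [FiniteDimensional ℝ X] [FiniteDimensional ℝ Y] in
lemma Ext.tst_eq {φ : X → Y} (e : Ext φ) (o : Option Y) (x : X) :
    tst o (φ x) = tst (o.map e.invF) x := by
  rcases o with _ | q
  · exact e.norm x
  · show ‖‖q‖ • φ x - ‖φ x‖ • q‖ = ‖‖e.invF q‖ • x - ‖x‖ • e.invF q‖
    have h3 : ‖q‖ = ‖e.invF q‖ := by rw [← e.norm (e.invF q), e.map_invF]
    rw [h3, e.norm]
    have := e.ident x (e.invF q)
    rwa [e.map_invF] at this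

omit [FiniteDimensional ℝ X] [FiniteDimensional ℝ Y] in
lemma Ext.tstS_map {φ : X → Y} (e : Ext φ) {x₀ : X} {o : Option Y} (ho : o ∈ tstS (φ x₀)) :
    o.map e.invF ∈ tstS x₀ := by
  rcases o with _ | q
  · intro q hq; cases hq
  · intro q' hq' h0
    cases hq'
    have h1 : ‖e.invF q‖ • x₀ = ‖x₀‖ • e.invF q := sub_eq_zero.1 h0
    have h2 := congrArg φ h1
    rw [e.smul, e.smul, e.map_invF] at h2
    apply ho q rfl
    have h3 : ‖q‖ = ‖e.invF q‖ := by rw [← e.norm (e.invF q), e.map_invF]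
    rw [h3, e.norm, h2, sub_self]

/-- `C^1` version of `Ext.contDiffAt` -/
theorem Ext.contDiffAt_one {φ : X → Y} (e : Ext φ)
    (hX : ContDiffOn ℝ 1 (fun z : X => ‖z‖) {0}ᶜ) (hY : ContDiffOn ℝ 1 (fun z : Y => ‖z‖) {0}ᶜ)
    {x₀ : X} (hx₀ : x₀ ≠ 0) : ContDiffAt ℝ 1 φ x₀ := by
  have hy₀ : φ x₀ ≠ 0 := e.ne_zero hx₀
  refine contDiffAt_of_tests (by norm_num) e.continuous.continuousAt (tstS (φ x₀)) tst
    (fun o => tst (o.map e.invF)) ?_ ?_ ?_ ?_
  · intro o ho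
    exact tst_contDiffAt hY hy₀ ho
  · intro o ho
    exact tst_contDiffAt hX hx₀ (e.tstS_map ho)
  · intro o _
    exact Eventually.of_forall fun x => e.tst_eq o x
  · exact fun v hv => tst_sep hY hy₀ v hv

lemma tst_differentiableAt (h : C11 E) {y₀ : E} (hy₀ : y₀ ≠ 0)
    {o : Option E} (ho : o ∈ tstS y₀) : ∀ᶠ y in 𝓝 y₀, DifferentiableAt ℝ (tst o) y :=
  ((tst_contDiffAt h.contDiffOn hy₀ ho).eventually (by simp)).mono fun y hy =>
    hy.differentiableAt (by norm_num)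

lemma tst_LL (h : C11 E) {y₀ : E} (hy₀ : y₀ ≠ 0)
    {o : Option E} (ho : o ∈ tstS y₀) : LL (fderiv ℝ (tst o)) y₀ := by
  rcases o with _ | q
  · exact h.LL_nm hy₀
  · have hne := ho q rfl
    have hN := h.contDiffOn
    have h1 : ContDiffAt ℝ 1 (fun y : E => ‖q‖ • y - ‖y‖ • q) y₀ :=
      (contDiffAt_id.const_smul _).sub ((COne.contDiffAt hN hy₀).smul contDiffAt_const)
    have h2 : LL (fun y : E => nm (‖q‖ • y - ‖y‖ • q)) y₀ :=
      LL.comp (f := nm (E := E)) (g := fun y : E => ‖q‖ • y - ‖y‖ • q) (h.LL_nm hne)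
        (LL.of_contDiffAt h1)
    have h3 : LL (fun y : E => ‖q‖ • ContinuousLinearMap.id ℝ E - (nm y).smulRight q) y₀ := by
      have h4 : ContDiff ℝ 1 (fun L : E →L[ℝ] ℝ =>
          ‖q‖ • ContinuousLinearMap.id ℝ E - L.smulRight q) := by
        have : (fun L : E →L[ℝ] ℝ => ‖q‖ • ContinuousLinearMap.id ℝ E - L.smulRight q) =
            fun L : E →L[ℝ] ℝ => ‖q‖ • ContinuousLinearMap.id ℝ E -
              (ContinuousLinearMap.smulRightL ℝ E E).flip q L := by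
          ext L v; simp
        rw [this]
        exact contDiff_const.sub (ContinuousLinearMap.contDiff _)
      exact LL.comp (f := fun L : E →L[ℝ] ℝ =>
          ‖q‖ • ContinuousLinearMap.id ℝ E - L.smulRight q) (g := nm (E := E))
        (LL.of_contDiffAt h4.contDiffAt) (h.LL_nm hy₀)
    have h5 : ContDiff ℝ 1 (fun p : (E →L[ℝ] ℝ) × (E →L[ℝ] E) => p.1.comp p.2) :=
      contDiff_fst.clm_comp contDiff_snd
    have h6 := LL.comp (f := fun p : (E →L[ℝ] ℝ) × (E →L[ℝ] E) => p.1.comp p.2)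
      (LL.of_contDiffAt h5.contDiffAt) (h2.prodMk h3)
    refine h6.congr ?_
    have h7 : ∀ᶠ y in 𝓝 y₀, ‖q‖ • y - ‖y‖ • q ≠ 0 := h1.continuousAt.eventually_ne hne
    filter_upwards [h7, isOpen_compl_singleton.mem_nhds hy₀] with y hy1 hy2
    exact (COne.hasFDerivAt_test hN hy2 q hy1).fderiv

lemma LL_smulRight {D G V : Type*} [NormedAddCommGroup D] [NormedAddCommGroup G] [NormedSpace ℝ G]
    [NormedAddCommGroup V] [NormedSpace ℝ V] {f : D → (G →L[ℝ] ℝ)} {x : D}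
    (c : V) (hf : LL f x) : LL (fun z => (f z).smulRight c) x := by
  have h4 : ContDiff ℝ 1 (fun L : G →L[ℝ] ℝ => L.smulRight c) := by
    have : (fun L : G →L[ℝ] ℝ => L.smulRight c) =
        fun L : G →L[ℝ] ℝ => (ContinuousLinearMap.smulRightL ℝ G V).flip c L := by
      ext L v; simp
    rw [this]
    exact ContinuousLinearMap.contDiff _
  exact LL.comp (f := fun L : G →L[ℝ] ℝ => L.smulRight c) (g := f)
    (LL.of_contDiffAt h4.contDiffAt) hf

/-- the derivative of `φ` is locally Lipschitz -/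
theorem Ext.locLip_fderiv {φ : X → Y} (e : Ext φ) (hX : C11 X) (hY : C11 Y) :
    LocallyLipschitzOn {0}ᶜ (fderiv ℝ φ) := by
  classical
  refine LL.locLip fun x₀ hx₀' => ?_
  have hx₀ : x₀ ≠ 0 := hx₀'
  have hy₀ : φ x₀ ≠ 0 := e.ne_zero hx₀
  obtain ⟨s, hsS, hs⟩ := exists_finite_tests (tstS (φ x₀)) (fun o => fderiv ℝ (tst o) (φ x₀))
    (fun v hv => tst_sep hY.contDiffOn hy₀ v hv)
  let D : Y →ₗ[ℝ] (s → ℝ) := LinearMap.pi fun i : s =>
    (fderiv ℝ (tst (i : Option Y)) (φ x₀) : Y →ₗ[ℝ] ℝ)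
  have hinj : LinearMap.ker D = ⊥ := by
    rw [LinearMap.ker_eq_bot']
    intro v hv
    apply hs
    intro i hi
    exact congrFun hv ⟨i, hi⟩
  obtain ⟨p, hp⟩ := D.exists_leftInverse_of_injective hinj
  let c : s → Y := fun i => p (Pi.single i 1)
  let A : Y → (Y →L[ℝ] Y) := fun y => ∑ i : s, (fderiv ℝ (tst (i : Option Y)) y).smulRight (c i)
  let B : X → (X →L[ℝ] Y) := fun x =>
    ∑ i : s, (fderiv ℝ (tst ((i : Option Y).map e.invF)) x).smulRight (c i)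
  have hA0 : A (φ x₀) = ContinuousLinearMap.id ℝ Y := by
    ext v
    have h1 : p (D v) = v := LinearMap.congr_fun hp v
    have h2 : D v = ∑ i : s, (D v i) • (Pi.single i 1 : s → ℝ) := by
      funext j
      simp [Finset.sum_apply, Pi.single_apply]
    rw [h2, map_sum] at h1
    simp only [map_smul] at h1
    simp only [A, _root_.sum_apply, ContinuousLinearMap.smulRight_apply,
      ContinuousLinearMap.id_apply]
    exact h1
  have hLA : LL (fun x => A (φ x)) x₀ := by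
    have hφ : LL φ x₀ := ⟨3, by norm_num, Eventually.of_forall fun p => e.norm_sub_le _ _⟩
    refine LL.comp (f := A) (LL.sum _ fun i _ => ?_) hφ
    exact LL_smulRight _ (tst_LL hY hy₀ (hsS i.2))
  have hLB : LL B x₀ :=
    LL.sum _ fun i _ => LL_smulRight _ (tst_LL hX hx₀ (e.tstS_map (hsS i.2)))
  -- the equation `A (φ x) ∘ φ'(x) = B x`
  have hφd : ∀ᶠ x in 𝓝 x₀, DifferentiableAt ℝ φ x := by
    filter_upwards [isOpen_compl_singleton.mem_nhds hx₀] with x hx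
    exact (e.contDiffAt_one hX.contDiffOn hY.contDiffOn hx).differentiableAt (by norm_num)
  have heq : ∀ᶠ x in 𝓝 x₀, (A (φ x)).comp (fderiv ℝ φ x) = B x := by
    have h1 : ∀ᶠ x in 𝓝 x₀, ∀ i : s, DifferentiableAt ℝ (tst (i : Option Y)) (φ x) :=
      Filter.eventually_all.2 fun i =>
        e.continuous.continuousAt.eventually (tst_differentiableAt hY hy₀ (hsS i.2))
    filter_upwards [hφd, h1] with x hx1 hx2
    ext v
    simp only [A, B, ContinuousLinearMap.comp_apply, _root_.sum_apply,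
      ContinuousLinearMap.smulRight_apply]
    refine Finset.sum_congr rfl fun i _ => ?_
    have h2 : HasFDerivAt (tst ((i : Option Y).map e.invF))
        ((fderiv ℝ (tst (i : Option Y)) (φ x)).comp (fderiv ℝ φ x)) x := by
      have h3 := (hx2 i).hasFDerivAt.comp x hx1.hasFDerivAt
      refine h3.congr_of_eventuallyEq (Eventually.of_forall fun z => ?_)
      exact (e.tst_eq _ z).symm
    rw [h2.fderiv]; rfl
  have hfd : ∀ x, ‖fderiv ℝ φ x‖ ≤ 3 := by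
    intro x
    by_cases hx : DifferentiableAt ℝ φ x
    · have h1 : LipschitzWith 3 φ := LipschitzWith.of_dist_le_mul fun x y => by
        rw [dist_eq_norm, dist_eq_norm]
        simpa using e.norm_sub_le x y
      have := hx.hasFDerivAt.le_of_lipschitz h1
      simpa using this
    · rw [fderiv_zero_of_not_differentiableAt hx, norm_zero]; norm_num
  have hnear : ∀ᶠ x in 𝓝 x₀, ‖A (φ x) - ContinuousLinearMap.id ℝ Y‖ ≤ 1 / 2 := by
    have h1 : Tendsto (fun x => ‖A (φ x) - ContinuousLinearMap.id ℝ Y‖) (𝓝 x₀)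
        (𝓝 ‖A (φ x₀) - ContinuousLinearMap.id ℝ Y‖) :=
      (hLA.continuousAt.tendsto.sub_const _).norm
    rw [hA0, sub_self, norm_zero] at h1
    exact (h1.eventually (gt_mem_nhds (by norm_num : (0:ℝ) < 1 / 2))).mono fun x hx => hx.le
  obtain ⟨KA, hKA, hLA⟩ := hLA
  obtain ⟨KB, hKB, hLB⟩ := hLB
  refine ⟨2 * (KB + KA * 3), by positivity, ?_⟩
  have f1 : Tendsto (Prod.fst : X × X → X) (𝓝 (x₀, x₀)) (𝓝 x₀) := continuous_fst.tendsto (x₀, x₀)
  have f2 : Tendsto (Prod.snd : X × X → X) (𝓝 (x₀, x₀)) (𝓝 x₀) := continuous_snd.tendsto (x₀, x₀)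
  filter_upwards [hLA, hLB, f1.eventually heq, f2.eventually heq, f1.eventually hnear]
    with q hq1 hq2 hq3 hq4 hq5
  set T := fderiv ℝ φ q.1 - fderiv ℝ φ q.2 with hT
  have e1 : (A (φ q.1)).comp T = (B q.1 - B q.2) -
      (A (φ q.1) - A (φ q.2)).comp (fderiv ℝ φ q.2) := by
    rw [hT, ContinuousLinearMap.comp_sub, hq3, ContinuousLinearMap.sub_comp, hq4]
    abel
  have e2 : ‖(A (φ q.1)).comp T‖ ≤ KB * ‖q.1 - q.2‖ + KA * ‖q.1 - q.2‖ * 3 := by
    rw [e1]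
    refine (_root_.norm_sub_le _ _).trans (add_le_add hq2 ?_)
    refine (ContinuousLinearMap.opNorm_comp_le _ _).trans ?_
    exact mul_le_mul hq1 (hfd _) (norm_nonneg _) (by positivity)
  have e3 : T = (A (φ q.1)).comp T - (A (φ q.1) - ContinuousLinearMap.id ℝ Y).comp T := by
    rw [ContinuousLinearMap.sub_comp, ContinuousLinearMap.id_comp]
    abel
  have e4 : ‖T‖ ≤ ‖(A (φ q.1)).comp T‖ + 1 / 2 * ‖T‖ := by
    nth_rewrite 1 [e3]
    refine (_root_.norm_sub_le _ _).trans (add_le_add le_rfl ?_)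
    refine (ContinuousLinearMap.opNorm_comp_le _ _).trans ?_
    gcongr
  linarith

end Vale.P084
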