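import Mathlib
import Vale.Agent.P084.C1
import Vale.Agent.P084.C11
import Vale.Agent.P084.AlgLemma

/-!
# P084, Part II: pointwise second-order relations for `C^1` norms
-/

namespace Vale.P084

open Metric Filter Topology

variable {X Y : Type*} [NormedAddCommGroup X] [NormedSpace ℝ X] [FiniteDimensional ℝ X]
  [NormedAddCommGroup Y] [NormedSpace ℝ Y] [FiniteDimensional ℝ Y]

/-- data for Part II -/
structure Dat1 (φ : X → Y) : Prop where
  hX : C1 X
  hY : C1 Y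
  e : Ext φ

namespace Dat1

variable {φ : X → Y} (d : Dat1 φ)
include d

lemma cd {x : X} (hx : x ≠ 0) : ContDiffAt ℝ 1 φ x := d.e.contDiffAt_one d.hX d.hY hx

lemma hF {x : X} (hx : x ≠ 0) : HasFDerivAt φ (fderiv ℝ φ x) x :=
  ((d.cd hx).differentiableAt (by norm_num)).hasFDerivAt

lemma F_self {x : X} (hx : x ≠ 0) : fderiv ℝ φ x x = φ x := by
  have h1 : HasDerivAt (fun t : ℝ => t • x) x 1 := by
    simpa using (hasDerivAt_id (1 : ℝ)).smul_const x
  have h2 : HasDerivAt (fun t : ℝ => φ (t • x)) (fderiv ℝ φ x x) 1 :=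
    (d.hF hx).comp_hasDerivAt_of_eq 1 h1 (by simp)
  have h3 : HasDerivAt (fun t : ℝ => φ (t • x)) (φ x) 1 := by
    have h4 : HasDerivAt (fun t : ℝ => t • φ x) (φ x) 1 := by
      simpa using (hasDerivAt_id (1 : ℝ)).smul_const (φ x)
    exact h4.congr_of_eventuallyEq (Eventually.of_forall fun t => d.e.smul t x)
  exact h2.unique h3

lemma F_smul {x : X} (hx : x ≠ 0) {t : ℝ} (ht : t ≠ 0) : fderiv ℝ φ (t • x) = fderiv ℝ φ x := by
  have h1 : HasFDerivAt (fun z : X => t • z) (t • ContinuousLinearMap.id ℝ X) x :=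
    (hasFDerivAt_id x).const_smul t
  have h2 : HasFDerivAt (fun z : X => φ (t • z)) ((fderiv ℝ φ (t • x)).comp
      (t • ContinuousLinearMap.id ℝ X)) x :=
    (d.hF (x := t • x) (smul_ne_zero ht hx)).comp x h1
  have h3 : HasFDerivAt (fun z : X => φ (t • z)) (t • fderiv ℝ φ x) x :=
    ((d.hF hx).const_smul t).congr_of_eventuallyEq (Eventually.of_forall fun z => d.e.smul t z)
  have h5 := h2.unique h3
  ext v
  have h6 := congrArg (fun L : X →L[ℝ] Y => L v) h5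
  have h7 : t • fderiv ℝ φ (t • x) v = t • fderiv ℝ φ x v := by simpa using h6
  exact smul_right_injective Y ht h7

/-- (D1) -/
lemma nm_F {x : X} (hx : x ≠ 0) (v : X) : nm (φ x) (fderiv ℝ φ x v) = nm x v := by
  have h1 : HasFDerivAt (fun z => ‖φ z‖) ((nm (φ x)).comp (fderiv ℝ φ x)) x :=
    (d.hY.hasFDerivAt (d.e.ne_zero hx)).comp x (d.hF hx)
  have h2 : HasFDerivAt (fun z => ‖φ z‖) (nm x) x :=
    (d.hX.hasFDerivAt hx).congr_of_eventuallyEq (Eventually.of_forall fun z => d.e.norm z)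
  have := congrArg (fun L : X →L[ℝ] ℝ => L v) (h1.unique h2)
  simpa using this

omit d [FiniteDimensional ℝ X] [FiniteDimensional ℝ Y] in
lemma norm_deriv_eq {a : ℝ → X} {b : ℝ → Y} {a' : X} {b' : Y}
    (ha : HasDerivAt a a' 0) (hb : HasDerivAt b b' 0) (ha0 : a 0 = 0) (hb0 : b 0 = 0)
    (hab : ∀ t, ‖a t‖ = ‖b t‖) : ‖a'‖ = ‖b'‖ := by
  have h1 : Tendsto (fun t : ℝ => ‖t⁻¹ • a t‖) (𝓝[>] 0) (𝓝 ‖a'‖) := by
    have := ha.tendsto_slope_zero_right.norm
    simpa [ha0] using this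
  have h2 : Tendsto (fun t : ℝ => ‖t⁻¹ • b t‖) (𝓝[>] 0) (𝓝 ‖b'‖) := by
    have := hb.tendsto_slope_zero_right.norm
    simpa [hb0] using this
  refine tendsto_nhds_unique h1 (h2.congr fun t => ?_)
  rw [norm_smul, norm_smul, hab]

/-- (D2') -/
lemma norm_F {x : X} (hx : x ≠ 0) (v : X) :
    ‖‖x‖ • fderiv ℝ φ x v - nm x v • φ x‖ = ‖‖x‖ • v - nm x v • x‖ := by
  have hline : HasDerivAt (fun t : ℝ => x + t • v) v 0 := by
    simpa using ((hasDerivAt_id (0 : ℝ)).smul_const v).const_add x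
  have hn : HasDerivAt (fun t : ℝ => ‖x + t • v‖) (nm x v) 0 :=
    (d.hX.hasFDerivAt hx).comp_hasDerivAt_of_eq 0 hline (by simp)
  have hφ : HasDerivAt (fun t : ℝ => φ (x + t • v)) (fderiv ℝ φ x v) 0 :=
    (d.hF hx).comp_hasDerivAt_of_eq 0 hline (by simp)
  have ha : HasDerivAt (fun t : ℝ => ‖x + t • v‖ • φ x - ‖x‖ • φ (x + t • v))
      (nm x v • φ x - ‖x‖ • fderiv ℝ φ x v) 0 := (hn.smul_const (φ x)).sub (hφ.const_smul ‖x‖)
  have hb : HasDerivAt (fun t : ℝ => ‖x + t • v‖ • x - ‖x‖ • (x + t • v))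
      (nm x v • x - ‖x‖ • v) 0 := (hn.smul_const x).sub (hline.const_smul ‖x‖)
  have := norm_deriv_eq hb ha (by simp) (by simp) (fun t => (d.e.ident x (x + t • v)).symm)
  rw [← norm_neg, neg_sub, ← this, ← norm_neg, neg_sub]

lemma norm_F_tan {x : X} (hx : x ≠ 0) {v : X} (hv : nm x v = 0) : ‖fderiv ℝ φ x v‖ = ‖v‖ := by
  have h1 := d.norm_F hx v
  rw [hv, zero_smul, zero_smul, sub_zero, sub_zero, norm_smul, norm_smul] at h1
  have hx' : ‖‖x‖‖ ≠ 0 := by rw [norm_norm]; exact norm_ne_zero_iff.2 hx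
  exact mul_left_cancel₀ hx' h1

lemma F_ne_zero {x : X} (hx : x ≠ 0) {v : X} (hv : nm x v = 0) (hv0 : v ≠ 0) :
    fderiv ℝ φ x v ≠ 0 := by
  intro h0
  have := d.norm_F_tan hx hv
  rw [h0, norm_zero] at this
  exact hv0 (norm_eq_zero.1 this.symm)

/-- (R1+) -/
lemma first_add {x y : X} (hx : x ≠ 0) (hxy : ‖y‖ • x + ‖x‖ • y ≠ 0) (u : X) :
    nm (‖y‖ • φ x + ‖x‖ • φ y) (‖y‖ • fderiv ℝ φ x u + nm x u • φ y) =
      nm (‖y‖ • x + ‖x‖ • y) (‖y‖ • u + nm x u • y) := by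
  have hP : ‖y‖ • φ x + ‖x‖ • φ y ≠ 0 := by
    intro h0
    have h1 := d.e.ident_add x y
    rw [h0, norm_zero] at h1
    exact hxy (norm_eq_zero.1 h1.symm)
  have hn := d.hX.hasFDerivAt hx
  have h1 : HasFDerivAt (fun z : X => ‖y‖ • φ z + ‖z‖ • φ y)
      (‖y‖ • fderiv ℝ φ x + (nm x).smulRight (φ y)) x :=
    ((d.hF hx).const_smul ‖y‖).add (hn.smul_const (φ y))
  have h2 : HasFDerivAt (fun z : X => ‖y‖ • z + ‖z‖ • y)
      (‖y‖ • ContinuousLinearMap.id ℝ X + (nm x).smulRight y) x :=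
    ((hasFDerivAt_id x).const_smul ‖y‖).add (hn.smul_const y)
  have h3 := (d.hY.hasFDerivAt hP).comp x h1
  have h4 := (d.hX.hasFDerivAt hxy).comp x h2
  have h5 := h3.unique (h4.congr_of_eventuallyEq (Eventually.of_forall fun z =>
    d.e.ident_add z y))
  have := congrArg (fun L : X →L[ℝ] ℝ => L u) h5
  simpa using this

lemma F_inj {x : X} (hx : x ≠ 0) : Function.Injective (fderiv ℝ φ x) := by
  rw [injective_iff_map_eq_zero]
  intro v hv
  have h1 : nm x v = 0 := by rw [← d.nm_F hx, hv, map_zero]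
  by_contra hv0
  exact d.F_ne_zero hx h1 hv0 hv

end Dat1

lemma Ext.inj' {X Y : Type*} [NormedAddCommGroup X] [NormedSpace ℝ X] [NormedAddCommGroup Y]
    [NormedSpace ℝ Y] {φ : X → Y} (e : Ext φ) : Function.Injective φ := by
  intro x y hxy
  have h1 : ‖x‖ = ‖y‖ := by rw [← e.norm x, ← e.norm y, hxy]
  have h2 := e.dist x y h1
  rw [hxy, sub_self, norm_zero] at h2
  exact sub_eq_zero.1 (norm_eq_zero.1 h2.symm)

lemma Ext.inv' {X Y : Type*} [NormedAddCommGroup X] [NormedSpace ℝ X] [NormedAddCommGroup Y]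
    [NormedSpace ℝ Y] {φ : X → Y} (e : Ext φ) : Ext (Function.surjInv e.surj) := by
  have hr : ∀ y, φ (Function.surjInv e.surj y) = y := Function.surjInv_eq e.surj
  refine ⟨?_, ?_, ?_, ?_⟩
  · intro y
    rw [← e.norm, hr]
  · intro t y
    apply e.inj'
    rw [hr, e.smul, hr]
  · intro y z hyz
    rw [← e.dist, hr, hr]
    rw [← e.norm, ← e.norm, hr, hr, hyz]
  · intro x
    exact ⟨φ x, e.inj' (hr _)⟩

namespace Dat1

variable {φ : X → Y} (d : Dat1 φ)
include d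

lemma inv : Dat1 (Function.surjInv d.e.surj) := ⟨d.hY, d.hX, d.e.inv'⟩

/-- the derivative of `φ` is invertible -/
lemma exists_equiv {x : X} (hx : x ≠ 0) : ∃ A : X ≃L[ℝ] Y, (A : X →L[ℝ] Y) = fderiv ℝ φ x := by
  have hr : ∀ y, φ (Function.surjInv d.e.surj y) = y := Function.surjInv_eq d.e.surj
  have hxe : Function.surjInv d.e.surj (φ x) = x := d.e.inj' (hr _)
  have h1 := d.inv.hF (d.e.ne_zero hx)
  have h2 : HasFDerivAt φ (fderiv ℝ φ x) (Function.surjInv d.e.surj (φ x)) := by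
    rw [hxe]; exact d.hF hx
  have h3 := h2.comp (φ x) h1
  have h4 : HasFDerivAt (φ ∘ Function.surjInv d.e.surj) (ContinuousLinearMap.id ℝ Y) (φ x) := by
    have : φ ∘ Function.surjInv d.e.surj = id := funext hr
    rw [this]; exact hasFDerivAt_id _
  have h5 := h3.unique h4
  have hsurj : Function.Surjective (fderiv ℝ φ x) := by
    intro y
    refine ⟨fderiv ℝ (Function.surjInv d.e.surj) (φ x) y, ?_⟩
    have := congrArg (fun L : Y →L[ℝ] Y => L y) h5
    simpa using this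
  let A : X ≃ₗ[ℝ] Y := LinearEquiv.ofBijective (fderiv ℝ φ x : X →ₗ[ℝ] Y) ⟨d.F_inj hx, hsurj⟩
  refine ⟨A.toContinuousLinearEquiv, ?_⟩
  ext v
  rfl

/-- at a point where `nm` and `fderiv φ` are differentiable, `nm` is differentiable at `φ x` -/
lemma differentiableAt_nm {x : X} (hx : x ≠ 0) (hA : DifferentiableAt ℝ (nm (E := X)) x)
    (hG : DifferentiableAt ℝ (fderiv ℝ φ) x) : DifferentiableAt ℝ (nm (E := Y)) (φ x) := by
  obtain ⟨A, hAeq⟩ := d.exists_equiv hx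
  have h1 : DifferentiableAt ℝ (fun z => ContinuousLinearMap.inverse (fderiv ℝ φ z)) x := by
    have h2 : DifferentiableAt ℝ (ContinuousLinearMap.inverse : (X →L[ℝ] Y) → (Y →L[ℝ] X))
        (fderiv ℝ φ x) := by
      rw [← hAeq]
      exact (contDiffAt_map_inverse (n := 1) A).differentiableAt (by norm_num)
    exact h2.comp x hG
  have h3 : (fun z => nm (φ z)) =ᶠ[𝓝 x] fun z =>
      (nm z).comp (ContinuousLinearMap.inverse (fderiv ℝ φ z)) := by
    filter_upwards [isOpen_compl_singleton.mem_nhds hx] with z hz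
    obtain ⟨B, hB⟩ := d.exists_equiv hz
    rw [← hB, ContinuousLinearMap.inverse_equiv]
    ext w
    show nm (φ z) w = nm z (B.symm w)
    rw [← d.nm_F hz, ← hB]
    show nm (φ z) w = nm (φ z) (B (B.symm w))
    rw [B.apply_symm_apply]
  have h4 : DifferentiableAt ℝ (fun z => nm (φ z)) x :=
    (hA.clm_comp h1).congr_of_eventuallyEq h3
  have hr : ∀ y, φ (Function.surjInv d.e.surj y) = y := Function.surjInv_eq d.e.surj
  have hxe : Function.surjInv d.e.surj (φ x) = x := d.e.inj' (hr _)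
  have h5 : DifferentiableAt ℝ (Function.surjInv d.e.surj) (φ x) :=
    (d.inv.hF (d.e.ne_zero hx)).differentiableAt
  have h6 : DifferentiableAt ℝ (fun z => nm (φ z)) (Function.surjInv d.e.surj (φ x)) := by
    rwa [hxe]
  have h7 := h6.comp (φ x) h5
  have h8 : ((fun z => nm (φ z)) ∘ Function.surjInv d.e.surj) = nm (E := Y) := by
    funext y
    show nm (φ (Function.surjInv d.e.surj y)) = nm y
    rw [hr]
  rwa [h8] at h7

section point

variable {x : X} (hx : x ≠ 0) {H : X →L[ℝ] X →L[ℝ] ℝ} {H' : Y →L[ℝ] Y →L[ℝ] ℝ}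
  {G : X →L[ℝ] X →L[ℝ] Y} (hH : HasFDerivAt (nm (E := X)) H x)
  (hH' : HasFDerivAt (nm (E := Y)) H' (φ x)) (hG : HasFDerivAt (fderiv ℝ φ) G x)

include hx hG in
lemma G_symm (u v : X) : G u v = G v u := by
  have h1 : ∀ᶠ y in 𝓝 x, HasFDerivAt φ (fderiv ℝ φ y) y := by
    filter_upwards [isOpen_compl_singleton.mem_nhds hx] with y hy
    exact d.hF hy
  exact second_derivative_symmetric_of_eventually h1 hG u v

include hx hG in
lemma G_self (v : X) : G x v = 0 := by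
  have h1 : HasDerivAt (fun t : ℝ => t • x) x 1 := by
    simpa using (hasDerivAt_id (1 : ℝ)).smul_const x
  have h2 : HasDerivAt (fun t : ℝ => fderiv ℝ φ (t • x)) (G x) 1 :=
    hG.comp_hasDerivAt_of_eq 1 h1 (by simp)
  have h3 : HasDerivAt (fun t : ℝ => fderiv ℝ φ (t • x)) 0 1 := by
    refine (hasDerivAt_const (1 : ℝ) (fderiv ℝ φ x)).congr_of_eventuallyEq ?_
    filter_upwards [Ioi_mem_nhds (show (0 : ℝ) < 1 by norm_num)] with t ht
    exact d.F_smul hx (ne_of_gt ht)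
  have := h2.unique h3
  rw [this]; rfl

include hx hH hH' in
/-- (D3') the second fundamental forms agree -/
lemma H_F (w u : X) : H' (fderiv ℝ φ x w) (fderiv ℝ φ x u) = H w u := by
  have hφx := d.e.ne_zero hx
  have hnx : 0 < ‖x‖ := norm_pos_iff.2 hx
  have hline : HasDerivAt (fun t : ℝ => x + t • w) w 0 := by
    simpa using ((hasDerivAt_id (0 : ℝ)).smul_const w).const_add x
  have hn : HasDerivAt (fun t : ℝ => ‖x + t • w‖) (nm x w) 0 :=
    (d.hX.hasFDerivAt hx).comp_hasDerivAt_of_eq 0 hline (by simp)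
  have hφ : HasDerivAt (fun t : ℝ => φ (x + t • w)) (fderiv ℝ φ x w) 0 :=
    (d.hF hx).comp_hasDerivAt_of_eq 0 hline (by simp)
  have hPd : HasDerivAt (fun t : ℝ => ‖x + t • w‖ • φ x + ‖x‖ • φ (x + t • w))
      (nm x w • φ x + ‖x‖ • fderiv ℝ φ x w) 0 := (hn.smul_const (φ x)).add (hφ.const_smul ‖x‖)
  have hQd : HasDerivAt (fun t : ℝ => ‖x + t • w‖ • x + ‖x‖ • (x + t • w))
      (nm x w • x + ‖x‖ • w) 0 := (hn.smul_const x).add (hline.const_smul ‖x‖)
  have hPd' : HasDerivAt (fun t : ℝ => ‖x + t • w‖ • fderiv ℝ φ x u + nm x u • φ (x + t • w))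
      (nm x w • fderiv ℝ φ x u + nm x u • fderiv ℝ φ x w) 0 :=
    (hn.smul_const _).add (hφ.const_smul (nm x u))
  have hQd' : HasDerivAt (fun t : ℝ => ‖x + t • w‖ • u + nm x u • (x + t • w))
      (nm x w • u + nm x u • w) 0 := (hn.smul_const _).add (hline.const_smul (nm x u))
  have h2x : (2 * ‖x‖) • x ≠ 0 := smul_ne_zero (by positivity) hx
  have h2φ : (2 * ‖x‖) • φ x ≠ 0 := smul_ne_zero (by positivity) hφx
  have hP0 : (2 * ‖x‖) • φ x = ‖x + (0 : ℝ) • w‖ • φ x + ‖x‖ • φ (x + (0 : ℝ) • w) := by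
    rw [zero_smul, add_zero]; module
  have hQ0 : (2 * ‖x‖) • x = ‖x + (0 : ℝ) • w‖ • x + ‖x‖ • (x + (0 : ℝ) • w) := by
    rw [zero_smul, add_zero]; module
  have hPn := (d.hY.hasFDerivAt_smul hφx hH' (by positivity : 0 < 2 * ‖x‖)).comp_hasDerivAt_of_eq
    0 hPd hP0
  have hQn := (d.hX.hasFDerivAt_smul hx hH (by positivity : 0 < 2 * ‖x‖)).comp_hasDerivAt_of_eq
    0 hQd hQ0
  have hL := hPn.clm_apply hPd'
  have hR := hQn.clm_apply hQd'
  have hev : (fun t : ℝ => nm (‖x + t • w‖ • φ x + ‖x‖ • φ (x + t • w))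
      (‖x + t • w‖ • fderiv ℝ φ x u + nm x u • φ (x + t • w))) =ᶠ[𝓝 0]
      (fun t : ℝ => nm (‖x + t • w‖ • x + ‖x‖ • (x + t • w))
      (‖x + t • w‖ • u + nm x u • (x + t • w))) := by
    have h1 : ∀ᶠ t in 𝓝 (0 : ℝ), ‖x + t • w‖ • x + ‖x‖ • (x + t • w) ≠ 0 := by
      apply hQd.continuousAt.eventually_ne
      rw [← hQ0]; exact h2x
    filter_upwards [h1] with t ht
    exact d.first_add hx ht u
  have h5 := (hL.congr_of_eventuallyEq hev.symm).unique hR
  simp only [zero_smul, add_zero, Function.comp_apply] at h5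
  have e1 : ‖x‖ • φ x + ‖x‖ • φ x = (2 * ‖x‖) • φ x := by module
  have e2 : ‖x‖ • x + ‖x‖ • x = (2 * ‖x‖) • x := by module
  rw [e1, e2, d.hY.nm_smul hφx (by positivity : 0 < 2 * ‖x‖),
    d.hX.nm_smul hx (by positivity : 0 < 2 * ‖x‖)] at h5
  simp only [map_add, map_smul, add_apply, FunLike.coe_smul, Pi.smul_apply,
    smul_eq_mul, d.hY.self_left hφx hH', d.hX.self_left hx hH, d.hY.self_right hφx hH',
    d.hX.self_right hx hH, d.nm_F hx, mul_zero, add_zero, zero_add] at h5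
  have h6 : ‖x‖ ≠ 0 := hnx.ne'
  field_simp at h5
  have h7 : ‖x‖ * H' (fderiv ℝ φ x w) (fderiv ℝ φ x u) = ‖x‖ * H w u := by linarith
  exact mul_left_cancel₀ h6 h7

include hx hH hH' hG in
/-- (D3) the second derivative is tangential -/
lemma nm_G (u v : X) : nm (φ x) (G u v) = 0 := by
  have h1 : HasFDerivAt (fun z => nm (φ z)) (H'.comp (fderiv ℝ φ x)) x := hH'.comp x (d.hF hx)
  have h2 : HasFDerivAt (fun z => fderiv ℝ φ z v) (G.flip v) x := hasFDerivAt_apply hG v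
  have h3 := h1.clm_apply h2
  have h4 : HasFDerivAt (fun z => nm z v) (H.flip v) x := hasFDerivAt_apply hH v
  have hev : (fun z => nm (φ z) (fderiv ℝ φ z v)) =ᶠ[𝓝 x] fun z => nm z v := by
    filter_upwards [isOpen_compl_singleton.mem_nhds hx] with y hy
    exact d.nm_F hy v
  have h5 := (h3.congr_of_eventuallyEq hev.symm).unique h4
  have h6 := congrArg (fun L : X →L[ℝ] ℝ => L u) h5
  simp only [add_apply, ContinuousLinearMap.comp_apply, ContinuousLinearMap.flip_apply] at h6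
  rw [d.H_F hx hH hH'] at h6
  linarith

include hx hH hG in
/-- (D4') -/
lemma star {v : X} (hv : nm x v = 0) (hv0 : v ≠ 0) (u : X) :
    ‖x‖ * nm (fderiv ℝ φ x v) (G u v) =
      H u v * (nm (fderiv ℝ φ x v) (φ x) - nm v x) := by
  have hnx : 0 < ‖x‖ := norm_pos_iff.2 hx
  have hFv := d.F_ne_zero hx hv hv0
  have hn := d.hX.hasFDerivAt hx
  have hnv : HasFDerivAt (fun z => nm z v) (H.flip v) x := hasFDerivAt_apply hH v
  have hFd : HasFDerivAt (fun z => fderiv ℝ φ z v) (G.flip v) x := hasFDerivAt_apply hG v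
  have h1 := (hn.smul hFd).sub (hnv.smul (d.hF hx))
  have h2 := (hn.smul_const v).sub (hnv.smul (hasFDerivAt_id x))
  have hP : ‖x‖ • fderiv ℝ φ x v - nm x v • φ x ≠ 0 := by
    rw [hv, zero_smul, sub_zero]; exact smul_ne_zero hnx.ne' hFv
  have hQ : ‖x‖ • v - nm x v • x ≠ 0 := by
    rw [hv, zero_smul, sub_zero]; exact smul_ne_zero hnx.ne' hv0
  have h3 := (d.hY.hasFDerivAt hP).comp x h1
  have h4 := (d.hX.hasFDerivAt hQ).comp x h2
  have hev : (fun z => ‖‖z‖ • v - nm z v • z‖) =ᶠ[𝓝 x]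
      fun z => ‖‖z‖ • fderiv ℝ φ z v - nm z v • φ z‖ := by
    filter_upwards [isOpen_compl_singleton.mem_nhds hx] with y hy
    exact (d.norm_F hy v).symm
  have h5 := h3.unique (h4.congr_of_eventuallyEq hev.symm)
  have h6 := congrArg (fun L : X →L[ℝ] ℝ => L u) h5
  have e1 : ‖x‖ • fderiv ℝ φ x v - nm x v • φ x = ‖x‖ • fderiv ℝ φ x v := by
    rw [hv, zero_smul, sub_zero]
  have e2 : ‖x‖ • v - nm x v • x = ‖x‖ • v := by rw [hv, zero_smul, sub_zero]
  rw [e1, e2, d.hY.nm_smul hFv hnx, d.hX.nm_smul hv0 hnx] at h6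
  simp only [sub_apply, add_apply, smul_apply, ContinuousLinearMap.comp_apply,
    ContinuousLinearMap.flip_apply, ContinuousLinearMap.smulRight_apply, map_add, map_sub,
    map_smul, smul_eq_mul, hv, zero_mul, d.hY.nm_self hFv, d.hX.nm_self hv0,
    d.norm_F_tan hx hv, ContinuousLinearMap.id_apply, id_eq] at h6
  linarith

end point

end Dat1


section restrict

variable {E : Type*} [NormedAddCommGroup E] [NormedSpace ℝ E] (h : C1 E) (T : Submodule ℝ E)
include h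

lemma C1.submodule : C1 T := by
  have h1 : ContDiffOn ℝ 1 (fun z : T => ‖(z : E)‖) {0}ᶜ := by
    refine ContDiffOn.comp (g := fun z : E => ‖z‖) (t := {0}ᶜ) h
      (T.subtypeL.contDiff.contDiffOn) ?_
    intro z hz
    simpa using hz
  exact h1

lemma C1.nm_coe {v : T} (hv : v ≠ 0) (u : T) : nm v u = nm (v : E) (u : E) := by
  have hv' : (v : E) ≠ 0 := by simpa using hv
  have h1 : HasFDerivAt (fun z : T => ‖z‖) (nm v) v := (h.submodule T).hasFDerivAt hv
  have h2 : HasFDerivAt (fun z : T => ‖(z : E)‖) ((nm (v : E)).comp T.subtypeL) v :=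
    (h.hasFDerivAt hv').comp v T.subtypeL.hasFDerivAt
  have h3 : HasFDerivAt (fun z : T => ‖z‖) ((nm (v : E)).comp T.subtypeL) v := h2
  have := congrArg (fun L : T →L[ℝ] ℝ => L u) (h1.unique h3)
  exact this

end restrict

/-- the second derivative of `φ` is a multiple of the second derivative of the norm -/
theorem Dat1.rel {φ : X → Y} (d : Dat1 φ) {x : X} (hx : x ≠ 0)
    (hA : DifferentiableAt ℝ (nm (E := X)) x) (hG : DifferentiableAt ℝ (fderiv ℝ φ) x) :
    ∃ k : Y, ‖k‖ ≤ 2 ∧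
      ∀ u v, fderiv ℝ (fderiv ℝ φ) x u v = fderiv ℝ (nm (E := X)) x u v • k := by
  have hA' := d.differentiableAt_nm hx hA hG
  have hH := hA.hasFDerivAt
  have hH' := hA'.hasFDerivAt
  have hG' := hG.hasFDerivAt
  set H := fderiv ℝ (nm (E := X)) x with hHdef
  set G := fderiv ℝ (fderiv ℝ φ) x with hGdef
  have hnx : 0 < ‖x‖ := norm_pos_iff.2 hx
  obtain ⟨A, hAF⟩ := d.exists_equiv hx
  have hAF' : ∀ v, A v = fderiv ℝ φ x v := fun v => by rw [← hAF]; rfl
  let T : Submodule ℝ X := LinearMap.ker (nm x : X →ₗ[ℝ] ℝ)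
  have memT : ∀ v, v ∈ T ↔ nm x v = 0 := fun v => Iff.rfl
  -- projection onto `T`
  let P₀ : X →L[ℝ] X := ContinuousLinearMap.id ℝ X - (nm x).smulRight (‖x‖⁻¹ • x)
  have hP₀ : ∀ v, P₀ v = v - nm x v • (‖x‖⁻¹ • x) := fun v => rfl
  have hP₀mem : ∀ v, P₀ v ∈ T := by
    intro v
    rw [memT, hP₀, map_sub, map_smul, map_smul, d.hX.nm_self hx, smul_eq_mul, smul_eq_mul,
      inv_mul_cancel₀ hnx.ne', mul_one, sub_self]
  let P : X →L[ℝ] T := P₀.codRestrict T hP₀mem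
  have hPT : ∀ v (hv : nm x v = 0), ((P v : T) : X) = v := by
    intro v hv
    show P₀ v = v
    rw [hP₀, hv, zero_smul, sub_zero]
  let Ai : Y →L[ℝ] X := (A.symm : Y →L[ℝ] X)
  have hAi : ∀ w, fderiv ℝ φ x (Ai w) = w := fun w => by
    rw [← hAF']; exact A.apply_symm_apply w
  let GT : T →L[ℝ] T →L[ℝ] T :=
    (ContinuousLinearMap.compL ℝ T Y T (P.comp Ai)).comp
      (((ContinuousLinearMap.compL ℝ T X Y).flip T.subtypeL).comp (G.comp T.subtypeL))
  have hGT0 : ∀ u v : T, GT u v = P (Ai (G (u : X) (v : X))) := fun u v => rfl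
  have hnmAi : ∀ w, nm x (Ai w) = nm (φ x) w := fun w => by rw [← d.nm_F hx, hAi]
  have hGT : ∀ u v : T, ((GT u v : T) : X) = Ai (G (u : X) (v : X)) := by
    intro u v
    rw [hGT0]
    apply hPT
    rw [hnmAi]
    exact d.nm_G hx hH hH' hG' _ _
  let HT : T →L[ℝ] T →L[ℝ] ℝ :=
    ((ContinuousLinearMap.compL ℝ T X ℝ).flip T.subtypeL).comp (H.comp T.subtypeL)
  have hHT : ∀ u v : T, HT u v = H (u : X) (v : X) := fun u v => rfl
  -- the isometry `F : T → T'`
  have hFnm : ∀ v w : X, nm x v = 0 → v ≠ 0 → nm x w = 0 →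
      nm (fderiv ℝ φ x v) (fderiv ℝ φ x w) = nm v w := by
    intro v w hv hv0 hw
    have hFv := d.F_ne_zero hx hv hv0
    have hline : HasDerivAt (fun t : ℝ => v + t • w) w 0 := by
      simpa using ((hasDerivAt_id (0 : ℝ)).smul_const w).const_add v
    have h1 : HasDerivAt (fun t : ℝ => ‖v + t • w‖) (nm v w) 0 :=
      (d.hX.hasFDerivAt hv0).comp_hasDerivAt_of_eq 0 hline (by simp)
    have hFl : HasDerivAt (fun t : ℝ => fderiv ℝ φ x (v + t • w)) (fderiv ℝ φ x w) 0 :=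
      (fderiv ℝ φ x).hasFDerivAt.comp_hasDerivAt 0 hline
    have h2 : HasDerivAt (fun t : ℝ => ‖fderiv ℝ φ x (v + t • w)‖)
        (nm (fderiv ℝ φ x v) (fderiv ℝ φ x w)) 0 :=
      (d.hY.hasFDerivAt hFv).comp_hasDerivAt_of_eq 0 hFl (by simp)
    have h3 : (fun t : ℝ => ‖fderiv ℝ φ x (v + t • w)‖) = fun t : ℝ => ‖v + t • w‖ := by
      funext t
      exact d.norm_F_tan hx (by rw [map_add, map_smul, hv, hw, smul_zero, add_zero])
    rw [h3] at h2
    exact h2.unique h1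
  let c : T → ℝ := fun v => (nm (fderiv ℝ φ x v) (φ x) - nm (v : X) x) / ‖x‖
  have hc2 : ∀ v, |c v| ≤ 2 := by
    intro v
    show |(nm (fderiv ℝ φ x v) (φ x) - nm (v : X) x) / ‖x‖| ≤ 2
    rw [abs_div, abs_norm, div_le_iff₀ hnx]
    have h1 := abs_nm_le (fderiv ℝ φ x v) (φ x)
    have h2 := abs_nm_le (v : X) x
    rw [d.e.norm] at h1
    calc |nm (fderiv ℝ φ x v) (φ x) - nm (v : X) x|
        ≤ |nm (fderiv ℝ φ x v) (φ x)| + |nm (v : X) x| := abs_sub _ _
      _ ≤ 2 * ‖x‖ := by linarith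
  have hCT : C1 T := d.hX.submodule T
  obtain ⟨κ, hκ, hκG⟩ := alg_lemma (V := T) hCT HT
    (fun u v => by rw [hHT, hHT]; exact d.hX.symm hx hH _ _)
    (fun v => by rw [hHT]; exact d.hX.psd hx hH _) GT
    (fun u v => by
      apply Subtype.ext
      rw [hGT, hGT, d.G_symm hx hG' (u : X) (v : X)])
    c 2 (by norm_num) hc2 (by
      intro v hv u
      have hv' : (v : X) ≠ 0 := by simpa using hv
      rw [d.hX.nm_coe T hv, hGT, hHT]
      have hvT : nm x (v : X) = 0 := v.2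
      rw [← hFnm (v : X) _ hvT hv' (by rw [hnmAi]; exact d.nm_G hx hH hH' hG' _ _), hAi]
      have := d.star hx hH hG' hvT hv' (u : X)
      show nm (fderiv ℝ φ x (v : X)) (G (u : X) (v : X)) =
        H (u : X) (v : X) * ((nm (fderiv ℝ φ x v) (φ x) - nm (v : X) x) / ‖x‖)
      rw [mul_div_assoc', eq_div_iff hnx.ne', ← this]
      ring)
  refine ⟨fderiv ℝ φ x (κ : X), ?_, ?_⟩
  · rw [d.norm_F_tan hx κ.2]; exact hκ
  · -- tangential directions
    have htan : ∀ u v : X, nm x u = 0 → nm x v = 0 → G u v = H u v • fderiv ℝ φ x (κ : X) := by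
      intro u v hu hv
      have h1 := hκG ⟨u, hu⟩ ⟨v, hv⟩
      have h2 := congrArg (fun z : T => fderiv ℝ φ x (z : X)) h1
      simp only [hGT, hAi] at h2
      rw [h2]
      show fderiv ℝ φ x (((HT ⟨u, hu⟩ ⟨v, hv⟩) • κ : T) : X) = _
      rw [hHT, Submodule.coe_smul, map_smul]
    intro u v
    have hdec : ∀ w : X, w = P₀ w + (nm x w * ‖x‖⁻¹) • x := by
      intro w; rw [hP₀, smul_smul]; abel
    have hGx : ∀ w, G w x = 0 := fun w => by
      rw [d.G_symm hx hG', d.G_self hx hG']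
    have e1 : G u v = G (P₀ u) (P₀ v) := by
      conv_lhs => rw [hdec u, hdec v]
      simp only [map_add, map_smul, add_apply, smul_apply, d.G_self hx hG', hGx, smul_zero,
        add_zero]
    have e2 : H u v = H (P₀ u) (P₀ v) := by
      conv_lhs => rw [hdec u, hdec v]
      simp only [map_add, map_smul, add_apply, smul_apply, d.hX.self_left hx hH,
        d.hX.self_right hx hH, smul_zero, add_zero]
    rw [e1, e2]
    exact htan _ _ (hP₀mem u) (hP₀mem v)

end Vale.P084
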