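import Mathlib
import Vale.Agent.P084.Basic

/-!
# P084, module S: zero area argument on two-dimensional slices
-/

set_option linter.unusedSectionVars false

namespace Vale.P084

open Metric Filter Topology MeasureTheory

lemma ae_diff_of_locLipOn {E F : Type*} [NormedAddCommGroup E] [NormedSpace ℝ E]
    [FiniteDimensional ℝ E] [MeasurableSpace E] [BorelSpace E]
    (μ : Measure E) [μ.IsAddHaarMeasure]
    [NormedAddCommGroup F] [NormedSpace ℝ F] [FiniteDimensional ℝ F]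
    {s : Set E} (hs : IsOpen s) {f : E → F} (hf : LocallyLipschitzOn s f) :
    ∀ᵐ x ∂μ, x ∈ s → DifferentiableAt ℝ f x := by
  have key : μ {x | x ∈ s ∧ ¬ DifferentiableAt ℝ f x} = 0 := by
    refine measure_null_of_locally_null _ fun x hx => ?_
    obtain ⟨K, t, ht, hK⟩ := hf hx.1
    rw [hs.nhdsWithin_eq hx.1] at ht
    obtain ⟨U, hUt, hUo, hxU⟩ := _root_.mem_nhds_iff.1 ht
    refine ⟨U ∩ {x | x ∈ s ∧ ¬ DifferentiableAt ℝ f x}, ?_, ?_⟩
    · exact Filter.inter_mem (mem_nhdsWithin_of_mem_nhds (hUo.mem_nhds hxU)) self_mem_nhdsWithin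
    · have h1 := (hK.mono hUt).ae_differentiableWithinAt_of_mem (μ := μ)
      refine measure_mono_null ?_ (ae_iff.1 h1)
      rintro y ⟨hyU, -, hyd⟩
      simp only [Set.mem_ofPred_eq, not_forall]
      exact ⟨hyU, fun h => hyd (h.differentiableAt (hUo.mem_nhds hyU))⟩
  rw [ae_iff]
  refine measure_mono_null ?_ key
  intro x hx
  simpa using hx

/-- planar statement -/
theorem slice2 (A B : ℝ × ℝ → ℝ) (hA : LocallyLipschitz A) (hB : LocallyLipschitz B)
    (hpar : ∀ᵐ z, ∃ k : ℝ, fderiv ℝ B z = k • fderiv ℝ A z) :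
    ∀ᵐ s : ℝ, ∀ T : Set ℝ, IsPreconnected T →
      (∀ b ∈ T, ∃ z, A z = s ∧ B z = b) → T.Subsingleton := by
  have hdA : ∀ᵐ z : ℝ × ℝ, DifferentiableAt ℝ A z := by
    have := ae_diff_of_locLipOn (volume : Measure (ℝ × ℝ)) isOpen_univ (f := A) (hA.locallyLipschitzOn)
    filter_upwards [this] with z hz using hz trivial
  have hdB : ∀ᵐ z : ℝ × ℝ, DifferentiableAt ℝ B z := by
    have := ae_diff_of_locLipOn (volume : Measure (ℝ × ℝ)) isOpen_univ (f := B) (hB.locallyLipschitzOn)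
    filter_upwards [this] with z hz using hz trivial
  set Φ : ℝ × ℝ → ℝ × ℝ := fun z => (A z, B z) with hΦ
  have hΦL : LocallyLipschitz Φ := hA.prodMk hB
  set D : Set (ℝ × ℝ) := {z | DifferentiableAt ℝ A z ∧ DifferentiableAt ℝ B z ∧
    ∃ k : ℝ, fderiv ℝ B z = k • fderiv ℝ A z} with hD
  have hDc : (volume : Measure (ℝ × ℝ)) Dᶜ = 0 := by
    have : ∀ᵐ z, z ∈ D := by
      filter_upwards [hdA, hdB, hpar] with z h1 h2 h3 using ⟨h1, h2, h3⟩
    exact this
  have h1 : (volume : Measure (ℝ × ℝ)) (Φ '' D) = 0 := by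
    refine addHaar_image_eq_zero_of_det_fderivWithin_eq_zero volume
      (f' := fun z => (fderiv ℝ A z).prod (fderiv ℝ B z)) ?_ ?_
    · intro z hz
      exact (hz.1.hasFDerivAt.prodMk hz.2.1.hasFDerivAt).hasFDerivWithinAt
    · intro z hz
      obtain ⟨k, hk⟩ := hz.2.2
      by_contra hne
      have hsurj : Function.Surjective ((fderiv ℝ A z).prod (fderiv ℝ B z)) := by
        intro w
        have := (LinearMap.equivOfDetNeZero
          (((fderiv ℝ A z).prod (fderiv ℝ B z) : (ℝ × ℝ) →L[ℝ] (ℝ × ℝ)) : (ℝ × ℝ) →ₗ[ℝ] (ℝ × ℝ)) hne).surjective w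
        exact this
      obtain ⟨w, hw⟩ := hsurj (0, 1)
      have e1 : fderiv ℝ A z w = 0 := congrArg Prod.fst hw
      have e2 : fderiv ℝ B z w = 1 := congrArg Prod.snd hw
      rw [hk, smul_apply, e1, smul_zero] at e2
      exact zero_ne_one e2
  have h2 : (volume : Measure (ℝ × ℝ)) (Φ '' Dᶜ) = 0 := by
    have hcov : Φ '' Dᶜ ⊆ ⋃ n : ℕ, Φ '' (closedBall 0 n ∩ Dᶜ) := by
      rintro _ ⟨z, hz, rfl⟩
      obtain ⟨n, hn⟩ := exists_nat_ge ‖z‖
      exact Set.mem_iUnion.2 ⟨n, z, ⟨by simpa using hn, hz⟩, rfl⟩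
    refine measure_mono_null hcov (measure_iUnion_null fun n => ?_)
    obtain ⟨K, hK⟩ := (hΦL.locallyLipschitzOn (s := closedBall 0 n)).exists_lipschitzOnWith_of_compact
      (isCompact_closedBall 0 n)
    have h3 := (hK.mono (Set.inter_subset_left (t := Dᶜ))).hausdorffMeasure_image_le
      (d := 2) (by norm_num)
    rw [hausdorffMeasure_prod_real] at h3
    have h4 : (volume : Measure (ℝ × ℝ)) (closedBall 0 (n:ℝ) ∩ Dᶜ) = 0 :=
      measure_mono_null Set.inter_subset_right hDc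
    rw [h4, mul_zero] at h3
    exact le_antisymm h3 (zero_le)
  have h3 : (volume : Measure (ℝ × ℝ)) (Set.range Φ) = 0 := by
    rw [← Set.image_univ, ← Set.union_compl_self D, Set.image_union]
    exact measure_union_null h1 h2
  have h4 : ∀ᵐ p : ℝ × ℝ, p ∉ Set.range Φ := by
    rw [ae_iff]
    refine measure_mono_null (fun p hp => ?_) h3
    exact not_not.1 hp
  have h5 : ∀ᵐ s : ℝ, ∀ᵐ b : ℝ, (s, b) ∉ Set.range Φ := Measure.ae_ae_of_ae_prod h4
  filter_upwards [h5] with s hs T hT hTr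
  intro a ha b hb
  by_contra hab
  have hTnull : (volume : Measure ℝ) T = 0 := by
    refine measure_mono_null ?_ (ae_iff.1 hs)
    intro b hb
    obtain ⟨z, hz1, hz2⟩ := hTr b hb
    simp only [not_not, Set.mem_ofPred_eq]
    exact ⟨z, by rw [hΦ]; simp [hz1, hz2]⟩
  have hmain : ∀ a b : ℝ, a ∈ T → b ∈ T → a < b → False := by
    intro a b ha hb hlt
    have hIcc : Set.Icc a b ⊆ T := hT.Icc_subset ha hb
    have : (volume : Measure ℝ) (Set.Icc a b) = 0 := measure_mono_null hIcc hTnull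
    rw [Real.volume_Icc, ENNReal.ofReal_eq_zero] at this
    linarith
  rcases lt_or_gt_of_ne hab with h | h
  · exact hmain a b ha hb h
  · exact hmain b a hb ha h

/-! ### auxiliary lemmas -/

lemma ae_translate_aux {X : Type*} [NormedAddCommGroup X] [MeasurableSpace X] [BorelSpace X]
    (μ : Measure X) [μ.IsAddRightInvariant] (a : X) (p : X → Prop)
    (hp : ∀ᵐ x ∂μ, p x) : ∀ᵐ q ∂μ, p (q + a) := by
  have h3 : MeasurePreserving (fun x : X => x + a) μ μ :=
    measurePreserving_add_right μ a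
  exact h3.quasiMeasurePreserving.ae hp

lemma ae_ae_translate {X E' : Type*} [NormedAddCommGroup X] [NormedSpace ℝ X]
    [FiniteDimensional ℝ X] [MeasurableSpace X] [BorelSpace X]
    [TopologicalSpace E'] [SecondCountableTopology E'] [MeasurableSpace E'] [BorelSpace E']
    (μ : Measure X) [μ.IsAddRightInvariant] [SFinite μ]
    (ν : Measure E') [SFinite ν] (φ : E' → X) (hφ : Continuous φ) (p : X → Prop)
    (hp : ∀ᵐ x ∂μ, p x) :
    ∀ᵐ q ∂μ, ∀ᵐ z ∂ν, p (q + φ z) := by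
  have : ProperSpace X := FiniteDimensional.proper_real X
  obtain ⟨B, hsub, hBm, hB0⟩ := exists_measurable_superset_of_null (ae_iff.1 hp)
  have h2 : ∀ᵐ q ∂μ, q ∉ B := by
    rw [ae_iff]; simpa using hB0
  have h1 : ∀ᵐ q ∂μ, ∀ᵐ z ∂ν, q + φ z ∉ B := by
    rw [Measure.ae_ae_comm]
    · refine Eventually.of_forall fun z => ?_
      exact ae_translate_aux μ (φ z) _ h2
    · have hc : Continuous fun x : X × E' => x.1 + φ x.2 := by fun_prop
      exact hc.measurable hBm.compl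
  filter_upwards [h1] with q hq
  filter_upwards [hq] with z hz
  by_contra hcon
  exact hz (hsub hcon)

lemma locLip_comp {X E' Z : Type*} [NormedAddCommGroup X] [PseudoMetricSpace E']
    [PseudoMetricSpace Z] {P : E' → X} {C : NNReal} (hP : LipschitzWith C P) {G : X → Z}
    (hG : LocallyLipschitzOn {0}ᶜ G) {s : Set E'} (hs : ∀ z ∈ s, P z ≠ 0) :
    LocallyLipschitzOn s (fun z => G (P z)) := by
  intro z hz
  obtain ⟨K, t, ht, hK⟩ := hG (x := P z) (hs z hz)
  rw [isOpen_compl_singleton.nhdsWithin_eq (hs z hz)] at ht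
  refine ⟨K * C, P ⁻¹' t, mem_nhdsWithin_of_mem_nhds (hP.continuous.continuousAt ht), ?_⟩
  exact hK.comp hP.lipschitzOnWith (fun x hx => hx)

lemma locLip_apply {X E' Y Z : Type*} [NormedAddCommGroup X] [PseudoMetricSpace E']
    [NormedAddCommGroup Y] [NormedSpace ℝ Y] [NormedAddCommGroup Z] [NormedSpace ℝ Z]
    {P : E' → X} {C : NNReal} (hP : LipschitzWith C P) {G : X → Y →L[ℝ] Z} (v : Y)
    (hG : LocallyLipschitzOn {0}ᶜ G) {s : Set E'} (hs : ∀ z ∈ s, P z ≠ 0) :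
    LocallyLipschitzOn s (fun z => G (P z) v) := by
  have h1 := locLip_comp hP hG hs
  intro z hz
  obtain ⟨K, t, ht, hK⟩ := h1 hz
  exact ⟨‖ContinuousLinearMap.apply ℝ Z v‖₊ * K, t, ht,
    (ContinuousLinearMap.apply ℝ Z v).lipschitz.comp_lipschitzOnWith hK⟩

lemma lipschitz_line {X : Type*} [NormedAddCommGroup X] [NormedSpace ℝ X] (z v : X) :
    LipschitzWith ‖v‖₊ (fun t : ℝ => z + t • v) := by
  refine LipschitzWith.of_dist_le_mul fun a b => ?_
  rw [dist_add_left, dist_eq_norm, ← sub_smul, norm_smul, mul_comm]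
  rfl

section nmfacts

variable {X : Type*} [NormedAddCommGroup X] [NormedSpace ℝ X]

lemma hasFDerivAt_norm' (hN : ContDiffOn ℝ 1 (fun z : X => ‖z‖) {0}ᶜ) {x : X} (hx : x ≠ 0) :
    HasFDerivAt (fun z : X => ‖z‖) (nm x) x :=
  ((hN.contDiffAt (isOpen_compl_singleton.mem_nhds hx)).differentiableAt (by norm_num)).hasFDerivAt

lemma nm_self' (hN : ContDiffOn ℝ 1 (fun z : X => ‖z‖) {0}ᶜ) {x : X} (hx : x ≠ 0) :
    nm x x = ‖x‖ := by
  have h1 : HasDerivAt (fun t : ℝ => t • x) x 1 := by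
    simpa using (hasDerivAt_id (1 : ℝ)).smul_const x
  have h2 : HasDerivAt (fun t : ℝ => ‖t • x‖) (nm x x) 1 :=
    (hasFDerivAt_norm' hN hx).comp_hasDerivAt_of_eq 1 h1 (by simp)
  have h3 : HasDerivAt (fun t : ℝ => ‖t • x‖) ‖x‖ 1 := by
    have h4 : HasDerivAt (fun t : ℝ => t * ‖x‖) ‖x‖ 1 := by
      simpa using (hasDerivAt_id (1 : ℝ)).mul_const ‖x‖
    refine h4.congr_of_eventuallyEq ?_
    filter_upwards [Ioi_mem_nhds (show (0 : ℝ) < 1 by norm_num)] with t ht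
    rw [norm_smul, Real.norm_of_nonneg (le_of_lt ht)]
  exact h2.unique h3

lemma abs_nm_le' (hN : ContDiffOn ℝ 1 (fun z : X => ‖z‖) {0}ᶜ) {x : X} (hx : x ≠ 0) (v : X) :
    |nm x v| ≤ ‖v‖ := by
  have h1 : ‖nm x‖ ≤ 1 := by
    have := (hasFDerivAt_norm' hN hx).le_of_lipschitz (C := 1) (lipschitzWith_one_norm)
    simpa using this
  calc |nm x v| = ‖nm x v‖ := rfl
    _ ≤ ‖nm x‖ * ‖v‖ := (nm x).le_opNorm v
    _ ≤ 1 * ‖v‖ := by gcongr
    _ = ‖v‖ := one_mul _

lemma nm_line_mono (hN : ContDiffOn ℝ 1 (fun z : X => ‖z‖) {0}ᶜ) {z v : X} {a b : ℝ}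
    (ha : z + a • v ≠ 0) (hb : z + b • v ≠ 0) (hab : a ≤ b) :
    nm (z + a • v) v ≤ nm (z + b • v) v := by
  rcases hab.eq_or_lt with rfl | hlt
  · exact le_rfl
  have h1 := (le_abs_self _).trans (abs_nm_le' hN ha (z + b • v))
  have h2 := (le_abs_self _).trans (abs_nm_le' hN hb (z + a • v))
  have e1 : z + b • v = (z + a • v) + (b - a) • v := by module
  have e2 : z + a • v = (z + b • v) - (b - a) • v := by module
  have h3 : nm (z + a • v) (z + b • v) = ‖z + a • v‖ + (b - a) * nm (z + a • v) v := by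
    conv_lhs => rw [e1]
    rw [map_add, map_smul, smul_eq_mul, nm_self' hN ha]
  have h4 : nm (z + b • v) (z + a • v) = ‖z + b • v‖ - (b - a) * nm (z + b • v) v := by
    conv_lhs => rw [e2]
    rw [map_sub, map_smul, smul_eq_mul, nm_self' hN hb]
  rw [h3] at h1
  rw [h4] at h2
  have h5 : 0 ≤ (b - a) * (nm (z + b • v) v - nm (z + a • v) v) := by nlinarith
  have h6 := nonneg_of_mul_nonneg_right h5 (by linarith)
  linarith

lemma line_t_bound (hN : ContDiffOn ℝ 1 (fun z : X => ‖z‖) {0}ᶜ) {q v : X} {t : ℝ}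
    (h : q + t • v ≠ 0) : |t| * (‖v‖ - |nm (q + t • v) v|) ≤ 2 * ‖q‖ := by
  have h1 : nm (q + t • v) q + t * nm (q + t • v) v = ‖q + t • v‖ := by
    rw [← nm_self' hN h, map_add (nm (q + t • v)) q, map_smul, smul_eq_mul]
  have h2 := (le_abs_self _).trans (abs_nm_le' hN h q)
  have h3 : |t| * ‖v‖ ≤ ‖q + t • v‖ + ‖q‖ := by
    calc |t| * ‖v‖ = ‖t • v‖ := by rw [norm_smul, Real.norm_eq_abs]
      _ = ‖(q + t • v) - q‖ := by congr 1; abel
      _ ≤ _ := norm_sub_le _ _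
  have h4 : t * nm (q + t • v) v ≤ |t| * |nm (q + t • v) v| := by
    rw [← abs_mul]; exact le_abs_self _
  nlinarith

end nmfacts

variable {X Y : Type*} [NormedAddCommGroup X] [NormedSpace ℝ X] [FiniteDimensional ℝ X]
  [MeasurableSpace X] [BorelSpace X]
  [NormedAddCommGroup Y] [NormedSpace ℝ Y] [FiniteDimensional ℝ Y]

/-- a point at which everything is differentiable and the relation holds -/
def GoodPt {X Y : Type*} [NormedAddCommGroup X] [NormedSpace ℝ X] [NormedAddCommGroup Y]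
    [NormedSpace ℝ Y] (F : X → X →L[ℝ] Y) (M : ℝ) (x : X) : Prop :=
  x ≠ 0 → DifferentiableAt ℝ (nm (E := X)) x ∧ DifferentiableAt ℝ F x ∧
        ∃ k : Y, ‖k‖ ≤ M ∧ ∀ u v, fderiv ℝ F x u v = fderiv ℝ nm x u v • k

lemma ae_good (hL : LocallyLipschitzOn {0}ᶜ (nm (E := X)))
    (F : X → X →L[ℝ] Y) (hF : LocallyLipschitzOn {0}ᶜ F) (M : ℝ)
    (hae : ∀ᵐ x ∂(Measure.addHaar : Measure X), x ≠ 0 → ∃ k : Y, ‖k‖ ≤ M ∧
      ∀ u v, fderiv ℝ F x u v = fderiv ℝ nm x u v • k) :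
    ∀ᵐ x ∂(Measure.addHaar : Measure X), GoodPt F M x := by
  have h1 := ae_diff_of_locLipOn (Measure.addHaar : Measure X) isOpen_compl_singleton hL
  have h2 := ae_diff_of_locLipOn (Measure.addHaar : Measure X) isOpen_compl_singleton hF
  filter_upwards [h1, h2, hae] with x e1 e2 e3 hx
  exact ⟨e1 hx, e2 hx, e3 hx⟩

lemma ae_good_line (F : X → X →L[ℝ] Y) (M : ℝ)
    (hae : ∀ᵐ x ∂(Measure.addHaar : Measure X), GoodPt F M x) (v : X) :
    ∀ᵐ q ∂(Measure.addHaar : Measure X), ∀ᵐ t : ℝ, GoodPt F M (q + t • v) :=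
  ae_ae_translate (Measure.addHaar : Measure X) (volume : Measure ℝ) (fun t : ℝ => t • v)
      (by fun_prop) _ hae

lemma ae_good_plane (F : X → X →L[ℝ] Y) (M : ℝ)
    (hae : ∀ᵐ x ∂(Measure.addHaar : Measure X), GoodPt F M x) (e v : X) :
    ∀ᵐ q ∂(Measure.addHaar : Measure X), ∀ᵐ p : ℝ × ℝ, GoodPt F M (q + (p.1 • e + p.2 • v)) :=
  ae_ae_translate (Measure.addHaar : Measure X) (volume : Measure (ℝ × ℝ))
    (fun p : ℝ × ℝ => p.1 • e + p.2 • v) (by fun_prop) _ hae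

/-- the estimate along a line on which almost every point is good -/
lemma line_bound_good (hN : ContDiffOn ℝ 1 (fun z : X => ‖z‖) {0}ᶜ)
    (hL : LocallyLipschitzOn {0}ᶜ (nm (E := X)))
    (F : X → X →L[ℝ] Y) (hF : LocallyLipschitzOn {0}ᶜ F) (M : ℝ)
    (z v : X) (t₁ t₂ : ℝ) (ht : t₁ ≤ t₂) (hne : ∀ t ∈ Set.Icc t₁ t₂, z + t • v ≠ 0)
    (hgood : ∀ᵐ t : ℝ, GoodPt F M (z + t • v)) :
    ‖F (z + t₂ • v) v - F (z + t₁ • v) v‖ ≤
      M * (nm (z + t₂ • v) v - nm (z + t₁ • v) v) := by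
  obtain ⟨ℓ, hℓ1, hℓ2⟩ := exists_dual_vector'' ℝ (F (z + t₂ • v) v - F (z + t₁ • v) v)
  set g : ℝ → ℝ := fun t => M * nm (z + t • v) v - ℓ (F (z + t • v) v) with hg
  have hI : Set.uIcc t₁ t₂ = Set.Icc t₁ t₂ := Set.uIcc_of_le ht
  have hl1 : ∃ K, LipschitzOnWith K (fun t : ℝ => nm (z + t • v) v) (Set.Icc t₁ t₂) :=
    (locLip_apply (lipschitz_line z v) v hL hne).exists_lipschitzOnWith_of_compact isCompact_Icc
  have hl2 : ∃ K, LipschitzOnWith K (fun t : ℝ => F (z + t • v) v) (Set.Icc t₁ t₂) :=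
    (locLip_apply (lipschitz_line z v) v hF hne).exists_lipschitzOnWith_of_compact isCompact_Icc
  obtain ⟨K₁, hK₁⟩ := hl1
  obtain ⟨K₂, hK₂⟩ := hl2
  have hgl : ∃ K, LipschitzOnWith K g (Set.uIcc t₁ t₂) := by
    rw [hI]
    have h1 : LipschitzOnWith (‖M‖₊ * K₁) (fun t : ℝ => M * nm (z + t • v) v) (Set.Icc t₁ t₂) := by
      have := (lipschitzWith_smul (β := ℝ) M).comp_lipschitzOnWith hK₁
      exact this
    have h2 : LipschitzOnWith (‖ℓ‖₊ * K₂) (fun t : ℝ => ℓ (F (z + t • v) v)) (Set.Icc t₁ t₂) :=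
      ℓ.lipschitz.comp_lipschitzOnWith hK₂
    exact ⟨‖M‖₊ * K₁ + ‖ℓ‖₊ * K₂, h1.sub h2⟩
  obtain ⟨K, hK⟩ := hgl
  have hint := hK.absolutelyContinuousOnInterval.integral_deriv_eq_sub
  have hcont : ∀ t ∈ Set.Ioo t₁ t₂, ∀ᶠ r in 𝓝 t, z + r • v ≠ 0 := by
    intro t ht'
    filter_upwards [Ioo_mem_nhds ht'.1 ht'.2] with r hr using hne r ⟨hr.1.le, hr.2.le⟩
  have hderiv : ∀ᵐ t : ℝ, t ∈ Set.Ioo t₁ t₂ → 0 ≤ deriv g t := by
    filter_upwards [hgood] with t hgt htI
    obtain ⟨hd1, hd2, k, hk, hrel⟩ := hgt (hne t ⟨htI.1.le, htI.2.le⟩)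
    have hline : HasDerivAt (fun s : ℝ => z + s • v) v t := by
      simpa using ((hasDerivAt_id t).smul_const v).const_add z
    have e1 : HasDerivAt (fun s : ℝ => nm (z + s • v) v) (fderiv ℝ nm (z + t • v) v v) t := by
      have e0 : HasDerivAt (fun s : ℝ => nm (z + s • v)) (fderiv ℝ nm (z + t • v) v) t :=
        HasFDerivAt.comp_hasDerivAt (l := nm (E := X)) t hd1.hasFDerivAt hline
      exact hasDerivAt_apply e0 v
    have e2 : HasDerivAt (fun s : ℝ => F (z + s • v) v) (fderiv ℝ F (z + t • v) v v) t := by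
      have e0 : HasDerivAt (fun s : ℝ => F (z + s • v)) (fderiv ℝ F (z + t • v) v) t :=
        HasFDerivAt.comp_hasDerivAt (l := F) t hd2.hasFDerivAt hline
      exact hasDerivAt_apply e0 v
    have e3 : HasDerivAt g (M * fderiv ℝ nm (z + t • v) v v - ℓ (fderiv ℝ F (z + t • v) v v)) t :=
      (e1.const_mul M).sub (ℓ.hasFDerivAt.comp_hasDerivAt t e2)
    have e4 : 0 ≤ fderiv ℝ nm (z + t • v) v v := by
      have hmono : MonotoneOn (fun s : ℝ => nm (z + s • v) v) (Set.Ioo t₁ t₂) := by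
        intro a ha b hb hab
        exact nm_line_mono hN (hne a ⟨ha.1.le, ha.2.le⟩) (hne b ⟨hb.1.le, hb.2.le⟩) hab
      have h5 := hmono.derivWithin_nonneg (x := t)
      rw [derivWithin_of_isOpen isOpen_Ioo htI, e1.deriv] at h5
      exact h5
    rw [e3.deriv, hrel v v, map_smul, smul_eq_mul]
    have e5 : ℓ k ≤ M := by
      calc ℓ k ≤ ‖ℓ k‖ := le_abs_self _
        _ ≤ ‖ℓ‖ * ‖k‖ := ℓ.le_opNorm k
        _ ≤ 1 * ‖k‖ := by gcongr
        _ ≤ M := by linarith
    nlinarith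
  have hnonneg : 0 ≤ ∫ t in t₁..t₂, deriv g t := by
    apply intervalIntegral.integral_nonneg_of_ae_restrict ht
    rw [← restrict_Ioo_eq_restrict_Icc]
    exact (ae_restrict_iff' measurableSet_Ioo).2 hderiv
  rw [hint] at hnonneg
  have e6 : ℓ (F (z + t₂ • v) v) - ℓ (F (z + t₁ • v) v) = ‖F (z + t₂ • v) v - F (z + t₁ • v) v‖ := by
    rw [← map_sub, hℓ2]; rfl
  rw [hg] at hnonneg
  simp only at hnonneg
  linarith

lemma continuousAt_of_locLipOn {X Z : Type*} [NormedAddCommGroup X] [PseudoMetricSpace Z]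
    {G : X → Z} (hG : LocallyLipschitzOn {0}ᶜ G) {x : X} (hx : x ≠ 0) : ContinuousAt G x :=
  (hG.continuousOn).continuousAt (isOpen_compl_singleton.mem_nhds hx)

/-- along a line in the direction `v`, `F v` moves at most `M` times as much as `nm v` -/
theorem line_bound (hN : ContDiffOn ℝ 1 (fun z : X => ‖z‖) {0}ᶜ)
    (hL : LocallyLipschitzOn {0}ᶜ (nm (E := X)))
    (F : X → X →L[ℝ] Y) (hF : LocallyLipschitzOn {0}ᶜ F) (M : ℝ) (hM : 0 ≤ M)
    (hae : ∀ᵐ x ∂(Measure.addHaar : Measure X), x ≠ 0 → ∃ k : Y, ‖k‖ ≤ M ∧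
      ∀ u v, fderiv ℝ F x u v = fderiv ℝ nm x u v • k)
    (z v : X) (t₁ t₂ : ℝ) (ht : t₁ ≤ t₂) (hne : ∀ t ∈ Set.Icc t₁ t₂, z + t • v ≠ 0) :
    ‖F (z + t₂ • v) v - F (z + t₁ • v) v‖ ≤
      M * (nm (z + t₂ • v) v - nm (z + t₁ • v) v) := by
  have hline := ae_good_line F M (ae_good hL F hF M hae) v
  have hdense : Dense {q : X | ∀ᵐ t : ℝ, GoodPt F M (q + t • v)} := Measure.dense_of_ae hline
  -- the set of base points whose segment avoids zero is a neighbourhood of `z`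
  have hU : ∀ᶠ q in 𝓝 z, ∀ t ∈ Set.Icc t₁ t₂, q + t • v ≠ 0 := by
    have h1 : ∀ t ∈ Set.Icc t₁ t₂, ∀ᶠ p : X × ℝ in 𝓝 (z, t), p.1 + p.2 • v ≠ 0 := by
      intro t ht'
      have hc : Continuous fun p : X × ℝ => p.1 + p.2 • v := by fun_prop
      exact hc.continuousAt.eventually_ne (hne t ht')
    exact isCompact_Icc.eventually_forall_of_forall_eventually h1
  have hcl : z ∈ closure ({q | ∀ t ∈ Set.Icc t₁ t₂, q + t • v ≠ 0} ∩
      {q | ∀ᵐ t : ℝ, GoodPt F M (q + t • v)}) := by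
    rw [mem_closure_iff_nhds]
    intro V hV
    obtain ⟨q, hq1, hq2⟩ := hdense.inter_nhds_nonempty (Filter.inter_mem hU hV)
    exact ⟨q, hq2.2, hq2.1, hq1⟩
  rw [mem_closure_iff_nhdsWithin_neBot] at hcl
  set S := ({q | ∀ t ∈ Set.Icc t₁ t₂, q + t • v ≠ 0} ∩
      {q | ∀ᵐ t : ℝ, GoodPt F M (q + t • v)}) with hS
  have hF' : ∀ t ∈ Set.Icc t₁ t₂, Tendsto (fun q : X => F (q + t • v) v) (𝓝[S] z)
      (𝓝 (F (z + t • v) v)) := by
    intro t ht'
    have h1 : ContinuousAt (fun q : X => F (q + t • v)) z := by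
      apply ContinuousAt.comp (g := F) (f := fun q : X => q + t • v)
      · exact continuousAt_of_locLipOn hF (hne t ht')
      · fun_prop
    exact ((h1.clm_apply continuousAt_const).tendsto).mono_left nhdsWithin_le_nhds
  have hn' : ∀ t ∈ Set.Icc t₁ t₂, Tendsto (fun q : X => nm (q + t • v) v) (𝓝[S] z)
      (𝓝 (nm (z + t • v) v)) := by
    intro t ht'
    have h1 : ContinuousAt (fun q : X => nm (q + t • v)) z := by
      apply ContinuousAt.comp (g := nm) (f := fun q : X => q + t • v)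
      · exact continuousAt_of_locLipOn hL (hne t ht')
      · fun_prop
    exact ((h1.clm_apply continuousAt_const).tendsto).mono_left nhdsWithin_le_nhds
  have hm1 : t₁ ∈ Set.Icc t₁ t₂ := ⟨le_rfl, ht⟩
  have hm2 : t₂ ∈ Set.Icc t₁ t₂ := ⟨ht, le_rfl⟩
  refine le_of_tendsto_of_tendsto ((hF' t₂ hm2).sub (hF' t₁ hm1)).norm
    (((hn' t₂ hm2).sub (hn' t₁ hm1)).const_mul M) ?_
  filter_upwards [self_mem_nhdsWithin] with q hq
  exact line_bound_good hN hL F hF M q v t₁ t₂ ht hq.1 hq.2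

lemma line_eq (hN : ContDiffOn ℝ 1 (fun z : X => ‖z‖) {0}ᶜ)
    (hL : LocallyLipschitzOn {0}ᶜ (nm (E := X)))
    (F : X → X →L[ℝ] Y) (hF : LocallyLipschitzOn {0}ᶜ F) (M : ℝ) (hM : 0 ≤ M)
    (hae : ∀ᵐ x ∂(Measure.addHaar : Measure X), x ≠ 0 → ∃ k : Y, ‖k‖ ≤ M ∧
      ∀ u v, fderiv ℝ F x u v = fderiv ℝ nm x u v • k)
    (z v : X) (hz : ∀ t : ℝ, z + t • v ≠ 0) (t₁ t₂ : ℝ)
    (heq : nm (z + t₁ • v) v = nm (z + t₂ • v) v) :
    F (z + t₁ • v) v = F (z + t₂ • v) v := by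
  rcases le_total t₁ t₂ with ht | ht
  · have := line_bound hN hL F hF M hM hae z v t₁ t₂ ht (fun t _ => hz t)
    rw [heq, sub_self, mul_zero] at this
    exact (sub_eq_zero.1 (norm_le_zero_iff.1 this)).symm
  · have := line_bound hN hL F hF M hM hae z v t₂ t₁ ht (fun t _ => hz t)
    rw [heq, sub_self, mul_zero] at this
    exact (sub_eq_zero.1 (norm_le_zero_iff.1 this))

/-- existence of a point with prescribed value of `nm v` on a line -/
lemma exists_level (hN : ContDiffOn ℝ 1 (fun z : X => ‖z‖) {0}ᶜ)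
    (hL : LocallyLipschitzOn {0}ᶜ (nm (E := X)))
    (q v : X) (hq : ∀ t : ℝ, q + t • v ≠ 0) (s : ℝ) (hs : |s| < ‖v‖) :
    ∃ t : ℝ, nm (q + t • v) v = s := by
  have hcont : Continuous fun t : ℝ => nm (q + t • v) v := by
    rw [continuous_iff_continuousAt]
    intro t
    have h1 : ContinuousAt (fun t : ℝ => nm (q + t • v)) t := by
      apply ContinuousAt.comp (g := nm) (f := fun t : ℝ => q + t • v)
      · exact continuousAt_of_locLipOn hL (hq t)
      · fun_prop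
    exact h1.clm_apply continuousAt_const
  have hs' := abs_lt.1 hs
  have hpos : 0 < ‖v‖ - |s| := by linarith
  set T : ℝ := (2 * ‖q‖ + 1) / (‖v‖ - |s|) with hT
  have hTpos : 0 < T := by
    rw [hT]; positivity
  have hTmul : T * (‖v‖ - |s|) = 2 * ‖q‖ + 1 := by
    rw [hT]; field_simp
  -- outside of [-T, T] the value is larger than |s| in absolute value
  have hbig : ∀ t : ℝ, |t| = T → |s| < |nm (q + t • v) v| := by
    intro t ht
    have h1 := line_t_bound hN (hq t)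
    rw [ht] at h1
    by_contra hcon
    have : T * (‖v‖ - |s|) ≤ T * (‖v‖ - |nm (q + t • v) v|) := by
      apply mul_le_mul_of_nonneg_left _ hTpos.le
      linarith [not_lt.1 hcon]
    linarith
  have hTne : q + T • v ≠ 0 := hq T
  have hTne' : q + (-T) • v ≠ 0 := hq (-T)
  -- sign of the value at `T`
  have hup : s ≤ nm (q + T • v) v := by
    have h1 := hbig T (abs_of_pos hTpos)
    rcases lt_or_ge (nm (q + T • v) v) 0 with hneg | hnn
    · exfalso
      -- `nm (q+Tv)(q+Tv) = ‖q+Tv‖`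
      have h2 : nm (q + T • v) q + T * nm (q + T • v) v = ‖q + T • v‖ := by
        rw [← nm_self' hN hTne, map_add (nm (q + T • v)) q, map_smul, smul_eq_mul]
      have h3 := (le_abs_self _).trans (abs_nm_le' hN hTne q)
      have h4 : T * ‖v‖ ≤ ‖q + T • v‖ + ‖q‖ := by
        calc T * ‖v‖ = ‖T • v‖ := by rw [norm_smul, Real.norm_eq_abs, abs_of_pos hTpos]
          _ = ‖(q + T • v) - q‖ := by congr 1; abel
          _ ≤ _ := norm_sub_le _ _
      have h5 : T * ‖v‖ ≥ 2 * ‖q‖ + 1 := by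
        have : 0 ≤ T * |s| := by positivity
        nlinarith
      have h6 : T * nm (q + T • v) v ≤ 0 := mul_nonpos_of_nonneg_of_nonpos hTpos.le hneg.le
      linarith
    · rw [abs_of_nonneg hnn] at h1
      exact (le_abs_self s).trans h1.le
  have hlo : nm (q + (-T) • v) v ≤ s := by
    have h1 := hbig (-T) (by rw [abs_neg, abs_of_pos hTpos])
    rcases lt_or_ge 0 (nm (q + (-T) • v) v) with hpos' | hnp
    · exfalso
      have h2 : nm (q + (-T) • v) q + (-T) * nm (q + (-T) • v) v = ‖q + (-T) • v‖ := by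
        rw [← nm_self' hN hTne', map_add (nm (q + (-T) • v)) q, map_smul, smul_eq_mul]
      have h3 := (le_abs_self _).trans (abs_nm_le' hN hTne' q)
      have h4 : T * ‖v‖ ≤ ‖q + (-T) • v‖ + ‖q‖ := by
        calc T * ‖v‖ = ‖(-T) • v‖ := by
              rw [norm_smul, Real.norm_eq_abs, abs_neg, abs_of_pos hTpos]
          _ = ‖(q + (-T) • v) - q‖ := by congr 1; abel
          _ ≤ _ := norm_sub_le _ _
      have h5 : T * ‖v‖ ≥ 2 * ‖q‖ + 1 := by
        have : 0 ≤ T * |s| := by positivity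
        nlinarith
      have h6 : 0 ≤ T * nm (q + (-T) • v) v := mul_nonneg hTpos.le hpos'.le
      linarith
    · rw [abs_of_nonpos hnp] at h1
      linarith [neg_abs_le s]
  obtain ⟨t, -, ht⟩ := intermediate_value_Icc (show -T ≤ T by linarith) hcont.continuousOn
    ⟨hlo, hup⟩
  exact ⟨t, ht⟩

/-- the limit lemma -/
lemma level_tendsto (hN : ContDiffOn ℝ 1 (fun z : X => ‖z‖) {0}ᶜ)
    (hL : LocallyLipschitzOn {0}ᶜ (nm (E := X)))
    (F : X → X →L[ℝ] Y) (hF : LocallyLipschitzOn {0}ᶜ F) (M : ℝ) (hM : 0 ≤ M)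
    (hae : ∀ᵐ x ∂(Measure.addHaar : Measure X), x ≠ 0 → ∃ k : Y, ‖k‖ ≤ M ∧
      ∀ u v, fderiv ℝ F x u v = fderiv ℝ nm x u v • k)
    {ι : Type*} (l : Filter ι) [l.IsCountablyGenerated] (x : ι → X) (t : ι → ℝ) (v x₀ : X)
    (s₀ t₀ : ℝ) (hs₀ : |s₀| < ‖v‖) (hx : Tendsto x l (𝓝 x₀))
    (hne : ∀ i, x i + t i • v ≠ 0)
    (hs : Tendsto (fun i => nm (x i + t i • v) v) l (𝓝 s₀))
    (hx₀ : ∀ r : ℝ, x₀ + r • v ≠ 0) (ht₀ : nm (x₀ + t₀ • v) v = s₀) :
    Tendsto (fun i => F (x i + t i • v) v) l (𝓝 (F (x₀ + t₀ • v) v)) := by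
  refine tendsto_of_subseq_tendsto fun ns hns => ?_
  have hx' : Tendsto (fun n => x (ns n)) atTop (𝓝 x₀) := hx.comp hns
  have hs' : Tendsto (fun n => nm (x (ns n) + t (ns n) • v) v) atTop (𝓝 s₀) := hs.comp hns
  -- boundedness
  set δ : ℝ := (‖v‖ - |s₀|) / 2 with hδ
  have hδpos : 0 < δ := by rw [hδ]; linarith
  have hbd : ∃ C : ℝ, ∃ᶠ n in atTop, t (ns n) ∈ Metric.closedBall (0 : ℝ) C := by
    refine ⟨2 * (‖x₀‖ + 1) / δ, Eventually.frequently ?_⟩
    have h1 : ∀ᶠ n in atTop, |nm (x (ns n) + t (ns n) • v) v| < |s₀| + δ :=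
      (hs'.abs).eventually_lt_const (by linarith)
    have h2 : ∀ᶠ n in atTop, ‖x (ns n)‖ < ‖x₀‖ + 1 := (hx'.norm).eventually_lt_const (by linarith)
    filter_upwards [h1, h2] with n h1 h2
    have h3 := line_t_bound hN (hne (ns n))
    rw [mem_closedBall_zero_iff, Real.norm_eq_abs, le_div_iff₀ hδpos]
    have h4 : δ ≤ ‖v‖ - |nm (x (ns n) + t (ns n) • v) v| := by
      rw [hδ] at *; linarith
    calc |t (ns n)| * δ ≤ |t (ns n)| * (‖v‖ - |nm (x (ns n) + t (ns n) • v) v|) := by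
          gcongr
      _ ≤ 2 * ‖x (ns n)‖ := h3
      _ ≤ _ := by linarith
  obtain ⟨C, hC⟩ := hbd
  obtain ⟨a, -, ms, hms, hlim⟩ := tendsto_subseq_of_frequently_bounded Metric.isBounded_closedBall hC
  refine ⟨ms, ?_⟩
  have hx'' : Tendsto (fun n => x (ns (ms n)) + t (ns (ms n)) • v) atTop (𝓝 (x₀ + a • v)) :=
    (hx'.comp hms.tendsto_atTop).add (hlim.smul_const v)
  have hnm : Tendsto (fun n => nm (x (ns (ms n)) + t (ns (ms n)) • v) v) atTop
      (𝓝 (nm (x₀ + a • v) v)) := by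
    have h1 : Tendsto (fun n => nm (x (ns (ms n)) + t (ns (ms n)) • v)) atTop
        (𝓝 (nm (x₀ + a • v))) := (continuousAt_of_locLipOn hL (hx₀ a)).tendsto.comp hx''
    exact ((ContinuousLinearMap.apply ℝ ℝ v).continuous.tendsto _).comp h1
  have hFt : Tendsto (fun n => F (x (ns (ms n)) + t (ns (ms n)) • v) v) atTop
      (𝓝 (F (x₀ + a • v) v)) := by
    have h1 : Tendsto (fun n => F (x (ns (ms n)) + t (ns (ms n)) • v)) atTop
        (𝓝 (F (x₀ + a • v))) := (continuousAt_of_locLipOn hF (hx₀ a)).tendsto.comp hx''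
    exact ((ContinuousLinearMap.apply ℝ Y v).continuous.tendsto _).comp h1
  have ha : nm (x₀ + a • v) v = s₀ := tendsto_nhds_unique hnm (hs'.comp hms.tendsto_atTop)
  have hFa : F (x₀ + a • v) v = F (x₀ + t₀ • v) v :=
    line_eq hN hL F hF M hM hae x₀ v hx₀ a t₀ (ha.trans ht₀.symm)
  rw [hFa] at hFt
  exact hFt

/-- for a base point with almost all points of the plane good: for almost all levels `s`, the value
`F v` on the level set does not depend on the line -/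
lemma plane_const (hN : ContDiffOn ℝ 1 (fun z : X => ‖z‖) {0}ᶜ)
    (hL : LocallyLipschitzOn {0}ᶜ (nm (E := X)))
    (F : X → X →L[ℝ] Y) (hF : LocallyLipschitzOn {0}ᶜ F) (M : ℝ) (hM : 0 ≤ M)
    (hae : ∀ᵐ x ∂(Measure.addHaar : Measure X), x ≠ 0 → ∃ k : Y, ‖k‖ ≤ M ∧
      ∀ u v, fderiv ℝ F x u v = fderiv ℝ nm x u v • k)
    (q e v : X) (hq : ∀ r t : ℝ, q + (r • e + t • v) ≠ 0)
    (hgood : ∀ᵐ p : ℝ × ℝ, GoodPt F M (q + (p.1 • e + p.2 • v))) (ℓ : Y →L[ℝ] ℝ) :
    ∀ᵐ s : ℝ, |s| < ‖v‖ → ∀ t t' : ℝ, nm (q + t • v) v = s → nm (q + e + t' • v) v = s →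
      ℓ (F (q + t • v) v) = ℓ (F (q + e + t' • v) v) := by
  set P : ℝ × ℝ → X := fun p => q + (p.1 • e + p.2 • v) with hP
  have hPd : ∀ p : ℝ × ℝ, HasFDerivAt P
      ((ContinuousLinearMap.fst ℝ ℝ ℝ).smulRight e + (ContinuousLinearMap.snd ℝ ℝ ℝ).smulRight v) p := by
    intro p
    have h1 : HasFDerivAt (fun p : ℝ × ℝ => p.1 • e) ((ContinuousLinearMap.fst ℝ ℝ ℝ).smulRight e) p :=
      hasFDerivAt_fst.smul_const e
    have h2 : HasFDerivAt (fun p : ℝ × ℝ => p.2 • v) ((ContinuousLinearMap.snd ℝ ℝ ℝ).smulRight v) p :=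
      hasFDerivAt_snd.smul_const v
    exact (h1.add h2).const_add q
  set PL : (ℝ × ℝ) →L[ℝ] X :=
    (ContinuousLinearMap.fst ℝ ℝ ℝ).smulRight e + (ContinuousLinearMap.snd ℝ ℝ ℝ).smulRight v with hPL
  have hPlip : LipschitzWith ‖PL‖₊ P := by
    have h1 : LipschitzWith ‖PL‖₊ (fun p => PL p) := PL.lipschitz
    refine LipschitzWith.of_dist_le_mul fun a b => ?_
    have h2 : P a = q + PL a := rfl
    have h3 : P b = q + PL b := rfl
    rw [h2, h3, dist_add_left]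
    exact h1.dist_le_mul a b
  have hPne : ∀ p ∈ (Set.univ : Set (ℝ × ℝ)), P p ≠ 0 := fun p _ => hq p.1 p.2
  have hA : LocallyLipschitz (fun p => nm (P p) v) := by
    rw [← locallyLipschitzOn_univ]
    exact locLip_apply hPlip v hL hPne
  have hB0 : LocallyLipschitz (fun p => F (P p) v) := by
    rw [← locallyLipschitzOn_univ]
    exact locLip_apply hPlip v hF hPne
  have hB : LocallyLipschitz (fun p => ℓ (F (P p) v)) := ℓ.lipschitz.locallyLipschitz.comp hB0
  have hpar : ∀ᵐ p : ℝ × ℝ, ∃ k : ℝ, fderiv ℝ (fun p => ℓ (F (P p) v)) p =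
      k • fderiv ℝ (fun p => nm (P p) v) p := by
    filter_upwards [hgood] with p hp
    obtain ⟨hd1, hd2, k, hk, hrel⟩ := hp (hq p.1 p.2)
    have e1 : HasFDerivAt (fun p => nm (P p)) ((fderiv ℝ nm (P p)).comp PL) p :=
      HasFDerivAt.comp (g := nm (E := X)) p hd1.hasFDerivAt (hPd p)
    have e2 : HasFDerivAt (fun p => F (P p)) ((fderiv ℝ F (P p)).comp PL) p :=
      HasFDerivAt.comp (g := F) p hd2.hasFDerivAt (hPd p)
    have e3 := hasFDerivAt_apply e1 v
    have e4 := hasFDerivAt_apply e2 v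
    have e5 := ℓ.hasFDerivAt.comp p e4
    refine ⟨ℓ k, ?_⟩
    have e6 : fderiv ℝ (fun p => ℓ (F (P p) v)) p = ℓ.comp (((fderiv ℝ F (P p)).comp PL).flip v) :=
      e5.fderiv
    rw [e6, e3.fderiv]
    ext w <;> simp [hrel, P, mul_comm]
  have hslice := slice2 _ _ hA hB hpar
  filter_upwards [hslice] with s hs hsv t t' ht ht'
  -- choose a level point on every line
  have hline : ∀ r t : ℝ, (q + r • e) + t • v ≠ 0 := by
    intro r t; rw [add_assoc]; exact hq r t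
  choose τ hτ using fun r : ℝ => exists_level hN hL (q + r • e) v (hline r) s hsv
  set β : ℝ → ℝ := fun r => ℓ (F (q + r • e + τ r • v) v) with hβ
  have hcont : Continuous β := by
    rw [continuous_iff_continuousAt]
    intro r₀
    have h1 := level_tendsto hN hL F hF M hM hae (𝓝 r₀) (fun r => q + r • e) τ v (q + r₀ • e) s
      (τ r₀) hsv (by
        have : Continuous fun r : ℝ => q + r • e := by fun_prop
        exact this.tendsto r₀) (fun r => hline r (τ r)) (by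
        simp only [hτ]; exact tendsto_const_nhds) (hline r₀) (hτ r₀)
    exact (ℓ.continuous.tendsto _).comp h1
  have hsub := hs (Set.range β) (isPreconnected_range hcont) (by
    rintro b ⟨r, rfl⟩
    refine ⟨(r, τ r), ?_, ?_⟩
    · have := hτ r
      rw [add_assoc] at this
      exact this
    · rw [hβ]; simp only [hP, add_assoc])
  have h01 : β 0 = β 1 := hsub ⟨0, rfl⟩ ⟨1, rfl⟩
  have hq0 : ∀ t : ℝ, q + t • v ≠ 0 := by
    intro t; simpa using hline 0 t
  have hq1 : ∀ t : ℝ, (q + e) + t • v ≠ 0 := by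
    intro t; simpa using hline 1 t
  have h0 : F (q + t • v) v = F (q + τ 0 • v) v := by
    refine line_eq hN hL F hF M hM hae q v hq0 t (τ 0) ?_
    rw [ht]; have := hτ 0; rw [zero_smul, add_zero] at this; exact this.symm
  have h1 : F (q + e + t' • v) v = F (q + e + τ 1 • v) v := by
    refine line_eq hN hL F hF M hM hae (q + e) v hq1 t' (τ 1) ?_
    rw [ht']; have := hτ 1; rw [one_smul] at this; exact this.symm
  rw [h0, h1]
  have e0 : β 0 = ℓ (F (q + τ 0 • v) v) := by simp [hβ]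
  have e1 : β 1 = ℓ (F (q + e + τ 1 • v) v) := by simp [hβ]
  rw [← e0, ← e1, h01]

/-- core case -/
lemma shadow_core (hN : ContDiffOn ℝ 1 (fun z : X => ‖z‖) {0}ᶜ)
    (hL : LocallyLipschitzOn {0}ᶜ (nm (E := X)))
    (F : X → X →L[ℝ] Y) (hF : LocallyLipschitzOn {0}ᶜ F) (M : ℝ) (hM : 0 ≤ M)
    (hae : ∀ᵐ x ∂(Measure.addHaar : Measure X), x ≠ 0 → ∃ k : Y, ‖k‖ ≤ M ∧
      ∀ u v, fderiv ℝ F x u v = fderiv ℝ nm x u v • k)
    (v z₁ z₂ : X) (hv : v ≠ 0) (hv₁ : nm z₁ v = 0) (hv₂ : nm z₂ v = 0)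
    (hne : ∀ r t : ℝ, z₁ + (r • (z₂ - z₁) + t • v) ≠ 0) :
    F z₁ v = F z₂ v := by
  -- reduce to functionals
  have hred : ∀ ℓ : Y →L[ℝ] ℝ, ℓ (F z₁ v) = ℓ (F z₂ v) := by
    intro ℓ
    set e : X := z₂ - z₁ with he
    have hgood := ae_good_plane F M (ae_good hL F hF M hae) e v
    -- the span of `e`, `v` is closed and does not contain `z₁`
    set W : Submodule ℝ X := Submodule.span ℝ {e, v} with hW
    have hWc : IsClosed (W : Set X) := W.closed_of_finiteDimensional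
    have hWmem : ∀ q : X, q ∉ W → ∀ r t : ℝ, q + (r • e + t • v) ≠ 0 := by
      intro q hq r t h0
      apply hq
      rw [hW, Submodule.mem_span_pair]
      refine ⟨-r, -t, ?_⟩
      rw [neg_smul, neg_smul, ← neg_add]
      exact (eq_neg_of_add_eq_zero_left h0).symm
    have hz₁W : z₁ ∉ W := by
      intro hmem
      rw [hW, Submodule.mem_span_pair] at hmem
      obtain ⟨a, b, hab⟩ := hmem
      apply hne (-a) (-b)
      rw [← hab]; module
    -- good pairs
    have hcl : (z₁, (0 : ℝ)) ∈ closure {p : X × ℝ | p.1 ∉ W ∧ |p.2| < ‖v‖ ∧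
        ∀ t t' : ℝ, nm (p.1 + t • v) v = p.2 → nm (p.1 + e + t' • v) v = p.2 →
          ℓ (F (p.1 + t • v) v) = ℓ (F (p.1 + e + t' • v) v)} := by
      rw [mem_closure_iff_nhds]
      intro V hV
      rw [nhds_prod_eq, Filter.mem_prod_iff] at hV
      obtain ⟨V₁, hV₁, V₂, hV₂, hVV⟩ := hV
      have hd1 : Dense {q : X | ∀ᵐ p : ℝ × ℝ, GoodPt F M (q + (p.1 • e + p.2 • v))} :=
        Measure.dense_of_ae hgood
      obtain ⟨q, hq1, hq2⟩ := hd1.inter_nhds_nonempty
        (Filter.inter_mem hV₁ (hWc.isOpen_compl.mem_nhds hz₁W))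
      have hps := plane_const hN hL F hF M hM hae q e v (hWmem q hq2.2) hq1 ℓ
      have hd2 : Dense {s : ℝ | |s| < ‖v‖ → ∀ t t' : ℝ, nm (q + t • v) v = s →
          nm (q + e + t' • v) v = s → ℓ (F (q + t • v) v) = ℓ (F (q + e + t' • v) v)} :=
        Measure.dense_of_ae hps
      have hsm : ∀ᶠ s : ℝ in 𝓝 0, |s| < ‖v‖ :=
        (continuous_abs.tendsto 0).eventually_lt_const (by simpa using hv)
      obtain ⟨s, hs1, hs2⟩ := hd2.inter_nhds_nonempty (Filter.inter_mem hV₂ hsm)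
      exact ⟨(q, s), hVV ⟨hq2.1, hs2.1⟩, hq2.2, hs2.2, hs1 hs2.2⟩
    obtain ⟨p, hp, hlim⟩ := mem_closure_iff_seq_limit.1 hcl
    have hlim1 : Tendsto (fun n => (p n).1) atTop (𝓝 z₁) := (continuous_fst.tendsto _).comp hlim
    have hlim2 : Tendsto (fun n => (p n).2) atTop (𝓝 0) := (continuous_snd.tendsto _).comp hlim
    have hne1 : ∀ n, ∀ t : ℝ, (p n).1 + t • v ≠ 0 := by
      intro n t
      have := hWmem _ (hp n).1 0 t
      simpa using this
    have hne2 : ∀ n, ∀ t : ℝ, ((p n).1 + e) + t • v ≠ 0 := by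
      intro n t
      have := hWmem _ (hp n).1 1 t
      rw [one_smul, ← add_assoc] at this
      exact this
    have hz1 : ∀ t : ℝ, z₁ + t • v ≠ 0 := by
      intro t; have := hne 0 t; simpa using this
    have hz2 : ∀ t : ℝ, z₂ + t • v ≠ 0 := by
      intro t; have := hne 1 t
      rw [one_smul, ← add_assoc, add_sub_cancel] at this
      exact this
    choose t ht using fun n => exists_level hN hL (p n).1 v (hne1 n) (p n).2 (hp n).2.1
    choose t' ht' using fun n => exists_level hN hL ((p n).1 + e) v (hne2 n) (p n).2 (hp n).2.1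
    have h0v : |(0 : ℝ)| < ‖v‖ := by simpa using hv
    have hl1 := level_tendsto hN hL F hF M hM hae atTop (fun n => (p n).1) t v z₁ 0 0 h0v hlim1
      (fun n => hne1 n (t n)) (by simp only [ht]; exact hlim2) hz1 (by simpa using hv₁)
    have hlim1' : Tendsto (fun n => (p n).1 + e) atTop (𝓝 z₂) := by
      have := hlim1.add_const e
      rwa [he, add_sub_cancel] at this
    have hl2 := level_tendsto hN hL F hF M hM hae atTop (fun n => (p n).1 + e) t' v z₂ 0 0 h0v hlim1'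
      (fun n => hne2 n (t' n)) (by simp only [ht']; exact hlim2) hz2 (by simpa using hv₂)
    have hl1' := (ℓ.continuous.tendsto _).comp hl1
    have hl2' := (ℓ.continuous.tendsto _).comp hl2
    have heq : ∀ n, ℓ (F ((p n).1 + t n • v) v) = ℓ (F ((p n).1 + e + t' n • v) v) := fun n =>
      (hp n).2.2 (t n) (t' n) (ht n) (ht' n)
    have hcomb : Tendsto (fun n => ℓ (F ((p n).1 + t n • v) v)) atTop
        (𝓝 (ℓ (F (z₂ + (0 : ℝ) • v) v))) := by
      simp only [heq]; exact hl2'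
    have := tendsto_nhds_unique hl1' hcomb
    simpa using this
  by_contra hcon
  obtain ⟨ℓ, -, hℓ⟩ := exists_dual_vector'' ℝ (F z₁ v - F z₂ v)
  rw [map_sub, hred ℓ, sub_self] at hℓ
  have : ‖F z₁ v - F z₂ v‖ = 0 := by
    have h := hℓ.symm
    simpa using h
  exact hcon (sub_eq_zero.1 (norm_eq_zero.1 this))

/-- `F v` is constant on the shadow boundary of `v` -/
theorem shadow_const (hdim : 3 ≤ Module.finrank ℝ X)
    (hN : ContDiffOn ℝ 1 (fun z : X => ‖z‖) {0}ᶜ)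
    (hL : LocallyLipschitzOn {0}ᶜ (nm (E := X)))
    (F : X → X →L[ℝ] Y) (hF : LocallyLipschitzOn {0}ᶜ F) (M : ℝ) (hM : 0 ≤ M)
    (hae : ∀ᵐ x ∂(Measure.addHaar : Measure X), x ≠ 0 → ∃ k : Y, ‖k‖ ≤ M ∧
      ∀ u v, fderiv ℝ F x u v = fderiv ℝ nm x u v • k)
    (v z₁ z₂ : X) (h₁ : z₁ ≠ 0) (h₂ : z₂ ≠ 0) (hv₁ : nm z₁ v = 0) (hv₂ : nm z₂ v = 0) :
    F z₁ v = F z₂ v := by
  rcases eq_or_ne v 0 with rfl | hv
  · rw [map_zero, map_zero]
  -- proper subspaces
  have hproper : ∀ z : X, Submodule.span ℝ {z, v} ≠ ⊤ := by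
    intro z h
    have h1 : Module.finrank ℝ (Submodule.span ℝ ({z, v} : Set X)) ≤ 2 := by
      classical
      have h2 := finrank_span_finset_le_card (R := ℝ) ({z, v} : Finset X)
      have h3 : (({z, v} : Finset X) : Set X) = {z, v} := by simp
      rw [Set.finrank, h3] at h2
      exact h2.trans Finset.card_le_two
    rw [h, finrank_top] at h1
    omega
  obtain ⟨p, hp1, hp2⟩ : ∃ p : X, p ∉ Submodule.span ℝ {z₁, v} ∧ p ∉ Submodule.span ℝ {z₂, v} := by
    by_contra hcon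
    push Not at hcon
    obtain ⟨a, ha⟩ : ∃ a, a ∉ Submodule.span ℝ {z₁, v} := by
      by_contra hh
      push Not at hh
      exact hproper z₁ (Submodule.eq_top_iff'.2 hh)
    obtain ⟨b, hb⟩ : ∃ b, b ∉ Submodule.span ℝ {z₂, v} := by
      by_contra hh
      push Not at hh
      exact hproper z₂ (Submodule.eq_top_iff'.2 hh)
    have ha2 := hcon a ha
    have hb1 : b ∈ Submodule.span ℝ {z₁, v} := by
      by_contra hh
      exact hb (hcon b hh)
    have hab1 : a + b ∉ Submodule.span ℝ {z₁, v} := fun h => ha ((Submodule.add_mem_iff_left _ hb1).1 h)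
    have hab2 := hcon _ hab1
    exact hb ((Submodule.add_mem_iff_right _ ha2).1 hab2)
  have hpv : ∀ t : ℝ, p + t • v ≠ 0 := by
    intro t h0
    apply hp1
    rw [Submodule.mem_span_pair]
    refine ⟨0, -t, ?_⟩
    rw [zero_smul, zero_add, neg_smul]
    exact (eq_neg_of_add_eq_zero_left h0).symm
  obtain ⟨t, ht⟩ := exists_level hN hL p v hpv 0 (by simpa using hv)
  have hcore : ∀ z : X, z ≠ 0 → nm z v = 0 → p ∉ Submodule.span ℝ {z, v} →
      F z v = F (p + t • v) v := by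
    intro z hz hzv hpz
    refine shadow_core hN hL F hF M hM hae v z (p + t • v) hv hzv ht ?_
    intro r t' h0
    rcases eq_or_ne r 0 with rfl | hr
    · rw [zero_smul, zero_add] at h0
      have h3 : z = (-t') • v := by
        rw [neg_smul]; exact eq_neg_of_add_eq_zero_left h0
      have h4 := nm_self' hN hz
      have h5 : nm z z = (-t') * nm z v := by
        have h6 := congrArg (nm z) h3
        rwa [map_smul, smul_eq_mul] at h6
      rw [h5, hzv, mul_zero] at h4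
      exact hz (norm_eq_zero.1 h4.symm)
    · apply hpz
      rw [Submodule.mem_span_pair]
      refine ⟨-(r⁻¹ * (1 - r)), -(r⁻¹ * (r * t + t')), ?_⟩
      have h6 : r • p = -((1 - r) • z + (r * t + t') • v) := by
        rw [eq_neg_iff_add_eq_zero, ← h0]; module
      have h7 : p = r⁻¹ • (r • p) := by rw [smul_smul, inv_mul_cancel₀ hr, one_smul]
      rw [h7, h6]; module
  rw [hcore z₁ h₁ hv₁ hp1, hcore z₂ h₂ hv₂ hp2]

end Vale.P084
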