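import Mathlib
import Vale.Agent.P084.Core2
import Vale.Agent.P084.Slice

/-!
# P084, Part II: conclusion for `C^{1,1}` norms
-/

namespace Vale.P084

open Metric Filter Topology MeasureTheory

variable {X Y : Type*} [NormedAddCommGroup X] [NormedSpace ℝ X] [FiniteDimensional ℝ X]
  [NormedAddCommGroup Y] [NormedSpace ℝ Y] [FiniteDimensional ℝ Y]

/-- Rademacher for functions locally Lipschitz off the origin -/
theorem ae_diff [MeasurableSpace X] [BorelSpace X] {Z : Type*} [NormedAddCommGroup Z]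
    [NormedSpace ℝ Z] [FiniteDimensional ℝ Z] {f : X → Z} (hf : LocallyLipschitzOn {0}ᶜ f) :
    ∀ᵐ x ∂(Measure.addHaar : Measure X), x ≠ 0 → DifferentiableAt ℝ f x := by
  classical
  have h1 : ∀ x : X, x ∈ ({0}ᶜ : Set X) → ∃ (K : NNReal) (U : Set X), IsOpen U ∧ x ∈ U ∧
      LipschitzOnWith K f U := by
    intro x hx
    obtain ⟨K, t, ht, hK⟩ := hf hx
    have ht' : t ∈ 𝓝 x := by
      rwa [(isOpen_compl_singleton (x := (0 : X))).nhdsWithin_eq hx] at ht
    exact ⟨K, interior t, isOpen_interior, mem_interior_iff_mem_nhds.2 ht',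
      hK.mono interior_subset⟩
  choose! K U hUo hxU hUL using h1
  obtain ⟨t, hts, htc, htU⟩ := TopologicalSpace.countable_cover_nhdsWithin (s := ({0}ᶜ : Set X))
    (f := U) fun x hx => mem_nhdsWithin_of_mem_nhds ((hUo x hx).mem_nhds (hxU x hx))
  have h2 : ∀ x ∈ t, ∀ᵐ y ∂(Measure.addHaar : Measure X), y ∈ U x → DifferentiableAt ℝ f y := by
    intro x hx
    have h3 := (hUL x (hts hx)).ae_differentiableWithinAt_of_mem (μ := Measure.addHaar)
    filter_upwards [h3] with y hy hyU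
    exact (hy hyU).differentiableAt ((hUo x (hts hx)).mem_nhds hyU)
  have h4 := (ae_ball_iff htc).2 h2
  filter_upwards [h4] with y hy hy0
  obtain ⟨x, hx, hyx⟩ := Set.mem_iUnion₂.1 (htU (show y ∈ ({0}ᶜ : Set X) from hy0))
  exact hy x hx hyx

/-- every vector is tangent somewhere; more precisely two vectors have a common tangency point in
dimension at least three -/
lemma exists_tangent (hN : C1 X) (hdim : 3 ≤ Module.finrank ℝ X) (u v : X) :
    ∃ x : X, x ≠ 0 ∧ nm x u = 0 ∧ nm x v = 0 := by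
  classical
  have : ProperSpace X := FiniteDimensional.proper ℝ X
  -- a nonzero functional vanishing on `u` and `v`
  have hne : Submodule.span ℝ ({u, v} : Set X) ≠ ⊤ := by
    intro h
    have h1 : Module.finrank ℝ (Submodule.span ℝ ({u, v} : Set X)) ≤ 2 := by
      have h2 := finrank_span_finset_le_card (R := ℝ) ({u, v} : Finset X)
      have h3 : (({u, v} : Finset X) : Set X) = {u, v} := by simp
      rw [h3] at h2
      exact h2.trans Finset.card_le_two
    rw [h, finrank_top] at h1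
    omega
  obtain ⟨ℓ, hℓ0, hℓ⟩ := Submodule.exists_le_ker_of_lt_top _ (lt_top_iff_ne_top.2 hne)
  have hu : ℓ u = 0 := hℓ (Submodule.subset_span (by simp))
  have hv : ℓ v = 0 := hℓ (Submodule.subset_span (by simp))
  let L : X →L[ℝ] ℝ := LinearMap.toContinuousLinearMap ℓ
  have hL : ∀ w, L w = ℓ w := fun w => rfl
  obtain ⟨w₀, hw₀⟩ : ∃ w, ℓ w ≠ 0 := by
    by_contra hcon
    push Not at hcon
    exact hℓ0 (LinearMap.ext hcon)
  have hw00 : w₀ ≠ 0 := by rintro rfl; exact hw₀ (map_zero _)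
  -- maximise `L` on the sphere
  have hcomp : IsCompact (sphere (0 : X) 1) := isCompact_sphere _ _
  have hnes : (sphere (0 : X) 1).Nonempty := by
    refine ⟨‖w₀‖⁻¹ • w₀, ?_⟩
    rw [mem_sphere_zero_iff_norm, norm_smul, norm_inv, norm_norm,
      inv_mul_cancel₀ (norm_ne_zero_iff.2 hw00)]
  obtain ⟨x, hx, hmax⟩ := hcomp.exists_isMaxOn hnes L.continuous.continuousOn
  have hx1 : ‖x‖ = 1 := by simpa using hx
  have hx0 : x ≠ 0 := by rintro rfl; rw [norm_zero] at hx1; exact zero_ne_one hx1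
  -- `L w ≤ L x ‖w‖`
  have hle : ∀ w, L w ≤ L x * ‖w‖ := by
    intro w
    by_cases hw : w = 0
    · subst hw; simp
    have hnw : 0 < ‖w‖ := norm_pos_iff.2 hw
    have h1 : ‖w‖⁻¹ • w ∈ sphere (0 : X) 1 := by
      rw [mem_sphere_zero_iff_norm, norm_smul, norm_inv, norm_norm, inv_mul_cancel₀ hnw.ne']
    have h2 : L (‖w‖⁻¹ • w) ≤ L x := hmax h1
    rw [map_smul, smul_eq_mul, inv_mul_le_iff₀ hnw] at h2
    linarith
  have hLx : 0 < L x := by
    have h1 := hle w₀
    have h2 := hle (-w₀)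
    rw [map_neg, norm_neg] at h2
    have hnw : 0 < ‖w₀‖ := norm_pos_iff.2 hw00
    by_contra hcon
    have h3 : L x * ‖w₀‖ ≤ 0 := mul_nonpos_of_nonpos_of_nonneg (not_lt.1 hcon) hnw.le
    have h4 : L w₀ = 0 := by linarith
    exact hw₀ h4
  -- the derivative of `L x ‖w‖ - L w` vanishes at `x`
  have hder : ∀ w, nm x w = L w / L x := by
    have h1 : HasFDerivAt (fun w : X => L x * ‖w‖ - L w) (L x • nm x - L) x :=
      ((hN.hasFDerivAt hx0).const_mul (L x)).sub L.hasFDerivAt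
    have h2 : IsLocalMin (fun w : X => L x * ‖w‖ - L w) x := by
      refine Eventually.of_forall fun w => ?_
      have := hle w
      simp only [hx1, mul_one, sub_self]
      linarith
    have h3 := h2.hasFDerivAt_eq_zero h1
    intro w
    have h4 := congrArg (fun M : X →L[ℝ] ℝ => M w) h3
    simp only [sub_apply, smul_apply, smul_eq_mul, zero_apply] at h4
    rw [eq_div_iff hLx.ne']
    linarith
  refine ⟨x, hx0, ?_, ?_⟩
  · rw [hder, hL, hu, zero_div]
  · rw [hder, hL, hv, zero_div]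

/-- Part II: `C^{1,1}` norms -/
theorem Ext.linear_of_C11 {φ : X → Y} (e : Ext φ) (hX : C11 X) (hY : C11 Y)
    (hdim : 3 ≤ Module.finrank ℝ X) : ∃ L : X →L[ℝ] Y, ∀ x, φ x = L x := by
  classical
  letI : MeasurableSpace X := borel X
  haveI : BorelSpace X := ⟨rfl⟩
  have hNX : C1 X := hX.contDiffOn
  have hNY : C1 Y := hY.contDiffOn
  have d : Dat1 φ := ⟨hNX, hNY, e⟩
  have hLF := e.locLip_fderiv hX hY
  have hLN := hX.locLip
  have hae : ∀ᵐ x ∂(Measure.addHaar : Measure X), x ≠ 0 → ∃ k : Y, ‖k‖ ≤ 2 ∧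
      ∀ u v, fderiv ℝ (fderiv ℝ φ) x u v = fderiv ℝ (nm (E := X)) x u v • k := by
    filter_upwards [ae_diff hLF, ae_diff hLN] with x h1 h2 hx
    exact d.rel hx (h2 hx) (h1 hx)
  have hshadow : ∀ v z₁ z₂ : X, z₁ ≠ 0 → z₂ ≠ 0 → nm z₁ v = 0 → nm z₂ v = 0 →
      fderiv ℝ φ z₁ v = fderiv ℝ φ z₂ v := fun v z₁ z₂ h₁ h₂ hv₁ hv₂ =>
    shadow_const hdim hNX hLN (fderiv ℝ φ) hLF 2 (by norm_num) hae v z₁ z₂ h₁ h₂ hv₁ hv₂
  -- the linear map
  choose x₁ hx₁0 hx₁ _ using fun v : X => exists_tangent hNX hdim v v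
  let ψ : X → Y := fun v => fderiv ℝ φ (x₁ v) v
  have hψ : ∀ v z, z ≠ 0 → nm z v = 0 → fderiv ℝ φ z v = ψ v := fun v z hz hzv =>
    hshadow v z (x₁ v) hz (hx₁0 v) hzv (hx₁ v)
  have hadd : ∀ u v, ψ (u + v) = ψ u + ψ v := by
    intro u v
    obtain ⟨x, hx, hu, hv⟩ := exists_tangent hNX hdim u v
    rw [← hψ u x hx hu, ← hψ v x hx hv, ← hψ (u + v) x hx (by rw [map_add, hu, hv, add_zero]),
      map_add]
  have hsmul : ∀ (c : ℝ) v, ψ (c • v) = c • ψ v := by
    intro c v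
    rw [← hψ v _ (hx₁0 v) (hx₁ v), ← hψ (c • v) _ (hx₁0 v) (by rw [map_smul, hx₁ v, smul_zero]),
      map_smul]
  let L₀ : X →ₗ[ℝ] Y := { toFun := ψ, map_add' := hadd, map_smul' := hsmul }
  let L : X →L[ℝ] Y := LinearMap.toContinuousLinearMap L₀
  have hL : ∀ v, L v = ψ v := fun v => rfl
  -- the homogeneous difference is constant
  let θ : X → Y := fun x => ‖x‖⁻¹ • (φ x - L x)
  have hθ : ∀ x : X, x ≠ 0 → HasFDerivAt θ (0 : X →L[ℝ] Y) x := by
    intro x hx
    have hnx : ‖x‖ ≠ 0 := norm_ne_zero_iff.2 hx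
    have h1 : HasFDerivAt (fun z : X => ‖z‖⁻¹) (-(‖x‖ ^ 2)⁻¹ • nm x) x :=
      (hasDerivAt_inv hnx).comp_hasFDerivAt x (hNX.hasFDerivAt hx)
    have h2 : HasFDerivAt (fun z : X => φ z - L z) (fderiv ℝ φ x - L) x :=
      (d.hF hx).sub L.hasFDerivAt
    have h3 := h1.smul h2
    refine h3.congr_fderiv ?_
    refine ContinuousLinearMap.ext fun w => ?_
    -- decompose `w`
    set a := nm x w / ‖x‖ with ha
    have hwt : nm x (w - a • x) = 0 := by
      rw [map_sub, map_smul, hNX.nm_self hx, ha, smul_eq_mul, div_mul_cancel₀ _ hnx, sub_self]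
    have hw : w = (w - a • x) + a • x := by abel
    have h4 : fderiv ℝ φ x w - L w = a • (φ x - L x) := by
      conv_lhs => rw [hw]
      rw [map_add, map_add, hψ _ x hx hwt, hL, map_smul, map_smul, d.F_self hx, smul_sub]
      abel
    show ‖x‖⁻¹ • (fderiv ℝ φ x w - L w) + (-(‖x‖ ^ 2)⁻¹ • nm x w) • (φ x - L x) = 0
    rw [h4, smul_smul, ← add_smul]
    have h5 : ‖x‖⁻¹ * a + -(‖x‖ ^ 2)⁻¹ • nm x w = 0 := by
      rw [ha, smul_eq_mul]; field_simp; ring
    rw [h5, zero_smul]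
  have hrank : 1 < Module.rank ℝ X := by
    rw [← Module.finrank_eq_rank]
    exact_mod_cast (by omega : 1 < Module.finrank ℝ X)
  have hconn : IsPreconnected ({0}ᶜ : Set X) :=
    (isConnected_compl_singleton_of_one_lt_rank hrank 0).isPreconnected
  have hdiff : DifferentiableOn ℝ θ ({0}ᶜ : Set X) :=
    fun z hz => (hθ z hz).differentiableAt.differentiableWithinAt
  have hzero : ({0}ᶜ : Set X).EqOn (fderiv ℝ θ) 0 := fun z hz => (hθ z hz).fderiv
  refine ⟨L, fun x => ?_⟩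
  by_cases hx : x = 0
  · subst hx; rw [e.map_zero]; exact (L.map_zero).symm
  have hnx : ‖x‖ ≠ 0 := norm_ne_zero_iff.2 hx
  have h1 : θ x = θ (-x) :=
    isOpen_compl_singleton.is_const_of_fderiv_eq_zero hconn hdiff hzero hx (neg_ne_zero.2 hx)
  have h2 : θ (-x) = -θ x := by
    show ‖-x‖⁻¹ • (φ (-x) - L (-x)) = -(‖x‖⁻¹ • (φ x - L x))
    rw [norm_neg, e.map_neg, L.map_neg]; module
  rw [h2] at h1
  have h3 : θ x = 0 := by
    have h4 : (2 : ℝ) • θ x = 0 := by rw [two_smul]; nth_rewrite 1 [h1]; simp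
    exact (smul_eq_zero.1 h4).resolve_left two_ne_zero
  have h4 : φ x - L x = 0 := (smul_eq_zero.1 h3).resolve_left (inv_ne_zero hnx)
  exact sub_eq_zero.1 h4

end Vale.P084
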