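import Mathlib

/-!
# P084, module G1: the star lemma
-/

namespace Vale.P084

open Metric Filter Topology

section

variable {E : Type*} [NormedAddCommGroup E] [NormedSpace ℝ E]

/-- the points of the unit sphere where `α` takes the value one -/
def faceOf (α : E →L[ℝ] ℝ) : Set E := {u | ‖u‖ = 1 ∧ α u = 1}

lemma apply_le_of_norm_le_one {α : E →L[ℝ] ℝ} (h : ‖α‖ ≤ 1) (u : E) : α u ≤ ‖u‖ :=
  calc α u ≤ ‖α u‖ := le_abs_self _
    _ ≤ ‖α‖ * ‖u‖ := α.le_opNorm u
    _ ≤ 1 * ‖u‖ := by gcongr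
    _ = ‖u‖ := one_mul _

lemma star_key [FiniteDimensional ℝ E] {x y : E} (hx : ‖x‖ = 1) (hy : ‖y‖ = 1)
    (hxy : ‖x + y‖ = 2) : ∃ (z : E) (α : E →L[ℝ] ℝ), ‖z‖ = 1 ∧ ‖α‖ ≤ 1 ∧ α x = 1 ∧ α y = 1 ∧
      α z = 1 ∧ ∀ u, ‖u‖ = 1 → (‖u + z‖ = 2 ↔ α u = 1) := by
  classical
  -- a face containing `x` and `y` with maximal span
  set fam : Set (Submodule ℝ E) :=
    {S | ∃ α : E →L[ℝ] ℝ, ‖α‖ ≤ 1 ∧ α x = 1 ∧ α y = 1 ∧ S = Submodule.span ℝ (faceOf α)} with hfam
  have hne : fam.Nonempty := by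
    obtain ⟨α, hα1, hα2⟩ := exists_dual_vector'' ℝ (x + y)
    rw [hxy, map_add] at hα2
    have hα2' : α x + α y = 2 := hα2
    have h1 := apply_le_of_norm_le_one hα1 x
    have h2 := apply_le_of_norm_le_one hα1 y
    exact ⟨_, α, hα1, by linarith, by linarith, rfl⟩
  obtain ⟨S, ⟨α, hα1, hαx, hαy, hS⟩, hmax⟩ :=
    WellFounded.has_min (wellFounded_gt (α := Submodule ℝ E)) fam hne
  have hmaximal : ∀ β : E →L[ℝ] ℝ, ‖β‖ ≤ 1 → faceOf α ⊆ faceOf β →
      Submodule.span ℝ (faceOf β) ≤ Submodule.span ℝ (faceOf α) := by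
    intro β hβ hsub
    have hx' : x ∈ faceOf α := ⟨hx, hαx⟩
    have hy' : y ∈ faceOf α := ⟨hy, hαy⟩
    have hmem : Submodule.span ℝ (faceOf β) ∈ fam := ⟨β, hβ, (hsub hx').2, (hsub hy').2, rfl⟩
    have hnlt := hmax _ hmem
    rw [hS] at hnlt
    have hle : Submodule.span ℝ (faceOf α) ≤ Submodule.span ℝ (faceOf β) :=
      Submodule.span_mono hsub
    by_contra hcon
    exact hnlt (lt_of_le_not_ge hle hcon)
  -- finite spanning subset
  have hfg : (Submodule.span ℝ (faceOf α)).FG := IsNoetherian.noetherian _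
  obtain ⟨T, hTsub, hTspan⟩ := Submodule.fg_span_iff_fg_span_finset_subset (faceOf α) |>.1 hfg
  have hTne : T.Nonempty := by
    rw [Finset.nonempty_iff_ne_empty]
    rintro rfl
    have h1 : x ∈ Submodule.span ℝ (faceOf α) := Submodule.subset_span ⟨hx, hαx⟩
    rw [hTspan] at h1
    simp only [Finset.coe_empty, Submodule.span_empty, Submodule.mem_bot] at h1
    rw [h1, norm_zero] at hx
    exact zero_ne_one hx
  have hcard : (0 : ℝ) < T.card := by exact_mod_cast hTne.card_pos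
  set z : E := (T.card : ℝ)⁻¹ • ∑ u ∈ T, u with hz
  have hsum : ∀ β : E →L[ℝ] ℝ, β z = (T.card : ℝ)⁻¹ * ∑ u ∈ T, β u := by
    intro β; rw [hz, map_smul, map_sum, smul_eq_mul]
  have hαz : α z = 1 := by
    rw [hsum, Finset.sum_congr rfl (fun u hu => (hTsub hu).2)]
    simp [hcard.ne']
  have hz1 : ‖z‖ = 1 := by
    apply le_antisymm
    · rw [hz, norm_smul, norm_inv, Real.norm_natCast]
      have h1 : ‖∑ u ∈ T, u‖ ≤ ∑ u ∈ T, ‖u‖ := norm_sum_le _ _
      rw [Finset.sum_congr rfl (fun u hu => (hTsub hu).1)] at h1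
      simp only [Finset.sum_const, nsmul_eq_mul, mul_one] at h1
      calc (T.card : ℝ)⁻¹ * ‖∑ u ∈ T, u‖ ≤ (T.card : ℝ)⁻¹ * T.card := by gcongr
        _ = 1 := inv_mul_cancel₀ hcard.ne'
    · have := apply_le_of_norm_le_one hα1 z
      rwa [hαz] at this
  -- any functional norming `z` agrees with `α` on the face
  have hagree : ∀ β : E →L[ℝ] ℝ, ‖β‖ ≤ 1 → β z = 1 → ∀ u ∈ Submodule.span ℝ (faceOf α),
      β u = α u := by
    intro β hβ hβz
    have h1 : ∑ u ∈ T, (1 - β u) = 0 := by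
      rw [hsum] at hβz
      rw [Finset.sum_sub_distrib]
      simp only [Finset.sum_const, nsmul_eq_mul, mul_one]
      have : ∑ u ∈ T, β u = T.card := by
        have h2 := congrArg (fun r => (T.card : ℝ) * r) hβz
        simp only [mul_one] at h2
        rwa [← mul_assoc, mul_inv_cancel₀ hcard.ne', one_mul] at h2
      rw [this, sub_self]
    have h2 : ∀ u ∈ T, β u = 1 := by
      have h3 := (Finset.sum_eq_zero_iff_of_nonneg (s := T) (f := fun u => 1 - β u) (fun u hu => by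
        have := apply_le_of_norm_le_one hβ u
        rw [(hTsub hu).1] at this
        linarith)).1 h1
      intro u hu
      have := h3 u hu
      linarith
    intro u hu
    rw [hTspan] at hu
    induction hu using Submodule.span_induction with
    | mem w hw => rw [h2 w hw, (hTsub hw).2]
    | zero => simp
    | add a b _ _ ha hb => rw [map_add, map_add, ha, hb]
    | smul c a _ ha => rw [map_smul, map_smul, ha]
  refine ⟨z, α, hz1, hα1, hαx, hαy, hαz, fun u hu => ⟨fun huz => ?_, fun hαu => ?_⟩⟩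
  · obtain ⟨β, hβ1, hβ2⟩ := exists_dual_vector'' ℝ (u + z)
    rw [huz, map_add] at hβ2
    have hβ2' : β u + β z = 2 := hβ2
    have h1 := apply_le_of_norm_le_one hβ1 u
    have h2 := apply_le_of_norm_le_one hβ1 z
    have hβz : β z = 1 := by linarith
    have hβu : β u = 1 := by linarith
    have hag := hagree β hβ1 hβz
    have hsub : faceOf α ⊆ faceOf β := by
      intro w hw
      exact ⟨hw.1, by rw [hag w (Submodule.subset_span hw), hw.2]⟩
    have hle := hmaximal β hβ1 hsub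
    have hu' : u ∈ Submodule.span ℝ (faceOf α) := hle (Submodule.subset_span ⟨hu, hβu⟩)
    rw [← hag u hu', hβu]
  · apply le_antisymm
    · calc ‖u + z‖ ≤ ‖u‖ + ‖z‖ := norm_add_le _ _
        _ = 2 := by rw [hu, hz1]; norm_num
    · have := apply_le_of_norm_le_one hα1 (u + z)
      rw [map_add, hαu, hαz] at this
      linarith

/-- a metric characterisation of `‖x + y‖ = 2` in the unit sphere -/
lemma star_char [FiniteDimensional ℝ E] {x y : E} (hx : ‖x‖ = 1) (hy : ‖y‖ = 1) :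
    ‖x + y‖ = 2 ↔ ∃ w : E, ‖w‖ = 1 ∧ ‖x - w‖ = 2 ∧ ‖y - w‖ = 2 ∧
      ∀ w' : E, ‖w'‖ = 1 → (∀ u, ‖u‖ = 1 → ‖u - w'‖ = 2 → ‖u - w‖ = 2) →
        ∀ u, ‖u‖ = 1 → ‖u - w‖ = 2 → ‖u - w'‖ = 2 := by
  constructor
  · intro hxy
    obtain ⟨z, α, hz, hα, hαx, hαy, hαz, hiff⟩ := star_key hx hy hxy
    refine ⟨-z, by rwa [norm_neg], ?_, ?_, ?_⟩
    · rw [sub_neg_eq_add]; exact (hiff x hx).2 hαx
    · rw [sub_neg_eq_add]; exact (hiff y hy).2 hαy
    · intro w' hw' hsub u hu huz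
      rw [sub_neg_eq_add] at huz
      have hαu := (hiff u hu).1 huz
      have h1 : ‖-w' - w'‖ = 2 := by
        have : -w' - w' = -((2 : ℝ) • w') := by module
        rw [this, norm_neg, norm_smul, hw']; norm_num
      have h2 := hsub (-w') (by rwa [norm_neg]) h1
      rw [sub_neg_eq_add] at h2
      have h3 := (hiff (-w') (by rwa [norm_neg])).1 h2
      rw [map_neg] at h3
      apply le_antisymm
      · calc ‖u - w'‖ ≤ ‖u‖ + ‖w'‖ := norm_sub_le _ _
          _ = 2 := by rw [hu, hw']; norm_num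
      · have := apply_le_of_norm_le_one hα (u - w')
        rw [map_sub, hαu] at this
        linarith
  · rintro ⟨w, hw, hxw, hyw, hmin⟩
    have hww : ‖-w + -w‖ = 2 := by
      have : -w + -w = -((2 : ℝ) • w) := by module
      rw [this, norm_neg, norm_smul, hw]; norm_num
    obtain ⟨z, α, hz, hα, hαw, -, hαz, hiff⟩ :=
      star_key (x := -w) (y := -w) (by rwa [norm_neg]) (by rwa [norm_neg]) hww
    have hαw' : α w = -1 := by rw [map_neg] at hαw; linarith
    have hsub : ∀ u, ‖u‖ = 1 → ‖u - -z‖ = 2 → ‖u - w‖ = 2 := by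
      intro u hu huz
      rw [sub_neg_eq_add] at huz
      have hαu := (hiff u hu).1 huz
      apply le_antisymm
      · calc ‖u - w‖ ≤ ‖u‖ + ‖w‖ := norm_sub_le _ _
          _ = 2 := by rw [hu, hw]; norm_num
      · have := apply_le_of_norm_le_one hα (u - w)
        rw [map_sub, hαu, hαw'] at this
        linarith
    have h1 := hmin (-z) (by rwa [norm_neg]) hsub
    have hx1 := h1 x hx hxw
    have hy1 := h1 y hy hyw
    rw [sub_neg_eq_add] at hx1 hy1
    have hαx := (hiff x hx).1 hx1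
    have hαy := (hiff y hy).1 hy1
    apply le_antisymm
    · calc ‖x + y‖ ≤ ‖x‖ + ‖y‖ := norm_add_le _ _
        _ = 2 := by rw [hx, hy]; norm_num
    · have := apply_le_of_norm_le_one hα (x + y)
      rw [map_add, hαx, hαy] at this
      linarith

end

variable {X Y : Type*} [NormedAddCommGroup X] [NormedSpace ℝ X]
  [NormedAddCommGroup Y] [NormedSpace ℝ Y]

/-- the star lemma -/
theorem star_lemma [FiniteDimensional ℝ X] [FiniteDimensional ℝ Y] {f : X → Y}
    (hn : ∀ x, ‖x‖ = 1 → ‖f x‖ = 1)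
    (hd : ∀ x y, ‖x‖ = 1 → ‖y‖ = 1 → ‖f x - f y‖ = ‖x - y‖)
    (hs : ∀ y, ‖y‖ = 1 → ∃ x, ‖x‖ = 1 ∧ f x = y) (x y : X) (hx : ‖x‖ = 1) (hy : ‖y‖ = 1) :
    ‖f x + f y‖ = 2 ↔ ‖x + y‖ = 2 := by
  rw [star_char hx hy, star_char (hn x hx) (hn y hy)]
  constructor
  · rintro ⟨w₁, hw₁, hxw, hyw, hmin⟩
    obtain ⟨w, hw, rfl⟩ := hs w₁ hw₁
    refine ⟨w, hw, by rw [← hd x w hx hw, hxw], by rw [← hd y w hy hw, hyw], ?_⟩
    intro w' hw' hsub u hu huw
    have h1 := hmin (f w') (hn w' hw') (by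
      intro u' hu' huw'
      obtain ⟨a, ha, rfl⟩ := hs u' hu'
      rw [hd a w' ha hw'] at huw'
      rw [hd a w ha hw]
      exact hsub a ha huw') (f u) (hn u hu) (by rw [hd u w hu hw, huw])
    rwa [hd u w' hu hw'] at h1
  · rintro ⟨w, hw, hxw, hyw, hmin⟩
    refine ⟨f w, hn w hw, by rw [hd x w hx hw, hxw], by rw [hd y w hy hw, hyw], ?_⟩
    intro w₁ hw₁ hsub u₁ hu₁ huw
    obtain ⟨w', hw', rfl⟩ := hs w₁ hw₁
    obtain ⟨u, hu, rfl⟩ := hs u₁ hu₁
    rw [hd u w' hu hw']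
    rw [hd u w hu hw] at huw
    refine hmin w' hw' ?_ u hu huw
    intro a ha haw
    have h1 := hsub (f a) (hn a ha) (by rw [hd a w' ha hw', haw])
    rwa [hd a w ha hw] at h1

end Vale.P084
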