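import Mathlib
import Vale.Agent.P084.Norming
import Vale.Agent.P084.Star

/-!
# P084, module B: sphere isometries, good points, spanning
-/

namespace Vale.P084

open Metric Filter Topology

variable {X Y : Type*} [NormedAddCommGroup X] [NormedSpace ℝ X]
  [NormedAddCommGroup Y] [NormedSpace ℝ Y]

/-- `f` restricts to an isometry of the unit sphere of `X` onto that of `Y`, which preserves the
relation of lying in a common convex subset of the sphere -/
structure SphIso (f : X → Y) : Prop where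
  norm : ∀ x, ‖x‖ = 1 → ‖f x‖ = 1
  dist : ∀ x y, ‖x‖ = 1 → ‖y‖ = 1 → ‖f x - f y‖ = ‖x - y‖
  surj : ∀ y, ‖y‖ = 1 → ∃ x, ‖x‖ = 1 ∧ f x = y
  star : ∀ x y, ‖x‖ = 1 → ‖y‖ = 1 → (‖f x + f y‖ = 2 ↔ ‖x + y‖ = 2)

/-- `y` is a good point for `f` and `x` -/
structure Good (f : X → Y) (x y : X) : Prop where
  norm : ‖y‖ = 1
  lt : ‖x + y‖ < 2
  ss : (J (x - y)).Subsingleton
  ss' : (J (f x - f y)).Subsingleton

/-- (exit lemma) if the chord from `x` to `y` has its interior in the open unit ball, nearby points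
and directions have nearby exit points -/
lemma exit {x y : X} (hx : ‖x‖ = 1) (hy : ‖y‖ = 1) (hxy : ‖x + y‖ < 2) {ε : ℝ} (hε : 0 < ε) :
    ∃ δ > 0, ∀ x' w', ‖x'‖ = 1 → ‖x' - x‖ < δ → ‖w' - (x - y)‖ < δ →
      ∃ t : ℝ, |t - 1| < ε ∧ ‖x' - t • w'‖ = 1 := by
  obtain ⟨e, he0, he1, he2⟩ : ∃ e : ℝ, 0 < e ∧ e < ε ∧ e ≤ 1 / 2 :=
    ⟨min (ε / 2) (1 / 2), by positivity, lt_of_le_of_lt (min_le_left _ _) (by linarith),
      min_le_right _ _⟩
  have h1 : ‖x - (1 - e) • (x - y)‖ < 1 := by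
    have : x - (1 - e) • (x - y) = e • (x + y) + (1 - 2 * e) • y := by module
    rw [this]
    calc _ ≤ ‖e • (x + y)‖ + ‖(1 - 2 * e) • y‖ := norm_add_le _ _
      _ = e * ‖x + y‖ + (1 - 2 * e) := by
        rw [norm_smul, norm_smul, hy, Real.norm_of_nonneg he0.le,
          Real.norm_of_nonneg (by linarith : 0 ≤ 1 - 2 * e), mul_one]
      _ < 1 := by nlinarith
  have h2 : 1 < ‖x - (1 + e) • (x - y)‖ := by
    have : (1 + 2 * e) • y = (x - (1 + e) • (x - y)) + e • (x + y) := by module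
    have h3 : 1 + 2 * e = ‖(1 + 2 * e) • y‖ := by
      rw [norm_smul, hy, Real.norm_of_nonneg (by linarith), mul_one]
    have h4 : ‖(1 + 2 * e) • y‖ ≤ ‖x - (1 + e) • (x - y)‖ + e * ‖x + y‖ := by
      rw [this]
      refine (norm_add_le _ _).trans ?_
      rw [norm_smul, Real.norm_of_nonneg he0.le]
    nlinarith
  obtain ⟨δ, hδ0, hδ1, hδ2⟩ : ∃ δ : ℝ, 0 < δ ∧ 4 * δ < 1 - ‖x - (1 - e) • (x - y)‖ ∧
      4 * δ < ‖x - (1 + e) • (x - y)‖ - 1 := by
    refine ⟨min (1 - ‖x - (1 - e) • (x - y)‖) (‖x - (1 + e) • (x - y)‖ - 1) / 5, ?_, ?_, ?_⟩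
    · have : 0 < min (1 - ‖x - (1 - e) • (x - y)‖) (‖x - (1 + e) • (x - y)‖ - 1) :=
        lt_min (by linarith) (by linarith)
      positivity
    · have h0 : 0 < min (1 - ‖x - (1 - e) • (x - y)‖) (‖x - (1 + e) • (x - y)‖ - 1) :=
        lt_min (by linarith) (by linarith)
      have := min_le_left (1 - ‖x - (1 - e) • (x - y)‖) (‖x - (1 + e) • (x - y)‖ - 1)
      linarith
    · have h0 : 0 < min (1 - ‖x - (1 - e) • (x - y)‖) (‖x - (1 + e) • (x - y)‖ - 1) :=
        lt_min (by linarith) (by linarith)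
      have := min_le_right (1 - ‖x - (1 - e) • (x - y)‖) (‖x - (1 + e) • (x - y)‖ - 1)
      linarith
  refine ⟨δ, hδ0, fun x' w' _ hx' hw' => ?_⟩
  have key : ∀ t : ℝ, |t| ≤ 2 → |‖x' - t • w'‖ - ‖x - t • (x - y)‖| ≤ 3 * δ := by
    intro t ht
    refine (abs_norm_sub_norm_le _ _).trans ?_
    have : x' - t • w' - (x - t • (x - y)) = (x' - x) - t • (w' - (x - y)) := by module
    rw [this]
    refine (norm_sub_le _ _).trans ?_
    rw [norm_smul, Real.norm_eq_abs]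
    nlinarith [norm_nonneg (w' - (x - y)), abs_nonneg t]
  have k1 := abs_le.1 (key (1 - e) (by rw [abs_le]; constructor <;> linarith))
  have k2 := abs_le.1 (key (1 + e) (by rw [abs_le]; constructor <;> linarith))
  have hcont : ContinuousOn (fun t : ℝ => ‖x' - t • w'‖) (Set.Icc (1 - e) (1 + e)) := by
    fun_prop
  have hmem : (1 : ℝ) ∈ Set.Icc ‖x' - (1 - e) • w'‖ ‖x' - (1 + e) • w'‖ := by
    constructor <;> linarith [k1.1, k1.2, k2.1, k2.2]
  obtain ⟨t, ht, ht'⟩ := intermediate_value_Icc (by linarith : 1 - e ≤ 1 + e) hcont hmem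
  refine ⟨t, ?_, ht'⟩
  rw [abs_lt]
  constructor <;> linarith [ht.1, ht.2]

/-- inverse of a sphere isometry -/
lemma SphIso.inv {f : X → Y} (hf : SphIso f) : ∃ g : Y → X, SphIso g ∧
    (∀ x, ‖x‖ = 1 → g (f x) = x) ∧ ∀ y, ‖y‖ = 1 → f (g y) = y := by
  classical
  choose! g hg1 hg2 using hf.surj
  have hinj : ∀ x, ‖x‖ = 1 → g (f x) = x := by
    intro x hx
    have h1 := hf.dist (g (f x)) x (hg1 _ (hf.norm x hx)) hx
    rw [hg2 _ (hf.norm x hx), sub_self, norm_zero] at h1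
    exact sub_eq_zero.1 (norm_eq_zero.1 h1.symm)
  refine ⟨g, ⟨fun y hy => hg1 y hy, fun y z hy hz => ?_, fun x hx => ⟨f x, hf.norm x hx, hinj x hx⟩,
    fun y z hy hz => ?_⟩, hinj, fun y hy => hg2 y hy⟩
  · rw [← hf.dist _ _ (hg1 y hy) (hg1 z hz), hg2 y hy, hg2 z hz]
  · rw [← hf.star _ _ (hg1 y hy) (hg1 z hz), hg2 y hy, hg2 z hz]

lemma SphIso.id : SphIso (fun x : X => x) :=
  ⟨fun _ h => h, fun _ _ _ _ => rfl, fun y hy => ⟨y, hy, rfl⟩, fun _ _ _ _ => Iff.rfl⟩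

/-- one application of the touching lemma -/
lemma good_near_aux [FiniteDimensional ℝ Y] {f : X → Y} (hf : SphIso f) {x y₀ : X}
    (hx : ‖x‖ = 1) (hy₀ : ‖y₀‖ = 1) (hxy : ‖x + y₀‖ < 2) {ε : ℝ} (hε : 0 < ε) :
    ∃ y, ‖y‖ = 1 ∧ ‖y - y₀‖ < ε ∧ (J (f x - f y)).Subsingleton := by
  have hlt : ‖f x + f y₀‖ < 2 := by
    refine lt_of_le_of_ne ?_ (fun h => ?_)
    · refine (norm_add_le _ _).trans ?_
      rw [hf.norm x hx, hf.norm y₀ hy₀]; norm_num
    · rw [hf.star x y₀ hx hy₀] at h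
      linarith
  have hne : f x - f y₀ ≠ 0 := by
    intro h
    have h1 : f x = f y₀ := sub_eq_zero.1 h
    rw [← h1, ← two_smul ℝ, norm_smul, hf.norm x hx] at hlt
    norm_num at hlt
  set w₀ := f x - f y₀ with hw₀
  have hw₀n : ‖w₀‖ ≤ 2 := by
    rw [hw₀]
    refine (norm_sub_le _ _).trans ?_
    rw [hf.norm x hx, hf.norm y₀ hy₀]; norm_num
  have hw₀p : 0 < ‖w₀‖ := norm_pos_iff.2 hne
  set e : ℝ := min (ε / 8) (1 / 2) with he
  have he0 : 0 < e := by rw [he]; positivity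
  have he1 : e ≤ ε / 8 := min_le_left _ _
  have he2 : e ≤ 1 / 2 := min_le_right _ _
  obtain ⟨δ, hδ, hexit⟩ := exit (hf.norm x hx) (hf.norm y₀ hy₀) hlt he0
  obtain ⟨C, hC, htouch⟩ := exists_touch Y
  set δ' : ℝ := min (min δ (ε / 8)) (min (‖w₀‖) 1) with hδ'
  have hδ'0 : 0 < δ' := by rw [hδ']; positivity
  obtain ⟨w, ξ, hw1, hw2⟩ := htouch (max 1 (2 * C / δ')) (le_max_left _ _) w₀
  have hw3 : ‖w - w₀‖ < δ' := by
    refine lt_of_le_of_lt hw1 ?_
    have hK : 0 < max 1 (2 * C / δ') := lt_of_lt_of_le one_pos (le_max_left _ _)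
    rw [div_lt_iff₀ hK]
    have h1 : 2 * C / δ' ≤ max 1 (2 * C / δ') := le_max_right _ _
    rw [div_le_iff₀ hδ'0] at h1
    nlinarith
  have hd1 : δ' ≤ δ := (min_le_left _ _).trans (min_le_left _ _)
  have hd2 : δ' ≤ ε / 8 := (min_le_left _ _).trans (min_le_right _ _)
  have hd3 : δ' ≤ ‖w₀‖ := (min_le_right _ _).trans (min_le_left _ _)
  have hd4 : δ' ≤ 1 := (min_le_right _ _).trans (min_le_right _ _)
  have hw : w ≠ 0 := by
    rintro rfl
    rw [zero_sub, norm_neg] at hw3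
    linarith
  obtain ⟨t, ht1, ht2⟩ := hexit (f x) w (hf.norm x hx) (by rw [sub_self, norm_zero]; exact hδ)
    (lt_of_lt_of_le hw3 hd1)
  have ht := abs_lt.1 ht1
  have ht0 : 0 < t := by linarith [ht.1]
  obtain ⟨y, hy1, hy2⟩ := hf.surj _ ht2
  refine ⟨y, hy1, ?_, ?_⟩
  · rw [← hf.dist y y₀ hy1 hy₀, hy2]
    have h1 : f x - t • w - f y₀ = (w₀ - w) + (1 - t) • w := by rw [hw₀]; module
    rw [h1]
    refine lt_of_le_of_lt (norm_add_le _ _) ?_
    rw [norm_smul, Real.norm_eq_abs, abs_sub_comm, norm_sub_rev w₀ w]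
    have hwn : ‖w‖ ≤ 3 := by
      have : w = w₀ + (w - w₀) := by abel
      rw [this]
      refine (norm_add_le _ _).trans ?_
      linarith
    have := abs_nonneg (t - 1)
    nlinarith [norm_nonneg w]
  · rw [hy2, sub_sub_cancel, J_smul ht0, J_of_touch hw hw2]
    exact Set.subsingleton_singleton

/-- open dense sets of good points -/
lemma dense_small_aux [FiniteDimensional ℝ X] [FiniteDimensional ℝ Y] {f : X → Y} (hf : SphIso f)
    {x : X} (hx : ‖x‖ = 1) (m : ℕ) :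
    let A : Set (sphere (0 : X) 1) := {s | ‖x + s‖ < 2}
    let W : Set (sphere (0 : X) 1) :=
      {s | ‖x + s‖ < 2 ∧ ∀ ζ ∈ J (f x - f s), ∀ ζ' ∈ J (f x - f s), ‖ζ - ζ'‖ < 1 / ((m : ℝ) + 1)}
    IsOpen (W ∪ (closure A)ᶜ) ∧ Dense (W ∪ (closure A)ᶜ) := by
  intro A W
  have hnorm : ∀ s : sphere (0 : X) 1, ‖(s : X)‖ = 1 := fun s => by
    simp
  have hcont : Continuous fun s : sphere (0 : X) 1 => f s := by
    have : Isometry fun s : sphere (0 : X) 1 => f s := by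
      refine Isometry.of_dist_eq fun s t => ?_
      rw [dist_eq_norm, hf.dist _ _ (hnorm s) (hnorm t), Subtype.dist_eq, dist_eq_norm]
    exact this.continuous
  have hA : IsOpen A := by
    refine isOpen_lt ?_ continuous_const
    fun_prop
  have hW : IsOpen W := by
    refine hA.inter ?_
    exact (isOpen_small (E := Y) (1 / ((m : ℝ) + 1))).preimage (continuous_const.sub hcont)
  refine ⟨hW.union isClosed_closure.isOpen_compl, ?_⟩
  rw [dense_iff_inter_open]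
  rintro O hO ⟨s, hs⟩
  by_cases hsA : s ∈ closure A
  · obtain ⟨s', hs'O, hs'A⟩ := mem_closure_iff.1 hsA O hO hs
    obtain ⟨ε, hε, hball⟩ := Metric.isOpen_iff.1 (hO.inter hA) s' ⟨hs'O, hs'A⟩
    obtain ⟨y, hy1, hy2, hy3⟩ := good_near_aux hf hx (hnorm s') hs'A hε
    have hyS : y ∈ sphere (0 : X) 1 := by simpa using hy1
    have hyb : (⟨y, hyS⟩ : sphere (0 : X) 1) ∈ ball s' ε := by
      rw [mem_ball, Subtype.dist_eq, dist_eq_norm]; exact hy2
    obtain ⟨hyO, hyA⟩ := hball hyb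
    refine ⟨⟨y, hyS⟩, hyO, Or.inl ⟨hyA, fun ζ hζ ζ' hζ' => ?_⟩⟩
    rw [hy3 hζ hζ', sub_self, norm_zero]
    positivity
  · exact ⟨s, hs, Or.inr hsA⟩

lemma J_subsingleton_of_small (w : X)
    (h : ∀ m : ℕ, ∀ ζ ∈ J w, ∀ ζ' ∈ J w, ‖ζ - ζ'‖ < 1 / ((m : ℝ) + 1)) : (J w).Subsingleton := by
  intro ζ hζ ζ' hζ'
  by_contra hne
  have hpos : 0 < ‖ζ - ζ'‖ := norm_pos_iff.2 (sub_ne_zero.2 hne)
  obtain ⟨m, hm⟩ := exists_nat_one_div_lt hpos
  exact absurd (h m ζ hζ ζ' hζ') (not_lt.2 hm.le)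

/-- Baire: good points for countably many isometries are dense -/
theorem good_dense [FiniteDimensional ℝ X] [FiniteDimensional ℝ Y] (f : ℕ → X → Y)
    (hf : ∀ n, SphIso (f n)) {x : X} (hx : ‖x‖ = 1) {y₀ : X} (hy₀ : ‖y₀‖ = 1)
    (hxy : ‖x + y₀‖ < 2) {ε : ℝ} (hε : 0 < ε) :
    ∃ y, (∀ n, Good (f n) x y) ∧ ‖y - y₀‖ < ε := by
  have hnorm : ∀ s : sphere (0 : X) 1, ‖(s : X)‖ = 1 := fun s => by
    simp
  set A : Set (sphere (0 : X) 1) := {s | ‖x + s‖ < 2} with hAdef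
  set O : Option ℕ × ℕ → Set (sphere (0 : X) 1) := fun p =>
    match p with
    | (none, m) => {s | ‖x + s‖ < 2 ∧ ∀ ζ ∈ J (x - s), ∀ ζ' ∈ J (x - s),
        ‖ζ - ζ'‖ < 1 / ((m : ℝ) + 1)} ∪ (closure A)ᶜ
    | (some n, m) => {s | ‖x + s‖ < 2 ∧ ∀ ζ ∈ J (f n x - f n s), ∀ ζ' ∈ J (f n x - f n s),
        ‖ζ - ζ'‖ < 1 / ((m : ℝ) + 1)} ∪ (closure A)ᶜ with hO
  have hopen : ∀ p, IsOpen (O p) := by
    rintro ⟨_ | n, m⟩
    · exact (dense_small_aux (SphIso.id (X := X)) hx m).1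
    · exact (dense_small_aux (hf n) hx m).1
  have hdense : ∀ p, Dense (O p) := by
    rintro ⟨_ | n, m⟩
    · exact (dense_small_aux (SphIso.id (X := X)) hx m).2
    · exact (dense_small_aux (hf n) hx m).2
  have : CompleteSpace (sphere (0 : X) 1) := isClosed_sphere.completeSpace_coe
  have hD := dense_iInter_of_isOpen hopen hdense
  have hA : IsOpen A := by
    refine isOpen_lt ?_ continuous_const
    fun_prop
  have hy₀S : y₀ ∈ sphere (0 : X) 1 := by simpa using hy₀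
  obtain ⟨s, hs, hsO⟩ := (dense_iff_inter_open.1 hD) (A ∩ ball ⟨y₀, hy₀S⟩ ε)
    (hA.inter isOpen_ball) ⟨⟨y₀, hy₀S⟩, hxy, mem_ball_self hε⟩
  have hsc : s ∈ closure A := subset_closure hs.1
  refine ⟨s, fun n => ⟨hnorm s, hs.1, ?_, ?_⟩, ?_⟩
  · refine J_subsingleton_of_small (x - (s : X)) fun m => ?_
    have := Set.mem_iInter.1 hsO (none, m)
    rcases this with h | h
    · exact h.2
    · exact absurd hsc h
  · refine J_subsingleton_of_small (f n x - f n s) fun m => ?_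
    have := Set.mem_iInter.1 hsO (some n, m)
    rcases this with h | h
    · exact h.2
    · exact absurd hsc h
  · have := hs.2
    rw [mem_ball, Subtype.dist_eq, dist_eq_norm] at this
    exact this

/-- spanning -/
theorem span_zero {x t : Y} (hx : ‖x‖ = 1) (S : Set Y)
    (hS : ∀ y₀, ‖y₀‖ = 1 → ‖x + y₀‖ < 2 → ∀ ε > (0 : ℝ), ∃ y ∈ S, ‖y - y₀‖ < ε)
    (ht : ∀ y ∈ S, ∃ η ∈ J (x - y), η t = 0) : t = 0 := by
  -- step 1
  have s1 : ∀ y₀, ‖y₀‖ = 1 → ‖x + y₀‖ < 2 → ∀ s : ℝ, ‖x - y₀‖ ≤ ‖x - y₀ + s • t‖ := by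
    intro y₀ hy₀ hxy s
    refine le_of_forall_pos_le_add fun ε hε => ?_
    obtain ⟨y, hyS, hy⟩ := hS y₀ hy₀ hxy (ε / 2) (by positivity)
    obtain ⟨η, hη, hηt⟩ := ht y hyS
    have h1 := J_sub hη (x - y + s • t)
    rw [add_sub_cancel_left, map_smul, hηt, smul_zero, add_zero] at h1
    have h2 : ‖x - y₀‖ ≤ ‖x - y‖ + ‖y - y₀‖ := by
      have : x - y₀ = (x - y) + (y - y₀) := by abel
      rw [this]; exact norm_add_le _ _
    have h3 : ‖x - y + s • t‖ ≤ ‖x - y₀ + s • t‖ + ‖y - y₀‖ := by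
      have : x - y + s • t = (x - y₀ + s • t) - (y - y₀) := by abel
      rw [this]; exact norm_sub_le _ _
    linarith
  -- step 2 : scaling
  have s2 : ∀ (c : ℝ) (y₀ : Y), 0 < c → ‖y₀‖ = 1 → ‖x + y₀‖ < 2 → ∀ s : ℝ,
      ‖c • (x - y₀)‖ ≤ ‖c • (x - y₀) + s • t‖ := by
    intro c y₀ hc hy₀ hxy s
    have h1 := s1 y₀ hy₀ hxy (s / c)
    have h2 : c • (x - y₀) + s • t = c • (x - y₀ + (s / c) • t) := by
      rw [smul_add, smul_smul, mul_div_cancel₀ _ hc.ne']
    rw [h2, norm_smul, norm_smul]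
    exact mul_le_mul_of_nonneg_left h1 (norm_nonneg _)
  have hnx : ‖-x‖ = 1 := by rw [norm_neg, hx]
  have hxx : ‖x + -x‖ < 2 := by rw [add_neg_cancel, norm_zero]; norm_num
  -- step 3
  have s3 : ∀ s : ℝ, 1 ≤ ‖x + s • t‖ := by
    intro s
    have h1 := s2 (1 / 2) (-x) (by norm_num) hnx hxx s
    have h2 : (1 / 2 : ℝ) • (x - -x) = x := by module
    rw [h2, hx] at h1
    exact h1
  -- step 4
  obtain ⟨δ, hδ, hexit⟩ := exit hx hnx hxx (show (0 : ℝ) < 1 / 4 by norm_num)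
  obtain ⟨δ', hδ', hδ'1, hδ'2⟩ : ∃ δ' : ℝ, 0 < δ' ∧ 2 * δ' * ‖t‖ < δ ∧ 2 * δ' * ‖t‖ < 1 / 4 := by
    refine ⟨min δ (1 / 4) / (4 * (‖t‖ + 1)), by positivity, ?_, ?_⟩
    · have h1 : min δ (1 / 4) ≤ δ := min_le_left _ _
      have h0 : 0 < min δ (1 / 4) := by positivity
      have h2 : 2 * (min δ (1 / 4) / (4 * (‖t‖ + 1))) * ‖t‖ ≤ min δ (1 / 4) / 2 := by
        rw [div_eq_mul_inv, mul_inv]
        have h3 : (‖t‖ + 1)⁻¹ * ‖t‖ ≤ 1 := by
          rw [inv_mul_le_one₀ (by positivity)]; linarith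
        have h4 : 2 * (min δ (1 / 4) * (4⁻¹ * (‖t‖ + 1)⁻¹)) * ‖t‖ =
          (min δ (1 / 4) / 2) * ((‖t‖ + 1)⁻¹ * ‖t‖) := by ring
        rw [h4]
        nlinarith
      linarith
    · have h1 : min δ (1 / 4) ≤ 1 / 4 := min_le_right _ _
      have h0 : 0 < min δ (1 / 4) := by positivity
      have h2 : 2 * (min δ (1 / 4) / (4 * (‖t‖ + 1))) * ‖t‖ ≤ min δ (1 / 4) / 2 := by
        rw [div_eq_mul_inv, mul_inv]
        have h3 : (‖t‖ + 1)⁻¹ * ‖t‖ ≤ 1 := by
          rw [inv_mul_le_one₀ (by positivity)]; linarith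
        have h4 : 2 * (min δ (1 / 4) * (4⁻¹ * (‖t‖ + 1)⁻¹)) * ‖t‖ =
          (min δ (1 / 4) / 2) * ((‖t‖ + 1)⁻¹ * ‖t‖) := by ring
        rw [h4]
        nlinarith
      linarith
  have s4 : ∀ s : ℝ, |s| ≤ δ' → ‖x + s • t‖ = 1 := by
    intro s hs
    refine le_antisymm ?_ (s3 s)
    have hst : ‖(2 * s) • t‖ ≤ 2 * δ' * ‖t‖ := by
      rw [norm_smul, Real.norm_eq_abs, abs_mul, abs_of_pos (by norm_num : (0 : ℝ) < 2)]
      have := norm_nonneg t
      nlinarith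
    have hw : (2 : ℝ) • x + (2 * s) • t - (x - -x) = (2 * s) • t := by module
    obtain ⟨τ, hτ1, hτ2⟩ := hexit x ((2 : ℝ) • x + (2 * s) • t) hx
      (by rw [sub_self, norm_zero]; exact hδ) (by rw [hw]; exact lt_of_le_of_lt hst hδ'1)
    have hτ := abs_lt.1 hτ1
    have hτ0 : 0 < τ := by linarith [hτ.1]
    have hc : (1 / τ) • (x - (x - τ • ((2 : ℝ) • x + (2 * s) • t))) =
        (2 : ℝ) • x + (2 * s) • t := by
      rw [sub_sub_cancel, smul_smul, one_div, inv_mul_cancel₀ hτ0.ne', one_smul]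
    have hxy : ‖x + (x - τ • ((2 : ℝ) • x + (2 * s) • t))‖ < 2 := by
      have h1 : x + (x - τ • ((2 : ℝ) • x + (2 * s) • t)) =
          (2 * (1 - τ)) • x - τ • ((2 * s) • t) := by module
      rw [h1]
      refine lt_of_le_of_lt (norm_sub_le _ _) ?_
      rw [norm_smul, norm_smul, hx, Real.norm_eq_abs, abs_mul, Real.norm_of_nonneg hτ0.le,
        abs_of_pos (by norm_num : (0 : ℝ) < 2), abs_sub_comm]
      have h2 : τ * ‖(2 * s) • t‖ ≤ (5 / 4) * (1 / 4) := by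
        apply mul_le_mul (by linarith [hτ.2]) (hst.trans hδ'2.le) (norm_nonneg _) (by norm_num)
      linarith
    have h3 := s2 (1 / τ) _ (by positivity) hτ2 hxy (-(2 * s))
    rw [hc] at h3
    have h4 : (2 : ℝ) • x + (2 * s) • t + (-(2 * s)) • t = (2 : ℝ) • x := by module
    have h5 : (2 : ℝ) • x + (2 * s) • t = (2 : ℝ) • (x + s • t) := by module
    rw [h4, h5, norm_smul, norm_smul, hx] at h3
    have h6 : ‖(2 : ℝ)‖ = 2 := by norm_num
    rw [h6] at h3
    linarith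
  -- step 5
  have s5 : ∀ s : ℝ, ‖x + s • t‖ ≤ 1 := by
    intro s
    set w := x + s • t with hw
    have hw1 : 1 ≤ ‖w‖ := s3 s
    set l : ℝ := δ' / (|s| + δ' + 1) with hl
    have hden : 0 < |s| + δ' + 1 := by positivity
    have hl0 : 0 < l := by positivity
    have hl1 : l < 1 := by
      rw [hl, div_lt_one hden]
      linarith [abs_nonneg s]
    have hls : |l * s / (1 - l)| ≤ δ' := by
      rw [abs_div, abs_mul, abs_of_pos hl0, abs_of_pos (by linarith : 0 < 1 - l),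
        div_le_iff₀ (by linarith)]
      have : 1 - l = (|s| + 1) / (|s| + δ' + 1) := by
        rw [hl]; field_simp; ring
      rw [this, hl]
      rw [div_mul_eq_mul_div, ← mul_div_assoc]
      gcongr
      linarith
    have hg : ‖x - l • w‖ = 1 - l := by
      have h1 : x - l • w = (1 - l) • (x + (-(l * s / (1 - l))) • t) := by
        have h10 : (1 - l) ≠ 0 := by linarith
        have h11 : (1 - l) * (-(l * s / (1 - l))) = -(l * s) := by
          rw [mul_neg, mul_div_cancel₀ _ h10]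
        have h12 : (1 - l) • (x + (-(l * s / (1 - l))) • t) = (1 - l) • x + (-(l * s)) • t := by
          rw [smul_add, smul_smul, h11]
        rw [h12, hw]
        module
      rw [h1, norm_smul, s4 _ (by rw [abs_neg]; exact hls), Real.norm_of_nonneg (by linarith),
        mul_one]
    -- find the exit
    have hcont : ContinuousOn (fun r : ℝ => ‖x - r • w‖) (Set.Icc l 2) := by fun_prop
    have h2 : 1 ≤ ‖x - (2 : ℝ) • w‖ := by
      have : ‖(2 : ℝ) • w‖ ≤ ‖x - (2 : ℝ) • w‖ + ‖x‖ := by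
        have h3 : (2 : ℝ) • w = x - (x - (2 : ℝ) • w) := by abel
        calc ‖(2 : ℝ) • w‖ = ‖x - (x - (2 : ℝ) • w)‖ := by rw [← h3]
          _ ≤ _ := by rw [add_comm]; exact norm_sub_le _ _
      rw [norm_smul, hx] at this
      have h6 : ‖(2 : ℝ)‖ = 2 := by norm_num
      rw [h6] at this
      linarith
    obtain ⟨r, hr, hr1⟩ := intermediate_value_Icc (by linarith : l ≤ 2) hcont
      (show (1 : ℝ) ∈ Set.Icc ‖x - l • w‖ ‖x - (2 : ℝ) • w‖ from ⟨by rw [hg]; linarith, h2⟩)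
    simp only at hr1
    have hrl : l < r := by
      rcases lt_or_eq_of_le hr.1 with h | h
      · exact h
      · rw [← h, hg] at hr1; linarith
    have hr0 : 0 < r := by linarith
    have hmid : ‖x + (x - r • w)‖ < 2 := by
      rcases le_total l (r / 2) with h | h
      · -- r/2 between l and r
        have e1 : x + (x - r • w) = (r / (r - l)) • (x - l • w) + (2 - r / (r - l)) • (x - r • w) := by
          have hrl' : r - l ≠ 0 := by linarith
          rw [smul_sub, smul_sub, smul_smul, smul_smul]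
          have e2 : r / (r - l) * l + (2 - r / (r - l)) * r = r := by
            field_simp; ring
          calc x + (x - r • w) = (2 : ℝ) • x - r • w := by module
            _ = (2 : ℝ) • x - (r / (r - l) * l + (2 - r / (r - l)) * r) • w := by rw [e2]
            _ = _ := by module
        have hq : r / (r - l) ≤ 2 := by rw [div_le_iff₀ (by linarith)]; linarith
        have hq0 : 0 < r / (r - l) := div_pos hr0 (by linarith)
        rw [e1]
        refine lt_of_le_of_lt (norm_add_le _ _) ?_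
        rw [norm_smul, norm_smul, hg, hr1, Real.norm_of_nonneg hq0.le,
          Real.norm_of_nonneg (by linarith)]
        nlinarith
      · have e1 : x + (x - r • w) = (r / l) • (x - l • w) + (2 - r / l) • x := by
          rw [smul_sub, smul_smul, div_mul_cancel₀ _ hl0.ne']
          module
        have hq : r / l ≤ 2 := by rw [div_le_iff₀ hl0]; linarith
        have hq0 : 0 < r / l := by positivity
        rw [e1]
        refine lt_of_le_of_lt (norm_add_le _ _) ?_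
        rw [norm_smul, norm_smul, hg, hx, Real.norm_of_nonneg hq0.le,
          Real.norm_of_nonneg (by linarith)]
        nlinarith
    have h3 := s2 (1 / r) (x - r • w) (by positivity) hr1 hmid (-s)
    have hc : (1 / r) • (x - (x - r • w)) = w := by
      rw [sub_sub_cancel, smul_smul, one_div, inv_mul_cancel₀ hr0.ne', one_smul]
    rw [hc] at h3
    have h4 : w + (-s) • t = x := by rw [hw]; module
    rw [h4, hx] at h3
    exact h3
  by_contra hne
  have htp : 0 < ‖t‖ := norm_pos_iff.2 hne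
  have h1 := s5 (3 / ‖t‖)
  have h2 : ‖(3 / ‖t‖) • t‖ = 3 := by
    rw [norm_smul, norm_div, norm_norm, div_mul_cancel₀ _ htp.ne']
    norm_num
  have h3 : ‖(3 / ‖t‖) • t‖ ≤ ‖x + (3 / ‖t‖) • t‖ + ‖x‖ := by
    have h4 : (3 / ‖t‖) • t = (x + (3 / ‖t‖) • t) - x := by abel
    calc ‖(3 / ‖t‖) • t‖ = ‖(x + (3 / ‖t‖) • t) - x‖ := by rw [← h4]
      _ ≤ _ := norm_sub_le _ _
  rw [h2, hx] at h3
  linarith

end Vale.P084
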