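import Mathlib
import Vale.Agent.P084.SphIso

/-!
# P084, Part I: bad points
-/

namespace Vale.P084

open Metric Filter Topology

variable {X Y : Type*} [NormedAddCommGroup X] [NormedSpace ℝ X]
  [NormedAddCommGroup Y] [NormedSpace ℝ Y]

lemma J_singleton {E : Type*} [NormedAddCommGroup E] [NormedSpace ℝ E] {w : E}
    (h : (J w).Subsingleton) {ξ : E →L[ℝ] ℝ} (hξ : ξ ∈ J w) : J w = {ξ} :=
  h.eq_singleton_of_mem hξ

lemma touch_smul {E : Type*} [NormedAddCommGroup E] [NormedSpace ℝ E] {w : E} {ξ : E →L[ℝ] ℝ}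
    {K t : ℝ} (ht : 1 / 2 ≤ t) (hK : 0 ≤ K)
    (h : ∀ u, ‖w + u‖ ≤ ‖w‖ + ξ u + K * ‖u‖ ^ 2) (u : E) :
    ‖t • w + u‖ ≤ ‖t • w‖ + ξ u + 2 * K * ‖u‖ ^ 2 := by
  have ht0 : 0 < t := by linarith
  have h1 : t • w + u = t • (w + t⁻¹ • u) := by
    rw [smul_add, smul_smul, mul_inv_cancel₀ ht0.ne', one_smul]
  have h2 := h (t⁻¹ • u)
  rw [h1, norm_smul, norm_smul, Real.norm_of_nonneg ht0.le]
  rw [map_smul, smul_eq_mul, norm_smul, norm_inv, Real.norm_of_nonneg ht0.le] at h2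
  calc t * ‖w + t⁻¹ • u‖ ≤ t * (‖w‖ + t⁻¹ * ξ u + K * (t⁻¹ * ‖u‖) ^ 2) := by gcongr
    _ = t * ‖w‖ + ξ u + K * ‖u‖ ^ 2 * t⁻¹ := by field_simp
    _ ≤ t * ‖w‖ + ξ u + K * ‖u‖ ^ 2 * 2 := by
        have h3 : t⁻¹ ≤ 2 := by
          rw [inv_le_comm₀ ht0 (by norm_num)]; linarith
        have h4 : 0 ≤ K * ‖u‖ ^ 2 := by positivity
        nlinarith
    _ = t * ‖w‖ + ξ u + 2 * K * ‖u‖ ^ 2 := by ring

lemma norm_sub_ne_zero_of_lt {E : Type*} [NormedAddCommGroup E] [NormedSpace ℝ E] {x y : E}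
    (hx : ‖x‖ = 1) (h : ‖x + y‖ < 2) : x - y ≠ 0 := by
  intro h0
  have : y = x := (sub_eq_zero.1 h0).symm
  rw [this, ← two_smul ℝ, norm_smul, hx, Real.norm_two] at h
  linarith

/-- the one-sided second-difference inequality -/
lemma key_ineq [FiniteDimensional ℝ X] [FiniteDimensional ℝ Y] {f : X → Y} (hf : SphIso f)
    {x p q : ℕ → X} {σ : ℕ → ℝ} {x₀ y : X} (hx : ∀ n, ‖x n‖ = 1) (hp : ∀ n, ‖p n‖ = 1)
    (hq : ∀ n, ‖q n‖ = 1) (hσ : ∀ n, 0 < σ n)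
    (hρ : ∀ n : ℕ, ‖p n - x n‖ ^ 2 + ‖q n - x n‖ ^ 2 ≤ σ n / (n + 1))
    (hx₀ : ‖x₀‖ = 1) (hlim : Tendsto x atTop (𝓝 x₀)) (hy : Good f x₀ y)
    {ξ : X →L[ℝ] ℝ} {η : Y →L[ℝ] ℝ} (hξ : ξ ∈ J (x₀ - y)) (hη : η ∈ J (f x₀ - f y))
    {ε : ℝ} (hε : 0 < ε) :
    ∀ᶠ n in atTop, ∃ (ξ' : X →L[ℝ] ℝ) (η' : Y →L[ℝ] ℝ), ‖ξ' - ξ‖ < ε ∧ ‖η' - η‖ < ε ∧
      η' (f (p n) + f (q n) - (2 : ℝ) • f (x n)) ≤
        ξ' (p n + q n - (2 : ℝ) • x n) + ε * σ n := by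
  obtain ⟨C, hC, htouch⟩ := exists_touch X
  obtain ⟨δ₁, hδ₁, h1⟩ := J_usc (J_singleton hy.ss hξ) hε
  obtain ⟨δ₂, hδ₂, h2⟩ := J_usc (J_singleton hy.ss' hη) hε
  obtain ⟨δ₃, hδ₃, h3⟩ := exit hx₀ hy.norm hy.lt (ε := min (1 / 2) (δ₂ / 16))
    (lt_min (by norm_num) (by positivity))
  have hxy0 : x₀ - y ≠ 0 := norm_sub_ne_zero_of_lt hx₀ hy.lt
  have hxyp : 0 < ‖x₀ - y‖ := norm_pos_iff.2 hxy0
  set δ := min (min δ₁ δ₃) (min (δ₂ / 8) (min 1 ‖x₀ - y‖)) with hδ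
  have hδ0 : 0 < δ := lt_min (lt_min hδ₁ hδ₃) (lt_min (by positivity) (lt_min one_pos hxyp))
  have hd1 : δ ≤ δ₁ := (min_le_left _ _).trans (min_le_left _ _)
  have hd3 : δ ≤ δ₃ := (min_le_left _ _).trans (min_le_right _ _)
  have hd2 : δ ≤ δ₂ / 8 := (min_le_right _ _).trans (min_le_left _ _)
  have hd4 : δ ≤ 1 := (min_le_right _ _).trans ((min_le_right _ _).trans (min_le_left _ _))
  have hd5 : δ ≤ ‖x₀ - y‖ :=
    (min_le_right _ _).trans ((min_le_right _ _).trans (min_le_right _ _))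
  -- eventual facts
  have e1 : ∀ᶠ n in atTop, ‖x n - x₀‖ < δ / 2 := by
    have := (tendsto_iff_norm_sub_tendsto_zero.1 hlim).eventually_lt_const
      (show (0 : ℝ) < δ / 2 by positivity)
    exact this
  have hsq : Tendsto (fun n : ℕ => Real.sqrt ((n : ℝ) + 1)) atTop atTop := by
    have h4 : Tendsto (fun n : ℕ => (n : ℝ) + 1) atTop atTop :=
      tendsto_atTop_add_const_right _ _ tendsto_natCast_atTop_atTop
    exact Real.tendsto_sqrt_atTop.comp h4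
  have e2 : ∀ᶠ n : ℕ in atTop, C / Real.sqrt ((n : ℝ) + 1) < δ / 2 :=
    (hsq.const_div_atTop C).eventually_lt_const (by positivity)
  have e3 : ∀ᶠ n : ℕ in atTop, 2 / Real.sqrt ((n : ℝ) + 1) < ε :=
    (hsq.const_div_atTop 2).eventually_lt_const hε
  filter_upwards [e1, e2, e3] with n hn1 hn2 hn3
  set K := Real.sqrt ((n : ℝ) + 1) with hK
  have hn0 : (0 : ℝ) < (n : ℝ) + 1 := by positivity
  have hK1 : 1 ≤ K := by
    rw [hK]; exact Real.one_le_sqrt.2 (by linarith [Nat.cast_nonneg (α := ℝ) n])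
  have hKsq : K * K = (n : ℝ) + 1 := Real.mul_self_sqrt hn0.le
  obtain ⟨w, ξ', hw, hwt⟩ := htouch K hK1 (x n - y)
  have hwd : ‖w - (x₀ - y)‖ < δ := by
    have h5 : w - (x₀ - y) = (w - (x n - y)) + (x n - x₀) := by abel
    rw [h5]
    calc ‖(w - (x n - y)) + (x n - x₀)‖ ≤ ‖w - (x n - y)‖ + ‖x n - x₀‖ := norm_add_le _ _
      _ < δ / 2 + δ / 2 := by linarith
      _ = δ := by ring
  obtain ⟨t, ht, htn⟩ := h3 (x n) w (hx n) (by linarith) (by linarith)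
  have ht1 : |t - 1| < 1 / 2 := ht.trans_le (min_le_left _ _)
  have ht2 : |t - 1| < δ₂ / 16 := ht.trans_le (min_le_right _ _)
  have ht3 : 1 / 2 ≤ t := by have := (abs_lt.1 ht1).1; linarith
  have ht0 : 0 < t := by linarith
  set yn := x n - t • w with hyn
  have hynn : ‖yn‖ = 1 := htn
  have hxyn : x n - yn = t • w := by rw [hyn]; abel
  have hwn : ‖w‖ ≤ 3 := by
    have h5 : w = (w - (x₀ - y)) + (x₀ - y) := by abel
    have h6 : ‖x₀ - y‖ ≤ 2 := by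
      calc ‖x₀ - y‖ ≤ ‖x₀‖ + ‖y‖ := norm_sub_le _ _
        _ = 2 := by rw [hx₀, hy.norm]; norm_num
    rw [h5]
    calc ‖(w - (x₀ - y)) + (x₀ - y)‖ ≤ ‖w - (x₀ - y)‖ + ‖x₀ - y‖ := norm_add_le _ _
      _ ≤ 1 + 2 := by linarith
      _ = 3 := by norm_num
  have hyd : ‖yn - y‖ < δ₂ / 2 := by
    have h5 : yn - y = (x n - x₀) - (w - (x₀ - y)) - (t - 1) • w := by
      rw [hyn]; module
    rw [h5]
    calc ‖(x n - x₀) - (w - (x₀ - y)) - (t - 1) • w‖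
        ≤ ‖(x n - x₀) - (w - (x₀ - y))‖ + ‖(t - 1) • w‖ := norm_sub_le _ _
      _ ≤ (‖x n - x₀‖ + ‖w - (x₀ - y)‖) + ‖(t - 1) • w‖ := by gcongr; exact norm_sub_le _ _
      _ = ‖x n - x₀‖ + ‖w - (x₀ - y)‖ + |t - 1| * ‖w‖ := by rw [norm_smul, Real.norm_eq_abs]
      _ ≤ δ / 2 + δ + δ₂ / 16 * 3 := by
          have h6 : |t - 1| * ‖w‖ ≤ δ₂ / 16 * 3 :=
            mul_le_mul ht2.le hwn (norm_nonneg _) (by positivity)
          linarith
      _ < δ₂ / 2 := by linarith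
  -- functionals
  have hw0 : w ≠ 0 := by
    intro h0
    rw [h0, zero_sub, norm_neg] at hwd
    linarith
  have hJw : J w = {ξ'} := J_of_touch hw0 hwt
  have hξ' : ξ' ∈ J w := by rw [hJw]; rfl
  obtain ⟨η', hη'⟩ := J_nonempty (f (x n) - f yn)
  refine ⟨ξ', η', h1 w (by linarith) ξ' hξ', ?_, ?_⟩
  · apply h2 _ _ η' hη'
    have h5 : f (x n) - f yn - (f x₀ - f y) = (f (x n) - f x₀) - (f yn - f y) := by abel
    rw [h5]
    calc ‖(f (x n) - f x₀) - (f yn - f y)‖ ≤ ‖f (x n) - f x₀‖ + ‖f yn - f y‖ := norm_sub_le _ _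
      _ = ‖x n - x₀‖ + ‖yn - y‖ := by
          rw [hf.dist _ _ (hx n) hx₀, hf.dist _ _ hynn hy.norm]
      _ < δ₂ := by linarith
  · have k1 := touch_smul ht3 (by linarith : (0 : ℝ) ≤ K) hwt (p n - x n)
    have k2 := touch_smul ht3 (by linarith : (0 : ℝ) ≤ K) hwt (q n - x n)
    rw [← hxyn] at k1 k2
    have k3 : x n - yn + (p n - x n) = p n - yn := by abel
    have k4 : x n - yn + (q n - x n) = q n - yn := by abel
    rw [k3] at k1
    rw [k4] at k2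
    have k5 := J_sub hη' (f (p n) - f yn)
    have k6 := J_sub hη' (f (q n) - f yn)
    rw [hf.dist _ _ (hp n) hynn, hf.dist _ _ (hx n) hynn] at k5
    rw [hf.dist _ _ (hq n) hynn, hf.dist _ _ (hx n) hynn] at k6
    have k7 : η' (f (p n) - f yn - (f (x n) - f yn)) + η' (f (q n) - f yn - (f (x n) - f yn)) =
        η' (f (p n) + f (q n) - (2 : ℝ) • f (x n)) := by
      rw [← map_add]; congr 1; module
    have k8 : ξ' (p n - x n) + ξ' (q n - x n) = ξ' (p n + q n - (2 : ℝ) • x n) := by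
      rw [← map_add]; congr 1; module
    have k9 : 2 * K * ‖p n - x n‖ ^ 2 + 2 * K * ‖q n - x n‖ ^ 2 ≤ ε * σ n := by
      have hρn := hρ n
      calc 2 * K * ‖p n - x n‖ ^ 2 + 2 * K * ‖q n - x n‖ ^ 2
          = 2 * K * (‖p n - x n‖ ^ 2 + ‖q n - x n‖ ^ 2) := by ring
        _ ≤ 2 * K * (σ n / (n + 1)) := by gcongr
        _ = 2 / K * σ n := by
            rw [← hKsq]; field_simp
        _ ≤ ε * σ n := by
            have := (hσ n).le
            gcongr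
    linarith

lemma Good.swap {f : X → Y} (hf : SphIso f) {g : Y → X} (hgf : ∀ x, ‖x‖ = 1 → g (f x) = x)
    {x y : X} (hx : ‖x‖ = 1) (hy : Good f x y) : Good g (f x) (f y) := by
  refine ⟨hf.norm _ hy.norm, ?_, hy.ss', ?_⟩
  · have h1 : ‖f x + f y‖ ≤ 2 := by
      calc ‖f x + f y‖ ≤ ‖f x‖ + ‖f y‖ := norm_add_le _ _
        _ = 2 := by rw [hf.norm _ hx, hf.norm _ hy.norm]; norm_num
    refine lt_of_le_of_ne h1 fun h2 => ?_
    have := (hf.star x y hx hy.norm).1 h2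
    exact hy.lt.ne this
  · rw [hgf x hx, hgf y hy.norm]
    exact hy.ss

/-- second differences of radial projections -/
lemma second_diff {x u : X} (hx : ‖x‖ = 1) (hu : ‖u‖ ≤ 1 / 2) :
    ∃ p q : X, ‖p‖ = 1 ∧ ‖q‖ = 1 ∧ ‖p - x‖ ≤ 4 * ‖u‖ ∧ ‖q - x‖ ≤ 4 * ‖u‖ ∧
      ‖(p + q - (2 : ℝ) • x) + (‖x + u‖ + ‖x - u‖ - 2) • x‖ ≤ 12 * ‖u‖ ^ 2 := by
  have key : ∀ u : X, ‖u‖ ≤ 1 / 2 → |‖x + u‖ - 1| ≤ ‖u‖ ∧ 1 / 2 ≤ ‖x + u‖ ∧
      ‖‖x + u‖⁻¹ • (x + u)‖ = 1 ∧ ‖‖x + u‖⁻¹ • (x + u) - x‖ ≤ 4 * ‖u‖ := by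
    intro u hu
    have h1 : |‖x + u‖ - 1| ≤ ‖u‖ := by
      have := abs_norm_sub_norm_le (x + u) x
      rwa [hx, add_sub_cancel_left] at this
    have h2 : 1 / 2 ≤ ‖x + u‖ := by have := (abs_le.1 h1).1; linarith
    have h3 : 0 < ‖x + u‖ := by linarith
    refine ⟨h1, h2, ?_, ?_⟩
    · rw [norm_smul, norm_inv, norm_norm, inv_mul_cancel₀ h3.ne']
    · have h4 : ‖x + u‖⁻¹ • (x + u) - x = ‖x + u‖⁻¹ • ((1 - ‖x + u‖) • x + u) := by
        rw [smul_add, smul_add, smul_smul]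
        have : ‖x + u‖⁻¹ * (1 - ‖x + u‖) = ‖x + u‖⁻¹ - 1 := by field_simp
        rw [this]; module
      have h5 : ‖x + u‖⁻¹ ≤ 2 := by
        rw [inv_le_comm₀ h3 (by norm_num)]; linarith
      rw [h4, norm_smul, norm_inv, norm_norm]
      calc ‖x + u‖⁻¹ * ‖(1 - ‖x + u‖) • x + u‖
          ≤ 2 * (‖(1 - ‖x + u‖) • x‖ + ‖u‖) := by gcongr; exact norm_add_le _ _
        _ = 2 * (|1 - ‖x + u‖| + ‖u‖) := by rw [norm_smul, hx, mul_one, Real.norm_eq_abs]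
        _ ≤ 2 * (‖u‖ + ‖u‖) := by rw [abs_sub_comm]; gcongr
        _ = 4 * ‖u‖ := by ring
  obtain ⟨a1, a2, a3, a4⟩ := key u hu
  obtain ⟨b1, b2, b3, b4⟩ := key (-u) (by rwa [norm_neg])
  rw [norm_neg, ← sub_eq_add_neg] at b1 b4
  rw [← sub_eq_add_neg] at b2 b3
  set r := ‖x + u‖ with hr
  set r' := ‖x - u‖ with hr'
  have hr0 : 0 < r := by linarith
  have hr0' : 0 < r' := by linarith
  refine ⟨r⁻¹ • (x + u), r'⁻¹ • (x - u), a3, b3, a4, b4, ?_⟩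
  have h1 : r⁻¹ • (x + u) + r'⁻¹ • (x - u) - (2 : ℝ) • x + (r + r' - 2) • x =
      ((r - 1) ^ 2 * r⁻¹ + (r' - 1) ^ 2 * r'⁻¹) • x + ((r' - r) * (r⁻¹ * r'⁻¹)) • u := by
    have e1 : (r - 1) ^ 2 * r⁻¹ + (r' - 1) ^ 2 * r'⁻¹ = r⁻¹ + r'⁻¹ - 2 + (r + r' - 2) := by
      field_simp; ring
    have e2 : (r' - r) * (r⁻¹ * r'⁻¹) = r⁻¹ - r'⁻¹ := by
      field_simp
    rw [e1, e2]; module
  have hri : r⁻¹ ≤ 2 := by rw [inv_le_comm₀ hr0 (by norm_num)]; linarith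
  have hri' : r'⁻¹ ≤ 2 := by rw [inv_le_comm₀ hr0' (by norm_num)]; linarith
  have hr1 : 0 ≤ r⁻¹ := by positivity
  have hr1' : 0 ≤ r'⁻¹ := by positivity
  rw [h1]
  have c1 : (r - 1) ^ 2 ≤ ‖u‖ ^ 2 := by
    rw [← sq_abs (r - 1)]; exact pow_le_pow_left₀ (abs_nonneg _) a1 2
  have c2 : (r' - 1) ^ 2 ≤ ‖u‖ ^ 2 := by
    rw [← sq_abs (r' - 1)]; exact pow_le_pow_left₀ (abs_nonneg _) b1 2
  have c3 : |r' - r| ≤ 2 * ‖u‖ := by
    have : r' - r = (r' - 1) - (r - 1) := by ring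
    rw [this]
    calc |(r' - 1) - (r - 1)| ≤ |r' - 1| + |r - 1| := abs_sub _ _
      _ ≤ 2 * ‖u‖ := by linarith
  calc ‖((r - 1) ^ 2 * r⁻¹ + (r' - 1) ^ 2 * r'⁻¹) • x + ((r' - r) * (r⁻¹ * r'⁻¹)) • u‖
      ≤ ‖((r - 1) ^ 2 * r⁻¹ + (r' - 1) ^ 2 * r'⁻¹) • x‖ + ‖((r' - r) * (r⁻¹ * r'⁻¹)) • u‖ :=
        norm_add_le _ _
    _ = ((r - 1) ^ 2 * r⁻¹ + (r' - 1) ^ 2 * r'⁻¹) + |r' - r| * (r⁻¹ * r'⁻¹) * ‖u‖ := by
        rw [norm_smul, norm_smul, hx, mul_one, Real.norm_of_nonneg (by positivity),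
          Real.norm_eq_abs, abs_mul, abs_of_nonneg (by positivity : (0 : ℝ) ≤ r⁻¹ * r'⁻¹)]
    _ ≤ (‖u‖ ^ 2 * 2 + ‖u‖ ^ 2 * 2) + (2 * ‖u‖) * (2 * 2) * ‖u‖ := by gcongr
    _ = 12 * ‖u‖ ^ 2 := by ring

/-- a bad point exists when the norm is not `C^{1,1}` -/
theorem exists_bad [FiniteDimensional ℝ X] [FiniteDimensional ℝ Y] {f : X → Y} (hf : SphIso f)
    (hX : ¬ C11 X) : ∃ (x : X) (V : Y), ‖x‖ = 1 ∧
      ∀ y, Good f x y → ∀ ξ ∈ J (x - y), ∀ η ∈ J (f x - f y), η V = ξ x := by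
  classical
  obtain ⟨g, hg, hgf, hfg⟩ := hf.inv
  -- sequences
  have hseq : ∀ n : ℕ, ∃ (x p q : X) (σ : ℝ), ‖x‖ = 1 ∧ ‖p‖ = 1 ∧ ‖q‖ = 1 ∧ 0 < σ ∧
      ‖p - x‖ ^ 2 + ‖q - x‖ ^ 2 ≤ σ / (n + 1) ∧
      ‖σ⁻¹ • (p + q - (2 : ℝ) • x) + x‖ ≤ 1 / (n + 1) := by
    intro n
    unfold C11 at hX
    push Not at hX
    obtain ⟨x, hx, ζ, hζ, u, hu⟩ := hX (32 * ((n : ℝ) + 1))
    have hn0 : (0 : ℝ) < (n : ℝ) + 1 := by positivity
    have hn1 : (1 : ℝ) ≤ (n : ℝ) + 1 := by linarith [Nat.cast_nonneg (α := ℝ) n]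
    have h1 : ‖x + u‖ ≤ 1 + ‖u‖ := by
      have := norm_add_le x u; rwa [hx] at this
    have h2 : -‖u‖ ≤ ζ u := by
      have := J_le hζ (-u)
      rw [map_neg, norm_neg] at this; linarith
    have hu2 : ‖u‖ ≤ 1 / 2 := by
      by_contra hcon
      have h3 : 1 / 2 < ‖u‖ := not_le.1 hcon
      nlinarith
    obtain ⟨p, q, hp, hq, hpx, hqx, hpq⟩ := second_diff hx hu2
    set σ := ‖x + u‖ + ‖x - u‖ - 2 with hσ
    have h4 : 1 - ζ u ≤ ‖x - u‖ := by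
      have := J_sub hζ (x - u)
      rw [hx] at this
      have e : x - u - x = -u := by abel
      rw [e, map_neg] at this
      linarith
    have h5 : 32 * ((n : ℝ) + 1) * ‖u‖ ^ 2 < σ := by rw [hσ]; linarith
    have h6 : 0 < σ := lt_of_le_of_lt (by positivity) h5
    refine ⟨x, p, q, σ, hx, hp, hq, h6, ?_, ?_⟩
    · rw [le_div_iff₀ hn0]
      have h7 : ‖p - x‖ ^ 2 ≤ (4 * ‖u‖) ^ 2 := pow_le_pow_left₀ (norm_nonneg _) hpx 2
      have h8 : ‖q - x‖ ^ 2 ≤ (4 * ‖u‖) ^ 2 := pow_le_pow_left₀ (norm_nonneg _) hqx 2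
      nlinarith
    · have h7 : σ⁻¹ • (p + q - (2 : ℝ) • x) + x =
          σ⁻¹ • ((p + q - (2 : ℝ) • x) + σ • x) := by
        rw [smul_add, smul_smul, inv_mul_cancel₀ h6.ne', one_smul]
      rw [h7, norm_smul, norm_inv, Real.norm_of_nonneg h6.le, inv_mul_le_iff₀ h6]
      rw [mul_one_div, le_div_iff₀ hn0]
      nlinarith [sq_nonneg ‖u‖]
  choose x p q σ hx hp hq hσ hρ hz using hseq
  -- compactness
  have : ProperSpace X := FiniteDimensional.proper ℝ X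
  have : ProperSpace Y := FiniteDimensional.proper ℝ Y
  let Vn : ℕ → Y := fun n => (σ n)⁻¹ • (f (p n) + f (q n) - (2 : ℝ) • f (x n))
  let sn : ℕ → ℝ := fun n => (1 + ‖Vn n‖)⁻¹
  let Wn : ℕ → Y := fun n => sn n • Vn n
  have hs1 : ∀ n, 0 < 1 + ‖Vn n‖ := fun n => by positivity
  have hs0 : ∀ n, 0 ≤ sn n ∧ sn n ≤ 1 := by
    intro n
    refine ⟨by positivity, ?_⟩
    exact inv_le_one_of_one_le₀ (by linarith [norm_nonneg (Vn n)])
  have hWs : ∀ n, ‖Wn n‖ = 1 - sn n := by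
    intro n
    show ‖(1 + ‖Vn n‖)⁻¹ • Vn n‖ = 1 - (1 + ‖Vn n‖)⁻¹
    rw [norm_smul, norm_inv, Real.norm_of_nonneg (hs1 n).le]
    have := (hs1 n).ne'
    field_simp; ring
  have hcomp : IsCompact ((sphere (0 : X) 1) ×ˢ ((closedBall (0 : Y) 1) ×ˢ (Set.Icc (0 : ℝ) 1))) :=
    (isCompact_sphere _ _).prod ((isCompact_closedBall _ _).prod isCompact_Icc)
  obtain ⟨⟨x₀, W, s⟩, ⟨hx₀, -, hs⟩, ψ, hψ, hlim⟩ := hcomp.tendsto_subseq
    (x := fun n => (x n, Wn n, sn n)) (fun n => ⟨by simpa using hx n, by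
      simp only [Set.mem_prod, mem_closedBall, dist_zero_right]
      exact ⟨by rw [hWs]; linarith [(hs0 n).1], hs0 n⟩⟩)
  have hx₀' : ‖x₀‖ = 1 := by simpa using hx₀
  have hlx : Tendsto (fun n => x (ψ n)) atTop (𝓝 x₀) :=
    (continuous_fst.tendsto _).comp hlim
  have hlW : Tendsto (fun n => Wn (ψ n)) atTop (𝓝 W) :=
    ((continuous_fst.comp continuous_snd).tendsto _).comp hlim
  have hls : Tendsto (fun n => sn (ψ n)) atTop (𝓝 s) :=
    ((continuous_snd.comp continuous_snd).tendsto _).comp hlim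
  have hψn : ∀ n : ℕ, (n : ℝ) ≤ (ψ n : ℝ) := fun n => by exact_mod_cast hψ.id_le n
  have hρ' : ∀ n : ℕ, ‖p (ψ n) - x (ψ n)‖ ^ 2 + ‖q (ψ n) - x (ψ n)‖ ^ 2 ≤ σ (ψ n) / (n + 1) := by
    intro n
    refine (hρ (ψ n)).trans ?_
    have := hψn n
    have := (hσ (ψ n)).le
    gcongr
  have hz' : Tendsto (fun n => (σ (ψ n))⁻¹ • (p (ψ n) + q (ψ n) - (2 : ℝ) • x (ψ n))) atTop
      (𝓝 (-x₀)) := by
    have h1 : Tendsto (fun n : ℕ => (σ (ψ n))⁻¹ • (p (ψ n) + q (ψ n) - (2 : ℝ) • x (ψ n)) +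
        x (ψ n)) atTop (𝓝 0) := by
      rw [tendsto_zero_iff_norm_tendsto_zero]
      refine squeeze_zero (fun n => norm_nonneg _) (fun n => hz (ψ n)) ?_
      refine squeeze_zero (g := fun n : ℕ => 1 / ((n : ℝ) + 1)) (fun n => by positivity)
        (fun n => ?_) tendsto_one_div_add_atTop_nhds_zero_nat
      have := hψn n
      gcongr
    have h2 := h1.sub hlx
    simpa using h2
  -- the limiting identity
  have hid : ∀ y, Good f x₀ y → ∀ ξ ∈ J (x₀ - y), ∀ η ∈ J (f x₀ - f y),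
      η W = s * ξ (-x₀) := by
    intro y hy ξ hξ η hη
    have hgood' : Good g (f x₀) (f y) := hy.swap hf hgf hx₀'
    have hlfx : Tendsto (fun n => f (x (ψ n))) atTop (𝓝 (f x₀)) := by
      rw [tendsto_iff_norm_sub_tendsto_zero]
      refine (tendsto_iff_norm_sub_tendsto_zero.1 hlx).congr fun n => ?_
      rw [hf.dist _ _ (hx _) hx₀']
    -- abbreviations for convergence
    have hξz : Tendsto (fun n => ξ ((σ (ψ n))⁻¹ • (p (ψ n) + q (ψ n) - (2 : ℝ) • x (ψ n)))) atTop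
        (𝓝 (ξ (-x₀))) := (ξ.continuous.tendsto _).comp hz'
    have hηW : Tendsto (fun n => η (Wn (ψ n))) atTop (𝓝 (η W)) :=
      (η.continuous.tendsto _).comp hlW
    have hsξ : Tendsto (fun n => sn (ψ n) *
        ξ ((σ (ψ n))⁻¹ • (p (ψ n) + q (ψ n) - (2 : ℝ) • x (ψ n)))) atTop
        (𝓝 (s * ξ (-x₀))) := hls.mul hξz
    have hzb : ∀ᶠ n in atTop, ‖(σ (ψ n))⁻¹ • (p (ψ n) + q (ψ n) - (2 : ℝ) • x (ψ n))‖ < 2 := by
      have h1 := hz'.norm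
      rw [norm_neg, hx₀'] at h1
      exact h1.eventually_lt_const (by norm_num)
    -- upper bound
    have hup : ∀ ε > 0, η W ≤ s * ξ (-x₀) + 4 * ε := by
      intro ε hε
      have h1 := key_ineq hf (x := fun n => x (ψ n)) (p := fun n => p (ψ n))
        (q := fun n => q (ψ n)) (σ := fun n => σ (ψ n)) (fun n => hx _) (fun n => hp _)
        (fun n => hq _) (fun n => hσ _) hρ' hx₀' hlx hy hξ hη hε
      have h2 : ∀ᶠ n in atTop, η (Wn (ψ n)) ≤ sn (ψ n) *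
          ξ ((σ (ψ n))⁻¹ • (p (ψ n) + q (ψ n) - (2 : ℝ) • x (ψ n))) + 4 * ε := by
        filter_upwards [h1, hzb] with n ⟨ξ', η', hξ', hη', hineq⟩ hzn
        set z := (σ (ψ n))⁻¹ • (p (ψ n) + q (ψ n) - (2 : ℝ) • x (ψ n)) with hzdef
        have hσn := hσ (ψ n)
        have h3 : η' (Vn (ψ n)) ≤ ξ' z + ε := by
          show η' ((σ (ψ n))⁻¹ • _) ≤ _
          rw [hzdef, map_smul, map_smul, smul_eq_mul, smul_eq_mul]
          have h4 : (σ (ψ n))⁻¹ * η' (f (p (ψ n)) + f (q (ψ n)) - (2 : ℝ) • f (x (ψ n))) ≤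
              (σ (ψ n))⁻¹ * (ξ' (p (ψ n) + q (ψ n) - (2 : ℝ) • x (ψ n)) + ε * σ (ψ n)) := by
            gcongr
          refine h4.trans (le_of_eq ?_)
          field_simp
        have h5 : η' (Wn (ψ n)) ≤ sn (ψ n) * ξ' z + sn (ψ n) * ε := by
          show η' (sn (ψ n) • Vn (ψ n)) ≤ _
          rw [map_smul, smul_eq_mul, ← mul_add]
          exact mul_le_mul_of_nonneg_left h3 (hs0 _).1
        have h6 : |(η' - η) (Wn (ψ n))| ≤ ε := by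
          calc |(η' - η) (Wn (ψ n))| ≤ ‖η' - η‖ * ‖Wn (ψ n)‖ := (η' - η).le_opNorm _
            _ ≤ ε * 1 := by
                have : ‖Wn (ψ n)‖ ≤ 1 := by rw [hWs]; linarith [(hs0 (ψ n)).1]
                gcongr
            _ = ε := mul_one _
        have h7 : |(ξ' - ξ) z| ≤ 2 * ε := by
          calc |(ξ' - ξ) z| ≤ ‖ξ' - ξ‖ * ‖z‖ := (ξ' - ξ).le_opNorm _
            _ ≤ ε * 2 := by gcongr
            _ = 2 * ε := by ring
        rw [sub_apply] at h6 h7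
        have h8 := (abs_le.1 h6).1
        have h9 := (abs_le.1 h7).2
        have h10 := (hs0 (ψ n)).1
        have h11 := (hs0 (ψ n)).2
        have h12 : sn (ψ n) * (ξ' z - ξ z) ≤ 1 * (2 * ε) := by
          calc sn (ψ n) * (ξ' z - ξ z) ≤ sn (ψ n) * (2 * ε) :=
                mul_le_mul_of_nonneg_left h9 h10
            _ ≤ 1 * (2 * ε) := mul_le_mul_of_nonneg_right h11 (by positivity)
        have h13 : sn (ψ n) * ε ≤ 1 * ε := mul_le_mul_of_nonneg_right h11 hε.le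
        linarith
      exact le_of_tendsto_of_tendsto hηW (hsξ.add_const _) h2
    have hlo : ∀ ε > 0, s * ξ (-x₀) ≤ η W + 4 * ε := by
      intro ε hε
      have h1 := key_ineq hg (x := fun n => f (x (ψ n))) (p := fun n => f (p (ψ n)))
        (q := fun n => f (q (ψ n))) (σ := fun n => σ (ψ n)) (fun n => hf.norm _ (hx _))
        (fun n => hf.norm _ (hp _)) (fun n => hf.norm _ (hq _)) (fun n => hσ _)
        (fun n => by
          have := hρ' n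
          rwa [← hf.dist _ _ (hp (ψ n)) (hx (ψ n)), ← hf.dist _ _ (hq (ψ n)) (hx (ψ n))] at this)
        (hf.norm _ hx₀') hlfx hgood' hη (ε := ε)
        (by rw [hgf x₀ hx₀', hgf y hy.norm]; exact hξ) hε
      have h2 : ∀ᶠ n in atTop, sn (ψ n) *
          ξ ((σ (ψ n))⁻¹ • (p (ψ n) + q (ψ n) - (2 : ℝ) • x (ψ n))) ≤
          η (Wn (ψ n)) + 4 * ε := by
        filter_upwards [h1, hzb] with n ⟨η', ξ', hη', hξ', hineq⟩ hzn
        rw [hgf _ (hp _), hgf _ (hq _), hgf _ (hx _)] at hineq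
        set z := (σ (ψ n))⁻¹ • (p (ψ n) + q (ψ n) - (2 : ℝ) • x (ψ n)) with hzdef
        have hσn := hσ (ψ n)
        have h3 : ξ' z ≤ η' (Vn (ψ n)) + ε := by
          show _ ≤ η' ((σ (ψ n))⁻¹ • _) + ε
          rw [hzdef, map_smul, map_smul, smul_eq_mul, smul_eq_mul]
          have h4 : (σ (ψ n))⁻¹ * ξ' (p (ψ n) + q (ψ n) - (2 : ℝ) • x (ψ n)) ≤
              (σ (ψ n))⁻¹ * (η' (f (p (ψ n)) + f (q (ψ n)) - (2 : ℝ) • f (x (ψ n))) +
                ε * σ (ψ n)) := by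
            gcongr
          refine h4.trans (le_of_eq ?_)
          field_simp
        have h5 : sn (ψ n) * ξ' z ≤ η' (Wn (ψ n)) + sn (ψ n) * ε := by
          have h5' : η' (Wn (ψ n)) = sn (ψ n) * η' (Vn (ψ n)) := by
            show η' (sn (ψ n) • Vn (ψ n)) = _
            rw [map_smul, smul_eq_mul]
          rw [h5', ← mul_add]
          exact mul_le_mul_of_nonneg_left h3 (hs0 _).1
        have h6 : |(η' - η) (Wn (ψ n))| ≤ ε := by
          calc |(η' - η) (Wn (ψ n))| ≤ ‖η' - η‖ * ‖Wn (ψ n)‖ := (η' - η).le_opNorm _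
            _ ≤ ε * 1 := by
                have : ‖Wn (ψ n)‖ ≤ 1 := by rw [hWs]; linarith [(hs0 (ψ n)).1]
                gcongr
            _ = ε := mul_one _
        have h7 : |(ξ' - ξ) z| ≤ 2 * ε := by
          calc |(ξ' - ξ) z| ≤ ‖ξ' - ξ‖ * ‖z‖ := (ξ' - ξ).le_opNorm _
            _ ≤ ε * 2 := by gcongr
            _ = 2 * ε := by ring
        rw [sub_apply] at h6 h7
        have h8 := (abs_le.1 h6).2
        have h9 := (abs_le.1 h7).1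
        have h10 := (hs0 (ψ n)).1
        have h11 := (hs0 (ψ n)).2
        have h12 : sn (ψ n) * (ξ z - ξ' z) ≤ 1 * (2 * ε) := by
          calc sn (ψ n) * (ξ z - ξ' z) ≤ sn (ψ n) * (2 * ε) :=
                mul_le_mul_of_nonneg_left (by linarith) h10
            _ ≤ 1 * (2 * ε) := mul_le_mul_of_nonneg_right h11 (by positivity)
        have h13 : sn (ψ n) * ε ≤ 1 * ε := mul_le_mul_of_nonneg_right h11 hε.le
        linarith
      exact le_of_tendsto_of_tendsto hsξ (hηW.add_const _) h2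
    apply le_antisymm
    · exact le_of_forall_pos_le_add fun ε hε => by
        have := hup (ε / 4) (by positivity)
        linarith
    · exact le_of_forall_pos_le_add fun ε hε => by
        have := hlo (ε / 4) (by positivity)
        linarith
  have hWs' : ‖W‖ = 1 - s := by
    have h1 := hlW.norm
    have h2 : Tendsto (fun n => ‖Wn (ψ n)‖) atTop (𝓝 (1 - s)) := by
      refine (hls.const_sub 1).congr fun n => ?_
      rw [hWs]
    exact tendsto_nhds_unique h1 h2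
  -- `s > 0` by spanning
  have hs2 : s ≠ 0 := by
    intro h0
    have hW0 : W = 0 := by
      refine span_zero (x := f x₀) (hf.norm _ hx₀') (f '' {y | Good f x₀ y}) ?_ ?_
      · intro y₀ hy₀ hlt ε hε
        obtain ⟨z₀, hz₀, rfl⟩ := hf.surj y₀ hy₀
        have hlt' : ‖x₀ + z₀‖ < 2 := by
          have h1 : ‖x₀ + z₀‖ ≤ 2 := by
            calc ‖x₀ + z₀‖ ≤ ‖x₀‖ + ‖z₀‖ := norm_add_le _ _
              _ = 2 := by rw [hx₀', hz₀]; norm_num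
          exact lt_of_le_of_ne h1 fun h2 => hlt.ne ((hf.star _ _ hx₀' hz₀).2 h2)
        obtain ⟨y, hy, hyz⟩ := good_dense (fun _ => f) (fun _ => hf) hx₀' hz₀ hlt' hε
        refine ⟨f y, ⟨y, hy 0, rfl⟩, ?_⟩
        rw [hf.dist _ _ (hy 0).norm hz₀]
        exact hyz
      · rintro _ ⟨y, hy, rfl⟩
        obtain ⟨ξ, hξ⟩ := J_nonempty (x₀ - y)
        obtain ⟨η, hη⟩ := J_nonempty (f x₀ - f y)
        refine ⟨η, hη, ?_⟩
        rw [hid y hy ξ hξ η hη, h0, zero_mul]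
    rw [hW0, norm_zero, h0] at hWs'
    norm_num at hWs'
  refine ⟨x₀, (-s⁻¹) • W, hx₀', ?_⟩
  intro y hy ξ hξ η hη
  rw [map_smul, hid y hy ξ hξ η hη, map_neg, smul_eq_mul]
  field_simp

end Vale.P084
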