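import Mathlib
import Vale.Agent.P084.Bad

/-!
# P084, Part I: at a bad point there is a linear isometry
-/

namespace Vale.P084

open Metric Filter Topology

variable {X Y : Type*} [NormedAddCommGroup X] [NormedSpace ℝ X]
  [NormedAddCommGroup Y] [NormedSpace ℝ Y]

/-- limits of secants -/
lemma secant_limit [FiniteDimensional ℝ X] [FiniteDimensional ℝ Y] {f : X → Y} (hf : SphIso f)
    {x y : X} (hx : ‖x‖ = 1) (hy : Good f x y) {ξ : X →L[ℝ] ℝ} {η : Y →L[ℝ] ℝ}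
    (hξ : ξ ∈ J (x - y)) (hη : η ∈ J (f x - f y)) {p q : ℕ → X} (hp : ∀ n, ‖p n‖ = 1)
    (hq : ∀ n, ‖q n‖ = 1) (hlp : Tendsto p atTop (𝓝 x)) (hlq : Tendsto q atTop (𝓝 x))
    {c : ℕ → ℝ} {z : X} {z' : Y}
    (hz : Tendsto (fun n => c n • (p n - q n)) atTop (𝓝 z))
    (hz' : Tendsto (fun n => c n • (f (p n) - f (q n))) atTop (𝓝 z')) : ξ z = η z' := by
  have main : ∀ ε > 0, |ξ z - η z'| ≤ ε * ‖z‖ := by
    intro ε hε
    obtain ⟨δ₁, hδ₁, h1⟩ := strict_diff (J_singleton hy.ss hξ) (ε := ε / 2) (by positivity)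
    obtain ⟨δ₂, hδ₂, h2⟩ := strict_diff (J_singleton hy.ss' hη) (ε := ε / 2) (by positivity)
    have e1 : ∀ᶠ n in atTop, ‖p n - x‖ < min δ₁ δ₂ :=
      (tendsto_iff_norm_sub_tendsto_zero.1 hlp).eventually_lt_const (lt_min hδ₁ hδ₂)
    have e2 : ∀ᶠ n in atTop, ‖q n - x‖ < min δ₁ δ₂ :=
      (tendsto_iff_norm_sub_tendsto_zero.1 hlq).eventually_lt_const (lt_min hδ₁ hδ₂)
    have e3 : ∀ᶠ n in atTop, |ξ (c n • (p n - q n)) - η (c n • (f (p n) - f (q n)))| ≤
        ε * ‖c n • (p n - q n)‖ := by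
      filter_upwards [e1, e2] with n hn1 hn2
      have k1 := h1 (p n - y) (q n - y)
        (by rw [sub_sub_sub_cancel_right]; exact hn1.trans_le (min_le_left _ _))
        (by rw [sub_sub_sub_cancel_right]; exact hn2.trans_le (min_le_left _ _))
      have k2 := h2 (f (p n) - f y) (f (q n) - f y)
        (by rw [sub_sub_sub_cancel_right, hf.dist _ _ (hp n) hx]
            exact hn1.trans_le (min_le_right _ _))
        (by rw [sub_sub_sub_cancel_right, hf.dist _ _ (hq n) hx]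
            exact hn2.trans_le (min_le_right _ _))
      rw [sub_sub_sub_cancel_right] at k1 k2
      rw [hf.dist _ _ (hp n) hy.norm, hf.dist _ _ (hq n) hy.norm, hf.dist _ _ (hp n) (hq n)] at k2
      have k3 : |ξ (p n - q n) - η (f (p n) - f (q n))| ≤ ε * ‖p n - q n‖ := by
        have a1 := abs_le.1 k1
        have a2 := abs_le.1 k2
        rw [abs_le]
        constructor <;> linarith [a1.1, a1.2, a2.1, a2.2]
      rw [map_smul, map_smul, smul_eq_mul, smul_eq_mul, ← mul_sub, abs_mul, norm_smul,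
        Real.norm_eq_abs]
      calc |c n| * |ξ (p n - q n) - η (f (p n) - f (q n))|
          ≤ |c n| * (ε * ‖p n - q n‖) := by gcongr
        _ = ε * (|c n| * ‖p n - q n‖) := by ring
    have e4 : Tendsto (fun n => |ξ (c n • (p n - q n)) - η (c n • (f (p n) - f (q n)))|) atTop
        (𝓝 |ξ z - η z'|) :=
      (((ξ.continuous.tendsto _).comp hz).sub ((η.continuous.tendsto _).comp hz')).abs
    have e5 : Tendsto (fun n => ε * ‖c n • (p n - q n)‖) atTop (𝓝 (ε * ‖z‖)) :=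
      hz.norm.const_mul ε
    exact le_of_tendsto_of_tendsto e4 e5 e3
  have h0 : |ξ z - η z'| ≤ 0 := by
    refine le_of_forall_pos_le_add fun ε hε => ?_
    have := main (ε / (‖z‖ + 1)) (by positivity)
    refine this.trans ?_
    rw [zero_add, div_mul_eq_mul_div, div_le_iff₀ (by positivity)]
    nlinarith [norm_nonneg z]
  have := abs_eq_zero.1 (le_antisymm h0 (abs_nonneg _))
  linarith

/-- every direction gives a secant of the sphere, modulo `x` -/
lemma exists_secant [FiniteDimensional ℝ X] [FiniteDimensional ℝ Y] {f : X → Y} (hf : SphIso f)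
    {x : X} (hx : ‖x‖ = 1) (v : X) : ∃ (d : ℝ) (z' : Y),
      (∀ y, Good f x y → ∀ ξ ∈ J (x - y), ∀ η ∈ J (f x - f y), ξ (v - d • x) = η z') ∧
      ∀ ζ ∈ J x, ζ v ≤ d := by
  classical
  have : ProperSpace Y := FiniteDimensional.proper ℝ Y
  -- radii
  let c : ℕ → ℝ := fun n => (n : ℝ) + 1 + 2 * ‖v‖
  have hc0 : ∀ n, 0 < c n := fun n => by
    have := norm_nonneg v
    have := Nat.cast_nonneg (α := ℝ) n
    show 0 < (n : ℝ) + 1 + 2 * ‖v‖
    positivity
  let u : ℕ → X := fun n => (c n)⁻¹ • v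
  have hu : ∀ n, ‖u n‖ ≤ 1 / 2 := by
    intro n
    show ‖(c n)⁻¹ • v‖ ≤ 1 / 2
    rw [norm_smul, norm_inv, Real.norm_of_nonneg (hc0 n).le, inv_mul_le_iff₀ (hc0 n)]
    have := Nat.cast_nonneg (α := ℝ) n
    show ‖v‖ ≤ ((n : ℝ) + 1 + 2 * ‖v‖) * (1 / 2)
    linarith
  have hcu : ∀ n, c n • u n = v := fun n => by
    show c n • ((c n)⁻¹ • v) = v
    rw [smul_smul, mul_inv_cancel₀ (hc0 n).ne', one_smul]
  have hcun : ∀ n, c n * ‖u n‖ = ‖v‖ := fun n => by
    have h1 : ‖c n • u n‖ = c n * ‖u n‖ := by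
      rw [norm_smul (c n) (u n), Real.norm_of_nonneg (hc0 n).le]
    rw [← h1, hcu n]
  have hctop : Tendsto c atTop atTop := by
    show Tendsto (fun n : ℕ => (n : ℝ) + 1 + 2 * ‖v‖) atTop atTop
    exact tendsto_atTop_add_const_right _ _
      (tendsto_atTop_add_const_right _ _ tendsto_natCast_atTop_atTop)
  have hu0 : Tendsto (fun n => ‖u n‖) atTop (𝓝 0) := by
    have : (fun n => ‖u n‖) = fun n => ‖v‖ / c n := by
      funext n
      rw [← hcun n]; have := (hc0 n).ne'; field_simp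
    rw [this]
    exact hctop.const_div_atTop _
  let r : ℕ → ℝ := fun n => ‖x + u n‖
  have hr1 : ∀ n, |r n - 1| ≤ ‖u n‖ := by
    intro n
    have := abs_norm_sub_norm_le (x + u n) x
    rwa [hx, add_sub_cancel_left] at this
  have hr2 : ∀ n, 1 / 2 ≤ r n := fun n => by
    have := (abs_le.1 (hr1 n)).1
    linarith [hu n]
  have hr0 : ∀ n, 0 < r n := fun n => by linarith [hr2 n]
  let p : ℕ → X := fun n => (r n)⁻¹ • (x + u n)
  have hp : ∀ n, ‖p n‖ = 1 := fun n => by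
    show ‖(r n)⁻¹ • (x + u n)‖ = 1
    rw [norm_smul, norm_inv, Real.norm_of_nonneg (hr0 n).le]
    exact inv_mul_cancel₀ (hr0 n).ne'
  let d : ℕ → ℝ := fun n => c n * (r n - 1)
  have hd : ∀ n, |d n| ≤ ‖v‖ := fun n => by
    show |c n * (r n - 1)| ≤ ‖v‖
    rw [abs_mul, abs_of_pos (hc0 n), ← hcun n]
    have := (hc0 n).le
    gcongr
    exact hr1 n
  have hcp : ∀ n, c n • (p n - x) = (r n)⁻¹ • (v - d n • x) := by
    intro n
    have e1 : (r n)⁻¹ • (v - d n • x) = (r n)⁻¹ • (c n • u n - (c n * (r n - 1)) • x) := by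
      rw [hcu]
    rw [e1]
    show c n • ((r n)⁻¹ • (x + u n) - x) = _
    have h1 : (r n)⁻¹ * r n = 1 := inv_mul_cancel₀ (hr0 n).ne'
    have e2 : c n • ((r n)⁻¹ • (x + u n) - x) =
        (r n)⁻¹ • (c n • u n) + (c n * ((r n)⁻¹ - 1)) • x := by module
    have e3 : (r n)⁻¹ • (c n • u n - (c n * (r n - 1)) • x) =
        (r n)⁻¹ • (c n • u n) + (c n * ((r n)⁻¹ - (r n)⁻¹ * r n)) • x := by module
    rw [e2, e3, h1]
  have hbd : ∀ n, ‖c n • (p n - x)‖ ≤ 4 * ‖v‖ := by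
    intro n
    rw [hcp, norm_smul, norm_inv, Real.norm_of_nonneg (hr0 n).le]
    have h1 : (r n)⁻¹ ≤ 2 := by
      rw [inv_le_comm₀ (hr0 n) (by norm_num)]; linarith [hr2 n]
    have h2 : ‖v - d n • x‖ ≤ 2 * ‖v‖ := by
      calc ‖v - d n • x‖ ≤ ‖v‖ + ‖d n • x‖ := norm_sub_le _ _
        _ = ‖v‖ + |d n| := by rw [norm_smul, hx, mul_one, Real.norm_eq_abs]
        _ ≤ 2 * ‖v‖ := by linarith [hd n]
    calc (r n)⁻¹ * ‖v - d n • x‖ ≤ 2 * (2 * ‖v‖) := by
          have := norm_nonneg v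
          gcongr
      _ = 4 * ‖v‖ := by ring
  have hcomp : IsCompact ((closedBall (0 : Y) (4 * ‖v‖)) ×ˢ (Set.Icc (-‖v‖) ‖v‖)) :=
    (isCompact_closedBall _ _).prod isCompact_Icc
  obtain ⟨⟨z', d₀⟩, -, ψ, hψ, hlim⟩ := hcomp.tendsto_subseq
    (x := fun n => (c n • (f (p n) - f x), d n)) (fun n => ⟨by
      simp only [mem_closedBall, dist_zero_right]
      rw [norm_smul, hf.dist _ _ (hp n) hx, ← norm_smul]
      exact hbd n, by
      have := abs_le.1 (hd n)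
      exact ⟨this.1, this.2⟩⟩)
  have hl1 : Tendsto (fun n => c (ψ n) • (f (p (ψ n)) - f x)) atTop (𝓝 z') :=
    (continuous_fst.tendsto _).comp hlim
  have hl2 : Tendsto (fun n => d (ψ n)) atTop (𝓝 d₀) := (continuous_snd.tendsto _).comp hlim
  have hrl : Tendsto (fun n => r (ψ n)) atTop (𝓝 1) := by
    rw [tendsto_iff_norm_sub_tendsto_zero]
    refine squeeze_zero (fun n => norm_nonneg _) (fun n => hr1 (ψ n)) ?_
    exact hu0.comp hψ.tendsto_atTop
  have hl3 : Tendsto (fun n => c (ψ n) • (p (ψ n) - x)) atTop (𝓝 (v - d₀ • x)) := by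
    have h1 : Tendsto (fun n => (r (ψ n))⁻¹ • (v - d (ψ n) • x)) atTop
        (𝓝 ((1 : ℝ)⁻¹ • (v - d₀ • x))) :=
      (hrl.inv₀ one_ne_zero).smul ((hl2.smul_const x).const_sub v)
    rw [inv_one, one_smul] at h1
    exact h1.congr fun n => (hcp (ψ n)).symm
  have hlp : Tendsto (fun n => p (ψ n)) atTop (𝓝 x) := by
    have h1 : Tendsto (fun n => (c (ψ n))⁻¹ • (c (ψ n) • (p (ψ n) - x))) atTop
        (𝓝 ((0 : ℝ) • (v - d₀ • x))) :=
      ((tendsto_inv_atTop_zero.comp (hctop.comp hψ.tendsto_atTop))).smul hl3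
    rw [zero_smul] at h1
    have h2 : Tendsto (fun n => p (ψ n) - x) atTop (𝓝 0) := by
      refine h1.congr fun n => ?_
      rw [smul_smul, inv_mul_cancel₀ (hc0 _).ne', one_smul]
    have h3 := h2.add_const x
    simpa using h3
  refine ⟨d₀, z', ?_, ?_⟩
  · intro y hy ξ hξ η hη
    exact secant_limit hf hx hy hξ hη (p := fun n => p (ψ n)) (q := fun _ => x)
      (fun n => hp _) (fun _ => hx) hlp tendsto_const_nhds hl3 hl1
  · intro ζ hζ
    refine ge_of_tendsto hl2 (Eventually.of_forall fun n => ?_)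
    show ζ v ≤ c (ψ n) * (r (ψ n) - 1)
    have h1 := J_sub hζ (x + u (ψ n))
    rw [hx, add_sub_cancel_left] at h1
    have h2 : ζ v = c (ψ n) * ζ (u (ψ n)) := by
      rw [← smul_eq_mul, ← map_smul, hcu]
    rw [h2]
    have := (hc0 (ψ n)).le
    gcongr
    show _ ≤ ‖x + u (ψ n)‖ - 1
    linarith

/-- the good points of `f` at `x` separate the points of `Y` -/
lemma good_sep [FiniteDimensional ℝ X] [FiniteDimensional ℝ Y] {f : X → Y} (hf : SphIso f)
    {x : X} (hx : ‖x‖ = 1) {t : Y}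
    (ht : ∀ y, Good f x y → ∀ η ∈ J (f x - f y), η t = 0) : t = 0 := by
  refine span_zero (x := f x) (hf.norm _ hx) (f '' {y | Good f x y}) ?_ ?_
  · intro y₀ hy₀ hlt ε hε
    obtain ⟨z₀, hz₀, rfl⟩ := hf.surj y₀ hy₀
    have hlt' : ‖x + z₀‖ < 2 := by
      have h1 : ‖x + z₀‖ ≤ 2 := by
        calc ‖x + z₀‖ ≤ ‖x‖ + ‖z₀‖ := norm_add_le _ _
          _ = 2 := by rw [hx, hz₀]; norm_num
      exact lt_of_le_of_ne h1 fun h2 => hlt.ne ((hf.star _ _ hx hz₀).2 h2)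
    obtain ⟨y, hy, hyz⟩ := good_dense (fun _ => f) (fun _ => hf) hx hz₀ hlt' hε
    refine ⟨f y, ⟨y, hy 0, rfl⟩, ?_⟩
    rw [hf.dist _ _ (hy 0).norm hz₀]
    exact hyz
  · rintro _ ⟨y, hy, rfl⟩
    obtain ⟨η, hη⟩ := J_nonempty (f x - f y)
    exact ⟨η, hη, ht y hy η hη⟩

/-- the good points of `f` at `x` separate the points of `X` -/
lemma good_sep' [FiniteDimensional ℝ X] [FiniteDimensional ℝ Y] {f : X → Y} (hf : SphIso f)
    {x : X} (hx : ‖x‖ = 1) {t : X}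
    (ht : ∀ y, Good f x y → ∀ ξ ∈ J (x - y), ξ t = 0) : t = 0 := by
  refine span_zero (x := x) hx {y | Good f x y} ?_ ?_
  · intro y₀ hy₀ hlt ε hε
    obtain ⟨y, hy, hyz⟩ := good_dense (fun _ => f) (fun _ => hf) hx hy₀ hlt hε
    exact ⟨y, hy 0, hyz⟩
  · intro y hy
    obtain ⟨ξ, hξ⟩ := J_nonempty (x - y)
    exact ⟨ξ, hξ, ht y hy ξ hξ⟩


/-- the linear map `Φ` intertwines the norming functionals at the good points -/
def Rel (f : X → Y) (x : X) (Φ : X →L[ℝ] Y) : Prop :=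
  ∀ y, Good f x y → ∀ ξ ∈ J (x - y), ∀ η ∈ J (f x - f y), ∀ v, η (Φ v) = ξ v

/-- at a bad point, the linear map exists -/
lemma exists_rel [FiniteDimensional ℝ X] [FiniteDimensional ℝ Y] {f : X → Y} (hf : SphIso f)
    {x : X} (hx : ‖x‖ = 1) {V : Y}
    (hV : ∀ y, Good f x y → ∀ ξ ∈ J (x - y), ∀ η ∈ J (f x - f y), η V = ξ x) :
    ∃ Φ : X →L[ℝ] Y, Rel f x Φ := by
  have h1 : ∀ v : X, ∃ v' : Y, ∀ y, Good f x y → ∀ ξ ∈ J (x - y), ∀ η ∈ J (f x - f y),
      η v' = ξ v := by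
    intro v
    obtain ⟨d, z', hz', -⟩ := exists_secant hf hx v
    refine ⟨z' + d • V, fun y hy ξ hξ η hη => ?_⟩
    rw [map_add, map_smul, hV y hy ξ hξ η hη, ← hz' y hy ξ hξ η hη, map_sub, map_smul]
    abel
  choose φ hφ using h1
  have hadd : ∀ u v, φ (u + v) = φ u + φ v := by
    intro u v
    have : φ (u + v) - (φ u + φ v) = 0 := by
      apply good_sep hf hx
      intro y hy η hη
      obtain ⟨ξ, hξ⟩ := J_nonempty (x - y)
      rw [map_sub, map_add, hφ _ y hy ξ hξ η hη, hφ _ y hy ξ hξ η hη, hφ _ y hy ξ hξ η hη,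
        map_add, sub_self]
    exact sub_eq_zero.1 this
  have hsmul : ∀ (c : ℝ) v, φ (c • v) = c • φ v := by
    intro c v
    have : φ (c • v) - c • φ v = 0 := by
      apply good_sep hf hx
      intro y hy η hη
      obtain ⟨ξ, hξ⟩ := J_nonempty (x - y)
      rw [map_sub, map_smul, hφ _ y hy ξ hξ η hη, hφ _ y hy ξ hξ η hη, map_smul, sub_self]
    exact sub_eq_zero.1 this
  let L : X →ₗ[ℝ] Y := { toFun := φ, map_add' := hadd, map_smul' := hsmul }
  refine ⟨LinearMap.toContinuousLinearMap L, fun y hy ξ hξ η hη v => ?_⟩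
  exact hφ v y hy ξ hξ η hη

section

variable [FiniteDimensional ℝ X] [FiniteDimensional ℝ Y] {f : X → Y} (hf : SphIso f)
  {x : X} (hx : ‖x‖ = 1) {Φ : X →L[ℝ] Y} (hΦ : Rel f x Φ)
include hf hx hΦ

lemma Rel.injective : Function.Injective Φ := by
  rw [injective_iff_map_eq_zero]
  intro v hv
  apply good_sep' hf hx
  intro y hy ξ hξ
  obtain ⟨η, hη⟩ := J_nonempty (f x - f y)
  rw [← hΦ y hy ξ hξ η hη v, hv, map_zero]

/-- good points close to `-x` in a prescribed direction -/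
lemma exists_good_near_neg (v : X) {ζ : X →L[ℝ] ℝ} (hζ : ζ ∈ J x) {ε : ℝ} (hε : 0 < ε) :
    ∃ y, Good f x y ∧ 2 - ε ≤ ‖x - y‖ ∧ ∀ ξ ∈ J (x - y), ζ v - ε ≤ ξ v := by
  clear hΦ
  have hnx : ‖-x‖ = 1 := by rw [norm_neg, hx]
  obtain ⟨δ, hδ, hexit⟩ := exit hx hnx (by rw [add_neg_cancel, norm_zero]; norm_num)
    (ε := min (1 / 4) (ε / 8)) (lt_min (by norm_num) (by positivity))
  -- choose `s`
  obtain ⟨s, hs0, hs1, hs2, hs3⟩ : ∃ s : ℝ, 0 < s ∧ 2 * s * ‖v‖ < δ ∧ s * ‖v‖ ≤ 1 / 8 ∧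
      s * ‖v‖ ≤ ε / 8 := by
    have hv := norm_nonneg v
    refine ⟨min (δ / 4) (min (1 / 8) (ε / 8)) / (‖v‖ + 1), by positivity, ?_, ?_, ?_⟩
    · have h1 : min (δ / 4) (min (1 / 8) (ε / 8)) / (‖v‖ + 1) * ‖v‖ ≤
          min (δ / 4) (min (1 / 8) (ε / 8)) := by
        rw [div_mul_eq_mul_div, div_le_iff₀ (by positivity)]
        have : 0 ≤ min (δ / 4) (min (1 / 8) (ε / 8)) := by positivity
        nlinarith
      have h2 : min (δ / 4) (min (1 / 8) (ε / 8)) ≤ δ / 4 := min_le_left _ _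
      nlinarith
    · have h1 : min (δ / 4) (min (1 / 8) (ε / 8)) / (‖v‖ + 1) * ‖v‖ ≤
          min (δ / 4) (min (1 / 8) (ε / 8)) := by
        rw [div_mul_eq_mul_div, div_le_iff₀ (by positivity)]
        have : 0 ≤ min (δ / 4) (min (1 / 8) (ε / 8)) := by positivity
        nlinarith
      exact h1.trans ((min_le_right _ _).trans (min_le_left _ _))
    · have h1 : min (δ / 4) (min (1 / 8) (ε / 8)) / (‖v‖ + 1) * ‖v‖ ≤
          min (δ / 4) (min (1 / 8) (ε / 8)) := by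
        rw [div_mul_eq_mul_div, div_le_iff₀ (by positivity)]
        have : 0 ≤ min (δ / 4) (min (1 / 8) (ε / 8)) := by positivity
        nlinarith
      exact h1.trans ((min_le_right _ _).trans (min_le_right _ _))
  set w' : X := (2 : ℝ) • (x + s • v) with hw'
  have hsv : ‖s • v‖ = s * ‖v‖ := by rw [norm_smul, Real.norm_of_nonneg hs0.le]
  have hw'd : ‖w' - (x - -x)‖ < δ := by
    have : w' - (x - -x) = (2 : ℝ) • (s • v) := by rw [hw']; module
    rw [this, norm_smul, hsv, Real.norm_two]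
    linarith
  obtain ⟨t, ht, htn⟩ := hexit x w' hx (by rw [sub_self, norm_zero]; exact hδ) hw'd
  have ht1 : |t - 1| < 1 / 4 := ht.trans_le (min_le_left _ _)
  have ht2 : |t - 1| < ε / 8 := ht.trans_le (min_le_right _ _)
  have ht3 := abs_lt.1 ht1
  have ht4 := abs_lt.1 ht2
  have ht0 : 0 < t := by linarith
  have hxsv : |‖x + s • v‖ - 1| ≤ s * ‖v‖ := by
    have := abs_norm_sub_norm_le (x + s • v) x
    rwa [hx, add_sub_cancel_left, hsv] at this
  have hxsv' := abs_le.1 hxsv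
  -- the exit point is not on the star
  have hlt : ‖x + (x - t • w')‖ < 2 := by
    have h1 : x + (x - t • w') = (2 * (1 - t)) • x - (2 * t) • (s • v) := by
      rw [hw']; module
    rw [h1]
    calc ‖(2 * (1 - t)) • x - (2 * t) • (s • v)‖
        ≤ ‖(2 * (1 - t)) • x‖ + ‖(2 * t) • (s • v)‖ := norm_sub_le _ _
      _ = 2 * |t - 1| + 2 * t * (s * ‖v‖) := by
          rw [norm_smul, norm_smul, hx, hsv, Real.norm_eq_abs, Real.norm_eq_abs, abs_mul, abs_mul,
            abs_two, abs_of_pos ht0, abs_sub_comm, mul_one]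
      _ ≤ 2 * (1 / 4) + 2 * (5 / 4) * (1 / 8) := by
          have : 0 ≤ s * ‖v‖ := by positivity
          have h5 : t ≤ 5 / 4 := by linarith
          gcongr
      _ < 2 := by norm_num
  set ρ := min (ε / 4) (ε * (t * s)) with hρ
  have hρ0 : 0 < ρ := by positivity
  obtain ⟨y, hy, hyd⟩ := good_dense (fun _ => f) (fun _ => hf) hx htn hlt hρ0
  have hwd : ‖(x - y) - t • w'‖ < ρ := by
    have : (x - y) - t • w' = -(y - (x - t • w')) := by abel
    rw [this, norm_neg]; exact hyd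
  have hnw' : ‖w'‖ = 2 * ‖x + s • v‖ := by rw [hw', norm_smul, Real.norm_two]
  refine ⟨y, hy 0, ?_, ?_⟩
  · have h1 : ‖t • w'‖ ≤ ‖x - y‖ + ρ := by
      have : t • w' = (x - y) - ((x - y) - t • w') := by abel
      rw [this]
      refine (norm_sub_le _ _).trans ?_
      linarith
    rw [norm_smul, Real.norm_of_nonneg ht0.le, hnw'] at h1
    have h2 : ρ ≤ ε / 4 := min_le_left _ _
    have h3 : 0 ≤ s * ‖v‖ := by positivity
    have h4 : (1 - ε / 8) * (1 - s * ‖v‖) ≤ t * ‖x + s • v‖ := by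
      have h5 : 1 - s * ‖v‖ ≤ ‖x + s • v‖ := by linarith
      have h6 : 1 - ε / 8 ≤ t := by linarith
      have h7 : 0 ≤ 1 - s * ‖v‖ := by linarith
      calc (1 - ε / 8) * (1 - s * ‖v‖) ≤ t * (1 - s * ‖v‖) := by gcongr
        _ ≤ t * ‖x + s • v‖ := by gcongr
    have h8 : 1 - ε / 8 - s * ‖v‖ ≤ (1 - ε / 8) * (1 - s * ‖v‖) := by
      have : 0 ≤ ε / 8 * (s * ‖v‖) := by positivity
      linarith
    linarith
  · intro ξ hξ
    have h1 : ‖x - y‖ - ‖x - y - (2 * t * s) • v‖ ≤ (2 * t * s) * ξ v := by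
      have h2 := J_le hξ (x - y - (2 * t * s) • v)
      have h3 : ξ (x - y) = ‖x - y‖ := hξ.2
      rw [map_sub, map_smul, h3, smul_eq_mul] at h2
      linarith
    have h2 : ‖t • w'‖ - ρ ≤ ‖x - y‖ := by
      have : t • w' = (x - y) - ((x - y) - t • w') := by abel
      have h3 : ‖t • w'‖ ≤ ‖x - y‖ + ‖(x - y) - t • w'‖ := by
        conv_lhs => rw [this]
        exact norm_sub_le _ _
      linarith
    have h3 : ‖x - y - (2 * t * s) • v‖ ≤ 2 * t + ρ := by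
      have e : x - y - (2 * t * s) • v = (2 * t) • x + ((x - y) - t • w') := by
        rw [hw']; module
      rw [e]
      refine (norm_add_le _ _).trans ?_
      rw [norm_smul, hx, mul_one, Real.norm_of_nonneg (by positivity)]
      linarith
    have h4 : 1 + s * ζ v ≤ ‖x + s • v‖ := by
      have := J_sub hζ (x + s • v)
      rwa [hx, add_sub_cancel_left, map_smul, smul_eq_mul] at this
    rw [norm_smul, Real.norm_of_nonneg ht0.le, hnw'] at h2
    have h5 : t * (2 * (1 + s * ζ v)) ≤ t * (2 * ‖x + s • v‖) := by gcongr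
    have h6 : ρ ≤ ε * (t * s) := min_le_right _ _
    have h7 : 0 < 2 * t * s := by positivity
    have h8 : 2 * t * s * (ζ v - ε) ≤ 2 * t * s * ξ v := by nlinarith
    exact le_of_mul_le_mul_left h8 h7

/-- comparison of the directional derivatives -/
lemma Rel.exists_ge (v : X) {ζ : X →L[ℝ] ℝ} (hζ : ζ ∈ J x) : ∃ η ∈ J (f x), ζ v ≤ η (Φ v) := by
  classical
  have : ProperSpace (Y →L[ℝ] ℝ) := FiniteDimensional.proper ℝ _
  have h1 : ∀ n : ℕ, ∃ (y : X) (η : Y →L[ℝ] ℝ), Good f x y ∧ 2 - 1 / ((n : ℝ) + 1) ≤ ‖x - y‖ ∧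
      η ∈ J (f x - f y) ∧ ζ v - 1 / ((n : ℝ) + 1) ≤ η (Φ v) := by
    intro n
    obtain ⟨y, hy, hy1, hy2⟩ := exists_good_near_neg hf hx hΦ v hζ
      (ε := 1 / ((n : ℝ) + 1)) (by positivity)
    obtain ⟨η, hη⟩ := J_nonempty (f x - f y)
    obtain ⟨ξ, hξ⟩ := J_nonempty (x - y)
    refine ⟨y, η, hy, hy1, hη, ?_⟩
    rw [hΦ y hy ξ hξ η hη v]
    exact hy2 ξ hξ
  choose y η hy hy1 hη hηv using h1
  obtain ⟨η₀, hη₀, ψ, hψ, hlim⟩ := (isCompact_closedBall (0 : Y →L[ℝ] ℝ) 1).tendsto_subseq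
    (x := η) (fun n => by simpa using (hη n).1)
  have hinv : Tendsto (fun n => 1 / ((ψ n : ℝ) + 1)) atTop (𝓝 0) :=
    tendsto_one_div_add_atTop_nhds_zero_nat.comp hψ.tendsto_atTop
  refine ⟨η₀, ⟨by simpa using hη₀, ?_⟩, ?_⟩
  · rw [hf.norm x hx]
    have hl : Tendsto (fun n => η (ψ n) (f x)) atTop (𝓝 (η₀ (f x))) :=
      ((ContinuousLinearMap.apply ℝ ℝ (f x)).continuous.tendsto _).comp hlim
    have h2 : Tendsto (fun n => 1 - 1 / ((ψ n : ℝ) + 1)) atTop (𝓝 (1 - 0)) := hinv.const_sub 1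
    rw [sub_zero] at h2
    refine tendsto_nhds_unique hl (tendsto_of_tendsto_of_tendsto_of_le_of_le h2
      tendsto_const_nhds (fun n => ?_) (fun n => ?_))
    · have h3 := (hη (ψ n)).2
      rw [hf.dist _ _ hx (hy _).norm, map_sub] at h3
      have h4 := J_le (hη (ψ n)) (-f (y (ψ n)))
      rw [map_neg, norm_neg, hf.norm _ (hy _).norm] at h4
      have h5 := hy1 (ψ n)
      show 1 - 1 / ((ψ n : ℝ) + 1) ≤ η (ψ n) (f x)
      linarith
    · have h3 := J_le (hη (ψ n)) (f x)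
      rwa [hf.norm x hx] at h3
  · have hl : Tendsto (fun n => η (ψ n) (Φ v)) atTop (𝓝 (η₀ (Φ v))) :=
      ((ContinuousLinearMap.apply ℝ ℝ (Φ v)).continuous.tendsto _).comp hlim
    have h2 : Tendsto (fun n => ζ v - 1 / ((ψ n : ℝ) + 1)) atTop (𝓝 (ζ v - 0)) :=
      hinv.const_sub _
    rw [sub_zero] at h2
    exact le_of_tendsto_of_tendsto h2 hl (Eventually.of_forall fun n => hηv (ψ n))

lemma Rel.surjective : Function.Surjective Φ := by
  obtain ⟨g, hg, hgf, hfg⟩ := hf.inv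
  have key : ∀ v' : Y, ∃ (d : ℝ) (z : X), Φ z = v' - d • f x ∧ ∀ η ∈ J (f x), η v' ≤ d := by
    intro v'
    obtain ⟨d, z, hz, hd⟩ := exists_secant hg (hf.norm x hx) v'
    refine ⟨d, z, ?_, hd⟩
    have : Φ z - (v' - d • f x) = 0 := by
      apply good_sep hf hx
      intro y hy η hη
      obtain ⟨ξ, hξ⟩ := J_nonempty (x - y)
      have h1 := hz (f y) (hy.swap hf hgf hx) η hη ξ (by rw [hgf x hx, hgf y hy.norm]; exact hξ)
      rw [map_sub, hΦ y hy ξ hξ η hη z, h1, sub_self]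
    exact sub_eq_zero.1 this
  have hfx : f x ∈ LinearMap.range (Φ : X →ₗ[ℝ] Y) := by
    obtain ⟨d, z, hz, hd⟩ := key (Φ x)
    obtain ⟨ζ, hζ⟩ := J_nonempty x
    obtain ⟨η, hη, hle⟩ := hΦ.exists_ge hf hx x hζ
    have h1 : ζ x = 1 := by rw [hζ.2, hx]
    have h2 := hd η hη
    have hd0 : 0 < d := by linarith
    refine ⟨d⁻¹ • (x - z), ?_⟩
    show Φ (d⁻¹ • (x - z)) = f x
    rw [map_smul, map_sub, hz, sub_sub_cancel, smul_smul, inv_mul_cancel₀ hd0.ne', one_smul]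
  intro v'
  obtain ⟨d, z, hz, -⟩ := key v'
  obtain ⟨z₁, hz₁⟩ := hfx
  have hz₁' : Φ z₁ = f x := hz₁
  refine ⟨z + d • z₁, ?_⟩
  rw [map_add, map_smul, hz, hz₁']
  abel

end

/-- if all norming functionals of `x` are positive on `v`, then `-v` points inside -/
lemma exists_inside {E : Type*} [NormedAddCommGroup E] [NormedSpace ℝ E] [FiniteDimensional ℝ E]
    {x v : E} (hx : ‖x‖ = 1) (hv : ∀ ζ ∈ J x, 0 < ζ v) : ∃ t : ℝ, 0 < t ∧ ‖x - t • v‖ < 1 := by
  classical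
  have : ProperSpace (E →L[ℝ] ℝ) := FiniteDimensional.proper ℝ _
  by_contra hcon
  push Not at hcon
  have h1 : ∀ n : ℕ, ∃ ζ ∈ J (x - (1 / ((n : ℝ) + 1)) • v), ζ v ≤ 0 := by
    intro n
    obtain ⟨ζ, hζ⟩ := J_nonempty (x - (1 / ((n : ℝ) + 1)) • v)
    refine ⟨ζ, hζ, ?_⟩
    have hn : (0 : ℝ) < 1 / ((n : ℝ) + 1) := by positivity
    have h2 := hcon _ hn
    have h3 := J_sub hζ x
    rw [sub_sub_cancel, map_smul, smul_eq_mul, hx] at h3
    by_contra h4
    have h5 : 0 < 1 / ((n : ℝ) + 1) * ζ v := mul_pos hn (not_le.1 h4)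
    linarith
  choose ζ hζ hζv using h1
  obtain ⟨ζ₀, -, ψ, hψ, hlim⟩ := (isCompact_closedBall (0 : E →L[ℝ] ℝ) 1).tendsto_subseq
    (x := ζ) (fun n => by simpa using (hζ n).1)
  have hinv : Tendsto (fun n => 1 / ((ψ n : ℝ) + 1)) atTop (𝓝 0) :=
    tendsto_one_div_add_atTop_nhds_zero_nat.comp hψ.tendsto_atTop
  have h2 : Tendsto (fun n => x - (1 / ((ψ n : ℝ) + 1)) • v) atTop (𝓝 x) := by
    have := (hinv.smul_const v).const_sub x
    simpa using this
  have h3 : ζ₀ ∈ J x := J_closed h2 hlim fun n => hζ (ψ n)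
  have h4 : Tendsto (fun n => ζ (ψ n) v) atTop (𝓝 (ζ₀ v)) :=
    ((ContinuousLinearMap.apply ℝ ℝ v).continuous.tendsto _).comp hlim
  have h5 : ζ₀ v ≤ 0 := le_of_tendsto h4 (Eventually.of_forall fun n => hζv (ψ n))
  exact absurd (hv ζ₀ h3) (not_lt.2 h5)

/-- a direction pointing inside has an exit point -/
lemma exists_exit {E : Type*} [NormedAddCommGroup E] [NormedSpace ℝ E] {x v : E} (hx : ‖x‖ = 1)
    {t : ℝ} (ht : 0 < t) (hin : ‖x - t • v‖ < 1) :
    ∃ s : ℝ, 0 < s ∧ ‖x - s • v‖ = 1 ∧ ‖x + (x - s • v)‖ < 2 := by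
  have hv0 : v ≠ 0 := by
    rintro rfl
    rw [smul_zero, sub_zero, hx] at hin
    exact lt_irrefl _ hin
  have hnv : 0 < ‖v‖ := norm_pos_iff.2 hv0
  have hcont : Continuous fun s : ℝ => ‖x - s • v‖ := by fun_prop
  -- large `s`
  have hbig : ∃ S : ℝ, t ≤ S ∧ 1 ≤ ‖x - S • v‖ := by
    refine ⟨max t (2 / ‖v‖), le_max_left _ _, ?_⟩
    have h1 : 2 / ‖v‖ ≤ max t (2 / ‖v‖) := le_max_right _ _
    have h2 : 0 ≤ max t (2 / ‖v‖) := ht.le.trans (le_max_left _ _)
    have h3 : 2 ≤ ‖max t (2 / ‖v‖) • v‖ := by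
      rw [norm_smul, Real.norm_of_nonneg h2]
      rwa [div_le_iff₀ hnv] at h1
    have h4 : ‖max t (2 / ‖v‖) • v‖ ≤ ‖x‖ + ‖x - max t (2 / ‖v‖) • v‖ := by
      have : max t (2 / ‖v‖) • v = x - (x - max t (2 / ‖v‖) • v) := by abel
      conv_lhs => rw [this]
      exact norm_sub_le _ _
    linarith
  obtain ⟨S, hS1, hS2⟩ := hbig
  obtain ⟨s, ⟨hs1, hs2⟩, hs⟩ := intermediate_value_Icc hS1 hcont.continuousOn
    (show (1 : ℝ) ∈ Set.Icc _ _ from ⟨hin.le, hS2⟩)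
  have hs' : ‖x - s • v‖ = 1 := hs
  have hts : t < s := by
    rcases hs1.lt_or_eq with h | h
    · exact h
    · rw [← h] at hs'; linarith
  have hs0 : 0 < s := ht.trans hts
  refine ⟨s, hs0, hs', ?_⟩
  -- midpoint is a convex combination of `x - t v` and an endpoint
  by_cases hcase : t ≤ s / 2
  · -- `x - (s/2) v` between `x - t v` and `x - s v`
    have hst : 0 < s - t := by linarith
    set a := (s / 2) / (s - t) with ha
    have ha0 : 0 < a := by positivity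
    have ha1 : a ≤ 1 := by rw [ha, div_le_one hst]; linarith
    have e : x + (x - s • v) = (2 * a) • (x - t • v) + (2 * (1 - a)) • (x - s • v) := by
      have h1 : 2 * a * t + 2 * (1 - a) * s = s := by rw [ha]; field_simp; ring
      have h2 : (2 * a) • (x - t • v) + (2 * (1 - a)) • (x - s • v) =
          (2 : ℝ) • x - (2 * a * t + 2 * (1 - a) * s) • v := by module
      rw [h2, h1]; module
    rw [e]
    calc ‖(2 * a) • (x - t • v) + (2 * (1 - a)) • (x - s • v)‖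
        ≤ ‖(2 * a) • (x - t • v)‖ + ‖(2 * (1 - a)) • (x - s • v)‖ := norm_add_le _ _
      _ = 2 * a * ‖x - t • v‖ + 2 * (1 - a) := by
          rw [norm_smul, norm_smul, hs', Real.norm_of_nonneg (by positivity),
            Real.norm_of_nonneg (by linarith), mul_one]
      _ < 2 * a * 1 + 2 * (1 - a) := by gcongr
      _ = 2 := by ring
  · -- `x - (s/2) v` between `x` and `x - t v`
    have hcase' : s / 2 < t := not_le.1 hcase
    set a := (s / 2) / t with ha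
    have ha0 : 0 < a := by positivity
    have ha1 : a ≤ 1 := by rw [ha, div_le_one ht]; linarith
    have e : x + (x - s • v) = (2 * a) • (x - t • v) + (2 * (1 - a)) • x := by
      have h1 : 2 * a * t = s := by rw [ha]; field_simp
      have h2 : (2 * a) • (x - t • v) + (2 * (1 - a)) • x = (2 : ℝ) • x - (2 * a * t) • v := by
        module
      rw [h2, h1]; module
    rw [e]
    calc ‖(2 * a) • (x - t • v) + (2 * (1 - a)) • x‖
        ≤ ‖(2 * a) • (x - t • v)‖ + ‖(2 * (1 - a)) • x‖ := norm_add_le _ _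
      _ = 2 * a * ‖x - t • v‖ + 2 * (1 - a) := by
          rw [norm_smul, norm_smul, hx, Real.norm_of_nonneg (by positivity),
            Real.norm_of_nonneg (by linarith), mul_one]
      _ < 2 * a * 1 + 2 * (1 - a) := by gcongr
      _ = 2 := by ring

section

variable [FiniteDimensional ℝ X] [FiniteDimensional ℝ Y] {f : X → Y} (hf : SphIso f)
  {x : X} (hx : ‖x‖ = 1) {Φ : X →L[ℝ] Y} (hΦ : Rel f x Φ)
include hf hx hΦ

lemma Rel.norm_le' {y : X} (hy : ‖y‖ = 1) (hxy : ‖x + y‖ < 2) : ‖x - y‖ ≤ ‖Φ (x - y)‖ := by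
  refine le_of_forall_pos_le_add fun ε hε => ?_
  have hcont : Continuous fun y : X => ‖Φ (x - y)‖ - ‖x - y‖ := by fun_prop
  obtain ⟨δ, hδ, hδ'⟩ := Metric.continuous_iff.1 hcont y ε hε
  obtain ⟨z, hz, hzy⟩ := good_dense (fun _ => f) (fun _ => hf) hx hy hxy hδ
  have h1 := hδ' z (by rw [dist_eq_norm]; exact hzy)
  rw [Real.dist_eq] at h1
  obtain ⟨ξ, hξ⟩ := J_nonempty (x - z)
  obtain ⟨η, hη⟩ := J_nonempty (f x - f z)
  have h2 : ‖x - z‖ ≤ ‖Φ (x - z)‖ := by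
    rw [← hξ.2, ← hΦ z (hz 0) ξ hξ η hη]
    exact J_le hη _
  have h3 := (abs_lt.1 h1).2
  linarith

lemma Rel.norm_le {v : X} (hv : ∀ ζ ∈ J x, 0 < ζ v) : ‖v‖ ≤ ‖Φ v‖ := by
  obtain ⟨t, ht, hin⟩ := exists_inside hx hv
  obtain ⟨s, hs, hs1, hs2⟩ := exists_exit hx ht hin
  have h1 := hΦ.norm_le' hf hx hs1 hs2
  rw [sub_sub_cancel, map_smul, norm_smul, norm_smul, Real.norm_of_nonneg hs.le] at h1
  exact le_of_mul_le_mul_left h1 hs

/-- summary: the inverse data -/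
lemma Rel.inv : ∃ (g : Y → X) (Ψ : Y →L[ℝ] X), SphIso g ∧ (∀ x, ‖x‖ = 1 → g (f x) = x) ∧
    Rel g (f x) Ψ ∧ (∀ v, Ψ (Φ v) = v) ∧ ∀ w, Φ (Ψ w) = w := by
  obtain ⟨g, hg, hgf, hfg⟩ := hf.inv
  have hinj := hΦ.injective hf hx
  have hsurj := hΦ.surjective hf hx
  let e : X ≃ₗ[ℝ] Y := LinearEquiv.ofBijective (Φ : X →ₗ[ℝ] Y) ⟨hinj, hsurj⟩
  have he : ∀ v, e v = Φ v := fun v => rfl
  refine ⟨g, LinearMap.toContinuousLinearMap (e.symm : Y →ₗ[ℝ] X), hg, hgf, ?_, ?_, ?_⟩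
  · intro y' hy' η hη ξ hξ w
    obtain ⟨y, hyn, rfl⟩ := hf.surj y' hy'.norm
    rw [hgf x hx, hgf y hyn] at hξ
    have hy : Good f x y := by
      have := hy'.swap hg (g := f) hfg (hf.norm x hx)
      rwa [hgf x hx, hgf y hyn] at this
    show ξ (e.symm w) = η w
    rw [← hΦ y hy ξ hξ η hη (e.symm w), ← he, e.apply_symm_apply]
  · intro v
    exact e.symm_apply_apply v
  · intro w
    exact e.apply_symm_apply w

lemma Rel.pos {v : X} (hv : ∀ ζ ∈ J x, 0 < ζ v) : ∀ η ∈ J (f x), 0 < η (Φ v) := by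
  intro η hη
  obtain ⟨g, Ψ, hg, hgf, hΨ, h1, h2⟩ := hΦ.inv hf hx
  obtain ⟨ζ, hζ, hle⟩ := hΨ.exists_ge hg (hf.norm x hx) (Φ (-v)) hη
  rw [h1, map_neg, map_neg, map_neg] at hle
  rw [hgf x hx] at hζ
  have := hv ζ hζ
  linarith

lemma Rel.norm_eq {v : X} (hv : ∀ ζ ∈ J x, 0 < ζ v) : ‖Φ v‖ = ‖v‖ := by
  obtain ⟨g, Ψ, hg, hgf, hΨ, h1, h2⟩ := hΦ.inv hf hx
  apply le_antisymm
  · have := hΨ.norm_le hg (hf.norm x hx) (hΦ.pos hf hx hv)
    rwa [h1] at this
  · exact hΦ.norm_le hf hx hv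

end

/-- strictly convex case: a bad point forces linearity -/
theorem strict_final [FiniteDimensional ℝ X] [FiniteDimensional ℝ Y] {f : X → Y} (hf : SphIso f)
    (hX : ∀ x y : X, ‖x‖ = 1 → ‖y‖ = 1 → ‖x + y‖ = 2 → x = y)
    (hY : ∀ x y : Y, ‖x‖ = 1 → ‖y‖ = 1 → ‖x + y‖ = 2 → x = y)
    {x : X} (hx : ‖x‖ = 1) {Φ : X →L[ℝ] Y} (hΦ : Rel f x Φ) : ∀ y, ‖y‖ = 1 → f y = Φ y := by
  -- oddness
  have hodd : ∀ y, ‖y‖ = 1 → f (-y) = -f y := by
    intro y hy
    have hny : ‖-y‖ = 1 := by rw [norm_neg, hy]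
    have h1 : ‖f y - f (-y)‖ = 2 := by
      rw [hf.dist _ _ hy hny, sub_neg_eq_add, ← two_smul ℝ, norm_smul, hy, Real.norm_two, mul_one]
    have h2 := hY (f y) (-f (-y)) (hf.norm _ hy) (by rw [norm_neg]; exact hf.norm _ hny)
      (by rw [← sub_eq_add_neg]; exact h1)
    rw [h2, neg_neg]
  -- good points
  have hgood : ∀ y, Good f x y → f x - f y = Φ (x - y) := by
    intro y hy
    have hpos : ∀ ζ ∈ J x, 0 < ζ (x - y) := by
      intro ζ hζ
      have h1 : ζ (x + y) ≤ ‖x + y‖ := J_le hζ _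
      have h2 : ζ x = 1 := by rw [hζ.2, hx]
      rw [map_add, h2] at h1
      rw [map_sub, h2]
      linarith [hy.lt]
    have hn := hΦ.norm_eq hf hx hpos
    obtain ⟨ξ, hξ⟩ := J_nonempty (x - y)
    obtain ⟨η, hη⟩ := J_nonempty (f x - f y)
    have h1 : η (Φ (x - y)) = ‖x - y‖ := by rw [hΦ y hy ξ hξ η hη, hξ.2]
    have h2 : η (f x - f y) = ‖x - y‖ := by rw [hη.2, hf.dist _ _ hx hy.norm]
    have hd : 0 < ‖x - y‖ := norm_pos_iff.2 (norm_sub_ne_zero_of_lt hx hy.lt)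
    set r := ‖x - y‖ with hr
    have hn1 : ‖r⁻¹ • (f x - f y)‖ = 1 := by
      rw [norm_smul, norm_inv, Real.norm_of_nonneg hd.le, hf.dist _ _ hx hy.norm, ← hr,
        inv_mul_cancel₀ hd.ne']
    have hn2 : ‖r⁻¹ • Φ (x - y)‖ = 1 := by
      rw [norm_smul, norm_inv, Real.norm_of_nonneg hd.le, hn, inv_mul_cancel₀ hd.ne']
    have h3 : ‖r⁻¹ • (f x - f y) + r⁻¹ • Φ (x - y)‖ = 2 := by
      apply le_antisymm
      · refine (norm_add_le _ _).trans ?_
        rw [hn1, hn2]; norm_num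
      · have h4 := J_le hη (r⁻¹ • (f x - f y) + r⁻¹ • Φ (x - y))
        rw [map_add, map_smul, map_smul, h1, h2, smul_eq_mul, inv_mul_cancel₀ hd.ne'] at h4
        linarith
    have h4 := hY _ _ hn1 hn2 h3
    exact smul_right_injective Y (inv_ne_zero hd.ne') h4
  -- all points
  have hall : ∀ y, ‖y‖ = 1 → f x - f y = Φ (x - y) := by
    intro y hy
    by_cases hxy : ‖x + y‖ < 2
    · have h0 : ∀ ε > 0, ‖(f x - f y) - Φ (x - y)‖ ≤ ε := by
        intro ε hε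
        have hC : 0 < 1 + ‖Φ‖ := by positivity
        obtain ⟨z, hz, hzy⟩ := good_dense (fun _ => f) (fun _ => hf) hx hy hxy
          (ε := ε / (1 + ‖Φ‖)) (by positivity)
        have h1 := hgood z (hz 0)
        have h2 : (f x - f y) - Φ (x - y) = (f z - f y) - Φ (z - y) := by
          have e1 : f x - f y = (f x - f z) + (f z - f y) := by abel
          have e2 : x - y = (x - z) + (z - y) := by abel
          rw [e1, h1, e2, map_add]; abel
        rw [h2]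
        calc ‖(f z - f y) - Φ (z - y)‖ ≤ ‖f z - f y‖ + ‖Φ (z - y)‖ := norm_sub_le _ _
          _ ≤ ‖z - y‖ + ‖Φ‖ * ‖z - y‖ := by
              rw [hf.dist _ _ (hz 0).norm hy]
              gcongr
              exact Φ.le_opNorm _
          _ = (1 + ‖Φ‖) * ‖z - y‖ := by ring
          _ ≤ (1 + ‖Φ‖) * (ε / (1 + ‖Φ‖)) := by gcongr
          _ = ε := by field_simp
      have h1 : ‖(f x - f y) - Φ (x - y)‖ = 0 :=
        le_antisymm (le_of_forall_pos_le_add fun ε hε => by rw [zero_add]; exact h0 ε hε)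
          (norm_nonneg _)
      exact sub_eq_zero.1 (norm_eq_zero.1 h1)
    · have h1 : ‖x + y‖ = 2 := by
        apply le_antisymm
        · calc ‖x + y‖ ≤ ‖x‖ + ‖y‖ := norm_add_le _ _
            _ = 2 := by rw [hx, hy]; norm_num
        · exact not_lt.1 hxy
      have h2 := hX x y hx hy h1
      rw [← h2, sub_self, sub_self, map_zero]
  intro y hy
  have h1 := hall y hy
  have h2 := hall (-y) (by rw [norm_neg, hy])
  rw [hodd y hy, map_sub, map_neg] at h2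
  rw [map_sub] at h1
  have h3 : (2 : ℝ) • f y = (2 : ℝ) • Φ y := by
    have e1 : (2 : ℝ) • f y = (f x - -f y) - (f x - f y) := by rw [two_smul]; abel
    rw [e1, h1, h2]; rw [two_smul]; abel
  exact smul_right_injective Y (two_ne_zero) h3

end Vale.P084
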