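import Mathlib
import Vale.Agent.P084.Phi
import Vale.Agent.P084.Part2

/-!
# P084: assembly lemmas
-/

namespace Vale.P084

open Metric Filter Topology

variable {X Y : Type*} [NormedAddCommGroup X] [NormedSpace ℝ X]
  [NormedAddCommGroup Y] [NormedSpace ℝ Y]

lemma norm_inv_smul_self {x : X} (hx : x ≠ 0) : ‖‖x‖⁻¹ • x‖ = 1 := by
  rw [norm_smul, norm_inv, norm_norm, inv_mul_cancel₀ (norm_ne_zero_iff.2 hx)]

/-- the target is finite-dimensional -/
lemma finDim_target [FiniteDimensional ℝ X] (f : sphere (0 : X) 1 → sphere (0 : Y) 1)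
    (hf : Isometry f) (hs : Function.Surjective f) : FiniteDimensional ℝ Y := by
  have : ProperSpace X := FiniteDimensional.proper ℝ X
  have hc : IsCompact (sphere (0 : Y) 1) := by
    have h1 : CompactSpace (sphere (0 : X) 1) := isCompact_iff_compactSpace.1 (isCompact_sphere _ _)
    have h2 : IsCompact (Set.range f) := isCompact_range hf.continuous
    rw [hs.range_eq] at h2
    have h3 := h2.image continuous_subtype_val
    rwa [Set.image_univ, Subtype.range_coe] at h3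
  have hb : IsCompact (closedBall (0 : Y) 1) := by
    have h1 : IsCompact ((fun p : ℝ × Y => p.1 • p.2) '' (Set.Icc (0 : ℝ) 1 ×ˢ sphere (0 : Y) 1)) :=
      (isCompact_Icc.prod hc).image (continuous_fst.smul continuous_snd)
    by_cases hY : ∃ y : Y, y ≠ 0
    · obtain ⟨y₀, hy₀⟩ := hY
      convert h1 using 1
      ext y
      simp only [mem_closedBall, dist_zero_right, Set.mem_image, Set.mem_prod, Set.mem_Icc,
        mem_sphere_iff_norm, sub_zero, Prod.exists]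
      constructor
      · intro hy
        by_cases h0 : y = 0
        · exact ⟨0, ‖y₀‖⁻¹ • y₀, ⟨⟨le_rfl, zero_le_one⟩, norm_inv_smul_self hy₀⟩, by
            rw [zero_smul, h0]⟩
        · refine ⟨‖y‖, ‖y‖⁻¹ • y, ⟨⟨norm_nonneg _, hy⟩, norm_inv_smul_self h0⟩, ?_⟩
          rw [smul_smul, mul_inv_cancel₀ (norm_ne_zero_iff.2 h0), one_smul]
      · rintro ⟨t, z, ⟨⟨ht0, ht1⟩, hz⟩, rfl⟩
        rw [norm_smul, hz, mul_one, Real.norm_of_nonneg ht0]
        exact ht1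
    · push Not at hY
      have : Subsingleton Y := ⟨fun a b => by rw [hY a, hY b]⟩
      exact Set.Finite.isCompact (Set.toFinite _)
  exact FiniteDimensional.of_isCompact_closedBall ℝ one_pos hb

/-- from a map of spheres to a map of spaces -/
lemma exists_sphIso [FiniteDimensional ℝ X] [FiniteDimensional ℝ Y]
    (f : sphere (0 : X) 1 → sphere (0 : Y) 1) (hf : Isometry f) (hs : Function.Surjective f) :
    ∃ F : X → Y, SphIso F ∧ ∀ x : sphere (0 : X) 1, F x = f x := by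
  classical
  have hval : ∀ x : X, ‖x‖ = 1 → x ∈ sphere (0 : X) 1 := fun x hx =>
    mem_sphere_zero_iff_norm.2 hx
  let F : X → Y := fun x => if hx : ‖x‖ = 1 then (f ⟨x, hval x hx⟩ : Y) else 0
  have hF : ∀ x (hx : ‖x‖ = 1), F x = f ⟨x, hval x hx⟩ := fun x hx => by simp [F, hx]
  have hn : ∀ x, ‖x‖ = 1 → ‖F x‖ = 1 := by
    intro x hx
    rw [hF x hx]
    exact mem_sphere_zero_iff_norm.1 (f _).2
  have hd : ∀ x y, ‖x‖ = 1 → ‖y‖ = 1 → ‖F x - F y‖ = ‖x - y‖ := by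
    intro x y hx hy
    rw [hF x hx, hF y hy]
    have := hf.dist_eq ⟨x, hval x hx⟩ ⟨y, hval y hy⟩
    rwa [Subtype.dist_eq, Subtype.dist_eq, dist_eq_norm, dist_eq_norm] at this
  have hsu : ∀ y, ‖y‖ = 1 → ∃ x, ‖x‖ = 1 ∧ F x = y := by
    intro y hy
    obtain ⟨x, hx⟩ := hs ⟨y, mem_sphere_zero_iff_norm.2 hy⟩
    refine ⟨x, mem_sphere_zero_iff_norm.1 x.2, ?_⟩
    rw [hF x (mem_sphere_zero_iff_norm.1 x.2)]
    exact congrArg Subtype.val hx
  refine ⟨F, ⟨hn, hd, hsu, fun x y hx hy => star_lemma hn hd hsu x y hx hy⟩, fun x => ?_⟩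
  rw [hF x (mem_sphere_zero_iff_norm.1 x.2)]

/-- the homogeneous extension of an odd sphere isometry -/
lemma SphIso.exists_ext {f : X → Y} (hf : SphIso f) (hodd : ∀ x, ‖x‖ = 1 → f (-x) = -f x) :
    ∃ φ : X → Y, Ext φ ∧ ∀ x, ‖x‖ = 1 → φ x = f x := by
  classical
  let φ : X → Y := fun x => ‖x‖ • f (‖x‖⁻¹ • x)
  have hφ0 : φ 0 = 0 := by simp [φ]
  have hφnorm : ∀ x, ‖φ x‖ = ‖x‖ := by
    intro x
    by_cases hx : x = 0
    · subst hx; rw [hφ0, norm_zero, norm_zero]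
    · show ‖‖x‖ • f (‖x‖⁻¹ • x)‖ = ‖x‖
      rw [norm_smul, hf.norm _ (norm_inv_smul_self hx), norm_norm, mul_one]
  have hφsph : ∀ x, ‖x‖ = 1 → φ x = f x := by
    intro x hx
    show ‖x‖ • f (‖x‖⁻¹ • x) = f x
    rw [hx, inv_one, one_smul, one_smul]
  have hpos : ∀ (t : ℝ) x, 0 < t → φ (t • x) = t • φ x := by
    intro t x ht
    by_cases hx : x = 0
    · subst hx; rw [smul_zero, hφ0, smul_zero]
    show ‖t • x‖ • f (‖t • x‖⁻¹ • (t • x)) = t • (‖x‖ • f (‖x‖⁻¹ • x))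
    rw [norm_smul, Real.norm_of_nonneg ht.le, smul_smul, smul_smul]
    congr 3
    have := norm_ne_zero_iff.2 hx
    field_simp
  have hneg : ∀ x, φ (-x) = -φ x := by
    intro x
    by_cases hx : x = 0
    · subst hx; rw [neg_zero, hφ0, neg_zero]
    show ‖-x‖ • f (‖-x‖⁻¹ • -x) = -(‖x‖ • f (‖x‖⁻¹ • x))
    rw [norm_neg, smul_neg, hodd _ (norm_inv_smul_self hx), smul_neg]
  refine ⟨φ, ⟨hφnorm, ?_, ?_, ?_⟩, hφsph⟩
  · intro t x
    rcases lt_trichotomy t 0 with ht | ht | ht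
    · have h1 := hpos (-t) (-x) (by linarith)
      rw [neg_smul_neg, hneg, neg_smul_neg] at h1
      exact h1
    · subst ht; rw [zero_smul, zero_smul, hφ0]
    · exact hpos t x ht
  · intro x y hxy
    by_cases hx : x = 0
    · subst hx
      rw [norm_zero] at hxy
      have hy : y = 0 := norm_eq_zero.1 hxy.symm
      subst hy
      rw [hφ0, sub_self, sub_self, norm_zero, norm_zero]
    have hy : y ≠ 0 := by
      rintro rfl
      rw [norm_zero] at hxy
      exact hx (norm_eq_zero.1 hxy)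
    show ‖‖x‖ • f (‖x‖⁻¹ • x) - ‖y‖ • f (‖y‖⁻¹ • y)‖ = ‖x - y‖
    have h1 : ‖‖x‖⁻¹ • y‖ = 1 := by rw [hxy]; exact norm_inv_smul_self hy
    rw [← hxy, ← smul_sub, norm_smul, hf.dist _ _ (norm_inv_smul_self hx) h1, ← smul_sub,
      norm_smul, norm_inv, norm_norm, ← mul_assoc, mul_inv_cancel₀ (norm_ne_zero_iff.2 hx),
      one_mul]
  · intro y
    by_cases hy : y = 0
    · exact ⟨0, by rw [hφ0, hy]⟩
    obtain ⟨x, hx, hfx⟩ := hf.surj _ (norm_inv_smul_self hy)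
    refine ⟨‖y‖ • x, ?_⟩
    rw [hpos _ _ (norm_pos_iff.2 hy), hφsph x hx, hfx, smul_smul,
      mul_inv_cancel₀ (norm_ne_zero_iff.2 hy), one_smul]

/-- a sphere isometry which is the restriction of a linear map extends to a linear isometry -/
lemma SphIso.exists_equiv {f : X → Y} (hf : SphIso f) {L : X →L[ℝ] Y}
    (hL : ∀ x, ‖x‖ = 1 → f x = L x) : ∃ T : X ≃ₗᵢ[ℝ] Y, ∀ x, ‖x‖ = 1 → T x = f x := by
  have hnorm : ∀ x, ‖L x‖ = ‖x‖ := by
    intro x
    by_cases hx : x = 0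
    · subst hx; rw [map_zero, norm_zero, norm_zero]
    have h1 : ‖L (‖x‖⁻¹ • x)‖ = 1 := by
      rw [← hL _ (norm_inv_smul_self hx)]; exact hf.norm _ (norm_inv_smul_self hx)
    rw [map_smul, norm_smul, norm_inv, norm_norm, inv_mul_eq_iff_eq_mul₀
      (norm_ne_zero_iff.2 hx), mul_one] at h1
    exact h1
  let T₀ : X →ₗᵢ[ℝ] Y := ⟨L, hnorm⟩
  have hsurj : Function.Surjective T₀ := by
    intro y
    by_cases hy : y = 0
    · exact ⟨0, by rw [map_zero, hy]⟩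
    obtain ⟨x, hx, hfx⟩ := hf.surj _ (norm_inv_smul_self hy)
    refine ⟨‖y‖ • x, ?_⟩
    have h1 : T₀ x = ‖y‖⁻¹ • y := by rw [← hfx, hL x hx]; rfl
    rw [map_smul, h1, smul_smul, mul_inv_cancel₀ (norm_ne_zero_iff.2 hy), one_smul]
  refine ⟨LinearIsometryEquiv.ofSurjective T₀ hsurj, fun x hx => ?_⟩
  rw [hL x hx]
  rfl

/-- Part II for odd sphere isometries -/
lemma SphIso.linear_of_C11 [FiniteDimensional ℝ X] [FiniteDimensional ℝ Y] {f : X → Y}
    (hf : SphIso f) (hodd : ∀ x, ‖x‖ = 1 → f (-x) = -f x) (hX : C11 X) (hY : C11 Y)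
    (hdim : 3 ≤ Module.finrank ℝ X) : ∃ L : X →L[ℝ] Y, ∀ x, ‖x‖ = 1 → f x = L x := by
  obtain ⟨φ, e, hφ⟩ := hf.exists_ext hodd
  obtain ⟨L, hL⟩ := e.linear_of_C11 hX hY hdim
  exact ⟨L, fun x hx => by rw [← hφ x hx, hL]⟩

/-- Strictly convex case -/
theorem strict_main [FiniteDimensional ℝ X] [FiniteDimensional ℝ Y] {f : X → Y} (hf : SphIso f)
    (hX : ∀ x y : X, ‖x‖ = 1 → ‖y‖ = 1 → ‖x + y‖ = 2 → x = y)
    (hdim : 3 ≤ Module.finrank ℝ X) : ∃ T : X ≃ₗᵢ[ℝ] Y, ∀ x, ‖x‖ = 1 → T x = f x := by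
  have hY : ∀ x y : Y, ‖x‖ = 1 → ‖y‖ = 1 → ‖x + y‖ = 2 → x = y := by
    intro x' y' hx' hy' h
    obtain ⟨x, hx, rfl⟩ := hf.surj x' hx'
    obtain ⟨y, hy, rfl⟩ := hf.surj y' hy'
    rw [hX x y hx hy ((hf.star x y hx hy).1 h)]
  by_cases hCX : C11 X
  · by_cases hCY : C11 Y
    · have hodd : ∀ x, ‖x‖ = 1 → f (-x) = -f x := by
        intro x hx
        have hnx : ‖-x‖ = 1 := by rw [norm_neg, hx]
        have h1 : ‖f x - f (-x)‖ = 2 := by
          rw [hf.dist _ _ hx hnx, sub_neg_eq_add, ← two_smul ℝ, norm_smul, hx, Real.norm_two,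
            mul_one]
        have h2 := hY (f x) (-f (-x)) (hf.norm _ hx) (by rw [norm_neg]; exact hf.norm _ hnx)
          (by rw [← sub_eq_add_neg]; exact h1)
        rw [h2, neg_neg]
      obtain ⟨L, hL⟩ := hf.linear_of_C11 hodd hCX hCY hdim
      exact hf.exists_equiv hL
    · obtain ⟨g, hg, hgf, hfg⟩ := hf.inv
      obtain ⟨y, V, hy, hV⟩ := exists_bad hg hCY
      obtain ⟨Φ, hΦ⟩ := exists_rel hg hy hV
      have h1 := strict_final hg hY hX hy hΦ
      obtain ⟨T, hT⟩ := hg.exists_equiv h1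
      refine ⟨T.symm, fun x hx => ?_⟩
      rw [LinearIsometryEquiv.symm_apply_eq, hT _ (hf.norm x hx), hgf x hx]
  · obtain ⟨x, V, hx, hV⟩ := exists_bad hf hCX
    obtain ⟨Φ, hΦ⟩ := exists_rel hf hx hV
    exact hf.exists_equiv (strict_final hf hX hY hx hΦ)

/-- strictly convex case, for maps between spheres -/
theorem strict_tingley [FiniteDimensional ℝ X] [StrictConvexSpace ℝ X]
    (hdim : 3 ≤ Module.finrank ℝ X) (f : sphere (0 : X) 1 → sphere (0 : Y) 1) (hf : Isometry f)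
    (hs : Function.Surjective f) : ∃ T : X ≃ₗᵢ[ℝ] Y, ∀ x : sphere (0 : X) 1, T x = f x := by
  have := finDim_target f hf hs
  obtain ⟨F, hF, hFf⟩ := exists_sphIso f hf hs
  have hX : ∀ x y : X, ‖x‖ = 1 → ‖y‖ = 1 → ‖x + y‖ = 2 → x = y := by
    intro x y hx hy hxy
    by_contra hne
    have h1 := norm_combo_lt_of_ne (r := 1) (x := x) (y := y) (a := 1 / 2) (b := 1 / 2)
      hx.le hy.le hne (by norm_num) (by norm_num) (by norm_num)
    have h2 : ‖(1 / 2 : ℝ) • x + (1 / 2 : ℝ) • y‖ = 1 := by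
      rw [← smul_add, norm_smul, hxy]; norm_num
    linarith
  obtain ⟨T, hT⟩ := strict_main hF hX hdim
  exact ⟨T, fun x => by rw [hT x (mem_sphere_zero_iff_norm.1 x.2), hFf]⟩

end Vale.P084
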