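import Vale.Agent.P084.Regular

/-!
# P084: first and second order relations for a sphere isometry
-/

namespace Vale.P084

open Metric Filter Topology

variable {X Y : Type*} [NormedAddCommGroup X] [NormedSpace ℝ X] [FiniteDimensional ℝ X]
  [NormedAddCommGroup Y] [NormedSpace ℝ Y] [FiniteDimensional ℝ Y]

/-- data: two smooth rotund spaces and the homogeneous extension of a sphere isometry -/
structure Dat (φ : X → Y) : Prop where
  hX : SmoothRotund X
  hY : SmoothRotund Y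
  e : Ext φ

namespace Dat

variable {φ : X → Y}

/-- first derivative -/
noncomputable def F (φ : X → Y) (x : X) : X →L[ℝ] Y := fderiv ℝ φ x

/-- second derivative -/
noncomputable def G (φ : X → Y) (x : X) : X →L[ℝ] X →L[ℝ] Y := fderiv ℝ (F φ) x

variable (d : Dat φ)
include d

lemma cd {x : X} (hx : x ≠ 0) : ContDiffAt ℝ 3 φ x := d.e.contDiffAt d.hX d.hY hx

lemma hF {x : X} (hx : x ≠ 0) : HasFDerivAt φ (F φ x) x :=
  ((d.cd hx).differentiableAt (by norm_num)).hasFDerivAt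

lemma cdF {x : X} (hx : x ≠ 0) : ContDiffAt ℝ 2 (F φ) x := (d.cd hx).fderiv_right (by norm_num)

lemma hG {x : X} (hx : x ≠ 0) : HasFDerivAt (F φ) (G φ x) x :=
  ((d.cdF hx).differentiableAt (by norm_num)).hasFDerivAt

lemma cdG {x : X} (hx : x ≠ 0) : ContDiffAt ℝ 1 (G φ) x := (d.cdF hx).fderiv_right (by norm_num)

lemma G_symm {x : X} (hx : x ≠ 0) (u v : X) : G φ x u v = G φ x v u := by
  have h1 : ∀ᶠ y in 𝓝 x, HasFDerivAt φ (F φ y) y := by
    filter_upwards [isOpen_compl_singleton.mem_nhds hx] with y hy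
    exact d.hF hy
  exact second_derivative_symmetric_of_eventually h1 (d.hG hx) u v

lemma F_self {x : X} (hx : x ≠ 0) : F φ x x = φ x := by
  have h1 : HasDerivAt (fun t : ℝ => t • x) x 1 := by
    simpa using (hasDerivAt_id (1 : ℝ)).smul_const x
  have h2 : HasDerivAt (fun t : ℝ => φ (t • x)) (F φ x x) 1 :=
    (d.hF hx).comp_hasDerivAt_of_eq 1 h1 (by simp)
  have h3 : HasDerivAt (fun t : ℝ => φ (t • x)) (φ x) 1 := by
    have h4 : HasDerivAt (fun t : ℝ => t • φ x) (φ x) 1 := by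
      simpa using (hasDerivAt_id (1 : ℝ)).smul_const (φ x)
    exact h4.congr_of_eventuallyEq (Eventually.of_forall fun t => d.e.smul t x)
  exact h2.unique h3

lemma F_smul {x : X} (hx : x ≠ 0) {t : ℝ} (ht : t ≠ 0) : F φ (t • x) = F φ x := by
  have h1 : HasFDerivAt (fun z : X => t • z) (t • ContinuousLinearMap.id ℝ X) x :=
    (hasFDerivAt_id x).const_smul t
  have h2 : HasFDerivAt (fun z : X => φ (t • z)) ((F φ (t • x)).comp
      (t • ContinuousLinearMap.id ℝ X)) x :=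
    (d.hF (x := t • x) (smul_ne_zero ht hx)).comp x h1
  have h3 : HasFDerivAt (fun z : X => φ (t • z)) (t • F φ x) x :=
    ((d.hF hx).const_smul t).congr_of_eventuallyEq (Eventually.of_forall fun z => d.e.smul t z)
  have h5 := h2.unique h3
  ext v
  have h6 := congrArg (fun L : X →L[ℝ] Y => L v) h5
  have h7 : t • F φ (t • x) v = t • F φ x v := by simpa using h6
  exact smul_right_injective Y ht h7

lemma G_self {x : X} (hx : x ≠ 0) (v : X) : G φ x x v = 0 := by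
  have h1 : HasDerivAt (fun t : ℝ => t • x) x 1 := by
    simpa using (hasDerivAt_id (1 : ℝ)).smul_const x
  have h2 : HasDerivAt (fun t : ℝ => F φ (t • x)) (G φ x x) 1 :=
    (d.hG hx).comp_hasDerivAt_of_eq 1 h1 (by simp)
  have h3 : HasDerivAt (fun t : ℝ => F φ (t • x)) 0 1 := by
    refine (hasDerivAt_const (1 : ℝ) (F φ x)).congr_of_eventuallyEq ?_
    filter_upwards [Ioi_mem_nhds (show (0 : ℝ) < 1 by norm_num)] with t ht
    exact d.F_smul hx (ne_of_gt ht)
  have := h2.unique h3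
  rw [this]; rfl

lemma G_self' {x : X} (hx : x ≠ 0) (v : X) : G φ x v x = 0 := by
  rw [d.G_symm hx, d.G_self hx]

/-- (D1) -/
lemma nm_F {x : X} (hx : x ≠ 0) (v : X) : nm (φ x) (F φ x v) = nm x v := by
  have h1 : HasFDerivAt (fun z => ‖φ z‖) ((nm (φ x)).comp (F φ x)) x :=
    (d.hY.hasFDerivAt_norm (d.e.ne_zero hx)).comp x (d.hF hx)
  have h2 : HasFDerivAt (fun z => ‖φ z‖) (nm x) x :=
    (d.hX.hasFDerivAt_norm hx).congr_of_eventuallyEq (Eventually.of_forall fun z => d.e.norm z)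
  have := congrArg (fun L : X →L[ℝ] ℝ => L v) (h1.unique h2)
  simpa using this

omit d in
lemma norm_deriv_eq {V W : Type*} [NormedAddCommGroup V] [NormedSpace ℝ V]
    [NormedAddCommGroup W] [NormedSpace ℝ W] {a : ℝ → V} {b : ℝ → W} {a' : V} {b' : W}
    (ha : HasDerivAt a a' 0) (hb : HasDerivAt b b' 0) (ha0 : a 0 = 0) (hb0 : b 0 = 0)
    (hab : ∀ t, ‖a t‖ = ‖b t‖) : ‖a'‖ = ‖b'‖ := by
  have h1 : Tendsto (fun t : ℝ => ‖t⁻¹ • a t‖) (𝓝[>] 0) (𝓝 ‖a'‖) := by
    have := ha.tendsto_slope_zero_right.norm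
    simpa [ha0] using this
  have h2 : Tendsto (fun t : ℝ => ‖t⁻¹ • b t‖) (𝓝[>] 0) (𝓝 ‖b'‖) := by
    have := hb.tendsto_slope_zero_right.norm
    simpa [hb0] using this
  refine tendsto_nhds_unique h1 (h2.congr fun t => ?_)
  rw [norm_smul, norm_smul, hab]

/-- (D2') -/
lemma norm_F {x : X} (hx : x ≠ 0) (v : X) :
    ‖‖x‖ • F φ x v - nm x v • φ x‖ = ‖‖x‖ • v - nm x v • x‖ := by
  have hline : HasDerivAt (fun t : ℝ => x + t • v) v 0 := by
    simpa using ((hasDerivAt_id (0 : ℝ)).smul_const v).const_add x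
  have hn : HasDerivAt (fun t : ℝ => ‖x + t • v‖) (nm x v) 0 :=
    (d.hX.hasFDerivAt_norm hx).comp_hasDerivAt_of_eq 0 hline (by simp)
  have hφ : HasDerivAt (fun t : ℝ => φ (x + t • v)) (F φ x v) 0 :=
    (d.hF hx).comp_hasDerivAt_of_eq 0 hline (by simp)
  have ha : HasDerivAt (fun t : ℝ => ‖x + t • v‖ • φ x - ‖x‖ • φ (x + t • v))
      (nm x v • φ x - ‖x‖ • F φ x v) 0 := (hn.smul_const (φ x)).sub (hφ.const_smul ‖x‖)
  have hb : HasDerivAt (fun t : ℝ => ‖x + t • v‖ • x - ‖x‖ • (x + t • v))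
      (nm x v • x - ‖x‖ • v) 0 := (hn.smul_const x).sub (hline.const_smul ‖x‖)
  have := norm_deriv_eq ha hb (by simp) (by simp) (fun t => d.e.ident x (x + t • v))
  rw [← norm_neg, neg_sub, this, ← norm_neg, neg_sub]

lemma norm_F_tan {x : X} (hx : x ≠ 0) {v : X} (hv : nm x v = 0) : ‖F φ x v‖ = ‖v‖ := by
  have h1 := d.norm_F hx v
  rw [hv, zero_smul, zero_smul, sub_zero, sub_zero, norm_smul, norm_smul] at h1
  have hx' : ‖‖x‖‖ ≠ 0 := by rw [norm_norm]; exact norm_ne_zero_iff.2 hx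
  exact mul_left_cancel₀ hx' h1

/-- (R1+) -/
lemma first_add {x y : X} (hx : x ≠ 0) (hxy : ‖y‖ • x + ‖x‖ • y ≠ 0) (u : X) :
    nm (‖y‖ • φ x + ‖x‖ • φ y) (‖y‖ • F φ x u + nm x u • φ y) =
      nm (‖y‖ • x + ‖x‖ • y) (‖y‖ • u + nm x u • y) := by
  have hP : ‖y‖ • φ x + ‖x‖ • φ y ≠ 0 := by
    intro h0
    have h1 := d.e.ident_add x y
    rw [h0, norm_zero] at h1
    exact hxy (norm_eq_zero.1 h1.symm)
  have hn := d.hX.hasFDerivAt_norm hx
  have h1 : HasFDerivAt (fun z : X => ‖y‖ • φ z + ‖z‖ • φ y)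
      (‖y‖ • F φ x + (nm x).smulRight (φ y)) x :=
    ((d.hF hx).const_smul ‖y‖).add (hn.smul_const (φ y))
  have h2 : HasFDerivAt (fun z : X => ‖y‖ • z + ‖z‖ • y)
      (‖y‖ • ContinuousLinearMap.id ℝ X + (nm x).smulRight y) x :=
    ((hasFDerivAt_id x).const_smul ‖y‖).add (hn.smul_const y)
  have h3 := (d.hY.hasFDerivAt_norm hP).comp x h1
  have h4 := (d.hX.hasFDerivAt_norm hxy).comp x h2
  have h5 := h3.unique (h4.congr_of_eventuallyEq (Eventually.of_forall fun z =>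
    d.e.ident_add z y))
  have := congrArg (fun L : X →L[ℝ] ℝ => L u) h5
  simpa using this

/-- (D3') the second fundamental forms agree -/
lemma hs_F {x : X} (hx : x ≠ 0) (w u : X) :
    hs (φ x) (F φ x w) (F φ x u) = hs x w u := by
  have hφx := d.e.ne_zero hx
  have hnx : 0 < ‖x‖ := norm_pos_iff.2 hx
  have hline : HasDerivAt (fun t : ℝ => x + t • w) w 0 := by
    simpa using ((hasDerivAt_id (0 : ℝ)).smul_const w).const_add x
  have hn : HasDerivAt (fun t : ℝ => ‖x + t • w‖) (nm x w) 0 :=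
    (d.hX.hasFDerivAt_norm hx).comp_hasDerivAt_of_eq 0 hline (by simp)
  have hφ : HasDerivAt (fun t : ℝ => φ (x + t • w)) (F φ x w) 0 :=
    (d.hF hx).comp_hasDerivAt_of_eq 0 hline (by simp)
  -- the two sides as functions of `t`
  have hPd : HasDerivAt (fun t : ℝ => ‖x + t • w‖ • φ x + ‖x‖ • φ (x + t • w))
      (nm x w • φ x + ‖x‖ • F φ x w) 0 := (hn.smul_const (φ x)).add (hφ.const_smul ‖x‖)
  have hQd : HasDerivAt (fun t : ℝ => ‖x + t • w‖ • x + ‖x‖ • (x + t • w))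
      (nm x w • x + ‖x‖ • w) 0 := (hn.smul_const x).add (hline.const_smul ‖x‖)
  have hPd' : HasDerivAt (fun t : ℝ => ‖x + t • w‖ • F φ x u + nm x u • φ (x + t • w))
      (nm x w • F φ x u + nm x u • F φ x w) 0 :=
    (hn.smul_const _).add (hφ.const_smul (nm x u))
  have hQd' : HasDerivAt (fun t : ℝ => ‖x + t • w‖ • u + nm x u • (x + t • w))
      (nm x w • u + nm x u • w) 0 := (hn.smul_const _).add (hline.const_smul (nm x u))
  have h2x : (2 * ‖x‖) • x ≠ 0 := smul_ne_zero (by positivity) hx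
  have h2φ : (2 * ‖x‖) • φ x ≠ 0 := smul_ne_zero (by positivity) hφx
  have hP0 : (2 * ‖x‖) • φ x = ‖x + (0 : ℝ) • w‖ • φ x + ‖x‖ • φ (x + (0 : ℝ) • w) := by
    rw [zero_smul, add_zero]; module
  have hQ0 : (2 * ‖x‖) • x = ‖x + (0 : ℝ) • w‖ • x + ‖x‖ • (x + (0 : ℝ) • w) := by
    rw [zero_smul, add_zero]; module
  have hPn := (d.hY.hasFDerivAt_nm h2φ).comp_hasDerivAt_of_eq 0 hPd hP0
  have hQn := (d.hX.hasFDerivAt_nm h2x).comp_hasDerivAt_of_eq 0 hQd hQ0
  have hL := hPn.clm_apply hPd'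
  have hR := hQn.clm_apply hQd'
  have hev : (fun t : ℝ => nm (‖x + t • w‖ • φ x + ‖x‖ • φ (x + t • w))
      (‖x + t • w‖ • F φ x u + nm x u • φ (x + t • w))) =ᶠ[𝓝 0]
      (fun t : ℝ => nm (‖x + t • w‖ • x + ‖x‖ • (x + t • w))
      (‖x + t • w‖ • u + nm x u • (x + t • w))) := by
    have h1 : ∀ᶠ t in 𝓝 (0 : ℝ), ‖x + t • w‖ • x + ‖x‖ • (x + t • w) ≠ 0 := by
      apply hQd.continuousAt.eventually_ne
      rw [← hQ0]; exact h2x
    filter_upwards [h1] with t ht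
    exact d.first_add hx ht u
  have h5 := (hL.congr_of_eventuallyEq hev.symm).unique hR
  simp only [zero_smul, add_zero, Function.comp_apply] at h5
  rw [d.hY.hs_smul hφx (by positivity : 0 < 2 * ‖x‖),
    d.hX.hs_smul hx (by positivity : 0 < 2 * ‖x‖)] at h5
  have e1 : ‖x‖ • φ x + ‖x‖ • φ x = (2 * ‖x‖) • φ x := by module
  have e2 : ‖x‖ • x + ‖x‖ • x = (2 * ‖x‖) • x := by module
  rw [e1, e2, d.hY.nm_smul hφx (by positivity : 0 < 2 * ‖x‖),
    d.hX.nm_smul hx (by positivity : 0 < 2 * ‖x‖)] at h5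
  simp only [map_add, map_smul, add_apply, FunLike.coe_smul, Pi.smul_apply,
    smul_eq_mul, d.hY.hs_self_left hφx, d.hX.hs_self_left hx, d.hY.hs_self_right hφx,
    d.hX.hs_self_right hx, d.nm_F hx, mul_zero, add_zero, zero_add] at h5
  have h6 : ‖x‖ ≠ 0 := hnx.ne'
  field_simp at h5
  have h7 : ‖x‖ * hs (φ x) (F φ x w) (F φ x u) = ‖x‖ * hs x w u := by linarith
  exact mul_left_cancel₀ h6 h7

/-- (D3) the second derivative is tangential -/
lemma nm_G {x : X} (hx : x ≠ 0) (u v : X) : nm (φ x) (G φ x u v) = 0 := by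
  have hφx := d.e.ne_zero hx
  have h1 : HasFDerivAt (fun z => nm (φ z)) ((hs (φ x)).comp (F φ x)) x :=
    (d.hY.hasFDerivAt_nm hφx).comp x (d.hF hx)
  have h2 : HasFDerivAt (fun z => F φ z v) ((G φ x).flip v) x := hasFDerivAt_apply (d.hG hx) v
  have h3 := h1.clm_apply h2
  have h4 : HasFDerivAt (fun z => nm z v) ((hs x).flip v) x :=
    hasFDerivAt_apply (d.hX.hasFDerivAt_nm hx) v
  have hev : (fun z => nm (φ z) (F φ z v)) =ᶠ[𝓝 x] fun z => nm z v := by
    filter_upwards [isOpen_compl_singleton.mem_nhds hx] with y hy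
    exact d.nm_F hy v
  have h5 := (h3.congr_of_eventuallyEq hev.symm).unique h4
  have h6 := congrArg (fun L : X →L[ℝ] ℝ => L u) h5
  simp only [add_apply, ContinuousLinearMap.comp_apply, ContinuousLinearMap.flip_apply] at h6
  rw [d.hs_F hx] at h6
  linarith

lemma F_ne_zero {x : X} (hx : x ≠ 0) {v : X} (hv : nm x v = 0) (hv0 : v ≠ 0) :
    F φ x v ≠ 0 := by
  intro h0
  have := d.norm_F_tan hx hv
  rw [h0, norm_zero] at this
  exact hv0 (norm_eq_zero.1 this.symm)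

/-- (D4') -/
lemma star {x : X} (hx : x ≠ 0) {v : X} (hv : nm x v = 0) (hv0 : v ≠ 0) (u : X) :
    ‖x‖ * nm (F φ x v) (G φ x u v) -
      hs x u v * (nm (F φ x v) (φ x) - nm v x) = 0 := by
  have hnx : 0 < ‖x‖ := norm_pos_iff.2 hx
  have hFv := d.F_ne_zero hx hv hv0
  have hn := d.hX.hasFDerivAt_norm hx
  have hnv : HasFDerivAt (fun z => nm z v) ((hs x).flip v) x :=
    hasFDerivAt_apply (d.hX.hasFDerivAt_nm hx) v
  have hFd : HasFDerivAt (fun z => F φ z v) ((G φ x).flip v) x := hasFDerivAt_apply (d.hG hx) v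
  have h1 := (hn.smul hFd).sub (hnv.smul (d.hF hx))
  have h2 := (hn.smul_const v).sub (hnv.smul (hasFDerivAt_id x))
  have hP : ‖x‖ • F φ x v - nm x v • φ x ≠ 0 := by
    rw [hv, zero_smul, sub_zero]; exact smul_ne_zero hnx.ne' hFv
  have hQ : ‖x‖ • v - nm x v • x ≠ 0 := by
    rw [hv, zero_smul, sub_zero]; exact smul_ne_zero hnx.ne' hv0
  have h3 := (d.hY.hasFDerivAt_norm hP).comp x h1
  have h4 := (d.hX.hasFDerivAt_norm hQ).comp x h2
  have hev : (fun z => ‖‖z‖ • v - nm z v • z‖) =ᶠ[𝓝 x] fun z => ‖‖z‖ • F φ z v - nm z v • φ z‖ := by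
    filter_upwards [isOpen_compl_singleton.mem_nhds hx] with y hy
    exact (d.norm_F hy v).symm
  have h5 := h3.unique (h4.congr_of_eventuallyEq hev.symm)
  have h6 := congrArg (fun L : X →L[ℝ] ℝ => L u) h5
  have e1 : ‖x‖ • F φ x v - nm x v • φ x = ‖x‖ • F φ x v := by rw [hv, zero_smul, sub_zero]
  have e2 : ‖x‖ • v - nm x v • x = ‖x‖ • v := by rw [hv, zero_smul, sub_zero]
  rw [e1, e2, d.hY.nm_smul hFv hnx, d.hX.nm_smul hv0 hnx] at h6
  simp only [sub_apply, add_apply, smul_apply, ContinuousLinearMap.comp_apply,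
    ContinuousLinearMap.flip_apply, ContinuousLinearMap.smulRight_apply, map_add, map_sub,
    map_smul, smul_eq_mul, hv, zero_mul, d.hY.nm_self hFv, d.hX.nm_self hv0,
    d.norm_F_tan hx hv, ContinuousLinearMap.id_apply, id_eq] at h6
  linarith

end Dat

end Vale.P084
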