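import Mathlib

/-!
# P084: induction principle for faces (a weak form of the theorem of Straszewicz)
-/

namespace Vale.P084

open Metric Filter Topology

variable {X : Type*} [NormedAddCommGroup X] [NormedSpace ℝ X]

/-- maximisers of a linear functional plus a small positive definite quadratic form are exposed -/
lemma exists_exposed (X : Type*) [NormedAddCommGroup X] [NormedSpace ℝ X]
    [FiniteDimensional ℝ X] [Nontrivial X] :
    ∃ M : ℝ, 0 ≤ M ∧ ∀ (γ : X →L[ℝ] ℝ) (ε : ℝ), 0 < ε → ∃ p : X, ‖p‖ = 1 ∧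
      (∃ β : X →L[ℝ] ℝ, ∀ u, ‖u‖ ≤ 1 → β p ≤ β u → u = p) ∧
      ∀ u, ‖u‖ ≤ 1 → γ u ≤ γ p + ε * M := by
  have : ProperSpace X := FiniteDimensional.proper ℝ X
  let e : X ≃L[ℝ] EuclideanSpace ℝ (Fin (Module.finrank ℝ X)) := toEuclidean
  let M : ℝ := ‖(e : X →L[ℝ] EuclideanSpace ℝ (Fin (Module.finrank ℝ X)))‖ ^ 2
  refine ⟨M, by positivity, fun γ ε hε => ?_⟩
  let G : X → ℝ := fun p => γ p + ε * ‖e p‖ ^ 2
  have hG : Continuous G := by
    apply Continuous.add γ.continuous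
    exact continuous_const.mul ((e.continuous.norm).pow 2)
  obtain ⟨p, hp, hmax⟩ := (isCompact_closedBall (0 : X) 1).exists_isMaxOn
    ⟨0, mem_closedBall_self zero_le_one⟩ hG.continuousOn
  have hpn : ‖p‖ ≤ 1 := by simpa using hp
  have hmax' : ∀ u, ‖u‖ ≤ 1 → G u ≤ G p := fun u hu => hmax (by simpa using hu)
  let β : X →L[ℝ] ℝ := γ + (2 * ε) • ((innerSL ℝ (e p)).comp
    (e : X →L[ℝ] EuclideanSpace ℝ (Fin (Module.finrank ℝ X))))
  have hβ : ∀ u, β u = γ u + 2 * ε * inner ℝ (e p) (e u) := fun u => rfl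
  have hexp : ∀ u, ‖u‖ ≤ 1 → β p ≤ β u → u = p := by
    intro u hu hle
    have h1 := hmax' u hu
    have h2 : ‖e u - e p‖ ^ 2 = ‖e u‖ ^ 2 - 2 * inner ℝ (e p) (e u) + ‖e p‖ ^ 2 := by
      rw [norm_sub_sq_real, real_inner_comm]
    have h3 : inner ℝ (e p) (e p) = ‖e p‖ ^ 2 := real_inner_self_eq_norm_sq _
    rw [hβ, hβ, h3] at hle
    have h4 : G u = γ u + ε * ‖e u‖ ^ 2 := rfl
    have h5 : G p = γ p + ε * ‖e p‖ ^ 2 := rfl
    rw [h4, h5] at h1
    have h6 : ε * ‖e u - e p‖ ^ 2 ≤ 0 := by rw [h2]; nlinarith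
    have h7 : ‖e u - e p‖ ^ 2 ≤ 0 := by
      by_contra hcon
      exact absurd h6 (not_le.2 (mul_pos hε (not_le.1 hcon)))
    have h8 : ‖e u - e p‖ = 0 := by
      have := sq_nonneg ‖e u - e p‖
      exact pow_eq_zero_iff (two_ne_zero) |>.1 (le_antisymm h7 this)
    exact e.injective (sub_eq_zero.1 (norm_eq_zero.1 h8))
  refine ⟨p, ?_, ⟨β, hexp⟩, fun u hu => ?_⟩
  · -- the norm
    by_contra hne
    have hlt : ‖p‖ < 1 := lt_of_le_of_ne hpn hne
    obtain ⟨v, hv⟩ := exists_ne (0 : X)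
    obtain ⟨w, hw, hβw⟩ : ∃ w : X, w ≠ 0 ∧ 0 ≤ β w := by
      rcases le_total 0 (β v) with h | h
      · exact ⟨v, hv, h⟩
      · exact ⟨-v, neg_ne_zero.2 hv, by rw [map_neg]; linarith⟩
    have hwn : 0 < ‖w‖ := norm_pos_iff.2 hw
    let s : ℝ := (1 - ‖p‖) / ‖w‖
    have hs : 0 < s := div_pos (by linarith) hwn
    have h1 : ‖p + s • w‖ ≤ 1 := by
      refine (norm_add_le _ _).trans ?_
      rw [norm_smul, Real.norm_of_nonneg hs.le]
      have : s * ‖w‖ = 1 - ‖p‖ := div_mul_cancel₀ _ hwn.ne'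
      linarith
    have h2 := hexp _ h1 (by
      rw [map_add, map_smul, smul_eq_mul]
      have := mul_nonneg hs.le hβw
      linarith)
    have h3 : s • w = 0 := by
      have : s • w = (p + s • w) - p := by abel
      rw [this, h2, sub_self]
    exact (smul_ne_zero hs.ne' hw) h3
  · have h1 := hmax' u hu
    have h4 : G u = γ u + ε * ‖e u‖ ^ 2 := rfl
    have h5 : G p = γ p + ε * ‖e p‖ ^ 2 := rfl
    rw [h4, h5] at h1
    have h6 : ‖e p‖ ≤ ‖(e : X →L[ℝ] EuclideanSpace ℝ (Fin (Module.finrank ℝ X)))‖ := by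
      have := (e : X →L[ℝ] EuclideanSpace ℝ (Fin (Module.finrank ℝ X))).le_opNorm p
      refine this.trans ?_
      nlinarith [norm_nonneg (e : X →L[ℝ] EuclideanSpace ℝ (Fin (Module.finrank ℝ X)))]
    have h7 : ‖e p‖ ^ 2 ≤ M := by
      show ‖e p‖ ^ 2 ≤ ‖(e : X →L[ℝ] EuclideanSpace ℝ (Fin (Module.finrank ℝ X)))‖ ^ 2
      gcongr
    have h8 : ε * ‖e p‖ ^ 2 ≤ ε * M := by gcongr
    have h9 : 0 ≤ ε * ‖e u‖ ^ 2 := by positivity
    linarith

/-- a closed set which contains all exposed points of the unit ball, and has convex intersection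
with a face, contains the face -/
theorem face_induction [FiniteDimensional ℝ X] {α : X →L[ℝ] ℝ} (hα : ‖α‖ ≤ 1) {F : Set X}
    (hF : IsClosed F)
    (hexp : ∀ x, ‖x‖ = 1 → (∃ β : X →L[ℝ] ℝ, ∀ u, ‖u‖ ≤ 1 → β x ≤ β u → u = x) → x ∈ F)
    (hconv : Convex ℝ (F ∩ {u | ‖u‖ = 1 ∧ α u = 1})) :
    {u | ‖u‖ = 1 ∧ α u = 1} ⊆ F := by
  have : ProperSpace X := FiniteDimensional.proper ℝ X
  rintro x ⟨hx, hαx⟩
  by_contra hxF
  have hx0 : x ≠ 0 := by rintro rfl; rw [norm_zero] at hx; exact zero_ne_one hx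
  have : Nontrivial X := ⟨x, 0, hx0⟩
  have hclosed : IsClosed (F ∩ {u | ‖u‖ = 1 ∧ α u = 1}) := by
    refine hF.inter ?_
    exact (isClosed_eq continuous_norm continuous_const).inter
      (isClosed_eq α.continuous continuous_const)
  obtain ⟨ℓ, c, hℓ1, hℓ2⟩ := geometric_hahn_banach_closed_point hconv hclosed
    (fun h => hxF h.1)
  obtain ⟨M, hM, hMain⟩ := exists_exposed X
  have hle : ∀ u, ‖u‖ ≤ 1 → α u ≤ 1 := by
    intro u hu
    calc α u ≤ ‖α u‖ := le_abs_self _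
      _ ≤ ‖α‖ * ‖u‖ := α.le_opNorm u
      _ ≤ 1 * 1 := by gcongr
      _ = 1 := one_mul _
  -- sequence of exposed points
  have h1 : ∀ n : ℕ, ∃ p : X, ‖p‖ = 1 ∧ p ∈ F ∧
      α x + (1 / ((n : ℝ) + 1)) * ℓ x ≤ α p + (1 / ((n : ℝ) + 1)) * ℓ p +
        (1 / ((n : ℝ) + 1)) ^ 2 * M := by
    intro n
    obtain ⟨p, hp, hpe, hpm⟩ := hMain (α + (1 / ((n : ℝ) + 1)) • ℓ) ((1 / ((n : ℝ) + 1)) ^ 2)
      (by positivity)
    exact ⟨p, hp, hexp p hp hpe, hpm x hx.le⟩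
  choose p hp hpF hpm using h1
  have hinv : Tendsto (fun n : ℕ => 1 / ((n : ℝ) + 1)) atTop (𝓝 0) :=
    tendsto_one_div_add_atTop_nhds_zero_nat
  obtain ⟨q, -, ψ, hψ, hlim⟩ := (isCompact_closedBall (0 : X) 1).tendsto_subseq
    (x := p) (fun n => by simpa using (hp n).le)
  have hq : ‖q‖ = 1 := tendsto_nhds_unique hlim.norm
    (tendsto_const_nhds.congr fun n => (hp (ψ n)).symm)
  have hqF : q ∈ F := hF.mem_of_tendsto hlim (Eventually.of_forall fun n => hpF (ψ n))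
  have hinv' := hinv.comp hψ.tendsto_atTop
  have hαl : Tendsto (fun n => α (p (ψ n))) atTop (𝓝 (α q)) := (α.continuous.tendsto _).comp hlim
  have hℓl : Tendsto (fun n => ℓ (p (ψ n))) atTop (𝓝 (ℓ q)) := (ℓ.continuous.tendsto _).comp hlim
  have hαq : α q = 1 := by
    apply le_antisymm (hle q hq.le)
    have h2 : Tendsto (fun n => α (p (ψ n)) + (1 / ((ψ n : ℝ) + 1)) * ℓ (p (ψ n)) +
        (1 / ((ψ n : ℝ) + 1)) ^ 2 * M - (1 / ((ψ n : ℝ) + 1)) * ℓ x) atTop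
        (𝓝 (α q + 0 * ℓ q + 0 ^ 2 * M - 0 * ℓ x)) :=
      ((hαl.add (hinv'.mul hℓl)).add ((hinv'.pow 2).mul_const M)).sub (hinv'.mul_const _)
    have h3 : α q + 0 * ℓ q + 0 ^ 2 * M - 0 * ℓ x = α q := by ring
    rw [h3] at h2
    refine ge_of_tendsto h2 (Eventually.of_forall fun n => ?_)
    have := hpm (ψ n)
    rw [hαx] at this
    linarith
  have hℓq : ℓ x ≤ ℓ q := by
    have h2 : Tendsto (fun n => ℓ (p (ψ n)) + (1 / ((ψ n : ℝ) + 1)) * M) atTop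
        (𝓝 (ℓ q + 0 * M)) := hℓl.add (hinv'.mul_const M)
    rw [zero_mul, add_zero] at h2
    refine ge_of_tendsto h2 (Eventually.of_forall fun n => ?_)
    have h3 := hpm (ψ n)
    have h4 := hle _ (hp (ψ n)).le
    rw [hαx] at h3
    have h5 : (0 : ℝ) < 1 / ((ψ n : ℝ) + 1) := by positivity
    have h6 : (1 / ((ψ n : ℝ) + 1)) * ℓ x ≤
        (1 / ((ψ n : ℝ) + 1)) * (ℓ (p (ψ n)) + (1 / ((ψ n : ℝ) + 1)) * M) := by nlinarith
    exact le_of_mul_le_mul_left h6 h5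
  have h2 := hℓ1 q ⟨hqF, hq, hαq⟩
  linarith

end Vale.P084
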