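import Mathlib

/-!
# P084, module M2: isometries between convex sets of finite-dimensional spaces are affine
-/

namespace Vale.P084

open Metric Filter Topology

/-- an isometric self map of a compact set is onto -/
theorem isom_compact_surj {M : Type*} [MetricSpace M] {K : Set M} (hK : IsCompact K) (g : M → M)
    (hg : Set.MapsTo g K K) (hiso : ∀ u ∈ K, ∀ v ∈ K, dist (g u) (g v) = dist u v) :
    Set.SurjOn g K K := by
  intro y hy
  by_contra hne
  have hcont : ContinuousOn g K := by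
    rw [Metric.continuousOn_iff]
    intro u hu ε hε
    exact ⟨ε, hε, fun v hv hvu => by rw [hiso v hv u hu]; exact hvu⟩
  have hcl : IsClosed (g '' K) := (hK.image_of_continuousOn hcont).isClosed
  have hne2 : (g '' K).Nonempty := ⟨g y, y, hy, rfl⟩
  have hpos : 0 < infDist y (g '' K) := (hcl.notMem_iff_infDist_pos hne2).mp hne
  set δ := infDist y (g '' K) with hδ
  have hmem : ∀ n, g^[n] y ∈ K := by
    intro n
    induction n with
    | zero => exact hy
    | succ n ih => rw [Function.iterate_succ_apply']; exact hg ih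
  have hd : ∀ m n : ℕ, dist (g^[m] y) (g^[m + n] y) = dist y (g^[n] y) := by
    intro m n
    induction m with
    | zero => simp
    | succ m ih =>
      rw [Function.iterate_succ_apply', show m + 1 + n = (m + n) + 1 by ring,
        Function.iterate_succ_apply', hiso _ (hmem m) _ (hmem (m + n)), ih]
  have hsep : ∀ m n : ℕ, m < n → δ ≤ dist (g^[m] y) (g^[n] y) := by
    intro m n hmn
    obtain ⟨k, rfl⟩ := Nat.exists_eq_add_of_lt hmn
    rw [show m + k + 1 = m + (k + 1) by ring, hd]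
    apply infDist_le_dist_of_mem
    exact ⟨g^[k] y, hmem k, by rw [Function.iterate_succ_apply']⟩
  obtain ⟨a, -, φ, hφ, hlim⟩ := hK.tendsto_subseq hmem
  have hc := hlim.cauchySeq
  rw [Metric.cauchySeq_iff] at hc
  obtain ⟨N, hN⟩ := hc δ hpos
  have h1 := hN N le_rfl (N + 1) (Nat.le_succ N)
  have h2 := hsep (φ N) (φ (N + 1)) (hφ (Nat.lt_succ_self N))
  simp only [Function.comp_apply] at h1
  linarith

/-- Väisälä's argument, abstract form. -/
theorem vaisala_fixed {K : Type*} [MetricSpace K] [BoundedSpace K] (z : K) (R : K ≃ᵢ K)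
    (hR : ∀ u, dist (R u) u = 2 * dist u z) (g : K ≃ᵢ K) : g z = z := by
  have h_bdd : BddAbove (Set.range fun e : K ≃ᵢ K => dist (e z) z) := by
    obtain ⟨C, hC⟩ := (Metric.isBounded_iff (s := (Set.univ : Set K))).mp
      (Bornology.IsBounded.all _)
    refine ⟨C, ?_⟩
    rintro _ ⟨e, rfl⟩
    exact hC (Set.mem_univ _) (Set.mem_univ _)
  have hf_dist : ∀ e : K ≃ᵢ K, dist (((e.trans R).trans e.symm) z) z = 2 * dist (e z) z := by
    intro e
    dsimp only [IsometryEquiv.trans_apply]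
    rw [← e.dist_eq, e.apply_symm_apply, hR]
  set c := ⨆ e : K ≃ᵢ K, dist (e z) z with hc
  have hle : ∀ e : K ≃ᵢ K, dist (e z) z ≤ c := fun e => le_ciSup h_bdd e
  have h1 : c ≤ c / 2 := by
    apply ciSup_le
    intro e
    have h2 := hle ((e.trans R).trans e.symm)
    rw [hf_dist] at h2
    linarith
  have h2 : c ≤ 0 := by linarith
  exact dist_le_zero.1 ((hle g).trans h2)

theorem vaisala {K K' : Type*} [MetricSpace K] [BoundedSpace K] [MetricSpace K']
    (z : K) (R : K ≃ᵢ K) (hR : ∀ u, dist (R u) u = 2 * dist u z)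
    (z' : K') (R' : K' ≃ᵢ K') (hR' : ∀ u, dist (R' u) u = 2 * dist u z')
    (f : K ≃ᵢ K') : f z = z' := by
  have h1 := vaisala_fixed z R hR ((f.trans R').trans f.symm)
  dsimp only [IsometryEquiv.trans_apply] at h1
  have h2 : R' (f z) = f z := by
    rw [f.symm_apply_eq] at h1
    exact h1
  have h3 := hR' (f z)
  rw [h2, dist_self] at h3
  have h4 : dist (f z) z' = 0 := by linarith
  exact dist_eq_zero.mp h4

variable {X Y : Type*} [NormedAddCommGroup X] [NormedSpace ℝ X]
  [NormedAddCommGroup Y] [NormedSpace ℝ Y]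

/-- `C` contains the ball of radius `r` about `x` in its affine span. -/
def RB (C : Set X) (x : X) (r : ℝ) : Prop :=
  0 < r ∧ x ∈ C ∧ ∀ u ∈ affineSpan ℝ C, dist u x < r → u ∈ C

theorem exists_RB [FiniteDimensional ℝ X] {C : Set X} (hC : Convex ℝ C) (hne : C.Nonempty) :
    ∃ x r, RB C x r := by
  obtain ⟨x, hx⟩ := hne.intrinsicInterior hC
  rw [mem_intrinsicInterior] at hx
  obtain ⟨y, hy, rfl⟩ := hx
  rw [mem_interior_iff_mem_nhds, Metric.mem_nhds_iff] at hy
  obtain ⟨ε, hε, hsub⟩ := hy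
  refine ⟨y, ε, hε, ?_, ?_⟩
  · exact hsub (mem_ball_self hε)
  · intro u hu hd
    have : (⟨u, hu⟩ : affineSpan ℝ C) ∈ ball y ε := by
      rw [mem_ball]; exact hd
    exact hsub this

theorem comb_mem_span {C : Set X} {a b : X} (ha : a ∈ affineSpan ℝ C) (hb : b ∈ affineSpan ℝ C)
    (t : ℝ) : (1 - t) • a + t • b ∈ affineSpan ℝ C := by
  have := AffineMap.lineMap_mem (k := ℝ) t ha hb
  rwa [AffineMap.lineMap_apply_module] at this

theorem sub_add_mem_span {C : Set X} {a b c : X} (ha : a ∈ affineSpan ℝ C)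
    (hb : b ∈ affineSpan ℝ C) (hc : c ∈ affineSpan ℝ C) : a - b + c ∈ affineSpan ℝ C := by
  have := (affineSpan ℝ C).smul_vsub_vadd_mem 1 ha hb hc
  simpa using this

theorem mem_span_of_mem {C : Set X} {a : X} (ha : a ∈ C) : a ∈ affineSpan ℝ C :=
  subset_affineSpan ℝ C ha

/-- convexity of the set of centres of relative balls of radius `r` -/
theorem RB_convex {C : Set X} (hC : Convex ℝ C) {p q : X} {r : ℝ} (hp : RB C p r)
    (hq : RB C q r) {t : ℝ} (ht : t ∈ Set.Icc (0:ℝ) 1) : RB C ((1 - t) • p + t • q) r := by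
  have hm : (1 - t) • p + t • q ∈ C :=
    hC hp.2.1 hq.2.1 (by linarith [ht.2]) ht.1 (by ring)
  refine ⟨hp.1, hm, ?_⟩
  intro u hu hd
  have hs := mem_span_of_mem hm
  have h1 : u - ((1 - t) • p + t • q) + p ∈ C := by
    apply hp.2.2 _ (sub_add_mem_span hu hs (mem_span_of_mem hp.2.1))
    rw [dist_eq_norm] at hd ⊢
    rwa [add_sub_cancel_right]
  have h2 : u - ((1 - t) • p + t • q) + q ∈ C := by
    apply hq.2.2 _ (sub_add_mem_span hu hs (mem_span_of_mem hq.2.1))
    rw [dist_eq_norm] at hd ⊢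
    rwa [add_sub_cancel_right]
  have h3 := hC h1 h2 (by linarith [ht.2] : (0:ℝ) ≤ 1 - t) ht.1 (by ring)
  have h4 : (1 - t) • (u - ((1 - t) • p + t • q) + p) + t • (u - ((1 - t) • p + t • q) + q) = u := by
    module
  rwa [h4] at h3

/-- combinations with a relative interior point -/
theorem RB_comb {C : Set X} (hC : Convex ℝ C) {p q : X} {r : ℝ} (hp : p ∈ C)
    (hq : RB C q r) {t : ℝ} (ht : 0 < t) (ht1 : t ≤ 1) :
    RB C ((1 - t) • p + t • q) (t * r) := by
  have hm : (1 - t) • p + t • q ∈ C :=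
    hC hp hq.2.1 (by linarith) ht.le (by ring)
  refine ⟨mul_pos ht hq.1, hm, ?_⟩
  intro u hu hd
  have hs := mem_span_of_mem hm
  have h2 : q + t⁻¹ • (u - ((1 - t) • p + t • q)) ∈ C := by
    apply hq.2.2
    · have h5 := (affineSpan ℝ C).smul_vsub_vadd_mem t⁻¹ hu hs (mem_span_of_mem hq.2.1)
      have h6 : q + t⁻¹ • (u - ((1 - t) • p + t • q)) =
          t⁻¹ • (u -ᵥ ((1 - t) • p + t • q)) +ᵥ q := by
        rw [vsub_eq_sub, vadd_eq_add, add_comm]
      rw [h6]
      exact h5
    · rw [dist_eq_norm, add_sub_cancel_left, norm_smul, norm_inv, Real.norm_eq_abs,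
        abs_of_pos ht, inv_mul_lt_iff₀ ht]
      rwa [dist_eq_norm] at hd
  have h3 := hC hp h2 (by linarith : (0:ℝ) ≤ 1 - t) ht.le (by ring)
  have h4 : (1 - t) • p + t • (q + t⁻¹ • (u - ((1 - t) • p + t • q))) = u := by
    rw [smul_add, smul_smul, mul_inv_cancel₀ ht.ne', one_smul]
    abel
  rwa [h4] at h3


theorem RB_mono {C : Set X} {x : X} {r r' : ℝ} (h : RB C x r) (h0 : 0 < r') (h1 : r' ≤ r) :
    RB C x r' :=
  ⟨h0, h.2.1, fun u hu hd => h.2.2 u hu (hd.trans_le h1)⟩

theorem RB_near {C : Set X} {x y : X} {r δ : ℝ} (h : RB C x r) (hy : y ∈ C) (hd : dist y x ≤ δ)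
    (hδ : δ < r) : RB C y (r - δ) := by
  refine ⟨by linarith, hy, fun u hu hdu => h.2.2 u hu ?_⟩
  have := dist_triangle u y x
  linarith

/-- the standing hypotheses -/
structure IsoC {X Y : Type*} [NormedAddCommGroup X] [NormedAddCommGroup Y]
    (C : Set X) (C' : Set Y) (f : X → Y) : Prop where
  iso : ∀ x ∈ C, ∀ y ∈ C, ‖f x - f y‖ = ‖x - y‖
  im : f '' C = C'

theorem IsoC.mem {X Y : Type*} [NormedAddCommGroup X] [NormedAddCommGroup Y]
    {C : Set X} {C' : Set Y} {f : X → Y} (h : IsoC C C' f) {x : X} (hx : x ∈ C) :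
    f x ∈ C' := by
  rw [← h.im]; exact ⟨x, hx, rfl⟩

theorem IsoC.dist {X Y : Type*} [NormedAddCommGroup X] [NormedAddCommGroup Y]
    {C : Set X} {C' : Set Y} {f : X → Y} (h : IsoC C C' f) {x y : X} (hx : x ∈ C)
    (hy : y ∈ C) : Dist.dist (f x) (f y) = Dist.dist x y := by
  rw [dist_eq_norm, dist_eq_norm, h.iso x hx y hy]

theorem IsoC.inv_mem {X Y : Type*} [NormedAddCommGroup X] [NormedAddCommGroup Y]
    {C : Set X} {C' : Set Y} {f : X → Y} (h : IsoC C C' f) {y : Y}
    (hy : y ∈ C') : Function.invFunOn f C y ∈ C := by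
  rw [← h.im] at hy
  exact Function.invFunOn_mem hy

theorem IsoC.inv_eq {X Y : Type*} [NormedAddCommGroup X] [NormedAddCommGroup Y]
    {C : Set X} {C' : Set Y} {f : X → Y} (h : IsoC C C' f) {y : Y}
    (hy : y ∈ C') : f (Function.invFunOn f C y) = y := by
  rw [← h.im] at hy
  exact Function.invFunOn_eq hy

theorem IsoC.inj {X Y : Type*} [NormedAddCommGroup X] [NormedAddCommGroup Y]
    {C : Set X} {C' : Set Y} {f : X → Y} (h : IsoC C C' f) {x y : X} (hx : x ∈ C)
    (hy : y ∈ C) (hxy : f x = f y) : x = y := by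
  have := h.dist hx hy
  rw [hxy, dist_self] at this
  exact dist_eq_zero.mp this.symm

theorem exists_good [FiniteDimensional ℝ X] [FiniteDimensional ℝ Y] {C : Set X} {C' : Set Y}
    (hC : Convex ℝ C) (hC' : Convex ℝ C') {f : X → Y} (h : IsoC C C' f) (hne : C.Nonempty) :
    ∃ x r, RB C x r ∧ RB C' (f x) r := by
  obtain ⟨x1, r1, h1⟩ := exists_RB hC hne
  have hne' : C'.Nonempty := ⟨f x1, h.mem h1.2.1⟩
  obtain ⟨z', r', h2⟩ := exists_RB hC' hne'
  set D := ‖z' - f x1‖ with hD
  have hD0 : 0 ≤ D := norm_nonneg _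
  set t : ℝ := min 1 (r1 / (2 * (D + 1))) with ht
  have ht0 : 0 < t := lt_min one_pos (div_pos h1.1 (by positivity))
  have ht1 : t ≤ 1 := min_le_left _ _
  have htD : t * D < r1 / 2 := by
    have h3 : t ≤ r1 / (2 * (D + 1)) := min_le_right _ _
    have h4 : t * (2 * (D + 1)) ≤ r1 := by rwa [le_div_iff₀ (by positivity)] at h3
    nlinarith
  have h3 : RB C' ((1 - t) • f x1 + t • z') (t * r') := RB_comb hC' (h.mem h1.2.1) h2 ht0 ht1
  set y' := (1 - t) • f x1 + t • z' with hy'
  set x2 := Function.invFunOn f C y' with hx2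
  have hx2C : x2 ∈ C := h.inv_mem h3.2.1
  have hfx2 : f x2 = y' := h.inv_eq h3.2.1
  have hd : dist x2 x1 ≤ r1 / 2 := by
    rw [← h.dist hx2C h1.2.1, hfx2, dist_eq_norm]
    have : y' - f x1 = t • (z' - f x1) := by rw [hy']; module
    rw [this, norm_smul, Real.norm_eq_abs, abs_of_pos ht0]
    exact htD.le
  refine ⟨x2, min (r1 / 2) (t * r'), ?_, ?_⟩
  · have := RB_near h1 hx2C hd (by linarith [h1.1])
    exact RB_mono this (lt_min (by linarith [h1.1]) h3.1) (by
      refine (min_le_left _ _).trans ?_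
      linarith)
  · rw [hfx2]
    exact RB_mono h3 (lt_min (by linarith [h1.1]) h3.1) (min_le_right _ _)

/-- relative interior points go to relative interior points -/
theorem propagate [FiniteDimensional ℝ X] [FiniteDimensional ℝ Y] {C : Set X} {C' : Set Y}
    {f : X → Y} (h : IsoC C C' f) {p x : X} {rp r : ℝ} (hp : RB C p rp) (hx : RB C x r)
    (hx' : RB C' (f x) r) : ∃ r', RB C' (f p) r' := by
  set s := min rp r / 2 with hs
  have hs0 : 0 < s := by
    have := lt_min hp.1 hx.1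
    linarith
  have hsp : s < rp := by
    have := min_le_left rp r
    linarith [lt_min hp.1 hx.1]
  have hsr : s < r := by
    have := min_le_right rp r
    linarith [lt_min hp.1 hx.1]
  set K : Set X := closedBall p s ∩ (affineSpan ℝ C : Set X) with hK
  have hKc : IsCompact K := (isCompact_closedBall p s).inter_right
    (AffineSubspace.closed_of_finiteDimensional _)
  have hKC : ∀ u ∈ K, u ∈ C := fun u hu => hp.2.2 u hu.2 (lt_of_le_of_lt hu.1 hsp)
  have hfpS := mem_span_of_mem (h.mem hp.2.1)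
  have hfxS := mem_span_of_mem (h.mem hx.2.1)
  -- translates land in `C'`
  have hw : ∀ y ∈ affineSpan ℝ C', dist y (f p) ≤ s → y - f p + f x ∈ C' := by
    intro y hy hd
    apply hx'.2.2 _ (sub_add_mem_span hy hfpS hfxS)
    rw [dist_eq_norm, add_sub_cancel_right, ← dist_eq_norm]
    exact lt_of_le_of_lt hd hsr
  set g : X → X := fun u => Function.invFunOn f C (f u - f p + f x) - x + p with hg
  have hwK : ∀ u ∈ K, f u - f p + f x ∈ C' := by
    intro u hu
    apply hw _ (mem_span_of_mem (h.mem (hKC u hu)))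
    rw [h.dist (hKC u hu) hp.2.1]
    exact hu.1
  have hback : ∀ w ∈ C', dist w (f x) ≤ s → Function.invFunOn f C w - x + p ∈ K := by
    intro w hwC hd
    refine ⟨?_, ?_⟩
    · rw [mem_closedBall, dist_eq_norm, add_sub_cancel_right, ← dist_eq_norm,
        ← h.dist (h.inv_mem hwC) hx.2.1, h.inv_eq hwC]
      exact hd
    · exact sub_add_mem_span (mem_span_of_mem (h.inv_mem hwC)) (mem_span_of_mem hx.2.1)
        (mem_span_of_mem hp.2.1)
  have hmaps : Set.MapsTo g K K := by
    intro u hu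
    apply hback _ (hwK u hu)
    rw [dist_eq_norm, add_sub_cancel_right, ← dist_eq_norm, h.dist (hKC u hu) hp.2.1]
    exact hu.1
  have hiso : ∀ u ∈ K, ∀ v ∈ K, dist (g u) (g v) = dist u v := by
    intro u hu v hv
    rw [← h.dist (hKC u hu) (hKC v hv)]
    have h1 : dist (g u) (g v) = dist (Function.invFunOn f C (f u - f p + f x))
        (Function.invFunOn f C (f v - f p + f x)) := by
      rw [hg, dist_eq_norm, dist_eq_norm]
      congr 1
      simp only
      abel
    rw [h1, ← h.dist (h.inv_mem (hwK u hu)) (h.inv_mem (hwK v hv)), h.inv_eq (hwK u hu),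
      h.inv_eq (hwK v hv), dist_eq_norm, dist_eq_norm]
    congr 1
    abel
  have hsurj := isom_compact_surj hKc g hmaps hiso
  refine ⟨s, hs0, h.mem hp.2.1, ?_⟩
  intro y hy hd
  have hwC : y - f p + f x ∈ C' := hw y hy hd.le
  have hv : Function.invFunOn f C (y - f p + f x) - x + p ∈ K := by
    apply hback _ hwC
    rw [dist_eq_norm, add_sub_cancel_right, ← dist_eq_norm]
    exact hd.le
  obtain ⟨u, hu, hgu⟩ := hsurj hv
  have h1 : Function.invFunOn f C (f u - f p + f x) = Function.invFunOn f C (y - f p + f x) := by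
    have h2 : Function.invFunOn f C (f u - f p + f x) - x + p =
        Function.invFunOn f C (y - f p + f x) - x + p := hgu
    have h3 := add_right_cancel h2
    exact sub_left_injective h3
  have h2 := congrArg f h1
  rw [h.inv_eq (hwK u hu), h.inv_eq hwC] at h2
  have h3 : f u = y := by
    have h4 := add_right_cancel h2
    exact sub_left_injective h4
  rw [← h3]
  exact h.mem (hKC u hu)

/-- the metric middle of two points inside `C`. -/
def Mid (C : Set X) (p q : X) : Set X :=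
  {u | u ∈ C ∧ dist u p = dist p q / 2 ∧ dist u q = dist p q / 2}

theorem mid_refl_mem {C : Set X} {p q : X} {r : ℝ} (hp : RB C p r) (hq : q ∈ C)
    (hd : dist p q < r) {u : X} (hu : u ∈ Mid C p q) : p - u + q ∈ Mid C p q := by
  have hS : p - u + q ∈ affineSpan ℝ C :=
    sub_add_mem_span (mem_span_of_mem hp.2.1) (mem_span_of_mem hu.1) (mem_span_of_mem hq)
  have h1 : dist (p - u + q) p = dist p q / 2 := by
    have : dist (p - u + q) p = dist u q := by
      rw [dist_eq_norm, dist_eq_norm, ← norm_neg]; congr 1; abel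
    rw [this]; exact hu.2.2
  have h2 : dist (p - u + q) q = dist p q / 2 := by
    have : dist (p - u + q) q = dist u p := by
      rw [dist_eq_norm, dist_eq_norm, ← norm_neg]; congr 1; abel
    rw [this]; exact hu.2.1
  refine ⟨hp.2.2 _ hS ?_, h1, h2⟩
  rw [h1]
  have := dist_nonneg (x := p) (y := q)
  linarith

/-- the reflection of `Mid C p q`. -/
def midRefl {C : Set X} {p q : X} {r : ℝ} (hp : RB C p r) (hq : q ∈ C) (hd : dist p q < r) :
    Mid C p q ≃ᵢ Mid C p q where
  toFun u := ⟨p - u.1 + q, mid_refl_mem hp hq hd u.2⟩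
  invFun u := ⟨p - u.1 + q, mid_refl_mem hp hq hd u.2⟩
  left_inv u := by
    ext; simp only; abel
  right_inv u := by
    ext; simp only; abel
  isometry_toFun := by
    apply Isometry.of_dist_eq
    intro u v
    rw [Subtype.dist_eq, Subtype.dist_eq, dist_eq_norm, dist_eq_norm]
    change ‖(p - u.1 + q) - (p - v.1 + q)‖ = ‖u.1 - v.1‖
    rw [← norm_neg]
    congr 1
    abel

theorem midpoint_mem_mid {C : Set X} {p q : X} {r : ℝ} (hp : RB C p r) (hq : q ∈ C)
    (hd : dist p q < r) : midpoint ℝ p q ∈ Mid C p q := by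
  have h1 : dist (midpoint ℝ p q) p = dist p q / 2 := by
    rw [dist_midpoint_left]; simp; ring
  have h2 : dist (midpoint ℝ p q) q = dist p q / 2 := by
    rw [dist_midpoint_right]; simp; ring
  refine ⟨hp.2.2 _ ?_ ?_, h1, h2⟩
  · exact AffineMap.lineMap_mem _ (mem_span_of_mem hp.2.1) (mem_span_of_mem hq)
  · rw [h1]
    have := dist_nonneg (x := p) (y := q)
    linarith

theorem midRefl_dist {C : Set X} {p q : X} {r : ℝ} (hp : RB C p r) (hq : q ∈ C)
    (hd : dist p q < r) (u : Mid C p q) :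
    dist (midRefl hp hq hd u) u =
      2 * dist u (⟨midpoint ℝ p q, midpoint_mem_mid hp hq hd⟩ : Mid C p q) := by
  rw [Subtype.dist_eq, Subtype.dist_eq]
  change dist (p - u.1 + q) u.1 = 2 * dist u.1 (midpoint ℝ p q)
  rw [dist_eq_norm, dist_eq_norm]
  have : p - u.1 + q - u.1 = (-2 : ℝ) • (u.1 - midpoint ℝ p q) := by
    rw [midpoint_eq_smul_add, invOf_eq_inv]
    module
  rw [this, norm_smul]
  norm_num

theorem map_mid {C : Set X} {C' : Set Y} {f : X → Y} (h : IsoC C C' f) {p q : X} (hp : p ∈ C)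
    (hq : q ∈ C) {u : X} (hu : u ∈ Mid C p q) : f u ∈ Mid C' (f p) (f q) := by
  refine ⟨h.mem hu.1, ?_, ?_⟩
  · rw [h.dist hu.1 hp, h.dist hp hq]; exact hu.2.1
  · rw [h.dist hu.1 hq, h.dist hp hq]; exact hu.2.2

theorem inv_mid {C : Set X} {C' : Set Y} {f : X → Y} (h : IsoC C C' f) {p q : X} (hp : p ∈ C)
    (hq : q ∈ C) {v : Y} (hv : v ∈ Mid C' (f p) (f q)) :
    Function.invFunOn f C v ∈ Mid C p q := by
  refine ⟨h.inv_mem hv.1, ?_, ?_⟩
  · rw [← h.dist (h.inv_mem hv.1) hp, h.inv_eq hv.1, ← h.dist hp hq]; exact hv.2.1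
  · rw [← h.dist (h.inv_mem hv.1) hq, h.inv_eq hv.1, ← h.dist hp hq]; exact hv.2.2

/-- `f` as an isometry between the metric middles. -/
noncomputable def midMap {C : Set X} {C' : Set Y} {f : X → Y} (h : IsoC C C' f) {p q : X}
    (hp : p ∈ C) (hq : q ∈ C) : Mid C p q ≃ᵢ Mid C' (f p) (f q) where
  toFun u := ⟨f u.1, map_mid h hp hq u.2⟩
  invFun v := ⟨Function.invFunOn f C v.1, inv_mid h hp hq v.2⟩
  left_inv u := by
    ext
    apply h.inj (h.inv_mem (h.mem u.2.1)) u.2.1
    exact h.inv_eq (h.mem u.2.1)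
  right_inv v := by
    ext
    exact h.inv_eq v.2.1
  isometry_toFun := by
    apply Isometry.of_dist_eq
    intro u v
    rw [Subtype.dist_eq, Subtype.dist_eq]
    exact h.dist u.2.1 v.2.1

theorem map_midpoint_local {C : Set X} {C' : Set Y} {f : X → Y} (h : IsoC C C' f) {p q : X}
    {r : ℝ} (hp : RB C p r) (hp' : RB C' (f p) r) (hq : q ∈ C) (hd : dist p q < r) :
    f (midpoint ℝ p q) = midpoint ℝ (f p) (f q) := by
  have hd' : dist (f p) (f q) < r := by rw [h.dist hp.2.1 hq]; exact hd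
  have hb : BoundedSpace (Mid C p q) := by
    rw [Metric.boundedSpace_iff]
    refine ⟨dist p q, fun u v => ?_⟩
    rw [Subtype.dist_eq]
    have h1 := dist_triangle_right u.1 v.1 p
    have h2 := u.2.2.1
    have h3 := v.2.2.1
    linarith
  have key := vaisala (⟨midpoint ℝ p q, midpoint_mem_mid hp hq hd⟩ : Mid C p q)
    (midRefl hp hq hd) (midRefl_dist hp hq hd)
    (⟨midpoint ℝ (f p) (f q), midpoint_mem_mid hp' (h.mem hq) hd'⟩ : Mid C' (f p) (f q))
    (midRefl hp' (h.mem hq) hd') (midRefl_dist hp' (h.mem hq) hd') (midMap h hp.2.1 hq)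
  exact congrArg Subtype.val key

/-- a locally midpoint affine path is affine -/
theorem path_zero (φ : ℝ → Y) (hc : ContinuousOn φ (Set.Icc 0 1)) (h0 : φ 0 = 0) (h1 : φ 1 = 0)
    (hm : ∀ t ∈ Set.Ioo (0:ℝ) 1, ∃ e0 > 0, ∀ e, 0 < e → e < e0 →
      φ t = (1 / 2 : ℝ) • (φ (t - e) + φ (t + e))) : ∀ t ∈ Set.Icc (0:ℝ) 1, φ t = 0 := by
  obtain ⟨t1, ht1, hmax⟩ := isCompact_Icc.exists_isMaxOn (Set.nonempty_Icc.mpr zero_le_one)
    hc.norm
  set M := ‖φ t1‖ with hM
  have hle : ∀ t ∈ Set.Icc (0:ℝ) 1, ‖φ t‖ ≤ M := fun t ht => hmax ht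
  by_cases hM0 : M ≤ 0
  · intro t ht
    exact norm_le_zero_iff.mp ((hle t ht).trans hM0)
  exfalso
  push Not at hM0
  have hS : IsCompact {t | t ∈ Set.Icc (0:ℝ) 1 ∧ M ≤ ‖φ t‖} := by
    have hcl : IsClosed {t | t ∈ Set.Icc (0:ℝ) 1 ∧ M ≤ ‖φ t‖} :=
      (hc.norm.preimage_isClosed_of_isClosed isClosed_Icc isClosed_Ici)
    exact isCompact_Icc.of_isClosed_subset hcl fun t ht => ht.1
  obtain ⟨t0, ht0, hleast⟩ := hS.exists_isLeast ⟨t1, ht1, le_rfl⟩
  have ht00 : t0 ≠ 0 := by
    rintro rfl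
    have := ht0.2
    rw [h0, norm_zero] at this
    linarith
  have ht01 : t0 ≠ 1 := by
    rintro rfl
    have := ht0.2
    rw [h1, norm_zero] at this
    linarith
  have hio : t0 ∈ Set.Ioo (0:ℝ) 1 :=
    ⟨lt_of_le_of_ne ht0.1.1 (Ne.symm ht00), lt_of_le_of_ne ht0.1.2 ht01⟩
  obtain ⟨e0, he0, hmid⟩ := hm t0 hio
  set e := min (e0 / 2) (min t0 (1 - t0)) with he
  have hepos : 0 < e := lt_min (by linarith) (lt_min hio.1 (by linarith [hio.2]))
  have hee0 : e < e0 := lt_of_le_of_lt (min_le_left _ _) (by linarith)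
  have het : e ≤ t0 := (min_le_right _ _).trans (min_le_left _ _)
  have het1 : e ≤ 1 - t0 := (min_le_right _ _).trans (min_le_right _ _)
  have h2 := hmid e hepos hee0
  have h3 : ‖φ t0‖ ≤ (‖φ (t0 - e)‖ + ‖φ (t0 + e)‖) / 2 := by
    rw [h2, norm_smul]
    have := norm_add_le (φ (t0 - e)) (φ (t0 + e))
    rw [Real.norm_eq_abs, abs_of_pos (by norm_num : (0:ℝ) < 1 / 2)]
    linarith
  have h4 : ‖φ (t0 + e)‖ ≤ M := hle _ ⟨by linarith [hio.1], by linarith⟩
  have h5 : M ≤ ‖φ (t0 - e)‖ := by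
    have := ht0.2
    linarith
  have h6 : t0 - e ∈ {t | t ∈ Set.Icc (0:ℝ) 1 ∧ M ≤ ‖φ t‖} :=
    ⟨⟨by linarith, by linarith [hio.2]⟩, h5⟩
  have h7 := hleast h6
  linarith

/-- affinity between relative interior points -/
theorem affine_RB [FiniteDimensional ℝ X] [FiniteDimensional ℝ Y] {C : Set X} {C' : Set Y}
    (hC : Convex ℝ C) (hC' : Convex ℝ C') {f : X → Y} (h : IsoC C C' f) {p q : X} {r : ℝ}
    (hp : RB C p r) (hq : RB C q r) {t : ℝ} (ht : t ∈ Set.Icc (0:ℝ) 1) :
    f ((1 - t) • p + t • q) = (1 - t) • f p + t • f q := by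
  obtain ⟨x, ρ, hx, hx'⟩ := exists_good hC hC' h ⟨p, hp.2.1⟩
  have hmem : ∀ t ∈ Set.Icc (0:ℝ) 1, (1 - t) • p + t • q ∈ C := fun t ht =>
    (RB_convex hC hp hq ht).2.1
  have hcomb : ∀ s t : ℝ, ((1 - s) • p + s • q) - ((1 - t) • p + t • q) = (s - t) • (q - p) := by
    intro s t; module
  have hpath : ∀ s t : ℝ, dist ((1 - s) • p + s • q) ((1 - t) • p + t • q) =
      |s - t| * ‖q - p‖ := by
    intro s t
    rw [dist_eq_norm, hcomb, norm_smul, Real.norm_eq_abs]
  have key := path_zero (fun t => f ((1 - t) • p + t • q) - ((1 - t) • f p + t • f q))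
    (by
      apply ContinuousOn.sub
      · rw [Metric.continuousOn_iff]
        intro s hs ε hε
        refine ⟨ε / (‖q - p‖ + 1), by positivity, fun u hu hd => ?_⟩
        rw [h.dist (hmem u hu) (hmem s hs), hpath]
        rw [Real.dist_eq, lt_div_iff₀ (by positivity)] at hd
        have : |u - s| * ‖q - p‖ ≤ |u - s| * (‖q - p‖ + 1) := by gcongr; linarith
        linarith
      · fun_prop)
    (by simp) (by simp)
    (by
      intro s hs
      have hsI : s ∈ Set.Icc (0:ℝ) 1 := ⟨hs.1.le, hs.2.le⟩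
      have hm := RB_convex hC hp hq hsI
      obtain ⟨r', hr'⟩ := propagate h hm hx hx'
      set ρ' := min r r' with hρ'
      have hρ0 : 0 < ρ' := lt_min hp.1 hr'.1
      refine ⟨min (min s (1 - s)) (ρ' / (4 * (‖q - p‖ + 1))), ?_, ?_⟩
      · exact lt_min (lt_min hs.1 (by linarith [hs.2])) (by positivity)
      intro e he0 he
      have hes : e < s := lt_of_lt_of_le he ((min_le_left _ _).trans (min_le_left _ _))
      have hes1 : e < 1 - s := lt_of_lt_of_le he ((min_le_left _ _).trans (min_le_right _ _))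
      have hed : e * ‖q - p‖ < ρ' / 4 := by
        have h1 : e < ρ' / (4 * (‖q - p‖ + 1)) := lt_of_lt_of_le he (min_le_right _ _)
        rw [lt_div_iff₀ (by positivity)] at h1
        have : 0 ≤ ‖q - p‖ := norm_nonneg _
        nlinarith
      have ha : s - e ∈ Set.Icc (0:ℝ) 1 := ⟨by linarith, by linarith [hs.2]⟩
      have hb : s + e ∈ Set.Icc (0:ℝ) 1 := ⟨by linarith [hs.1], by linarith⟩
      have hda : dist ((1 - (s - e)) • p + (s - e) • q) ((1 - s) • p + s • q) ≤ ρ' / 4 := by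
        rw [hpath, show s - e - s = -e by ring, abs_neg, abs_of_pos he0]
        exact hed.le
      have hab : dist ((1 - (s - e)) • p + (s - e) • q) ((1 - (s + e)) • p + (s + e) • q) <
          ρ' / 2 := by
        rw [hpath, show s - e - (s + e) = -(2 * e) by ring, abs_neg,
          abs_of_pos (by linarith : 0 < 2 * e)]
        linarith
      have hRa : RB C ((1 - (s - e)) • p + (s - e) • q) (ρ' / 2) :=
        RB_mono (RB_convex hC hp hq ha) (by linarith) (by linarith [min_le_left r r'])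
      have hRa' : RB C' (f ((1 - (s - e)) • p + (s - e) • q)) (ρ' / 2) := by
        have h1 := RB_near hr' (h.mem (hmem _ ha)) (δ := ρ' / 4) (by
          rw [h.dist (hmem _ ha) (hmem _ hsI)]; exact hda) (by linarith [min_le_right r r'])
        exact RB_mono h1 (by linarith) (by linarith [min_le_right r r'])
      have hmid := map_midpoint_local h hRa hRa' (hmem _ hb) hab
      have e1 : midpoint ℝ ((1 - (s - e)) • p + (s - e) • q) ((1 - (s + e)) • p + (s + e) • q) =
          (1 - s) • p + s • q := by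
        rw [midpoint_eq_smul_add, invOf_eq_inv]
        module
      rw [e1, midpoint_eq_smul_add, invOf_eq_inv] at hmid
      rw [hmid]
      module)
  exact sub_eq_zero.mp (key t ht)

/-- a surjective isometry between convex sets of finite-dimensional spaces is affine -/
theorem face_affine [FiniteDimensional ℝ X] [FiniteDimensional ℝ Y] {C : Set X} {C' : Set Y}
    (hC : Convex ℝ C) (hC' : Convex ℝ C') {f : X → Y}
    (hf : ∀ x ∈ C, ∀ y ∈ C, ‖f x - f y‖ = ‖x - y‖) (him : f '' C = C') :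
    ∀ x ∈ C, ∀ y ∈ C, ∀ t ∈ Set.Icc (0 : ℝ) 1,
      f ((1 - t) • x + t • y) = (1 - t) • f x + t • f y := by
  intro x hx y hy t ht
  have h : IsoC C C' f := ⟨hf, him⟩
  obtain ⟨z, r, hz⟩ := exists_RB hC ⟨x, hx⟩
  have hm : (1 - t) • x + t • y ∈ C := hC hx hy (by linarith [ht.2]) ht.1 (by ring)
  set m := (1 - t) • x + t • y with hmdef
  set D := ‖z - m‖ + ‖z - x‖ + ‖z - y‖ with hD
  have hD0 : 0 ≤ D := by positivity
  have hbound : ∀ s : ℝ, 0 < s → s ≤ 1 → ‖f m - ((1 - t) • f x + t • f y)‖ ≤ s * D := by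
    intro s hs0 hs1
    have hxs := RB_comb hC hx hz hs0 hs1
    have hys := RB_comb hC hy hz hs0 hs1
    have hms := RB_comb hC hm hz hs0 hs1
    have h1 := affine_RB hC hC' h hxs hys ht
    have e1 : (1 - t) • ((1 - s) • x + s • z) + t • ((1 - s) • y + s • z) =
        (1 - s) • m + s • z := by rw [hmdef]; module
    rw [e1] at h1
    have d1 : ∀ a ∈ C, ‖f ((1 - s) • a + s • z) - f a‖ ≤ s * ‖z - a‖ := by
      intro a ha
      rw [h.iso _ (RB_comb hC ha hz hs0 hs1).2.1 _ ha]
      have : (1 - s) • a + s • z - a = s • (z - a) := by module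
      rw [this, norm_smul, Real.norm_eq_abs, abs_of_pos hs0]
    have e2 : f m - ((1 - t) • f x + t • f y) =
        -(f ((1 - s) • m + s • z) - f m) +
        ((1 - t) • (f ((1 - s) • x + s • z) - f x) + t • (f ((1 - s) • y + s • z) - f y)) := by
      rw [h1]; module
    rw [e2]
    have n1 : ‖(1 - t) • (f ((1 - s) • x + s • z) - f x)‖ ≤ s * ‖z - x‖ := by
      rw [norm_smul, Real.norm_eq_abs, abs_of_nonneg (by linarith [ht.2])]
      have := d1 x hx
      have h3 : (1 - t) * ‖f ((1 - s) • x + s • z) - f x‖ ≤ 1 * ‖f ((1 - s) • x + s • z) - f x‖ := by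
        apply mul_le_mul_of_nonneg_right _ (norm_nonneg _)
        linarith [ht.1]
      linarith
    have n2 : ‖t • (f ((1 - s) • y + s • z) - f y)‖ ≤ s * ‖z - y‖ := by
      rw [norm_smul, Real.norm_eq_abs, abs_of_nonneg ht.1]
      have := d1 y hy
      have h3 : t * ‖f ((1 - s) • y + s • z) - f y‖ ≤ 1 * ‖f ((1 - s) • y + s • z) - f y‖ := by
        apply mul_le_mul_of_nonneg_right _ (norm_nonneg _)
        exact ht.2
      linarith
    have n3 : ‖-(f ((1 - s) • m + s • z) - f m)‖ ≤ s * ‖z - m‖ := by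
      rw [norm_neg]; exact d1 m hm
    refine (norm_add_le _ _).trans ?_
    have n4 := norm_add_le ((1 - t) • (f ((1 - s) • x + s • z) - f x))
      (t • (f ((1 - s) • y + s • z) - f y))
    rw [hD]
    nlinarith
  have hzero : ‖f m - ((1 - t) • f x + t • f y)‖ ≤ 0 := by
    by_contra hcon
    push Not at hcon
    set N := ‖f m - ((1 - t) • f x + t • f y)‖ with hN
    have h1 := hbound (min 1 (N / (2 * (D + 1)))) (lt_min one_pos (by positivity))
      (min_le_left _ _)
    have h2 : min 1 (N / (2 * (D + 1))) * D ≤ N / (2 * (D + 1)) * (D + 1) := by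
      apply mul_le_mul (min_le_right _ _) (by linarith) hD0 (by positivity)
    have h3 : N / (2 * (D + 1)) * (D + 1) = N / 2 := by field_simp
    linarith
  exact sub_eq_zero.mp (norm_le_zero_iff.mp hzero)

end Vale.P084
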