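import Mathlib
import Vale.Agent.P084.SphIso
import Vale.Agent.P084.Mank

/-!
# P084, module M1: maximal faces
-/

namespace Vale.P084

open Metric Filter Topology Pointwise

variable {X Y : Type*} [NormedAddCommGroup X] [NormedSpace ℝ X]
  [NormedAddCommGroup Y] [NormedSpace ℝ Y]

/-- `C` is a maximal face of the unit ball: it is minimal among the sets of points at distance 2
from a given point -/
def MaxFace (C : Set X) : Prop :=
  ∃ w : X, ‖w‖ = 1 ∧ C = {u | ‖u‖ = 1 ∧ ‖u - w‖ = 2} ∧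
    ∀ w' : X, ‖w'‖ = 1 → (∀ u, ‖u‖ = 1 → ‖u - w'‖ = 2 → ‖u - w‖ = 2) →
        ∀ u, ‖u‖ = 1 → ‖u - w‖ = 2 → ‖u - w'‖ = 2

/-- a maximal face is a face with a point in its relative interior -/
lemma MaxFace.exists_face [FiniteDimensional ℝ X] {C : Set X} (hC : MaxFace C) :
    ∃ (z : X) (α : X →L[ℝ] ℝ), ‖z‖ = 1 ∧ ‖α‖ ≤ 1 ∧ α z = 1 ∧ C = {u | ‖u‖ = 1 ∧ α u = 1} ∧
      ∀ u, ‖u‖ = 1 → (‖u + z‖ = 2 ↔ α u = 1) := by
  obtain ⟨w, hw, hCw, hmin⟩ := hC
  have hww : ‖-w + -w‖ = 2 := by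
    have : -w + -w = -((2 : ℝ) • w) := by module
    rw [this, norm_neg, norm_smul, hw]; norm_num
  obtain ⟨z, α, hz, hα, hαw, -, hαz, hiff⟩ :=
    star_key (x := -w) (y := -w) (by rwa [norm_neg]) (by rwa [norm_neg]) hww
  have hαw' : α w = -1 := by rw [map_neg] at hαw; linarith
  have h1 : ∀ u, ‖u‖ = 1 → α u = 1 → ‖u - w‖ = 2 := by
    intro u hu hαu
    apply le_antisymm
    · calc ‖u - w‖ ≤ ‖u‖ + ‖w‖ := norm_sub_le _ _
        _ = 2 := by rw [hu, hw]; norm_num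
    · have := apply_le_of_norm_le_one hα (u - w)
      rw [map_sub, hαu, hαw'] at this
      linarith
  have h2 := hmin (-z) (by rwa [norm_neg]) (by
    intro u hu huz
    rw [sub_neg_eq_add] at huz
    exact h1 u hu ((hiff u hu).1 huz))
  refine ⟨z, α, hz, hα, hαz, ?_, hiff⟩
  rw [hCw]
  ext u
  constructor
  · rintro ⟨hu, huw⟩
    refine ⟨hu, (hiff u hu).1 ?_⟩
    have := h2 u hu huw
    rwa [sub_neg_eq_add] at this
  · rintro ⟨hu, hαu⟩
    exact ⟨hu, h1 u hu hαu⟩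

lemma exists_maxFace [FiniteDimensional ℝ X] {x y : X} (hx : ‖x‖ = 1) (hy : ‖y‖ = 1)
    (hxy : ‖x + y‖ = 2) : ∃ C : Set X, MaxFace C ∧ x ∈ C ∧ y ∈ C := by
  obtain ⟨z, α, hz, hα, hαx, hαy, hαz, hiff⟩ := star_key hx hy hxy
  refine ⟨{u | ‖u‖ = 1 ∧ ‖u - -z‖ = 2}, ⟨-z, by rwa [norm_neg], rfl, ?_⟩, ?_, ?_⟩
  · intro w' hw' hsub u hu huz
    rw [sub_neg_eq_add] at huz
    have hαu := (hiff u hu).1 huz
    have h1 : ‖-w' - w'‖ = 2 := by
      have : -w' - w' = -((2 : ℝ) • w') := by module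
      rw [this, norm_neg, norm_smul, hw']; norm_num
    have h2 := hsub (-w') (by rwa [norm_neg]) h1
    rw [sub_neg_eq_add] at h2
    have h3 := (hiff (-w') (by rwa [norm_neg])).1 h2
    rw [map_neg] at h3
    apply le_antisymm
    · calc ‖u - w'‖ ≤ ‖u‖ + ‖w'‖ := norm_sub_le _ _
        _ = 2 := by rw [hu, hw']; norm_num
    · have := apply_le_of_norm_le_one hα (u - w')
      rw [map_sub, hαu] at this
      linarith
  · exact ⟨hx, by rw [sub_neg_eq_add]; exact (hiff x hx).2 hαx⟩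
  · exact ⟨hy, by rw [sub_neg_eq_add]; exact (hiff y hy).2 hαy⟩

lemma MaxFace.nonempty [FiniteDimensional ℝ X] {C : Set X} (hC : MaxFace C) : C.Nonempty := by
  obtain ⟨z, α, hz, hα, hαz, hCα, -⟩ := hC.exists_face
  exact ⟨z, by rw [hCα]; exact ⟨hz, hαz⟩⟩

lemma MaxFace.convex [FiniteDimensional ℝ X] {C : Set X} (hC : MaxFace C) : Convex ℝ C := by
  obtain ⟨z, α, hz, hα, hαz, hCα, -⟩ := hC.exists_face
  rw [hCα]
  intro u hu w hw a b ha hb hab
  have h1 : α (a • u + b • w) = 1 := by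
    rw [map_add, map_smul, map_smul, hu.2, hw.2, smul_eq_mul, smul_eq_mul, mul_one, mul_one, hab]
  refine ⟨le_antisymm ?_ ?_, h1⟩
  · calc ‖a • u + b • w‖ ≤ ‖a • u‖ + ‖b • w‖ := norm_add_le _ _
      _ = 1 := by
        rw [norm_smul, norm_smul, hu.1, hw.1, Real.norm_of_nonneg ha, Real.norm_of_nonneg hb,
          mul_one, mul_one, hab]
  · have := apply_le_of_norm_le_one hα (a • u + b • w)
    rwa [h1] at this

/-- maximality -/
lemma MaxFace.eq_of_subset [FiniteDimensional ℝ X] {C : Set X} (hC : MaxFace C)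
    {β : X →L[ℝ] ℝ} (hβ : ‖β‖ ≤ 1) (h : C ⊆ {u | ‖u‖ = 1 ∧ β u = 1}) :
    C = {u | ‖u‖ = 1 ∧ β u = 1} := by
  obtain ⟨z, α, hz, hα, hαz, hCα, hiff⟩ := hC.exists_face
  refine Set.Subset.antisymm h ?_
  rintro u ⟨hu, hβu⟩
  have hzC : z ∈ C := by rw [hCα]; exact ⟨hz, hαz⟩
  have hβz := (h hzC).2
  rw [hCα]
  refine ⟨hu, (hiff u hu).1 (le_antisymm ?_ ?_)⟩
  · calc ‖u + z‖ ≤ ‖u‖ + ‖z‖ := norm_add_le _ _
      _ = 2 := by rw [hu, hz]; norm_num
  · have := apply_le_of_norm_le_one hβ (u + z)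
    rw [map_add, hβu, hβz] at this
    linarith

lemma MaxFace.neg {C : Set X} (hC : MaxFace C) : MaxFace (-C) := by
  obtain ⟨w, hw, hCw, hmin⟩ := hC
  refine ⟨-w, by rwa [norm_neg], ?_, ?_⟩
  · ext u
    rw [Set.mem_neg, hCw]
    simp only [Set.mem_setOf_eq, norm_neg]
    have : ‖-u - w‖ = ‖u - -w‖ := by rw [← norm_neg]; congr 1; abel
    rw [this]
  · intro w' hw' hsub u hu huw
    have h1 := hmin (-w') (by rwa [norm_neg]) (by
      intro v hv hvw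
      have h2 := hsub (-v) (by rwa [norm_neg]) (by
        have : ‖-v - w'‖ = ‖v - -w'‖ := by rw [← norm_neg]; congr 1; abel
        rw [this]; exact hvw)
      have : ‖-v - -w‖ = ‖v - w‖ := by rw [← norm_neg]; congr 1; abel
      rwa [this] at h2) (-u) (by rwa [norm_neg]) (by
        have : ‖-u - w‖ = ‖u - -w‖ := by rw [← norm_neg]; congr 1; abel
        rw [this]; exact huw)
    have : ‖-u - -w'‖ = ‖u - w'‖ := by rw [← norm_neg]; congr 1; abel
    rwa [this] at h1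

lemma MaxFace.image [FiniteDimensional ℝ X] [FiniteDimensional ℝ Y] {f : X → Y} (hf : SphIso f)
    {C : Set X} (hC : MaxFace C) : MaxFace (f '' C) := by
  obtain ⟨w, hw, hCw, hmin⟩ := hC
  refine ⟨f w, hf.norm w hw, ?_, ?_⟩
  · ext u'
    rw [hCw]
    constructor
    · rintro ⟨u, ⟨hu, huw⟩, rfl⟩
      exact ⟨hf.norm u hu, by rw [hf.dist u w hu hw, huw]⟩
    · rintro ⟨hu', huw'⟩
      obtain ⟨u, hu, rfl⟩ := hf.surj u' hu'
      rw [hf.dist u w hu hw] at huw'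
      exact ⟨u, ⟨hu, huw'⟩, rfl⟩
  · intro w' hw' hsub u' hu' huw'
    obtain ⟨v, hv, rfl⟩ := hf.surj w' hw'
    obtain ⟨u, hu, rfl⟩ := hf.surj u' hu'
    rw [hf.dist u v hu hv]
    rw [hf.dist u w hu hw] at huw'
    refine hmin v hv ?_ u hu huw'
    intro a ha hav
    have h1 := hsub (f a) (hf.norm a ha) (by rw [hf.dist a v ha hv, hav])
    rwa [hf.dist a w ha hw] at h1

lemma MaxFace.image_neg [FiniteDimensional ℝ X] [FiniteDimensional ℝ Y] {f : X → Y}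
    (hf : SphIso f) {C : Set X} (hC : MaxFace C) : f '' (-C) = -(f '' C) := by
  obtain ⟨z, α, hz, hα, hαz, hCα, hiff⟩ := hC.exists_face
  have hmemC : ∀ u, u ∈ C ↔ ‖u‖ = 1 ∧ ‖u + z‖ = 2 := by
    intro u
    rw [hCα]
    constructor
    · rintro ⟨hu, hαu⟩; exact ⟨hu, (hiff u hu).2 hαu⟩
    · rintro ⟨hu, huz⟩; exact ⟨hu, (hiff u hu).1 huz⟩
  ext u'
  rw [Set.mem_neg]
  constructor
  · rintro ⟨u, hu, rfl⟩
    rw [Set.mem_neg, hmemC, norm_neg] at hu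
    have h1 : ‖f u - f z‖ = 2 := by
      rw [hf.dist u z hu.1 hz, ← hu.2, ← norm_neg]; congr 1; abel
    obtain ⟨v, hv, hvu⟩ := hf.surj (-f u) (by rw [norm_neg, hf.norm u hu.1])
    refine ⟨v, ?_, hvu⟩
    rw [hmemC]
    refine ⟨hv, (hf.star v z hv hz).1 ?_⟩
    rw [hvu, ← h1, ← norm_neg]; congr 1; abel
  · rintro ⟨v, hv, hvu⟩
    rw [hmemC] at hv
    have hfv : ‖f v + f z‖ = 2 := (hf.star v z hv.1 hz).2 hv.2
    have hu'1 : ‖u'‖ = 1 := by rw [← norm_neg, ← hvu, hf.norm v hv.1]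
    obtain ⟨u, hu, rfl⟩ := hf.surj u' hu'1
    refine ⟨u, ?_, rfl⟩
    rw [Set.mem_neg, hmemC, norm_neg]
    refine ⟨hu, ?_⟩
    have h1 : ‖f u - f z‖ = 2 := by
      rw [hvu] at hfv
      rw [← hfv, ← norm_neg]; congr 1; abel
    rw [hf.dist u z hu hz] at h1
    rw [← h1, ← norm_neg]; congr 1; abel

/-- `f` is affine on maximal faces (from `face_affine`) -/
lemma MaxFace.affine [FiniteDimensional ℝ X] [FiniteDimensional ℝ Y] {f : X → Y} (hf : SphIso f)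
    {C : Set X} (hC : MaxFace C) {x y : X} (hx : x ∈ C) (hy : y ∈ C) {t : ℝ}
    (ht : t ∈ Set.Icc (0 : ℝ) 1) : f ((1 - t) • x + t • y) = (1 - t) • f x + t • f y := by
  obtain ⟨z, α, hz, hα, hαz, hCα, hiff⟩ := hC.exists_face
  have hn : ∀ u ∈ C, ‖u‖ = 1 := fun u hu => by rw [hCα] at hu; exact hu.1
  exact face_affine hC.convex (hC.image hf).convex
    (fun u hu v hv => hf.dist u v (hn u hu) (hn v hv)) rfl x hx y hy t ht

end Vale.P084
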