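import Vale.Agent.P084.Second

/-!
# P084: Tingley's problem for smooth rotund spaces of dimension at least three
-/

namespace Vale.P084

open Metric Filter Topology

variable {X Y : Type*} [NormedAddCommGroup X] [NormedSpace ℝ X] [FiniteDimensional ℝ X]
  [NormedAddCommGroup Y] [NormedSpace ℝ Y] [FiniteDimensional ℝ Y]

omit [FiniteDimensional ℝ X] in
lemma not_mem_span_of_tan (h : SmoothRotund X) {x : X} (hx : x ≠ 0) {t : X} (ht : nm x t = 0)
    (ht0 : t ≠ 0) : t ∉ Submodule.span ℝ {x} := by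
  intro hmem
  obtain ⟨c, rfl⟩ := Submodule.mem_span_singleton.1 hmem
  rw [map_smul, h.nm_self hx, smul_eq_mul] at ht
  rcases mul_eq_zero.1 ht with h1 | h1
  · exact ht0 (by rw [h1, zero_smul])
  · exact hx (norm_eq_zero.1 h1)

/-- In dimension at least three, a hyperplane is not contained in a line. -/
lemma exists_ker_not_span (hdim : 3 ≤ Module.finrank ℝ X) (ℓ : X →L[ℝ] ℝ) (x : X) :
    ∃ v, ℓ v = 0 ∧ v ∉ Submodule.span ℝ {x} := by
  by_contra hcon
  push Not at hcon
  have h1 : LinearMap.ker (ℓ : X →ₗ[ℝ] ℝ) ≤ Submodule.span ℝ {x} := fun v hv => hcon v hv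
  have h2 := Submodule.finrank_mono h1
  have h3 : Module.finrank ℝ (Submodule.span ℝ {x}) ≤ 1 :=
    (finrank_span_le_card ({x} : Set X)).trans (by simp)
  have h4 := LinearMap.finrank_range_add_finrank_ker (ℓ : X →ₗ[ℝ] ℝ)
  have h5 : Module.finrank ℝ (LinearMap.range (ℓ : X →ₗ[ℝ] ℝ)) ≤ 1 := by
    have := Submodule.finrank_le (LinearMap.range (ℓ : X →ₗ[ℝ] ℝ))
    simpa using this
  omega

omit [FiniteDimensional ℝ X] [FiniteDimensional ℝ Y] in
lemma hasFDerivAt_flip_apply {A : X → X →L[ℝ] X →L[ℝ] Y}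
    {A' : X →L[ℝ] X →L[ℝ] X →L[ℝ] Y} {x : X} (h : HasFDerivAt A A' x) (v : X) :
    ∃ B : X →L[ℝ] X →L[ℝ] Y, (∀ u w, B u w = A' u w v) ∧
      HasFDerivAt (fun y => (A y).flip v) B x := by
  have h1 := (hasFDerivAt_const (ContinuousLinearMap.apply ℝ Y v) x).clm_comp h
  refine ⟨_, ?_, h1⟩
  intro u w
  simp

namespace Dat

variable {φ : X → Y} (d : Dat φ)
include d

/-- (D8) the second derivative is a multiple of the second fundamental form -/
lemma exists_k (hdim : 3 ≤ Module.finrank ℝ X) {x : X} (hx : x ≠ 0) :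
    ∃ k : Y, ∀ u v, G φ x u v = hs x u v • k := by
  obtain ⟨e, hne, hes⟩ := exists_ker_not_span hdim (nm x) x
  have he0 : e ≠ 0 := by rintro rfl; exact hes (Submodule.zero_mem _)
  set a := hs x e e with ha
  have hapos : 0 < a := d.hX.hs_pos hx hes
  refine ⟨a⁻¹ • G φ x e e, ?_⟩
  set k : Y := a⁻¹ • G φ x e e with hk
  have hek : G φ x e e = a • k := by
    rw [hk, smul_smul, mul_inv_cancel₀ hapos.ne', one_smul]
  -- diagonal on the conjugate complement
  have h1 : ∀ v, nm x v = 0 → hs x e v = 0 → G φ x v v = hs x v v • k := by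
    intro v hv hev
    by_cases hv0 : v = 0
    · subst hv0; simp
    have hb : 0 < hs x v v := d.hX.hs_pos hx (not_mem_span_of_tan d.hX hx hv hv0)
    set b := hs x v v with hbdef
    have hve : hs x v e = 0 := by rw [d.hX.hs_symm hx]; exact hev
    have h2 : G φ x (√b • e + √a • v) (√b • e - √a • v) = 0 := by
      apply d.G_conj hx
      · rw [map_add, map_smul, map_smul, hne, hv]; simp
      · rw [map_sub, map_smul, map_smul, hne, hv]; simp
      · simp only [map_add, map_sub, map_smul, add_apply, smul_apply, smul_eq_mul, hev, hve,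
          ← ha, ← hbdef]
        have e1 := Real.mul_self_sqrt hapos.le
        have e2 := Real.mul_self_sqrt hb.le
        linear_combination (-b) * e1 + a * e2
    have h3 : G φ x e v = 0 := d.G_conj hx hne hv hev
    have h4 : G φ x v e = 0 := d.G_conj hx hv hne hve
    simp only [map_add, map_sub, map_smul, add_apply, smul_apply, h3, h4, smul_zero, add_zero,
      smul_add, smul_smul] at h2
    rw [Real.mul_self_sqrt hapos.le, Real.mul_self_sqrt hb.le, hek, smul_smul] at h2
    have h5 : a • G φ x v v = (b * a) • k := by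
      have : (b * a) • k - a • G φ x v v = 0 := by
        rw [← h2]; abel
      exact (sub_eq_zero.1 this).symm
    have h6 : a • G φ x v v = a • (b • k) := by rw [h5]; module
    exact smul_right_injective Y hapos.ne' h6
  -- diagonal on tangent vectors
  have h2 : ∀ v, nm x v = 0 → G φ x v v = hs x v v • k := by
    intro v hv
    set c := hs x e v / a with hc
    set w := v - c • e with hw
    have hwt : nm x w = 0 := by rw [hw, map_sub, map_smul, hv, hne]; simp
    have hew : hs x e w = 0 := by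
      rw [hw, map_sub, map_smul, smul_eq_mul, hc, ← ha]; field_simp; ring
    have hwe : hs x w e = 0 := by rw [d.hX.hs_symm hx]; exact hew
    have hvdec : v = c • e + w := by rw [hw]; abel
    have h3 : G φ x e w = 0 := d.G_conj hx hne hwt hew
    have h4 : G φ x w e = 0 := d.G_conj hx hwt hne hwe
    rw [hvdec]
    simp only [map_add, map_smul, add_apply, smul_apply, h3, h4, hew, hwe, smul_zero, add_zero,
      zero_add, smul_eq_mul, mul_zero, ← ha]
    rw [h1 w hwt hew, hek]
    module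
  -- diagonal everywhere
  have h3 : ∀ v, G φ x v v = hs x v v • k := by
    intro v
    set c := nm x v / ‖x‖ with hc
    set w := v - c • x with hw
    have hwt : nm x w = 0 := by
      rw [hw, map_sub, map_smul, d.hX.nm_self hx, smul_eq_mul, hc]
      have : ‖x‖ ≠ 0 := norm_ne_zero_iff.2 hx
      field_simp; ring
    have hvdec : v = c • x + w := by rw [hw]; abel
    have h4 := h2 w hwt
    rw [hvdec]
    simp only [map_add, map_smul, add_apply, smul_apply, d.G_self hx, d.G_self' hx,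
      d.hX.hs_self_left hx, d.hX.hs_self_right hx, smul_zero, zero_add]
    exact h4
  intro u v
  have e1 := h3 (u + v)
  simp only [map_add, add_apply] at e1
  rw [h3 u, h3 v, d.G_symm hx v u, d.hX.hs_symm hx v u] at e1
  have e2 : (2 : ℝ) • G φ x u v = (2 : ℝ) • (hs x u v • k) := by
    have : hs x u u • k + G φ x u v + (G φ x u v + hs x v v • k) =
      (hs x u u + hs x u v + (hs x u v + hs x v v)) • k := by
        rw [← e1]
    have h5 : (2 : ℝ) • G φ x u v =
        (hs x u u • k + G φ x u v + (G φ x u v + hs x v v • k)) - hs x u u • k - hs x v v • k := by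
      module
    rw [h5, this]
    module
  exact smul_right_injective Y (two_ne_zero) e2

/-- symmetry of the third derivative of `φ` -/
lemma third_symm {x : X} (hx : x ≠ 0) (u w v : X) :
    fderiv ℝ (G φ) x u w v = fderiv ℝ (G φ) x w u v := by
  have hG3 : HasFDerivAt (G φ) (fderiv ℝ (G φ) x) x :=
    ((d.cdG hx).differentiableAt (by norm_num)).hasFDerivAt
  have h1 : ∀ᶠ y in 𝓝 x, HasFDerivAt (fun z => F φ z v) ((G φ y).flip v) y := by
    filter_upwards [isOpen_compl_singleton.mem_nhds hx] with y hy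
    exact hasFDerivAt_apply (d.hG hy) v
  obtain ⟨B, hB, h2⟩ := hasFDerivAt_flip_apply hG3 v
  have := second_derivative_symmetric_of_eventually h1 h2 u w
  rwa [hB, hB] at this

end Dat

omit [FiniteDimensional ℝ X] in
/-- symmetry of the third derivative of the norm -/
lemma SmoothRotund.third_symm (h : SmoothRotund X) {x : X} (hx : x ≠ 0) (u w v : X) :
    fderiv ℝ (hs (E := X)) x u w v = fderiv ℝ (hs (E := X)) x w u v := by
  have hG3 : HasFDerivAt (hs (E := X)) (fderiv ℝ (hs (E := X)) x) x :=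
    ((h.contDiffAt_hs hx).differentiableAt (by norm_num)).hasFDerivAt
  have h1 : ∀ᶠ y in 𝓝 x, HasFDerivAt (fun z => nm z v) ((hs y).flip v) y := by
    filter_upwards [isOpen_compl_singleton.mem_nhds hx] with y hy
    exact hasFDerivAt_apply (h.hasFDerivAt_nm hy) v
  obtain ⟨B, hB, h2⟩ := hasFDerivAt_flip_apply hG3 v
  have := second_derivative_symmetric_of_eventually h1 h2 u w
  rwa [hB, hB] at this

namespace Dat

variable {φ : X → Y} (d : Dat φ)
include d

/-- (D9) the factor `k` is constant -/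
lemma exists_const_k (hdim : 3 ≤ Module.finrank ℝ X) :
    ∃ k : Y, ∀ x, x ≠ 0 → ∀ u v, G φ x u v = hs x u v • k := by
  classical
  choose! K hK using fun (x : X) (hx : x ≠ 0) => d.exists_k hdim hx
  have hder : ∀ x, x ≠ 0 → HasFDerivAt K (0 : X →L[ℝ] Y) x := by
    intro x hx
    have hG3 : HasFDerivAt (G φ) (fderiv ℝ (G φ) x) x :=
      ((d.cdG hx).differentiableAt (by norm_num)).hasFDerivAt
    have hH3 : HasFDerivAt (hs (E := X)) (fderiv ℝ (hs (E := X)) x) x :=
      ((d.hX.contDiffAt_hs hx).differentiableAt (by norm_num)).hasFDerivAt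
    obtain ⟨e, -, hes⟩ := exists_ker_not_span hdim (nm x) x
    have hee : 0 < hs x e e := d.hX.hs_pos hx hes
    -- scalar and vector coefficient functions
    have hg : ∀ u v : X, HasFDerivAt (fun z => G φ z u v)
        (((fderiv ℝ (G φ) x).flip u).flip v) x := fun u v =>
      hasFDerivAt_apply (hasFDerivAt_apply hG3 u) v
    have hh : ∀ u v : X, HasFDerivAt (fun z => hs z u v)
        (((fderiv ℝ (hs (E := X)) x).flip u).flip v) x := fun u v =>
      hasFDerivAt_apply (hasFDerivAt_apply hH3 u) v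
    have hKdiff : DifferentiableAt ℝ K x := by
      have h1 : DifferentiableAt ℝ (fun z => (hs z e e)⁻¹ • G φ z e e) x :=
        ((hh e e).differentiableAt.inv hee.ne').smul (hg e e).differentiableAt
      refine h1.congr_of_eventuallyEq ?_
      have h2 : ∀ᶠ z in 𝓝 x, hs z e e ≠ 0 := (hh e e).continuousAt.eventually_ne hee.ne'
      filter_upwards [h2, isOpen_compl_singleton.mem_nhds hx] with z hz hz0
      rw [hK z hz0, smul_smul, inv_mul_cancel₀ hz, one_smul]
    obtain ⟨K', hK'⟩ : ∃ K' : X →L[ℝ] Y, HasFDerivAt K K' x := ⟨_, hKdiff.hasFDerivAt⟩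
    have hid : ∀ u v w : X, fderiv ℝ (G φ) x w u v =
        hs x u v • K' w + fderiv ℝ (hs (E := X)) x w u v • K x := by
      intro u v w
      have h1 := (hh u v).smul hK'
      have hev : (fun z => hs z u v • K z) =ᶠ[𝓝 x] fun z => G φ z u v := by
        filter_upwards [isOpen_compl_singleton.mem_nhds hx] with z hz0
        exact (hK z hz0 u v).symm
      have h2 := (hg u v).unique (h1.congr_of_eventuallyEq hev.symm)
      have h3 := congrArg (fun L : X →L[ℝ] Y => L w) h2
      simpa using h3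
    have hK0 : K' = 0 := by
      ext w
      obtain ⟨v, hwv, hvs⟩ := exists_ker_not_span hdim (hs x w) x
      have e1 := hid v v w
      have e2 := hid w v v
      rw [d.third_symm hx w v v, d.hX.third_symm hx w v v, e2, hwv, zero_smul, zero_add] at e1
      have e3 : hs x v v • K' w = 0 := by
        have := sub_eq_zero.2 e1
        have h4 : hs x v v • K' w = -(fderiv ℝ (hs (E := X)) x v w v • K x -
          (hs x v v • K' w + fderiv ℝ (hs (E := X)) x v w v • K x)) := by abel
        rw [h4, this, neg_zero]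
      rcases smul_eq_zero.1 e3 with h5 | h5
      · exact absurd h5 (d.hX.hs_pos hx hvs).ne'
      · rw [h5]; rfl
    rwa [hK0] at hK'
  have hrank : 1 < Module.rank ℝ X := by
    rw [← Module.finrank_eq_rank]
    exact_mod_cast (by omega : 1 < Module.finrank ℝ X)
  have hconn : IsPreconnected ({0}ᶜ : Set X) :=
    (isConnected_compl_singleton_of_one_lt_rank hrank 0).isPreconnected
  have hconst : ∀ x y : X, x ≠ 0 → y ≠ 0 → K x = K y := by
    intro x y hx hy
    refine isOpen_compl_singleton.is_const_of_fderiv_eq_zero (𝕜 := ℝ) hconn ?_ ?_ hx hy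
    · intro z hz
      exact (hder z hz).differentiableAt.differentiableWithinAt
    · intro z hz
      exact (hder z hz).fderiv
  have : Nontrivial X := Module.nontrivial_of_finrank_pos (R := ℝ) (by omega)
  obtain ⟨x₁, hx₁⟩ := exists_ne (0 : X)
  refine ⟨K x₁, fun x hx u v => ?_⟩
  rw [hK x hx, hconst x x₁ hx hx₁]

/-- (D10) the homogeneous extension is linear -/
lemma linear (hdim : 3 ≤ Module.finrank ℝ X) : ∃ L : X →L[ℝ] Y, ∀ x, φ x = L x := by
  obtain ⟨k, hk⟩ := d.exists_const_k hdim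
  have hrank : 1 < Module.rank ℝ X := by
    rw [← Module.finrank_eq_rank]
    exact_mod_cast (by omega : 1 < Module.finrank ℝ X)
  have hconn : IsPreconnected ({0}ᶜ : Set X) :=
    (isConnected_compl_singleton_of_one_lt_rank hrank 0).isPreconnected
  have : Nontrivial X := Module.nontrivial_of_finrank_pos (R := ℝ) (by omega)
  obtain ⟨x₁, hx₁⟩ := exists_ne (0 : X)
  have hconst : ∀ v x, x ≠ 0 → F φ x v - nm x v • k = F φ x₁ v - nm x₁ v • k := by
    intro v x hx
    have hd : ∀ z : X, z ≠ 0 → HasFDerivAt (fun z => F φ z v - nm z v • k) (0 : X →L[ℝ] Y) z := by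
      intro z hz
      have h0 : HasFDerivAt (fun z : X => nm z v) ((hs z).flip v) z :=
        hasFDerivAt_apply (d.hX.hasFDerivAt_nm hz) v
      have hA : HasFDerivAt (fun z : X => F φ z v) ((G φ z).flip v) z :=
        hasFDerivAt_apply (d.hG hz) v
      have hB : HasFDerivAt (fun z : X => nm z v • k)
          (((hs z).flip v : X →L[ℝ] ℝ).smulRight k) z := h0.smul_const k
      have h1 : HasFDerivAt (fun z : X => F φ z v - nm z v • k)
          ((G φ z).flip v - ((hs z).flip v : X →L[ℝ] ℝ).smulRight k) z := HasFDerivAt.fun_sub hA hB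
      refine h1.congr_fderiv ?_
      refine ContinuousLinearMap.ext fun w => ?_
      show G φ z w v - hs z w v • k = 0
      rw [hk z hz w v, sub_self]
    have hdiff : DifferentiableOn ℝ (fun z : X => F φ z v - nm z v • k) ({0}ᶜ : Set X) :=
      fun z hz => (hd z hz).differentiableAt.differentiableWithinAt
    have hzero : ({0}ᶜ : Set X).EqOn (fderiv ℝ (fun z : X => F φ z v - nm z v • k)) 0 :=
      fun z hz => (hd z hz).fderiv
    exact isOpen_compl_singleton.is_const_of_fderiv_eq_zero hconn hdiff hzero hx hx₁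
  let L : X →L[ℝ] Y := F φ x₁ - (nm x₁).smulRight k
  have hL : ∀ v, L v = F φ x₁ v - nm x₁ v • k := fun v => rfl
  have hφ : ∀ x, x ≠ 0 → φ x = L x + ‖x‖ • k := by
    intro x hx
    have h1 := hconst x x hx
    rw [d.F_self hx, d.hX.nm_self hx] at h1
    rw [hL, ← h1]; abel
  have hk0 : k = 0 := by
    have h1 := hφ x₁ hx₁
    have h2 := hφ (-x₁) (neg_ne_zero.2 hx₁)
    rw [d.e.map_neg, map_neg, norm_neg, h1] at h2
    have h3 : (2 * ‖x₁‖) • k = 0 := by
      have h4 : (2 * ‖x₁‖) • k = (-L x₁ + ‖x₁‖ • k) - -(L x₁ + ‖x₁‖ • k) := by module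
      rw [h4, ← h2, sub_self]
    rcases smul_eq_zero.1 h3 with h5 | h5
    · have : ‖x₁‖ ≠ 0 := norm_ne_zero_iff.2 hx₁
      exact absurd h5 (mul_ne_zero two_ne_zero this)
    · exact h5
  refine ⟨L, fun x => ?_⟩
  by_cases hx : x = 0
  · subst hx; rw [d.e.map_zero, map_zero]
  · rw [hφ x hx, hk0, smul_zero, add_zero]

end Dat

omit [FiniteDimensional ℝ X] [FiniteDimensional ℝ Y] in
/-- the homogeneous extension of a surjective sphere isometry -/
lemma exists_ext (hY : SmoothRotund Y)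
    (f : sphere (0 : X) 1 → sphere (0 : Y) 1) (hf : Isometry f) (hs' : Function.Surjective f) :
    ∃ φ : X → Y, Ext φ ∧ ∀ x : sphere (0 : X) 1, φ x = f x := by
  classical
  have hsph : ∀ x : X, x ≠ 0 → ‖x‖⁻¹ • x ∈ sphere (0 : X) 1 := by
    intro x hx
    rw [mem_sphere_zero_iff_norm, norm_smul, norm_inv, norm_norm,
      inv_mul_cancel₀ (norm_ne_zero_iff.2 hx)]
  have hdist : ∀ x y : sphere (0 : X) 1, ‖(f x : Y) - f y‖ = ‖(x : X) - y‖ := by
    intro x y
    have := hf.dist_eq x y
    rwa [Subtype.dist_eq, Subtype.dist_eq, dist_eq_norm, dist_eq_norm] at this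
  have hn1 : ∀ y : sphere (0 : Y) 1, ‖(y : Y)‖ = 1 := fun y => mem_sphere_zero_iff_norm.1 y.2
  have hn1X : ∀ y : sphere (0 : X) 1, ‖(y : X)‖ = 1 := fun y => mem_sphere_zero_iff_norm.1 y.2
  -- oddness
  have hodd : ∀ x x' : sphere (0 : X) 1, (x' : X) = -x → (f x' : Y) = -f x := by
    intro x x' hxx
    have h1 := hdist x x'
    rw [hxx, sub_neg_eq_add, ← two_smul ℝ (x : X), norm_smul, hn1X, Real.norm_two,
      mul_one] at h1
    have h2 := hY.eq_of_norm_add (a := (f x : Y)) (b := -(f x' : Y)) (hn1 _)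
      (by rw [norm_neg]; exact hn1 _) (by rw [← sub_eq_add_neg]; exact h1)
    rw [h2, neg_neg]
  let φ : X → Y := fun x => if hx : x = 0 then 0 else ‖x‖ • (f ⟨‖x‖⁻¹ • x, hsph x hx⟩ : Y)
  have hφ0 : φ 0 = 0 := by simp [φ]
  have hφ : ∀ x (hx : x ≠ 0), φ x = ‖x‖ • (f ⟨‖x‖⁻¹ • x, hsph x hx⟩ : Y) := by
    intro x hx; simp [φ, hx]
  have hφnorm : ∀ x, ‖φ x‖ = ‖x‖ := by
    intro x
    by_cases hx : x = 0
    · subst hx; rw [hφ0, norm_zero, norm_zero]
    · rw [hφ x hx, norm_smul, hn1, norm_norm, mul_one]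
  have hφsph : ∀ x : sphere (0 : X) 1, φ x = f x := by
    intro x
    have hx0 : (x : X) ≠ 0 := by
      intro h0
      have := hn1X x
      rw [h0, norm_zero] at this
      exact zero_ne_one this
    rw [hφ _ hx0]
    have h1 : (⟨‖(x : X)‖⁻¹ • (x : X), hsph _ hx0⟩ : sphere (0 : X) 1) = x := by
      apply Subtype.ext
      show ‖(x : X)‖⁻¹ • (x : X) = x
      rw [hn1X, inv_one, one_smul]
    rw [h1, hn1X, one_smul]
  have hpos : ∀ (t : ℝ) x, 0 < t → φ (t • x) = t • φ x := by
    intro t x ht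
    by_cases hx : x = 0
    · subst hx; rw [smul_zero, hφ0, smul_zero]
    have htx : t • x ≠ 0 := smul_ne_zero ht.ne' hx
    rw [hφ _ htx, hφ _ hx]
    have h1 : (⟨‖t • x‖⁻¹ • (t • x), hsph _ htx⟩ : sphere (0 : X) 1) =
        ⟨‖x‖⁻¹ • x, hsph x hx⟩ := by
      apply Subtype.ext
      show ‖t • x‖⁻¹ • (t • x) = ‖x‖⁻¹ • x
      rw [norm_smul, Real.norm_of_nonneg ht.le, smul_smul]
      congr 1
      have := norm_ne_zero_iff.2 hx
      field_simp
    rw [h1, norm_smul, Real.norm_of_nonneg ht.le, mul_smul]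
  have hneg : ∀ x, φ (-x) = -φ x := by
    intro x
    by_cases hx : x = 0
    · subst hx; rw [neg_zero, hφ0, neg_zero]
    have hnx : -x ≠ 0 := neg_ne_zero.2 hx
    rw [hφ _ hnx, hφ _ hx]
    have h1 : (f ⟨‖-x‖⁻¹ • -x, hsph _ hnx⟩ : Y) = -f ⟨‖x‖⁻¹ • x, hsph x hx⟩ := by
      apply hodd
      show ‖-x‖⁻¹ • (-x) = -(‖x‖⁻¹ • x)
      rw [norm_neg, smul_neg]
    rw [h1, norm_neg, smul_neg]
  refine ⟨φ, ⟨hφnorm, ?_, ?_, ?_⟩, hφsph⟩
  · intro t x
    rcases lt_trichotomy t 0 with ht | ht | ht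
    · have h1 := hpos (-t) (-x) (by linarith)
      rw [neg_smul_neg, hneg, neg_smul_neg] at h1
      exact h1
    · subst ht; rw [zero_smul, zero_smul, hφ0]
    · exact hpos t x ht
  · intro x y hxy
    by_cases hx : x = 0
    · subst hx
      rw [norm_zero] at hxy
      have hy : y = 0 := norm_eq_zero.1 hxy.symm
      subst hy
      rw [hφ0, sub_self, sub_self, norm_zero, norm_zero]
    have hy : y ≠ 0 := by
      rintro rfl
      rw [norm_zero] at hxy
      exact hx (norm_eq_zero.1 hxy)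
    rw [hφ x hx, hφ y hy]
    obtain ⟨a, ha⟩ : ∃ a : sphere (0 : X) 1, a = ⟨‖x‖⁻¹ • x, hsph x hx⟩ := ⟨_, rfl⟩
    obtain ⟨b, hb⟩ : ∃ b : sphere (0 : X) 1, b = ⟨‖y‖⁻¹ • y, hsph y hy⟩ := ⟨_, rfl⟩
    rw [← ha, ← hb]
    have ha' : (a : X) = ‖x‖⁻¹ • x := by rw [ha]
    have hb' : (b : X) = ‖x‖⁻¹ • y := by rw [hb, hxy]
    rw [← hxy, ← smul_sub, norm_smul, hdist, ha', hb', ← smul_sub, norm_smul, norm_inv,
      norm_norm, ← mul_assoc, mul_inv_cancel₀ (norm_ne_zero_iff.2 hx), one_mul]
  · intro y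
    by_cases hy : y = 0
    · exact ⟨0, by rw [hφ0, hy]⟩
    have hyn : ‖y‖ ≠ 0 := norm_ne_zero_iff.2 hy
    obtain ⟨x, hx⟩ := hs' ⟨‖y‖⁻¹ • y, by
      rw [mem_sphere_zero_iff_norm, norm_smul, norm_inv, norm_norm, inv_mul_cancel₀ hyn]⟩
    refine ⟨‖y‖ • (x : X), ?_⟩
    rw [hpos _ _ (norm_pos_iff.2 hy), hφsph, hx]
    show ‖y‖ • (‖y‖⁻¹ • y) = y
    rw [smul_smul, mul_inv_cancel₀ hyn, one_smul]

/-- Tingley's problem for smooth rotund spaces of finite dimension at least three. -/
theorem tingley (hX : SmoothRotund X) (hY : SmoothRotund Y) (hdim : 3 ≤ Module.finrank ℝ X)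
    (f : sphere (0 : X) 1 → sphere (0 : Y) 1) (hf : Isometry f) (hs' : Function.Surjective f) :
    ∃ T : X ≃ₗᵢ[ℝ] Y, ∀ x : sphere (0 : X) 1, T x = f x := by
  obtain ⟨φ, e, hφ⟩ := exists_ext hY f hf hs'
  obtain ⟨L, hL⟩ := (Dat.mk hX hY e).linear hdim
  let T₀ : X →ₗᵢ[ℝ] Y := ⟨L, fun x => by
    show ‖L x‖ = ‖x‖
    rw [← hL, e.norm]⟩
  have hsurj : Function.Surjective T₀ := by
    intro y
    obtain ⟨x, hx⟩ := e.surj y
    exact ⟨x, by rw [← hx, hL]; rfl⟩
  refine ⟨LinearIsometryEquiv.ofSurjective T₀ hsurj, fun x => ?_⟩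
  rw [← hφ, hL]
  rfl

end Vale.P084
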