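import Mathlib
import Vale.Agent.P084.Faces
import Vale.Agent.P084.FaceInd

/-!
# P084, module M6: oddness between smooth spaces
-/

namespace Vale.P084

open Metric Filter Topology Pointwise

variable {X Y Z : Type*} [NormedAddCommGroup X] [NormedSpace ℝ X]
  [NormedAddCommGroup Y] [NormedSpace ℝ Y] [NormedAddCommGroup Z] [NormedSpace ℝ Z]

lemma SphIso.comp {g : Y → Z} {f : X → Y} (hg : SphIso g) (hf : SphIso f) :
    SphIso (fun x => g (f x)) := by
  refine ⟨fun x hx => hg.norm _ (hf.norm x hx), fun x y hx hy => ?_, fun z hz => ?_,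
    fun x y hx hy => ?_⟩
  · rw [hg.dist _ _ (hf.norm x hx) (hf.norm y hy), hf.dist x y hx hy]
  · obtain ⟨y, hy, rfl⟩ := hg.surj z hz
    obtain ⟨x, hx, rfl⟩ := hf.surj y hy
    exact ⟨x, hx, rfl⟩
  · rw [hg.star _ _ (hf.norm x hx) (hf.norm y hy), hf.star x y hx hy]

lemma SphIso.neg : SphIso (fun x : X => -x) := by
  refine ⟨fun x hx => by rw [norm_neg, hx], fun x y hx hy => ?_, fun y hy => ?_,
    fun x y hx hy => ?_⟩
  · rw [neg_sub_neg, norm_sub_rev]
  · exact ⟨-y, by rw [norm_neg, hy], by rw [neg_neg]⟩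
  · rw [← neg_add, norm_neg]

/-- oddness -/
theorem odd_of_smooth [FiniteDimensional ℝ X] [FiniteDimensional ℝ Y] {f : X → Y} (hf : SphIso f)
    (hX : ∀ x : X, x ≠ 0 → (J x).Subsingleton) (x : X) (hx : ‖x‖ = 1) : f (-x) = -f x := by
  obtain ⟨g, hg, hgf, hfg⟩ := hf.inv
  let h : X → X := fun z => g (-f (-z))
  have hh : SphIso h := hg.comp (SphIso.neg.comp (hf.comp SphIso.neg))
  -- `h` preserves maximal faces
  have hC : ∀ C : Set X, MaxFace C → ∀ z ∈ C, h z ∈ C := by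
    intro C hC z hz
    obtain ⟨z₀, α, hz₀, hα, hαz, hCα, hiff⟩ := hC.exists_face
    have h1 : f (-z) ∈ f '' (-C) := ⟨-z, by simpa using hz, rfl⟩
    rw [hC.image_neg hf, Set.mem_neg] at h1
    obtain ⟨w, hw, hwz⟩ := h1
    have hw1 : ‖w‖ = 1 := by rw [hCα] at hw; exact hw.1
    show g (-f (-z)) ∈ C
    rw [← hwz, hgf w hw1]
    exact hw
  -- the set of fixed points
  let F : Set X := {u | ‖u‖ = 1 ∧ h u = u}
  have hF : IsClosed F := by
    rw [← isSeqClosed_iff_isClosed]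
    intro u p hu hup
    have hp : ‖p‖ = 1 := tendsto_nhds_unique hup.norm
      (tendsto_const_nhds.congr fun n => (hu n).1.symm)
    refine ⟨hp, ?_⟩
    have h1 : Tendsto (fun n => h (u n)) atTop (𝓝 (h p)) := by
      rw [tendsto_iff_norm_sub_tendsto_zero] at hup ⊢
      refine hup.congr fun n => ?_
      rw [hh.dist _ _ (hu n).1 hp]
    exact tendsto_nhds_unique h1 (hup.congr fun n => (hu n).2.symm)
  have hexp : ∀ x, ‖x‖ = 1 → (∃ β : X →L[ℝ] ℝ, ∀ u, ‖u‖ ≤ 1 → β x ≤ β u → u = x) → x ∈ F := by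
    rintro x hx ⟨β, hβ⟩
    refine ⟨hx, ?_⟩
    have hxx : ‖x + x‖ = 2 := by rw [← two_smul ℝ, norm_smul, hx]; norm_num
    obtain ⟨C, hCm, hxC, -⟩ := exists_maxFace hx hx hxx
    have h1 := hC C hCm x hxC
    obtain ⟨z₀, α, hz₀, hα, hαz, hCα, hiff⟩ := hCm.exists_face
    rw [hCα] at h1 hxC
    have hx0 : x ≠ 0 := by rintro rfl; rw [norm_zero] at hx; exact zero_ne_one hx
    -- `β` attains its norm at `x`
    have hβ0 : 0 < β x := by
      by_contra hcon
      have := hβ 0 (by rw [norm_zero]; norm_num) (by rw [map_zero]; exact not_lt.1 hcon)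
      exact hx0 this.symm
    have hle : ∀ u, ‖u‖ ≤ 1 → β u ≤ β x := by
      intro u hu
      by_contra hcon
      have := hβ u hu (not_le.1 hcon).le
      rw [this] at hcon
      exact hcon le_rfl
    have hβn : ‖(β x)⁻¹ • β‖ ≤ 1 := by
      refine ContinuousLinearMap.opNorm_le_bound _ zero_le_one fun u => ?_
      rw [one_mul]
      by_cases hu : u = 0
      · subst hu; rw [map_zero, norm_zero, norm_zero]
      have hun : ‖‖u‖⁻¹ • u‖ = 1 := by
        rw [norm_smul, norm_inv, norm_norm, inv_mul_cancel₀ (norm_ne_zero_iff.2 hu)]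
      have hnu : 0 < ‖u‖ := norm_pos_iff.2 hu
      have h2 := hle _ hun.le
      have h3 := hle (-(‖u‖⁻¹ • u)) (by rw [norm_neg, hun])
      rw [map_smul, smul_eq_mul, inv_mul_le_iff₀ hnu] at h2
      rw [map_neg, map_smul, smul_eq_mul, ← mul_neg, inv_mul_le_iff₀ hnu] at h3
      show ‖(β x)⁻¹ * β u‖ ≤ ‖u‖
      rw [Real.norm_eq_abs, abs_mul, abs_inv, abs_of_pos hβ0, inv_mul_le_iff₀ hβ0, abs_le]
      constructor <;> nlinarith
    have hβJ : (β x)⁻¹ • β ∈ J x := by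
      refine ⟨hβn, ?_⟩
      show (β x)⁻¹ * β x = ‖x‖
      rw [inv_mul_cancel₀ hβ0.ne', hx]
    have hαJ : α ∈ J x := ⟨hα, by rw [hxC.2, hx]⟩
    have hαβ := hX x hx0 hαJ hβJ
    apply hβ _ (hh.norm x hx).le
    have h2 := h1.2
    rw [hαβ] at h2
    have h3 : (β x)⁻¹ * β (h x) = 1 := h2
    rw [inv_mul_eq_iff_eq_mul₀ hβ0.ne', mul_one] at h3
    exact h3.ge
  have hxx : ‖x + x‖ = 2 := by rw [← two_smul ℝ, norm_smul, hx]; norm_num
  obtain ⟨C, hCm, hxC, -⟩ := exists_maxFace hx hx hxx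
  obtain ⟨z₀, α, hz₀, hα, hαz, hCα, hiff⟩ := hCm.exists_face
  have hconv : Convex ℝ (F ∩ {u | ‖u‖ = 1 ∧ α u = 1}) := by
    rw [← hCα]
    intro u hu w hw a b ha hb hab
    have hCu : a • u + b • w ∈ C := hCm.convex hu.2 hw.2 ha hb hab
    refine ⟨⟨by rw [hCα] at hCu; exact hCu.1, ?_⟩, hCu⟩
    have ha' : a = 1 - b := by linarith
    have := hCm.affine hh hu.2 hw.2 (t := b) ⟨hb, by linarith⟩
    rw [ha', this, hu.1.2, hw.1.2]
  have hsub := face_induction hα hF hexp hconv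
  have hxF : x ∈ F := hsub (by rw [← hCα]; exact hxC)
  have h1 : g (-f (-x)) = x := hxF.2
  have h2 : ‖-f (-x)‖ = 1 := by rw [norm_neg]; exact hf.norm _ (by rw [norm_neg, hx])
  have h3 := hfg _ h2
  rw [h1] at h3
  rw [h3, neg_neg]

end Vale.P084
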