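import Mathlib
import Vale.Agent.P084.Phi

/-!
# P084, module M3: secant directions of the sphere
-/

namespace Vale.P084

open Metric Filter Topology

variable {X Y : Type*} [NormedAddCommGroup X] [NormedSpace ℝ X]
  [NormedAddCommGroup Y] [NormedSpace ℝ Y]

/-- `z` is a limit of secants of the unit sphere at `x` -/
def Sec (x z : X) : Prop := ∃ (p q : ℕ → X) (c : ℕ → ℝ), (∀ n, ‖p n‖ = 1) ∧ (∀ n, ‖q n‖ = 1) ∧
  Tendsto p atTop (𝓝 x) ∧ Tendsto q atTop (𝓝 x) ∧ Tendsto (fun n => c n • (p n - q n)) atTop (𝓝 z)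

/-- a direction on which the norming functionals of `x` do not have a constant strict sign is a
secant direction -/
lemma sec_of_mixed {x v : X} (hx : ‖x‖ = 1) (h1 : ∃ ζ ∈ J x, ζ v ≤ 0) (h2 : ∃ ζ ∈ J x, 0 ≤ ζ v) :
    Sec x v := by
  obtain ⟨ζ₁, hζ₁, hv₁⟩ := h1
  obtain ⟨ζ₂, hζ₂, hv₂⟩ := h2
  have key : ∀ t : ℝ, 0 < t → ∃ s ∈ Set.Icc (0 : ℝ) 1,
      ‖x + (t * (s - 1)) • v‖ = ‖x + (t * s) • v‖ := by
    intro t ht
    let ψ : ℝ → ℝ := fun s => ‖x + (t * (s - 1)) • v‖ - ‖x + (t * s) • v‖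
    have hψ : ContinuousOn ψ (Set.Icc 0 1) := by
      apply Continuous.continuousOn
      fun_prop
    have h0 : 0 ≤ ψ 0 := by
      show 0 ≤ ‖x + (t * (0 - 1)) • v‖ - ‖x + (t * 0) • v‖
      have := J_sub hζ₁ (x + (t * (0 - 1)) • v)
      rw [add_sub_cancel_left, map_smul, smul_eq_mul] at this
      rw [mul_zero, zero_smul, add_zero]
      nlinarith
    have h1 : ψ 1 ≤ 0 := by
      show ‖x + (t * (1 - 1)) • v‖ - ‖x + (t * 1) • v‖ ≤ 0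
      have := J_sub hζ₂ (x + (t * 1) • v)
      rw [add_sub_cancel_left, map_smul, smul_eq_mul] at this
      rw [sub_self, mul_zero, zero_smul, add_zero]
      nlinarith
    obtain ⟨s, hs, hs0⟩ := intermediate_value_Icc' zero_le_one hψ ⟨h1, h0⟩
    exact ⟨s, hs, sub_eq_zero.1 hs0⟩
  have key' : ∀ n : ℕ, ∃ s ∈ Set.Icc (0 : ℝ) 1,
      ‖x + (((n : ℝ) + 1)⁻¹ * (s - 1)) • v‖ = ‖x + (((n : ℝ) + 1)⁻¹ * s) • v‖ := fun n =>
    key _ (by positivity)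
  choose s hs hsn using key'
  have hinv : Tendsto (fun n : ℕ => ((n : ℝ) + 1)⁻¹) atTop (𝓝 0) := by
    simpa using tendsto_one_div_add_atTop_nhds_zero_nat (𝕜 := ℝ)
  have hb1 : Tendsto (fun n : ℕ => ((n : ℝ) + 1)⁻¹ * s n) atTop (𝓝 0) := by
    refine squeeze_zero (fun n => ?_) (fun n => ?_) hinv
    · have := (hs n).1; positivity
    · have h1 := (hs n).2
      have h2 : (0 : ℝ) ≤ ((n : ℝ) + 1)⁻¹ := by positivity
      nlinarith
  have hb2 : Tendsto (fun n : ℕ => ((n : ℝ) + 1)⁻¹ * (s n - 1)) atTop (𝓝 0) := by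
    have h1 : (fun n : ℕ => ((n : ℝ) + 1)⁻¹ * (s n - 1)) =
        fun n : ℕ => ((n : ℝ) + 1)⁻¹ * s n - ((n : ℝ) + 1)⁻¹ := by funext n; ring
    rw [h1]
    simpa using hb1.sub hinv
  have ha1 : Tendsto (fun n : ℕ => x + (((n : ℝ) + 1)⁻¹ * s n) • v) atTop (𝓝 x) := by
    have := (hb1.smul_const v).const_add x
    simpa using this
  have ha2 : Tendsto (fun n : ℕ => x + (((n : ℝ) + 1)⁻¹ * (s n - 1)) • v) atTop (𝓝 x) := by
    have := (hb2.smul_const v).const_add x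
    simpa using this
  have hr : Tendsto (fun n : ℕ => ‖x + (((n : ℝ) + 1)⁻¹ * s n) • v‖) atTop (𝓝 1) := by
    have := ha1.norm
    rwa [hx] at this
  obtain ⟨N, hN⟩ := (hr.eventually_const_lt (show (1 / 2 : ℝ) < 1 by norm_num)).exists_forall_of_atTop
  have hpos : ∀ n, 0 < ‖x + (((n + N : ℕ) : ℝ) + 1)⁻¹ • s (n + N) • v‖ := by
    intro n
    have := hN (n + N) (by omega)
    rw [smul_smul]
    linarith
  refine ⟨fun n => (‖x + ((((n + N : ℕ) : ℝ) + 1)⁻¹ * s (n + N)) • v‖)⁻¹ •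
      (x + ((((n + N : ℕ) : ℝ) + 1)⁻¹ * s (n + N)) • v),
    fun n => (‖x + ((((n + N : ℕ) : ℝ) + 1)⁻¹ * s (n + N)) • v‖)⁻¹ •
      (x + ((((n + N : ℕ) : ℝ) + 1)⁻¹ * (s (n + N) - 1)) • v),
    fun n => ((n + N : ℕ) : ℝ) + 1, fun n => ?_, fun n => ?_, ?_, ?_, ?_⟩
  · have h := hpos n
    rw [smul_smul] at h
    rw [norm_smul, norm_inv, norm_norm, inv_mul_cancel₀ h.ne']
  · have h := hpos n
    rw [smul_smul] at h
    rw [norm_smul, norm_inv, norm_norm, hsn, inv_mul_cancel₀ h.ne']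
  · have h1 : Tendsto (fun n : ℕ => (‖x + (((n : ℝ) + 1)⁻¹ * s n) • v‖)⁻¹ •
        (x + (((n : ℝ) + 1)⁻¹ * s n) • v)) atTop (𝓝 ((1 : ℝ)⁻¹ • x)) :=
      (hr.inv₀ one_ne_zero).smul ha1
    rw [inv_one, one_smul] at h1
    exact h1.comp (tendsto_add_atTop_nat N)
  · have h1 : Tendsto (fun n : ℕ => (‖x + (((n : ℝ) + 1)⁻¹ * s n) • v‖)⁻¹ •
        (x + (((n : ℝ) + 1)⁻¹ * (s n - 1)) • v)) atTop (𝓝 ((1 : ℝ)⁻¹ • x)) :=
      (hr.inv₀ one_ne_zero).smul ha2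
    rw [inv_one, one_smul] at h1
    exact h1.comp (tendsto_add_atTop_nat N)
  · have h1 : Tendsto (fun n : ℕ => (‖x + (((n : ℝ) + 1)⁻¹ * s n) • v‖)⁻¹ • v) atTop
        (𝓝 ((1 : ℝ)⁻¹ • v)) := (hr.inv₀ one_ne_zero).smul_const v
    rw [inv_one, one_smul] at h1
    refine (h1.comp (tendsto_add_atTop_nat N)).congr fun n => ?_
    show (‖x + ((((n + N : ℕ) : ℝ) + 1)⁻¹ * s (n + N)) • v‖)⁻¹ • v = _
    have h2 : (((n + N : ℕ) : ℝ) + 1) ≠ 0 := by positivity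
    have h3 : ∀ r k s : ℝ, k ≠ 0 → r = k * r * (k⁻¹ * s - k⁻¹ * (s - 1)) := by
      intro r k s hk
      field_simp
      ring
    rw [← smul_sub, add_sub_add_left_eq_sub, ← sub_smul, smul_smul, smul_smul]
    congr 1
    exact h3 _ _ _ h2

/-- the image of a secant direction -/
lemma Sec.image [FiniteDimensional ℝ X] [FiniteDimensional ℝ Y] {f : X → Y} (hf : SphIso f)
    {x z : X} (hx : ‖x‖ = 1) (hz : Sec x z) : ∃ z' : Y, ‖z'‖ = ‖z‖ ∧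
      ∀ y, Good f x y → ∀ ξ ∈ J (x - y), ∀ η ∈ J (f x - f y), ξ z = η z' := by
  classical
  have : ProperSpace Y := FiniteDimensional.proper ℝ Y
  obtain ⟨p, q, c, hp, hq, hlp, hlq, hlz⟩ := hz
  have hn : ∀ n, ‖c n • (f (p n) - f (q n))‖ = ‖c n • (p n - q n)‖ := fun n => by
    rw [norm_smul, norm_smul, hf.dist _ _ (hp n) (hq n)]
  obtain ⟨C, hC⟩ := hlz.norm.bddAbove_range
  obtain ⟨z', -, ψ, hψ, hlim⟩ := (isCompact_closedBall (0 : Y) C).tendsto_subseq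
    (x := fun n => c n • (f (p n) - f (q n))) (fun n => by
      simp only [mem_closedBall, dist_zero_right]
      rw [hn]
      exact hC ⟨n, rfl⟩)
  refine ⟨z', ?_, fun y hy ξ hξ η hη => ?_⟩
  · have h1 : Tendsto (fun n => ‖c (ψ n) • (f (p (ψ n)) - f (q (ψ n)))‖) atTop (𝓝 ‖z'‖) :=
      hlim.norm
    have h2 : Tendsto (fun n => ‖c (ψ n) • (p (ψ n) - q (ψ n))‖) atTop (𝓝 ‖z‖) :=
      (hlz.comp hψ.tendsto_atTop).norm
    exact tendsto_nhds_unique h1 (h2.congr fun n => (hn (ψ n)).symm)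
  · exact secant_limit hf hx hy hξ hη (p := fun n => p (ψ n)) (q := fun n => q (ψ n))
      (fun n => hp _) (fun n => hq _) (hlp.comp hψ.tendsto_atTop) (hlq.comp hψ.tendsto_atTop)
      (hlz.comp hψ.tendsto_atTop) hlim

/-- at a nonsmooth point the linear map exists -/
lemma exists_rel_of_nonsmooth [FiniteDimensional ℝ X] [FiniteDimensional ℝ Y] {f : X → Y}
    (hf : SphIso f) {x : X} (hx : ‖x‖ = 1) (hns : ¬ (J x).Subsingleton) :
    ∃ Φ : X →L[ℝ] Y, Rel f x Φ := by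
  rw [Set.not_subsingleton_iff] at hns
  obtain ⟨ζ₁, hζ₁, ζ₂, hζ₂, hne⟩ := hns
  obtain ⟨v, hv⟩ : ∃ v, ζ₂ v < ζ₁ v := by
    by_contra hcon
    push Not at hcon
    apply hne
    ext v
    have h1 := hcon v
    have h2 := hcon (-v)
    rw [map_neg, map_neg] at h2
    linarith
  obtain ⟨d₁, z₁, hz₁, hd₁⟩ := exists_secant hf hx v
  obtain ⟨d₂, z₂, hz₂, hd₂⟩ := exists_secant hf hx (-v)
  have h1 := hd₁ ζ₁ hζ₁
  have h2 := hd₂ ζ₂ hζ₂
  rw [map_neg] at h2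
  have hd : 0 < d₁ + d₂ := by linarith
  refine exists_rel hf hx (V := -(d₁ + d₂)⁻¹ • (z₁ + z₂)) fun y hy ξ hξ η hη => ?_
  have e1 := hz₁ y hy ξ hξ η hη
  have e2 := hz₂ y hy ξ hξ η hη
  rw [map_smul, map_add, ← e1, ← e2]
  simp only [map_sub, map_neg, map_smul, smul_eq_mul]
  field_simp
  ring

section

variable [FiniteDimensional ℝ X] [FiniteDimensional ℝ Y] {f : X → Y} (hf : SphIso f)
  {x : X} (hx : ‖x‖ = 1) {Φ : X →L[ℝ] Y} (hΦ : Rel f x Φ)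
include hf hx hΦ

lemma Rel.eq_of_forall {z : X} {z' : Y}
    (h : ∀ y, Good f x y → ∀ ξ ∈ J (x - y), ∀ η ∈ J (f x - f y), ξ z = η z') : Φ z = z' := by
  have : Φ z - z' = 0 := by
    apply good_sep hf hx
    intro y hy η hη
    obtain ⟨ξ, hξ⟩ := J_nonempty (x - y)
    rw [map_sub, hΦ y hy ξ hξ η hη z, h y hy ξ hξ η hη, sub_self]
  exact sub_eq_zero.1 this

/-- the linear map is an isometry -/
theorem Rel.norm_map (v : X) : ‖Φ v‖ = ‖v‖ := by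
  by_cases h1 : ∀ ζ ∈ J x, 0 < ζ v
  · exact hΦ.norm_eq hf hx h1
  by_cases h2 : ∀ ζ ∈ J x, 0 < ζ (-v)
  · have := hΦ.norm_eq hf hx h2
    rwa [map_neg, norm_neg, norm_neg] at this
  push Not at h1 h2
  obtain ⟨ζ₁, hζ₁, hv₁⟩ := h1
  obtain ⟨ζ₂, hζ₂, hv₂⟩ := h2
  rw [map_neg] at hv₂
  have hs : Sec x v := sec_of_mixed hx ⟨ζ₁, hζ₁, hv₁⟩ ⟨ζ₂, hζ₂, by linarith⟩
  obtain ⟨z', hz', hz⟩ := hs.image hf hx
  rw [hΦ.eq_of_forall hf hx hz, hz']

/-- the norming functionals of `f x` pull back to norming functionals of `x` -/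
lemma Rel.norming {β : Y →L[ℝ] ℝ} (hβ : β ∈ J (f x)) : β (Φ x) = 1 := by
  obtain ⟨g, Ψ, hg, hgf, hΨ, h1, h2⟩ := hΦ.inv hf hx
  obtain ⟨ζ, hζ, hle⟩ := hΨ.exists_ge hg (hf.norm x hx) (Φ (-x)) hβ
  rw [h1, hgf x hx] at *
  rw [map_neg, map_neg, map_neg, hζ.2, hx] at hle
  have h3 := J_le hβ (Φ x)
  rw [hΦ.norm_map hf hx, hx] at h3
  linarith

end

end Vale.P084
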