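import Mathlib
import Vale.Agent.P084.Sec

/-!
# P084, module M4: a self-isometry of the sphere with strict derivative the identity at a fixed point
is the identity near this point
-/

namespace Vale.P084

open Metric Filter Topology

variable {X : Type*} [NormedAddCommGroup X] [NormedSpace ℝ X]

/-- limits along an ultrafilter -/
lemma exists_ulim {E : Type*} [NormedAddCommGroup E] [ProperSpace E] (U : Ultrafilter ℕ)
    {u : ℕ → E} {C : ℝ} (h : ∀ n, ‖u n‖ ≤ C) : ∃ l, Tendsto u (U : Filter ℕ) (𝓝 l) := by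
  obtain ⟨l, -, hl⟩ := (isCompact_closedBall (0 : E) C).ultrafilter_le_nhds (U.map u) (by
    rw [le_principal_iff]
    show ∀ᶠ n in (U : Filter ℕ), u n ∈ closedBall (0 : E) C
    exact Eventually.of_forall fun n => by simpa using h n)
  exact ⟨l, hl⟩

lemma tendsto_clm_apply {l : Filter ℕ} {ζ : ℕ → X →L[ℝ] ℝ} {η : X →L[ℝ] ℝ} {u : ℕ → X} {w : X}
    (h1 : Tendsto ζ l (𝓝 η)) (h2 : Tendsto u l (𝓝 w)) :
    Tendsto (fun n => ζ n (u n)) l (𝓝 (η w)) :=
  (isBoundedBilinearMap_apply.continuous.tendsto (η, w)).comp (h1.prodMk_nhds h2)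

lemma SphIso.iterate {g : X → X} (hg : SphIso g) : ∀ m : ℕ, SphIso (g^[m])
  | 0 => SphIso.id
  | m + 1 => by
    have ih := hg.iterate m
    refine ⟨fun x hx => ?_, fun x y hx hy => ?_, fun y hy => ?_, fun x y hx hy => ?_⟩
    · rw [Function.iterate_succ_apply]; exact ih.norm _ (hg.norm x hx)
    · rw [Function.iterate_succ_apply, Function.iterate_succ_apply,
        ih.dist _ _ (hg.norm x hx) (hg.norm y hy), hg.dist x y hx hy]
    · obtain ⟨z, hz, hzy⟩ := ih.surj y hy
      obtain ⟨w, hw, hwz⟩ := hg.surj z hz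
      exact ⟨w, hw, by rw [Function.iterate_succ_apply, hwz, hzy]⟩
    · rw [Function.iterate_succ_apply, Function.iterate_succ_apply,
        ih.star _ _ (hg.norm x hx) (hg.norm y hy), hg.star x y hx hy]

lemma iterate_fixed {g : X → X} {x : X} (hgx : g x = x) : ∀ m : ℕ, g^[m] x = x
  | 0 => rfl
  | m + 1 => by rw [Function.iterate_succ_apply, hgx, iterate_fixed hgx m]

/-- the pointwise limit of sphere isometries along an ultrafilter is a sphere isometry -/
lemma exists_limit_iso [FiniteDimensional ℝ X] (U : Ultrafilter ℕ) {H : ℕ → X → X}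
    (hH : ∀ n, SphIso (H n)) : ∃ k : X → X, SphIso k ∧
      ∀ y, ‖y‖ = 1 → Tendsto (fun n => H n y) (U : Filter ℕ) (𝓝 (k y)) := by
  classical
  have : ProperSpace X := FiniteDimensional.proper ℝ X
  have hlim : ∀ y : X, ∃ l, ‖y‖ = 1 → Tendsto (fun n => H n y) (U : Filter ℕ) (𝓝 l) := by
    intro y
    by_cases hy : ‖y‖ = 1
    · obtain ⟨l, hl⟩ := exists_ulim U (u := fun n => H n y) (C := 1)
        (fun n => ((hH n).norm y hy).le)
      exact ⟨l, fun _ => hl⟩
    · exact ⟨0, fun h => absurd h hy⟩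
  choose k hk using hlim
  have hn : ∀ y, ‖y‖ = 1 → ‖k y‖ = 1 := by
    intro y hy
    refine tendsto_nhds_unique (hk y hy).norm ?_
    exact tendsto_const_nhds.congr fun n => ((hH n).norm y hy).symm
  have hd : ∀ y z, ‖y‖ = 1 → ‖z‖ = 1 → ‖k y - k z‖ = ‖y - z‖ := by
    intro y z hy hz
    refine tendsto_nhds_unique ((hk y hy).sub (hk z hz)).norm ?_
    exact tendsto_const_nhds.congr fun n => ((hH n).dist y z hy hz).symm
  have hs : ∀ y, ‖y‖ = 1 → ∃ x, ‖x‖ = 1 ∧ k x = y := by
    intro y hy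
    have h1 : ∀ n, ∃ w, ‖w‖ = 1 ∧ H n w = y := fun n => (hH n).surj y hy
    choose w hw hwy using h1
    obtain ⟨w₀, hw₀⟩ := exists_ulim U (u := w) (C := 1) (fun n => (hw n).le)
    have hw₀n : ‖w₀‖ = 1 := tendsto_nhds_unique hw₀.norm
      (tendsto_const_nhds.congr fun n => (hw n).symm)
    refine ⟨w₀, hw₀n, ?_⟩
    have h2 : Tendsto (fun n => ‖H n w₀ - y‖) (U : Filter ℕ) (𝓝 ‖k w₀ - y‖) :=
      ((hk w₀ hw₀n).sub_const y).norm
    have h3 : Tendsto (fun n => ‖H n w₀ - y‖) (U : Filter ℕ) (𝓝 0) := by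
      have h4 : Tendsto (fun n => ‖w₀ - w n‖) (U : Filter ℕ) (𝓝 ‖w₀ - w₀‖) :=
        (hw₀.const_sub w₀).norm
      rw [sub_self, norm_zero] at h4
      refine h4.congr fun n => ?_
      rw [← (hH n).dist w₀ (w n) hw₀n (hw n), hwy]
    exact sub_eq_zero.1 (norm_eq_zero.1 (tendsto_nhds_unique h2 h3))
  exact ⟨k, ⟨hn, hd, hs, fun x y hx hy => star_lemma hn hd hs x y hx hy⟩, hk⟩

section

variable [FiniteDimensional ℝ X] {g : X → X} (hg : SphIso g) {x : X} (hx : ‖x‖ = 1)
    (hgx : g x = x)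
    (h : ∀ y, Good g x y → ∀ ξ ∈ J (x - y), ∀ η ∈ J (g x - g y), ∀ z, Sec x z → η z = ξ z)
include hg hx hgx h

/-- along the orbit of a good point, the norming functionals agree on secant directions -/
lemma orbit_eq {y : X} (hy : ∀ m : ℕ, Good (g^[m]) x y) {ξ : X →L[ℝ] ℝ} (hξ : ξ ∈ J (x - y))
    {z : X} (hz : Sec x z) : ∀ (k : ℕ), ∀ ζ ∈ J (x - g^[k] y), ζ z = ξ z := by
  intro k
  induction k with
  | zero =>
    intro ζ hζ
    rw [(hy 0).ss hζ hξ]
  | succ k ih =>
    intro ζ hζ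
    obtain ⟨ζ', hζ'⟩ := J_nonempty (x - g^[k] y)
    have hgk := hg.iterate k
    have hfix := iterate_fixed hgx k
    have hgood : Good g x (g^[k] y) := by
      refine ⟨hgk.norm y (hy k).norm, ?_, ?_, ?_⟩
      · have h1 : ‖x + g^[k] y‖ ≤ 2 := by
          calc ‖x + g^[k] y‖ ≤ ‖x‖ + ‖g^[k] y‖ := norm_add_le _ _
            _ = 2 := by rw [hx, hgk.norm y (hy k).norm]; norm_num
        refine lt_of_le_of_ne h1 fun h2 => ?_
        have h3 := (hgk.star x y hx (hy k).norm).1 (by rw [hfix]; exact h2)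
        exact (hy k).lt.ne h3
      · have := (hy k).ss'
        rwa [hfix] at this
      · have := (hy (k + 1)).ss'
        rw [iterate_fixed hgx, Function.iterate_succ_apply'] at this
        rwa [hgx]
    rw [Function.iterate_succ_apply'] at hζ
    rw [← ih ζ' hζ']
    exact h _ hgood ζ' hζ' ζ (by rw [hgx]; exact hζ) z hz

/-- all iterates are strictly differentiable at the fixed point, uniformly -/
lemma uniform_strict {ε : ℝ} (hε : 0 < ε) : ∃ δ > 0, ∀ (m : ℕ) (y y' : X), ‖y‖ = 1 → ‖y'‖ = 1 →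
    ‖y - x‖ < δ → ‖y' - x‖ < δ →
    ‖(g^[m] y - g^[m] y') - (y - y')‖ ≤ ε * ‖y - y'‖ := by
  classical
  by_contra hcon
  push Not at hcon
  have : ProperSpace X := FiniteDimensional.proper ℝ X
  have : ProperSpace (X →L[ℝ] ℝ) := FiniteDimensional.proper ℝ _
  have h1 : ∀ n : ℕ, ∃ (m : ℕ) (y y' : X), ‖y‖ = 1 ∧ ‖y'‖ = 1 ∧ ‖y - x‖ < 1 / ((n : ℝ) + 1) ∧
      ‖y' - x‖ < 1 / ((n : ℝ) + 1) ∧ ε * ‖y - y'‖ < ‖(g^[m] y - g^[m] y') - (y - y')‖ := by
    intro n
    exact hcon _ (by positivity)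
  choose m y y' hy hy' hyx hyx' hbig using h1
  have hd : ∀ n, 0 < ‖y n - y' n‖ := by
    intro n
    rw [norm_pos_iff]
    intro h0
    have := hbig n
    rw [sub_eq_zero.1 h0, sub_self, sub_self, sub_self, norm_zero, mul_zero] at this
    exact lt_irrefl _ this
  let c : ℕ → ℝ := fun n => ‖y n - y' n‖⁻¹
  have hc : ∀ n, 0 < c n := fun n => inv_pos.2 (hd n)
  have hgm := fun n => hg.iterate (m n)
  have ha : ∀ n, ‖c n • (y n - y' n)‖ = 1 := fun n => by
    rw [norm_smul, Real.norm_of_nonneg (hc n).le]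
    exact inv_mul_cancel₀ (hd n).ne'
  have hb : ∀ n, ‖c n • (g^[m n] (y n) - g^[m n] (y' n))‖ = 1 := fun n => by
    rw [norm_smul, Real.norm_of_nonneg (hc n).le, (hgm n).dist _ _ (hy n) (hy' n)]
    exact inv_mul_cancel₀ (hd n).ne'
  have hab : ∀ n, ε ≤ ‖c n • (g^[m n] (y n) - g^[m n] (y' n)) - c n • (y n - y' n)‖ := fun n => by
    rw [← smul_sub, norm_smul, Real.norm_of_nonneg (hc n).le]
    have h2 := mul_le_mul_of_nonneg_left (hbig n).le (hc n).le
    have h3 : c n * (ε * ‖y n - y' n‖) = ε := by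
      show ‖y n - y' n‖⁻¹ * (ε * ‖y n - y' n‖) = ε
      have := (hd n).ne'
      field_simp
    rwa [h3] at h2
  obtain ⟨⟨v, v'⟩, -, ψ, hψ, hlim⟩ :=
    ((isCompact_closedBall (0 : X) 1).prod (isCompact_closedBall (0 : X) 1)).tendsto_subseq
    (x := fun n => (c n • (y n - y' n), c n • (g^[m n] (y n) - g^[m n] (y' n))))
    (fun n => ⟨by simpa using (ha n).le, by simpa using (hb n).le⟩)
  have hv : Tendsto (fun n => c (ψ n) • (y (ψ n) - y' (ψ n))) atTop (𝓝 v) :=
    (continuous_fst.tendsto _).comp hlim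
  have hv' : Tendsto (fun n => c (ψ n) • (g^[m (ψ n)] (y (ψ n)) - g^[m (ψ n)] (y' (ψ n)))) atTop
      (𝓝 v') := (continuous_snd.tendsto _).comp hlim
  have hne : ε ≤ ‖v' - v‖ := ge_of_tendsto (hv'.sub hv).norm
    (Eventually.of_forall fun n => hab (ψ n))
  have hinv : Tendsto (fun n => 1 / ((ψ n : ℝ) + 1)) atTop (𝓝 0) :=
    tendsto_one_div_add_atTop_nhds_zero_nat.comp hψ.tendsto_atTop
  have hly : Tendsto (fun n => y (ψ n)) atTop (𝓝 x) := by
    rw [tendsto_iff_norm_sub_tendsto_zero]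
    exact squeeze_zero (fun n => norm_nonneg _) (fun n => (hyx (ψ n)).le) hinv
  have hly' : Tendsto (fun n => y' (ψ n)) atTop (𝓝 x) := by
    rw [tendsto_iff_norm_sub_tendsto_zero]
    exact squeeze_zero (fun n => norm_nonneg _) (fun n => (hyx' (ψ n)).le) hinv
  have hgly : Tendsto (fun n => g^[m (ψ n)] (y (ψ n))) atTop (𝓝 x) := by
    rw [tendsto_iff_norm_sub_tendsto_zero] at hly ⊢
    refine hly.congr fun n => ?_
    rw [← (hgm (ψ n)).dist _ _ (hy _) hx, iterate_fixed hgx]
  have hgly' : Tendsto (fun n => g^[m (ψ n)] (y' (ψ n))) atTop (𝓝 x) := by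
    rw [tendsto_iff_norm_sub_tendsto_zero] at hly' ⊢
    refine hly'.congr fun n => ?_
    rw [← (hgm (ψ n)).dist _ _ (hy' _) hx, iterate_fixed hgx]
  have hsv : Sec x v := ⟨fun n => y (ψ n), fun n => y' (ψ n), fun n => c (ψ n), fun n => hy _,
    fun n => hy' _, hly, hly', hv⟩
  have hsv' : Sec x v' := ⟨fun n => g^[m (ψ n)] (y (ψ n)), fun n => g^[m (ψ n)] (y' (ψ n)),
    fun n => c (ψ n), fun n => (hgm _).norm _ (hy _), fun n => (hgm _).norm _ (hy' _), hgly,
    hgly', hv'⟩
  -- the limit isometry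
  let U : Ultrafilter ℕ := hyperfilter ℕ
  have hU : (U : Filter ℕ) ≤ atTop := Nat.hyperfilter_le_atTop
  obtain ⟨k, hk, hkl⟩ := exists_limit_iso U (H := fun n => g^[m (ψ n)]) (fun n => hgm (ψ n))
  have hkx : k x = x := by
    refine tendsto_nhds_unique (hkl x hx) ?_
    exact tendsto_const_nhds.congr fun n => (iterate_fixed hgx _).symm
  -- separation
  have hzero : v' - v = 0 := by
    refine span_zero hx {y | ∀ n : ℕ, Good ((fun n => Nat.rec k (fun j _ => g^[j]) n : ℕ → X → X) n) x y}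
      ?_ ?_
    · intro y₀ hy₀ hlt ε' hε'
      obtain ⟨z, hz, hzy⟩ := good_dense (fun n => Nat.rec k (fun j _ => g^[j]) n : ℕ → X → X)
        (fun n => by
          cases n with
          | zero => exact hk
          | succ j => exact hg.iterate j) hx hy₀ hlt hε'
      exact ⟨z, hz, hzy⟩
    · intro w hw
      have hwk : Good k x w := hw 0
      have hwm : ∀ j : ℕ, Good (g^[j]) x w := fun j => hw (j + 1)
      obtain ⟨ξ, hξ⟩ := J_nonempty (x - w)
      refine ⟨ξ, hξ, ?_⟩
      -- limit functional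
      have h2 : ∀ n, ∃ ζ, ζ ∈ J (x - g^[m (ψ n)] w) := fun n => J_nonempty _
      choose ζ hζ using h2
      obtain ⟨η, hη⟩ := exists_ulim U (u := ζ) (C := 1) (fun n => (hζ n).1)
      have hηJ : η ∈ J (x - k w) := by
        refine ⟨le_of_tendsto hη.norm (Eventually.of_forall fun n => (hζ n).1), ?_⟩
        have h3 : Tendsto (fun n => x - g^[m (ψ n)] w) (U : Filter ℕ) (𝓝 (x - k w)) :=
          (hkl w hwk.norm).const_sub x
        have h4 : Tendsto (fun n => ζ n (x - g^[m (ψ n)] w)) (U : Filter ℕ) (𝓝 (η (x - k w))) :=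
          tendsto_clm_apply hη h3
        refine tendsto_nhds_unique h4 ?_
        exact h3.norm.congr fun n => ((hζ n).2).symm
      have hηz : ∀ z, Sec x z → η z = ξ z := by
        intro z hz
        have h3 : Tendsto (fun n => ζ n z) (U : Filter ℕ) (𝓝 (η z)) :=
          tendsto_clm_apply hη tendsto_const_nhds
        refine tendsto_nhds_unique h3 ?_
        exact tendsto_const_nhds.congr fun n =>
          (orbit_eq hg hx hgx h hwm hξ hz (m (ψ n)) (ζ n) (hζ n)).symm
      -- the derivative relation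
      have hrel : ξ v = η v' := by
        have main : ∀ ε' > 0, |ξ v - η v'| ≤ 2 * ε' := by
          intro ε' hε'
          obtain ⟨δ₁, hδ₁, h3⟩ := strict_diff (J_singleton hwk.ss hξ) hε'
          have hss : (J (x - k w)).Subsingleton := by
            have := hwk.ss'
            rwa [hkx] at this
          obtain ⟨δ₂, hδ₂, h4⟩ := strict_diff (J_singleton hss hηJ) hε'
          have e1 : ∀ᶠ n in (U : Filter ℕ), ‖y (ψ n) - x‖ < δ₁ := hU
            ((tendsto_iff_norm_sub_tendsto_zero.1 hly).eventually_lt_const hδ₁)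
          have e2 : ∀ᶠ n in (U : Filter ℕ), ‖y' (ψ n) - x‖ < δ₁ := hU
            ((tendsto_iff_norm_sub_tendsto_zero.1 hly').eventually_lt_const hδ₁)
          have e3 : ∀ᶠ n in (U : Filter ℕ), ‖g^[m (ψ n)] (y (ψ n)) - x‖ < δ₂ / 2 := hU
            ((tendsto_iff_norm_sub_tendsto_zero.1 hgly).eventually_lt_const (half_pos hδ₂))
          have e4 : ∀ᶠ n in (U : Filter ℕ), ‖g^[m (ψ n)] (y' (ψ n)) - x‖ < δ₂ / 2 := hU
            ((tendsto_iff_norm_sub_tendsto_zero.1 hgly').eventually_lt_const (half_pos hδ₂))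
          have e5 : ∀ᶠ n in (U : Filter ℕ), ‖g^[m (ψ n)] w - k w‖ < δ₂ / 2 :=
            (tendsto_iff_norm_sub_tendsto_zero.1 (hkl w hwk.norm)).eventually_lt_const
              (half_pos hδ₂)
          have e6 : ∀ᶠ n in (U : Filter ℕ), |ξ (c (ψ n) • (y (ψ n) - y' (ψ n))) -
              η (c (ψ n) • (g^[m (ψ n)] (y (ψ n)) - g^[m (ψ n)] (y' (ψ n))))| ≤ 2 * ε' := by
            filter_upwards [e1, e2, e3, e4, e5] with n hn1 hn2 hn3 hn4 hn5
            have k1 := h3 (y (ψ n) - w) (y' (ψ n) - w)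
              (by rw [sub_sub_sub_cancel_right]; exact hn1)
              (by rw [sub_sub_sub_cancel_right]; exact hn2)
            have k2 := h4 (g^[m (ψ n)] (y (ψ n)) - g^[m (ψ n)] w)
              (g^[m (ψ n)] (y' (ψ n)) - g^[m (ψ n)] w)
              (by
                have : g^[m (ψ n)] (y (ψ n)) - g^[m (ψ n)] w - (x - k w) =
                  (g^[m (ψ n)] (y (ψ n)) - x) - (g^[m (ψ n)] w - k w) := by abel
                rw [this]
                exact (norm_sub_le _ _).trans_lt (by linarith))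
              (by
                have : g^[m (ψ n)] (y' (ψ n)) - g^[m (ψ n)] w - (x - k w) =
                  (g^[m (ψ n)] (y' (ψ n)) - x) - (g^[m (ψ n)] w - k w) := by abel
                rw [this]
                exact (norm_sub_le _ _).trans_lt (by linarith))
            rw [sub_sub_sub_cancel_right] at k1 k2
            rw [(hgm (ψ n)).dist _ _ (hy _) hwk.norm, (hgm (ψ n)).dist _ _ (hy' _) hwk.norm,
              (hgm (ψ n)).dist _ _ (hy _) (hy' _)] at k2
            have k3 : |ξ (y (ψ n) - y' (ψ n)) -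
                η (g^[m (ψ n)] (y (ψ n)) - g^[m (ψ n)] (y' (ψ n)))| ≤
                2 * ε' * ‖y (ψ n) - y' (ψ n)‖ := by
              have a1 := abs_le.1 k1
              have a2 := abs_le.1 k2
              rw [abs_le]
              constructor <;> linarith [a1.1, a1.2, a2.1, a2.2]
            rw [map_smul, map_smul, smul_eq_mul, smul_eq_mul, ← mul_sub, abs_mul,
              abs_of_pos (hc _)]
            calc c (ψ n) * |ξ (y (ψ n) - y' (ψ n)) -
                  η (g^[m (ψ n)] (y (ψ n)) - g^[m (ψ n)] (y' (ψ n)))|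
                ≤ c (ψ n) * (2 * ε' * ‖y (ψ n) - y' (ψ n)‖) := by
                  have := (hc (ψ n)).le
                  gcongr
              _ = 2 * ε' := by
                  show ‖y (ψ n) - y' (ψ n)‖⁻¹ * (2 * ε' * ‖y (ψ n) - y' (ψ n)‖) = 2 * ε'
                  have := (hd (ψ n)).ne'
                  field_simp
          have e7 : Tendsto (fun n => |ξ (c (ψ n) • (y (ψ n) - y' (ψ n))) -
              η (c (ψ n) • (g^[m (ψ n)] (y (ψ n)) - g^[m (ψ n)] (y' (ψ n))))|) (U : Filter ℕ)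
              (𝓝 |ξ v - η v'|) :=
            (((ξ.continuous.tendsto _).comp (hv.mono_left hU)).sub
              ((η.continuous.tendsto _).comp (hv'.mono_left hU))).abs
          exact le_of_tendsto e7 e6
        have h0 : |ξ v - η v'| ≤ 0 := by
          refine le_of_forall_pos_le_add fun ε' hε' => ?_
          have := main (ε' / 2) (by positivity)
          linarith
        have := abs_eq_zero.1 (le_antisymm h0 (abs_nonneg _))
        linarith
      rw [map_sub, hrel, hηz v' hsv', sub_self]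
  rw [hzero, norm_zero] at hne
  linarith

end

theorem local_id [FiniteDimensional ℝ X] {g : X → X} (hg : SphIso g) {x : X} (hx : ‖x‖ = 1)
    (hgx : g x = x)
    (h : ∀ y, Good g x y → ∀ ξ ∈ J (x - y), ∀ η ∈ J (g x - g y), ∀ z, Sec x z → η z = ξ z) :
    ∃ δ > 0, ∀ y, ‖y‖ = 1 → ‖y - x‖ < δ → g y = y := by
  obtain ⟨δ, hδ, hmain⟩ := uniform_strict hg hx hgx h (ε := 1 / 2) (by norm_num)
  refine ⟨δ, hδ, fun y hy hyx => ?_⟩
  have hgy : ‖g y‖ = 1 := hg.norm y hy
  have hgyx : ‖g y - x‖ < δ := by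
    have := hg.dist y x hy hx
    rw [hgx] at this
    rwa [this]
  have hsum : ∀ n : ℕ, ‖(y - g^[n] y) - (n : ℝ) • (y - g y)‖ ≤ (n : ℝ) * (1 / 2 * ‖y - g y‖) := by
    intro n
    induction n with
    | zero => simp
    | succ n ih =>
      have h1 := hmain n y (g y) hy hgy hyx hgyx
      rw [← Function.iterate_succ_apply] at h1
      have e : (y - g^[n + 1] y) - ((n + 1 : ℕ) : ℝ) • (y - g y) =
          ((y - g^[n] y) - (n : ℝ) • (y - g y)) + ((g^[n] y - g^[n + 1] y) - (y - g y)) := by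
        push_cast
        module
      rw [e]
      refine (norm_add_le _ _).trans ?_
      push_cast
      linarith
  by_contra hne
  have hpos : 0 < ‖y - g y‖ := norm_pos_iff.2 (sub_ne_zero.2 (Ne.symm hne))
  obtain ⟨n, hn⟩ := exists_nat_gt (4 / ‖y - g y‖)
  rw [div_lt_iff₀ hpos] at hn
  have h1 := hsum n
  have h2 : ‖y - g^[n] y‖ ≤ 2 := by
    refine (norm_sub_le _ _).trans ?_
    rw [hy, (hg.iterate n).norm y hy]; norm_num
  have h3 : ‖(n : ℝ) • (y - g y)‖ ≤ ‖y - g^[n] y‖ + ‖(y - g^[n] y) - (n : ℝ) • (y - g y)‖ := by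
    have : (n : ℝ) • (y - g y) = (y - g^[n] y) - ((y - g^[n] y) - (n : ℝ) • (y - g y)) := by abel
    rw [this]
    refine (norm_sub_le _ _).trans (le_of_eq ?_)
    rw [sub_sub_cancel]
  rw [norm_smul, Real.norm_natCast] at h3
  linarith

end Vale.P084
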