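import Mathlib
import Vale.Agent.P084.Faces
import Vale.Agent.P084.Sec
import Vale.Agent.P084.Local
import Vale.Agent.P084.Assemble

/-!
# P084, module M5: the value at a bad point, and propagation of the identity
-/

namespace Vale.P084

open Metric Filter Topology Pointwise

variable {X Y : Type*} [NormedAddCommGroup X] [NormedSpace ℝ X]
  [NormedAddCommGroup Y] [NormedSpace ℝ Y]

/-- a nonempty bounded set is not invariant under a nonzero translation -/
lemma eq_zero_of_translate {C : Set X} (hne : C.Nonempty) (hb : ∀ u ∈ C, ‖u‖ ≤ 1) {b : X}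
    (h : ∀ u ∈ C, u + b ∈ C) : b = 0 := by
  obtain ⟨u, hu⟩ := hne
  have h1 : ∀ n : ℕ, u + (n : ℝ) • b ∈ C := by
    intro n
    induction n with
    | zero => simpa using hu
    | succ n ih =>
      have := h _ ih
      have e : u + ((n + 1 : ℕ) : ℝ) • b = u + (n : ℝ) • b + b := by push_cast; module
      rwa [e]
  by_contra hb0
  have hbpos : 0 < ‖b‖ := norm_pos_iff.2 hb0
  obtain ⟨n, hn⟩ := exists_nat_gt (2 / ‖b‖)
  have h2 := hb _ (h1 n)
  have h3 := hb _ hu
  have h4 : ‖(n : ℝ) • b‖ ≤ 2 := by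
    have : (n : ℝ) • b = (u + (n : ℝ) • b) - u := by abel
    rw [this]
    exact (norm_sub_le _ _).trans (by linarith)
  rw [norm_smul, Real.norm_natCast] at h4
  rw [div_lt_iff₀ hbpos] at hn
  linarith

section

variable [FiniteDimensional ℝ X] [FiniteDimensional ℝ Y] {f : X → Y} (hf : SphIso f)
  {x : X} (hx : ‖x‖ = 1) {Φ : X →L[ℝ] Y} (hΦ : Rel f x Φ)
include hf hx hΦ

/-- on a maximal face through `x`, `f` is a translate of the linear isometry -/
lemma Rel.face_eq {C : Set X} (hC : MaxFace C) (hxC : x ∈ C) {u : X} (hu : u ∈ C) :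
    f u - f x = Φ (u - x) := by
  obtain ⟨z, α, hz, hα, hαz, hCα, hiff⟩ := hC.exists_face
  have hnC : ∀ w ∈ C, ‖w‖ = 1 := fun w hw => by rw [hCα] at hw; exact hw.1
  have hconv := hC.convex
  symm
  apply hΦ.eq_of_forall hf hx
  intro y hy ξ hξ η hη
  let t : ℕ → ℝ := fun n => ((n : ℝ) + 1)⁻¹
  have ht : Tendsto t atTop (𝓝 0) := by
    simpa [t] using tendsto_one_div_add_atTop_nhds_zero_nat (𝕜 := ℝ)
  have ht0 : ∀ n, t n ∈ Set.Icc (0 : ℝ) 1 := by
    intro n
    refine ⟨by positivity, ?_⟩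
    show ((n : ℝ) + 1)⁻¹ ≤ 1
    apply inv_le_one_of_one_le₀
    have := Nat.cast_nonneg (α := ℝ) n
    linarith
  have hmem : ∀ n, (1 - t n) • x + t n • u ∈ C := fun n =>
    hconv hxC hu (by linarith [(ht0 n).2]) (ht0 n).1 (by ring)
  have hlim : Tendsto (fun n => (1 - t n) • x + t n • u) atTop (𝓝 x) := by
    have h1 : Tendsto (fun n => (1 - t n) • x + t n • u) atTop
        (𝓝 ((1 - (0 : ℝ)) • x + (0 : ℝ) • u)) :=
      ((ht.const_sub 1).smul_const x).add (ht.smul_const u)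
    simpa using h1
  have hc : ∀ n, (t n)⁻¹ • ((1 - t n) • x + t n • u - x) = u - x := by
    intro n
    have h0 : t n ≠ 0 := by show ((n : ℝ) + 1)⁻¹ ≠ 0; positivity
    have : (1 - t n) • x + t n • u - x = t n • (u - x) := by module
    rw [this, smul_smul, inv_mul_cancel₀ h0, one_smul]
  have hc' : ∀ n, (t n)⁻¹ • (f ((1 - t n) • x + t n • u) - f x) = f u - f x := by
    intro n
    have h0 : t n ≠ 0 := by show ((n : ℝ) + 1)⁻¹ ≠ 0; positivity
    have : f ((1 - t n) • x + t n • u) - f x = t n • (f u - f x) := by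
      rw [hC.affine hf hxC hu (ht0 n)]; module
    rw [this, smul_smul, inv_mul_cancel₀ h0, one_smul]
  refine secant_limit hf hx hy hξ hη (p := fun n => (1 - t n) • x + t n • u) (q := fun _ => x)
    (c := fun n => (t n)⁻¹) (fun n => hnC _ (hmem n)) (fun _ => hx) hlim tendsto_const_nhds ?_ ?_
  · exact tendsto_const_nhds.congr fun n => (hc n).symm
  · exact tendsto_const_nhds.congr fun n => (hc' n).symm

/-- the linear isometry agrees with `f` at `x` -/
theorem Rel.apply_self : Φ x = f x := by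
  have hxx : ‖x + x‖ = 2 := by rw [← two_smul ℝ, norm_smul, hx]; norm_num
  obtain ⟨C, hC, hxC, -⟩ := exists_maxFace hx hx hxx
  have hC' := hC.image hf
  obtain ⟨z', β, hz', hβ, hβz, hCβ, hiff⟩ := hC'.exists_face
  obtain ⟨z₀, α, hz₀, hα, hαz, hCα, hiff₀⟩ := hC.exists_face
  -- the linear extension maps maximal faces to maximal faces
  have hinj := hΦ.injective hf hx
  have hsurj := hΦ.surjective hf hx
  have hiso := hΦ.norm_map hf hx
  have hfx : f x ∈ f '' C := ⟨x, hxC, rfl⟩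
  have hβx : β ∈ J (f x) := by
    rw [hCβ] at hfx
    exact ⟨hβ, by rw [hfx.2, hf.norm x hx]⟩
  have hβΦ : β (Φ x) = 1 := hΦ.norming hf hx hβx
  have hβf : β (f x) = 1 := by rw [hβx.2, hf.norm x hx]
  -- pull back `β`
  have hsub : C ⊆ {u | ‖u‖ = 1 ∧ (β.comp Φ) u = 1} := by
    intro u hu
    refine ⟨by rw [hCα] at hu; exact hu.1, ?_⟩
    have h1 := hΦ.face_eq hf hx hC hxC hu
    have h2 : f u ∈ f '' C := ⟨u, hu, rfl⟩
    rw [hCβ] at h2
    have h3 : β (f u - f x) = 0 := by rw [map_sub, h2.2, hβf, sub_self]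
    rw [h1, map_sub, map_sub, hβΦ] at h3
    show β (Φ u) = 1
    linarith
  have hβn : ‖β.comp Φ‖ ≤ 1 := by
    refine ContinuousLinearMap.opNorm_le_bound _ zero_le_one fun v => ?_
    rw [one_mul]
    calc ‖β (Φ v)‖ ≤ ‖β‖ * ‖Φ v‖ := β.le_opNorm _
      _ ≤ 1 * ‖Φ v‖ := by gcongr
      _ = ‖v‖ := by rw [one_mul, hiso]
  have heq := hC.eq_of_subset hβn hsub
  -- translation by `b`
  have hb : f x - Φ x = 0 := by
    apply eq_zero_of_translate (C := Φ '' C) (hC.nonempty.image _)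
    · rintro _ ⟨u, hu, rfl⟩
      rw [hiso]
      rw [hCα] at hu
      exact hu.1.le
    · rintro _ ⟨u, hu, rfl⟩
      have h1 := hΦ.face_eq hf hx hC hxC hu
      have h2 : Φ u + (f x - Φ x) = f u := by
        rw [map_sub] at h1
        have : f u = (f u - f x) + f x := by abel
        rw [this, h1]; abel
      rw [h2]
      obtain ⟨w, hw⟩ := hsurj (f u)
      refine ⟨w, ?_, hw⟩
      rw [heq]
      have hun : ‖u‖ = 1 := by rw [hCα] at hu; exact hu.1
      refine ⟨by rw [← hiso, hw, hf.norm u hun], ?_⟩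
      show β (Φ w) = 1
      rw [hw]
      have h3 : f u ∈ f '' C := ⟨u, hu, rfl⟩
      rw [hCβ] at h3
      exact h3.2
  exact (sub_eq_zero.1 hb).symm

end

/-- a secant direction produced from a relatively open subset of the sphere accumulating at `p` -/
lemma exists_secant_in {U : Set X} (hU : ∀ u ∈ U, ‖u‖ = 1 ∧ ∃ δ > 0, ∀ w, ‖w‖ = 1 → ‖w - u‖ < δ →
    w ∈ U) {p : X} (hp : ‖p‖ = 1) (hpU : p ∈ closure U) (v : X) :
    ∃ (a b : ℕ → X) (c : ℕ → ℝ) (d : ℝ), (∀ n, a n ∈ U) ∧ (∀ n, b n ∈ U) ∧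
      Tendsto a atTop (𝓝 p) ∧ Tendsto b atTop (𝓝 p) ∧
      Tendsto (fun n => c n • (a n - b n)) atTop (𝓝 (v - d • p)) := by
  classical
  -- base points
  have hseq : ∀ n : ℕ, ∃ (u : X) (s : ℝ), u ∈ U ∧ ‖u - p‖ ≤ 1 / ((n : ℝ) + 1) ∧ 0 < s ∧
      s ≤ 1 / ((n : ℝ) + 1) ∧ ‖s • v‖ ≤ 1 / 2 ∧ ‖u + s • v‖⁻¹ • (u + s • v) ∈ U := by
    intro n
    obtain ⟨u, hu, hup⟩ := Metric.mem_closure_iff.1 hpU (1 / ((n : ℝ) + 1)) (by positivity)
    obtain ⟨hu1, δ, hδ, hδU⟩ := hU u hu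
    have hcont : Tendsto (fun s : ℝ => ‖u + s • v‖⁻¹ • (u + s • v)) (𝓝 0) (𝓝 u) := by
      have h1 : Tendsto (fun s : ℝ => u + s • v) (𝓝 0) (𝓝 (u + (0 : ℝ) • v)) :=
        (tendsto_id.smul_const v).const_add u
      rw [zero_smul, add_zero] at h1
      have h2 := (h1.norm.inv₀ (by rw [hu1]; exact one_ne_zero)).smul h1
      rw [hu1, inv_one, one_smul] at h2
      exact h2
    have hcont2 : Tendsto (fun s : ℝ => ‖s • v‖) (𝓝 0) (𝓝 0) := by
      have h1 : Tendsto (fun s : ℝ => ‖s • v‖) (𝓝 0) (𝓝 ‖(0 : ℝ) • v‖) :=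
        (tendsto_id.smul_const v).norm
      rwa [zero_smul, norm_zero] at h1
    have hev : ∀ᶠ s in 𝓝[>] (0 : ℝ), 0 < s ∧ s ≤ 1 / ((n : ℝ) + 1) ∧ ‖s • v‖ ≤ 1 / 2 ∧
        ‖‖u + s • v‖⁻¹ • (u + s • v) - u‖ < δ := by
      have e1 : ∀ᶠ s in 𝓝[>] (0 : ℝ), 0 < s := self_mem_nhdsWithin
      have e2 : ∀ᶠ s in 𝓝[>] (0 : ℝ), s ≤ 1 / ((n : ℝ) + 1) :=
        nhdsWithin_le_nhds (eventually_le_nhds (by positivity))
      have e3 : ∀ᶠ s in 𝓝[>] (0 : ℝ), ‖s • v‖ ≤ 1 / 2 :=
        nhdsWithin_le_nhds (hcont2.eventually_le_const (by norm_num))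
      have e4 : ∀ᶠ s in 𝓝[>] (0 : ℝ), ‖‖u + s • v‖⁻¹ • (u + s • v) - u‖ < δ :=
        nhdsWithin_le_nhds ((tendsto_iff_norm_sub_tendsto_zero.1 hcont).eventually_lt_const hδ)
      filter_upwards [e1, e2, e3, e4] with s h1 h2 h3 h4
      exact ⟨h1, h2, h3, h4⟩
    obtain ⟨s, hs1, hs2, hs3, hs4⟩ := hev.exists
    refine ⟨u, s, hu, ?_, hs1, hs2, hs3, ?_⟩
    · rw [← dist_eq_norm, dist_comm]; exact hup.le
    · refine hδU _ (norm_inv_smul_self ?_) hs4
      intro h0
      have h1 : ‖u‖ = ‖s • v‖ := by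
        rw [← norm_neg (s • v)]; congr 1; exact eq_neg_of_add_eq_zero_left h0
      rw [hu1] at h1
      linarith
  choose u s hu hup hs0 hs1 hsv hsU using hseq
  have hinv : Tendsto (fun n : ℕ => 1 / ((n : ℝ) + 1)) atTop (𝓝 0) :=
    tendsto_one_div_add_atTop_nhds_zero_nat
  have hulim : Tendsto u atTop (𝓝 p) := by
    rw [tendsto_iff_norm_sub_tendsto_zero]
    exact squeeze_zero (fun n => norm_nonneg _) hup hinv
  have hslim : Tendsto s atTop (𝓝 0) := squeeze_zero (fun n => (hs0 n).le) hs1 hinv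
  have hu1 : ∀ n, ‖u n‖ = 1 := fun n => (hU _ (hu n)).1
  -- norms
  let r : ℕ → ℝ := fun n => ‖u n + s n • v‖
  let d : ℕ → ℝ := fun n => (s n)⁻¹ * (r n - 1)
  have hd : ∀ n, |d n| ≤ ‖v‖ := by
    intro n
    have h1 := abs_norm_sub_norm_le (u n + s n • v) (u n)
    rw [add_sub_cancel_left, hu1, norm_smul, Real.norm_of_nonneg (hs0 n).le] at h1
    show |(s n)⁻¹ * (r n - 1)| ≤ ‖v‖
    rw [abs_mul, abs_inv, abs_of_pos (hs0 n), inv_mul_le_iff₀ (hs0 n)]
    exact h1
  have hr : Tendsto r atTop (𝓝 1) := by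
    have h1 : Tendsto (fun n => u n + s n • v) atTop (𝓝 (p + (0 : ℝ) • v)) :=
      hulim.add (hslim.smul_const v)
    rw [zero_smul, add_zero] at h1
    have := h1.norm
    rwa [hp] at this
  obtain ⟨d₀, -, ψ, hψ, hlim⟩ := isCompact_Icc.tendsto_subseq (x := d)
    (fun n => (⟨(abs_le.1 (hd n)).1, (abs_le.1 (hd n)).2⟩ : d n ∈ Set.Icc (-‖v‖) ‖v‖))
  have hid : ∀ n, (s n)⁻¹ • ((r n)⁻¹ • (u n + s n • v) - u n) = (r n)⁻¹ • (v - d n • u n) := by
    intro n
    have hrn : r n ≠ 0 := by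
      have h1 := norm_sub_norm_le (u n) (-(s n • v))
      rw [sub_neg_eq_add, norm_neg, hu1] at h1
      have h2 : (1 : ℝ) / 2 ≤ r n := by
        show 1 / 2 ≤ ‖u n + s n • v‖
        linarith [hsv n]
      linarith
    have hsn : s n ≠ 0 := (hs0 n).ne'
    have e1 : (s n)⁻¹ • ((r n)⁻¹ • (u n + s n • v) - u n) =
        ((s n)⁻¹ * s n * (r n)⁻¹) • v + ((s n)⁻¹ * ((r n)⁻¹ - 1)) • u n := by module
    have e2 : (r n)⁻¹ • (v - d n • u n) =
        (r n)⁻¹ • v + (-(r n)⁻¹ * ((s n)⁻¹ * (r n - 1))) • u n := by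
      show (r n)⁻¹ • (v - ((s n)⁻¹ * (r n - 1)) • u n) = _
      module
    rw [e1, e2, inv_mul_cancel₀ hsn, one_mul]
    congr 2
    field_simp
    ring
  refine ⟨fun n => (r (ψ n))⁻¹ • (u (ψ n) + s (ψ n) • v), fun n => u (ψ n),
    fun n => (s (ψ n))⁻¹, d₀, fun n => hsU _, fun n => hu _, ?_, hulim.comp hψ.tendsto_atTop, ?_⟩
  · have h1 : Tendsto (fun n => u n + s n • v) atTop (𝓝 (p + (0 : ℝ) • v)) :=
      hulim.add (hslim.smul_const v)
    rw [zero_smul, add_zero] at h1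
    have h2 := (hr.inv₀ one_ne_zero).smul h1
    rw [inv_one, one_smul] at h2
    exact h2.comp hψ.tendsto_atTop
  · have h1 : Tendsto (fun n => (r (ψ n))⁻¹ • (v - d (ψ n) • u (ψ n))) atTop
        (𝓝 ((1 : ℝ)⁻¹ • (v - d₀ • p))) :=
      ((hr.comp hψ.tendsto_atTop).inv₀ one_ne_zero).smul
        ((hlim.smul (hulim.comp hψ.tendsto_atTop)).const_sub v)
    rw [inv_one, one_smul] at h1
    exact h1.congr fun n => (hid (ψ n)).symm

/-- secant directions at a smooth point are tangent -/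
lemma Sec.tangent [FiniteDimensional ℝ X] {x z : X} {α : X →L[ℝ] ℝ} (hα : J x = {α})
    (hz : Sec x z) : α z = 0 := by
  obtain ⟨p, q, c, hp, hq, hlp, hlq, hlz⟩ := hz
  have main : ∀ ε > 0, |α z| ≤ ε * ‖z‖ := by
    intro ε hε
    obtain ⟨δ, hδ, h1⟩ := strict_diff hα hε
    have e1 : ∀ᶠ n in atTop, ‖p n - x‖ < δ :=
      (tendsto_iff_norm_sub_tendsto_zero.1 hlp).eventually_lt_const hδ
    have e2 : ∀ᶠ n in atTop, ‖q n - x‖ < δ :=
      (tendsto_iff_norm_sub_tendsto_zero.1 hlq).eventually_lt_const hδ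
    have e3 : ∀ᶠ n in atTop, |α (c n • (p n - q n))| ≤ ε * ‖c n • (p n - q n)‖ := by
      filter_upwards [e1, e2] with n hn1 hn2
      have k1 := h1 (p n) (q n) hn1 hn2
      rw [hp, hq, sub_self, zero_sub, abs_neg] at k1
      rw [map_smul, smul_eq_mul, abs_mul, norm_smul, Real.norm_eq_abs]
      calc |c n| * |α (p n - q n)| ≤ |c n| * (ε * ‖p n - q n‖) := by gcongr
        _ = ε * (|c n| * ‖p n - q n‖) := by ring
    exact le_of_tendsto_of_tendsto ((α.continuous.tendsto _).comp hlz).abs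
      (hlz.norm.const_mul ε) e3
  have h0 : |α z| ≤ 0 := by
    refine le_of_forall_pos_le_add fun ε hε => ?_
    have := main (ε / (‖z‖ + 1)) (by positivity)
    refine this.trans ?_
    rw [zero_add, div_mul_eq_mul_div, div_le_iff₀ (by positivity)]
    nlinarith [norm_nonneg z]
  exact abs_eq_zero.1 (le_antisymm h0 (abs_nonneg _))

/-- propagation: a sphere isometry whose strict derivative at a fixed point is the identity is the
identity -/
theorem self_id [FiniteDimensional ℝ X] (hdim : 2 ≤ Module.finrank ℝ X) {g : X → X}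
    (hg : SphIso g) {x : X} (hx : ‖x‖ = 1) (hgx : g x = x)
    (hrel : Rel g x (ContinuousLinearMap.id ℝ X)) (y : X) (hy : ‖y‖ = 1) : g y = y := by
  classical
  -- the interior of the fixed point set
  let U : Set X := {u | ‖u‖ = 1 ∧ ∃ δ > 0, ∀ w, ‖w‖ = 1 → ‖w - u‖ < δ → g w = w}
  have hUfix : ∀ u ∈ U, g u = u := by
    rintro u ⟨hu, δ, hδ, h⟩
    exact h u hu (by rw [sub_self, norm_zero]; exact hδ)
  have hUopen : ∀ u ∈ U, ‖u‖ = 1 ∧ ∃ δ > 0, ∀ w, ‖w‖ = 1 → ‖w - u‖ < δ → w ∈ U := by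
    rintro u ⟨hu, δ, hδ, h⟩
    refine ⟨hu, δ, hδ, fun w hw hwu => ⟨hw, δ - ‖w - u‖, by linarith, fun w' hw' hw'w => ?_⟩⟩
    refine h w' hw' ?_
    calc ‖w' - u‖ ≤ ‖w' - w‖ + ‖w - u‖ := by
          have : w' - u = (w' - w) + (w - u) := by abel
          rw [this]; exact norm_add_le _ _
      _ < δ := by linarith
  -- the key step
  have hclosed : ∀ p, ‖p‖ = 1 → p ∈ closure U → p ∈ U := by
    intro p hp hpU
    have hgp : g p = p := by
      have : ∀ ε > 0, ‖g p - p‖ ≤ ε := by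
        intro ε hε
        obtain ⟨u, hu, hup⟩ := Metric.mem_closure_iff.1 hpU (ε / 2) (by positivity)
        have h1 : ‖g p - g u‖ = ‖p - u‖ := hg.dist _ _ hp (hUopen u hu).1
        rw [hUfix u hu] at h1
        rw [dist_eq_norm] at hup
        have : g p - p = (g p - u) - (p - u) := by abel
        rw [this]
        refine (norm_sub_le _ _).trans ?_
        rw [h1]; linarith
      have h0 : ‖g p - p‖ ≤ 0 := le_of_forall_pos_le_add fun ε hε => by
        rw [zero_add]; exact this ε hε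
      exact sub_eq_zero.1 (norm_eq_zero.1 (le_antisymm h0 (norm_nonneg _)))
    -- secants from `U`
    have hsec : ∀ v : X, ∃ d : ℝ, Sec p (v - d • p) ∧ ∀ y, Good g p y → ∀ ξ ∈ J (p - y),
        ∀ η ∈ J (g p - g y), ξ (v - d • p) = η (v - d • p) := by
      intro v
      obtain ⟨a, b, c, d, ha, hb, hla, hlb, hlc⟩ := exists_secant_in hUopen hp hpU v
      refine ⟨d, ⟨a, b, c, fun n => (hUopen _ (ha n)).1, fun n => (hUopen _ (hb n)).1, hla, hlb,
        hlc⟩, fun y hy ξ hξ η hη => ?_⟩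
      refine secant_limit hg hp hy hξ hη (fun n => (hUopen _ (ha n)).1)
        (fun n => (hUopen _ (hb n)).1) hla hlb hlc ?_
      refine hlc.congr fun n => ?_
      rw [hUfix _ (ha n), hUfix _ (hb n)]
    have hmain : ∀ y, Good g p y → ∀ ξ ∈ J (p - y), ∀ η ∈ J (g p - g y), ∀ z, Sec p z →
        η z = ξ z := by
      by_cases hsm : (J p).Subsingleton
      · -- smooth point
        obtain ⟨α, hα⟩ := J_nonempty p
        have hJ : J p = {α} := J_singleton hsm hα
        intro y hy ξ hξ η hη z hz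
        obtain ⟨d, hd1, hd2⟩ := hsec z
        have h1 := hz.tangent hJ
        have h2 := hd1.tangent hJ
        have h3 : α p = 1 := by rw [hα.2, hp]
        rw [map_sub, map_smul, h1, h3, smul_eq_mul, mul_one, zero_sub, neg_eq_zero] at h2
        have h4 := hd2 y hy ξ hξ η hη
        rw [h2, zero_smul, sub_zero] at h4
        exact h4.symm
      · -- nonsmooth point
        obtain ⟨Φ, hΦ⟩ := exists_rel_of_nonsmooth hg hp hsm
        have hΦp : Φ p = p := by rw [hΦ.apply_self hg hp, hgp]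
        have hid : ∀ v, Φ v = v := by
          intro v
          obtain ⟨d, -, hd2⟩ := hsec v
          have h1 := hΦ.eq_of_forall hg hp hd2
          rw [map_sub, map_smul, hΦp] at h1
          exact sub_left_injective h1
        intro y hy ξ hξ η hη z hz
        rw [← hΦ y hy ξ hξ η hη z, hid]
    obtain ⟨δ, hδ, hloc⟩ := local_id hg hp hgp hmain
    exact ⟨hp, δ, hδ, hloc⟩
  -- the starting point
  have hxU : x ∈ U := by
    obtain ⟨δ, hδ, hloc⟩ := local_id hg hx hgx fun y hy ξ hξ η hη z _ => hrel y hy ξ hξ η hη z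
    exact ⟨hx, δ, hδ, hloc⟩
  -- connectedness
  have hrank : 1 < Module.rank ℝ X := by
    rw [← Module.finrank_eq_rank]
    exact_mod_cast (by omega : 1 < Module.finrank ℝ X)
  have hconn : IsPreconnected (sphere (0 : X) 1) := isPreconnected_sphere hrank 0 1
  have hsub : sphere (0 : X) 1 ⊆ U := by
    have hO : ∃ O : Set X, IsOpen O ∧ O ∩ sphere (0 : X) 1 = U := by
      refine ⟨⋃ u ∈ U, ball u (if h : ∃ δ > 0, ∀ w, ‖w‖ = 1 → ‖w - u‖ < δ → w ∈ U then h.choose
        else 1), isOpen_biUnion fun u _ => isOpen_ball, ?_⟩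
      ext w
      simp only [Set.mem_inter_iff, Set.mem_iUnion, mem_ball, exists_prop,
        mem_sphere_iff_norm, sub_zero]
      constructor
      · rintro ⟨⟨u, hu, hwu⟩, hw⟩
        have h := (hUopen u hu).2
        rw [dif_pos h, dist_eq_norm] at hwu
        exact h.choose_spec.2 w hw hwu
      · intro hw
        refine ⟨⟨w, hw, ?_⟩, hw.1⟩
        have h := (hUopen w hw).2
        rw [dif_pos h, dist_self]
        exact h.choose_spec.1
    obtain ⟨O, hO, hOU⟩ := hO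
    by_contra hcon
    rw [Set.not_subset] at hcon
    obtain ⟨q, hq, hqU⟩ := hcon
    have h1 := hconn O (closure U)ᶜ hO isClosed_closure.isOpen_compl ?_ ?_ ?_
    · obtain ⟨w, hw, hwO, hwU⟩ := h1
      have : w ∈ U := by rw [← hOU]; exact ⟨hwO, hw⟩
      exact hwU (subset_closure this)
    · intro w hw
      by_cases hwU : w ∈ closure U
      · left
        have : w ∈ U := hclosed w (mem_sphere_zero_iff_norm.1 hw) hwU
        rw [← hOU] at this
        exact this.1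
      · right; exact hwU
    · refine ⟨x, mem_sphere_zero_iff_norm.2 hx, ?_⟩
      have := hxU
      rw [← hOU] at this
      exact this.1
    · refine ⟨q, hq, fun hqc => hqU (hclosed q (mem_sphere_zero_iff_norm.1 hq) hqc)⟩
  exact hUfix y (hsub (mem_sphere_zero_iff_norm.2 hy))

/-- Part I in general: if the linear map exists at some point, `f` is the restriction of it -/
theorem Rel.eq_all [FiniteDimensional ℝ X] [FiniteDimensional ℝ Y]
    (hdim : 2 ≤ Module.finrank ℝ X) {f : X → Y} (hf : SphIso f) {x : X} (hx : ‖x‖ = 1)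
    {Φ : X →L[ℝ] Y} (hΦ : Rel f x Φ) (y : X) (hy : ‖y‖ = 1) : f y = Φ y := by
  obtain ⟨g, Ψ, hg, hgf, hΨ, h1, h2⟩ := hΦ.inv hf hx
  have hiso := hΦ.norm_map hf hx
  have hfx := hΦ.apply_self hf hx
  have hisoΨ : ∀ w, ‖Ψ w‖ = ‖w‖ := fun w => by rw [← hiso, h2]
  -- the self-map
  let k : X → X := fun y => Ψ (f y)
  have hk : SphIso k := by
    refine ⟨fun y hy => ?_, fun y z hy hz => ?_, fun y hy => ?_, fun y z hy hz => ?_⟩
    · show ‖Ψ (f y)‖ = 1
      rw [hisoΨ, hf.norm y hy]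
    · show ‖Ψ (f y) - Ψ (f z)‖ = _
      rw [← map_sub, hisoΨ, hf.dist y z hy hz]
    · obtain ⟨z, hz, hfz⟩ := hf.surj (Φ y) (by rw [hiso, hy])
      exact ⟨z, hz, by show Ψ (f z) = y; rw [hfz, h1]⟩
    · show ‖Ψ (f y) + Ψ (f z)‖ = 2 ↔ _
      rw [← map_add, hisoΨ, hf.star y z hy hz]
  have hkx : k x = x := by show Ψ (f x) = x; rw [← hfx, h1]
  have hrel : Rel k x (ContinuousLinearMap.id ℝ X) := by
    intro y hy ξ hξ η hη v
    -- the functional `η ∘ Ψ` norms `f x - f y`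
    have hηΨ : η.comp Ψ ∈ J (f x - f y) := by
      refine ⟨?_, ?_⟩
      · refine ContinuousLinearMap.opNorm_le_bound _ zero_le_one fun w => ?_
        rw [one_mul]
        calc ‖η (Ψ w)‖ ≤ ‖η‖ * ‖Ψ w‖ := η.le_opNorm _
          _ ≤ 1 * ‖Ψ w‖ := by have := hη.1; gcongr
          _ = ‖w‖ := by rw [one_mul, hisoΨ]
      · show η (Ψ (f x - f y)) = ‖f x - f y‖
        have h3 := hη.2
        have h4 : k x - k y = Ψ (f x - f y) := by
          show Ψ (f x) - Ψ (f y) = _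
          rw [map_sub]
        rw [h4, hisoΨ] at h3
        exact h3
    have hgood : Good f x y := by
      refine ⟨hy.norm, hy.lt, hy.ss, ?_⟩
      intro β₁ hβ₁ β₂ hβ₂
      have hpull : ∀ β ∈ J (f x - f y), β.comp Φ ∈ J (k x - k y) := by
        intro β hβ
        refine ⟨?_, ?_⟩
        · refine ContinuousLinearMap.opNorm_le_bound _ zero_le_one fun w => ?_
          rw [one_mul]
          calc ‖β (Φ w)‖ ≤ ‖β‖ * ‖Φ w‖ := β.le_opNorm _
            _ ≤ 1 * ‖Φ w‖ := by have := hβ.1; gcongr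
            _ = ‖w‖ := by rw [one_mul, hiso]
        · show β (Φ (Ψ (f x) - Ψ (f y))) = ‖Ψ (f x) - Ψ (f y)‖
          rw [← map_sub, h2, hβ.2, hisoΨ]
      have h3 := hy.ss' (hpull β₁ hβ₁) (hpull β₂ hβ₂)
      ext w
      have h4 := congrArg (fun L : X →L[ℝ] ℝ => L (Ψ w)) h3
      have h5 : β₁ (Φ (Ψ w)) = β₂ (Φ (Ψ w)) := h4
      rwa [h2] at h5
    have h3 := hΦ y hgood ξ hξ (η.comp Ψ) hηΨ v
    have h4 : η (Ψ (Φ v)) = ξ v := h3
    rw [h1] at h4
    exact h4
  have h3 := self_id hdim hk hx hkx hrel y hy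
  have h4 : Ψ (f y) = y := h3
  rw [← h2 (f y), h4]

end Vale.P084
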