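import Mathlib
import Vale.Agent.P084.Propag
import Vale.Agent.P084.Odd

/-!
# P084: every real normed space of finite dimension at least three has the Mazur-Ulam property
-/

namespace Vale.P084

open Metric Filter Topology

variable {X Y : Type*} [NormedAddCommGroup X] [NormedSpace ℝ X]
  [NormedAddCommGroup Y] [NormedSpace ℝ Y]

theorem general_main [FiniteDimensional ℝ X] [FiniteDimensional ℝ Y] {f : X → Y} (hf : SphIso f)
    (hdim : 3 ≤ Module.finrank ℝ X) : ∃ T : X ≃ₗᵢ[ℝ] Y, ∀ x, ‖x‖ = 1 → T x = f x := by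
  by_cases hCX : C11 X
  · by_cases hCY : C11 Y
    · have hodd : ∀ x, ‖x‖ = 1 → f (-x) = -f x := by
        refine odd_of_smooth hf fun x hx => ?_
        rw [J_eq_nm hCX.contDiffOn hx]
        exact Set.subsingleton_singleton
      obtain ⟨L, hL⟩ := hf.linear_of_C11 hodd hCX hCY hdim
      exact hf.exists_equiv hL
    · obtain ⟨g, hg, hgf, hfg⟩ := hf.inv
      obtain ⟨y, V, hy, hV⟩ := exists_bad hg hCY
      obtain ⟨Φ, hΦ⟩ := exists_rel hg hy hV
      have hdimY : 2 ≤ Module.finrank ℝ Y := by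
        have e : Y ≃ₗ[ℝ] X := LinearEquiv.ofBijective (Φ : Y →ₗ[ℝ] X)
          ⟨hΦ.injective hg hy, hΦ.surjective hg hy⟩
        rw [e.finrank_eq]
        omega
      have h1 := fun z hz => hΦ.eq_all hdimY hg hy z hz
      obtain ⟨T, hT⟩ := hg.exists_equiv h1
      refine ⟨T.symm, fun x hx => ?_⟩
      rw [LinearIsometryEquiv.symm_apply_eq, hT _ (hf.norm x hx), hgf x hx]
  · obtain ⟨x, V, hx, hV⟩ := exists_bad hf hCX
    obtain ⟨Φ, hΦ⟩ := exists_rel hf hx hV
    exact hf.exists_equiv fun z hz => hΦ.eq_all (by omega) hf hx z hz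

/-- Tingley's problem in finite dimension at least three -/
theorem general_tingley [FiniteDimensional ℝ X] (hdim : 3 ≤ Module.finrank ℝ X)
    (f : sphere (0 : X) 1 → sphere (0 : Y) 1) (hf : Isometry f) (hs : Function.Surjective f) :
    ∃ T : X ≃ₗᵢ[ℝ] Y, ∀ x : sphere (0 : X) 1, T x = f x := by
  have := finDim_target f hf hs
  obtain ⟨F, hF, hFf⟩ := exists_sphIso f hf hs
  obtain ⟨T, hT⟩ := general_main hF hdim
  exact ⟨T, fun x => by rw [hT x (mem_sphere_zero_iff_norm.1 x.2), hFf]⟩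

end Vale.P084
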