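import Mathlib

/-!
# P084: dimensions zero and one
-/

open Metric

namespace Vale.P084

variable {X Y : Type*} [NormedAddCommGroup X] [NormedSpace ℝ X] [NormedAddCommGroup Y]
  [NormedSpace ℝ Y]

theorem dim_zero [Subsingleton X] (f : sphere (0 : X) 1 → sphere (0 : Y) 1)
    (hs : Function.Surjective f) : ∃ T : X ≃ₗᵢ[ℝ] Y, ∀ x : sphere (0 : X) 1, T x = f x := by
  have h1 : ∀ x : sphere (0 : X) 1, False := by
    rintro ⟨x, hx⟩
    rw [mem_sphere_zero_iff_norm, Subsingleton.elim x 0, norm_zero] at hx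
    exact zero_ne_one hx
  have h2 : ∀ y : Y, y = 0 := by
    intro y
    by_contra hy
    obtain ⟨x, _⟩ := hs ⟨‖y‖⁻¹ • y, by
      rw [mem_sphere_zero_iff_norm, norm_smul, norm_inv, norm_norm,
        inv_mul_cancel₀ (norm_ne_zero_iff.2 hy)]⟩
    exact h1 x
  have hsub : Subsingleton Y := ⟨fun a b => by rw [h2 a, h2 b]⟩
  refine ⟨LinearIsometryEquiv.ofSurjective
    { toFun := fun _ => 0
      map_add' := fun _ _ => Subsingleton.elim _ _
      map_smul' := fun _ _ => Subsingleton.elim _ _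
      norm_map' := fun x => by rw [Subsingleton.elim x 0]; simp } (fun y => ⟨0, (h2 y).symm⟩),
    fun x => (h1 x).elim⟩

theorem dim_one (hdim : Module.finrank ℝ X = 1) (f : sphere (0 : X) 1 → sphere (0 : Y) 1)
    (hs : Function.Surjective f) : ∃ T : X ≃ₗᵢ[ℝ] Y, ∀ x : sphere (0 : X) 1, T x = f x := by
  obtain ⟨v, hv, hspan⟩ := finrank_eq_one_iff'.1 hdim
  have hv' : ‖v‖ ≠ 0 := norm_ne_zero_iff.2 hv
  set e : X := ‖v‖⁻¹ • v with he
  have hen : ‖e‖ = 1 := by
    rw [he, norm_smul, norm_inv, norm_norm, inv_mul_cancel₀ hv']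
  have hspan' : ∀ w : X, ∃ c : ℝ, c • e = w := by
    intro w
    obtain ⟨c, hc⟩ := hspan w
    refine ⟨c * ‖v‖, ?_⟩
    rw [he, smul_smul, mul_assoc, mul_inv_cancel₀ hv', mul_one, hc]
  have hpm : ∀ x : sphere (0 : X) 1, (x : X) = e ∨ (x : X) = -e := by
    rintro ⟨x, hx⟩
    rw [mem_sphere_zero_iff_norm] at hx
    obtain ⟨c, hc⟩ := hspan' x
    rw [← hc, norm_smul, hen, mul_one, Real.norm_eq_abs] at hx
    rcases (abs_eq zero_le_one).1 hx with h | h
    · left
      show x = e
      rw [← hc, h, one_smul]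
    · right
      show x = -e
      rw [← hc, h, neg_one_smul]
  set pe : sphere (0 : X) 1 := ⟨e, by rw [mem_sphere_zero_iff_norm]; exact hen⟩ with hpe
  set me : sphere (0 : X) 1 := ⟨-e, by rw [mem_sphere_zero_iff_norm, norm_neg]; exact hen⟩
    with hme
  have hpm' : ∀ x : sphere (0 : X) 1, x = pe ∨ x = me := by
    intro x
    rcases hpm x with h | h
    · left
      exact Subtype.ext h
    · right
      exact Subtype.ext h
  have hy0 : ‖(f pe : Y)‖ = 1 := by
    have := (f pe).2
    rwa [mem_sphere_zero_iff_norm] at this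
  have hneg : (f me : Y) = -(f pe : Y) := by
    obtain ⟨x, hx⟩ := hs ⟨-(f pe : Y), by rw [mem_sphere_zero_iff_norm, norm_neg]; exact hy0⟩
    have hx' : (f x : Y) = -(f pe : Y) := congrArg Subtype.val hx
    rcases hpm' x with h | h
    · exfalso
      rw [h] at hx'
      have h3 : (f pe : Y) + (f pe : Y) = 0 := by
        nth_rewrite 1 [hx']
        exact neg_add_cancel _
      rw [← two_smul ℝ] at h3
      have h1 : (f pe : Y) = 0 := (smul_eq_zero.1 h3).resolve_left two_ne_zero
      rw [h1, norm_zero] at hy0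
      exact zero_ne_one hy0
    · rw [h] at hx'
      exact hx'
  have hsY : Function.Surjective (LinearIsometry.toSpanSingleton ℝ Y hy0) := by
    intro y
    by_cases hy : y = 0
    · exact ⟨0, by rw [hy, map_zero]⟩
    have hy' : ‖y‖ ≠ 0 := norm_ne_zero_iff.2 hy
    obtain ⟨x, hx⟩ := hs ⟨‖y‖⁻¹ • y, by
      rw [mem_sphere_zero_iff_norm, norm_smul, norm_inv, norm_norm, inv_mul_cancel₀ hy']⟩
    have hx' : (f x : Y) = ‖y‖⁻¹ • y := congrArg Subtype.val hx
    have hy2 : y = ‖y‖ • (f x : Y) := by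
      rw [hx', smul_smul, mul_inv_cancel₀ hy', one_smul]
    rcases hpm' x with h | h
    · refine ⟨‖y‖, ?_⟩
      rw [LinearIsometry.toSpanSingleton_apply, ← h]
      exact hy2.symm
    · refine ⟨-‖y‖, ?_⟩
      rw [LinearIsometry.toSpanSingleton_apply, neg_smul, ← smul_neg, ← hneg, ← h]
      exact hy2.symm
  have hsX : Function.Surjective (LinearIsometry.toSpanSingleton ℝ X hen) := by
    intro w
    obtain ⟨c, hc⟩ := hspan' w
    exact ⟨c, by rw [LinearIsometry.toSpanSingleton_apply]; exact hc⟩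
  set TX := LinearIsometryEquiv.ofSurjective _ hsX with hTX
  set TY := LinearIsometryEquiv.ofSurjective _ hsY with hTY
  have h1 : TX.symm e = 1 := by
    rw [LinearIsometryEquiv.symm_apply_eq]
    show e = LinearIsometry.toSpanSingleton ℝ X hen 1
    rw [LinearIsometry.toSpanSingleton_apply, one_smul]
  have h2 : TY 1 = (f pe : Y) := by
    show LinearIsometry.toSpanSingleton ℝ Y hy0 1 = _
    rw [LinearIsometry.toSpanSingleton_apply, one_smul]
  refine ⟨TX.symm.trans TY, fun x => ?_⟩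
  rcases hpm' x with h | h
  · rw [h]
    show TY (TX.symm e) = _
    rw [h1, h2]
  · rw [h]
    show TY (TX.symm (-e)) = _
    rw [map_neg, map_neg, h1, h2, hneg]

end Vale.P084
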