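import Vale.Agent.P084.Core

/-!
# P084: the second derivative of the homogeneous extension is a multiple of the second
fundamental form
-/

namespace Vale.P084

open Metric Filter Topology

/-- maximal generalized eigenvector of a pair of symmetric forms on a subspace -/
lemma exists_max_ratio {X : Type*} [NormedAddCommGroup X] [NormedSpace ℝ X]
    [FiniteDimensional ℝ X] (V : Submodule ℝ X) {e : X} (heV : e ∈ V) (he : e ≠ 0)
    (S q : X →L[ℝ] X →L[ℝ] ℝ) (hS : ∀ u ∈ V, ∀ w ∈ V, S u w = S w u)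
    (hq : ∀ u ∈ V, ∀ w ∈ V, q u w = q w u) (hpos : ∀ u ∈ V, u ≠ 0 → 0 < q u u) :
    ∃ u₀ ∈ V, u₀ ≠ 0 ∧ ∃ M : ℝ, (∀ u ∈ V, S u u ≤ M * q u u) ∧ ∀ w ∈ V, S u₀ w = M * q u₀ w := by
  haveI : ProperSpace X := FiniteDimensional.proper ℝ X
  let K : Set X := (V : Set X) ∩ sphere 0 1
  have hVc : IsClosed (V : Set X) := V.closed_of_finiteDimensional
  have hK : IsCompact K := (isCompact_sphere 0 1).inter_left hVc
  have hKne : K.Nonempty := by
    refine ⟨‖e‖⁻¹ • e, V.smul_mem _ heV, ?_⟩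
    rw [mem_sphere_zero_iff_norm, norm_smul, norm_inv, norm_norm,
      inv_mul_cancel₀ (norm_ne_zero_iff.2 he)]
  have hne : ∀ u ∈ K, u ≠ 0 := by
    rintro u ⟨-, hu⟩ rfl
    rw [mem_sphere_zero_iff_norm, norm_zero] at hu
    exact zero_ne_one hu
  have hcont : ContinuousOn (fun u => S u u / q u u) K := by
    apply ContinuousOn.div
    · exact (S.continuous.clm_apply continuous_id).continuousOn
    · exact (q.continuous.clm_apply continuous_id).continuousOn
    · intro u hu
      exact (hpos u hu.1 (hne u hu)).ne'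
  obtain ⟨u₀, hu₀, hmax⟩ := hK.exists_isMaxOn hKne hcont
  have hq₀ := hpos u₀ hu₀.1 (hne u₀ hu₀)
  set M := S u₀ u₀ / q u₀ u₀ with hM
  have hM0 : S u₀ u₀ = M * q u₀ u₀ := by rw [hM]; field_simp
  have hle : ∀ u ∈ V, S u u ≤ M * q u u := by
    intro u hu
    by_cases hu0 : u = 0
    · subst hu0; simp
    have hnu : 0 < ‖u‖ := norm_pos_iff.2 hu0
    have h1 : ‖u‖⁻¹ • u ∈ K := by
      refine ⟨V.smul_mem _ hu, ?_⟩
      rw [mem_sphere_zero_iff_norm, norm_smul, norm_inv, norm_norm, inv_mul_cancel₀ hnu.ne']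
    have h2 : S (‖u‖⁻¹ • u) (‖u‖⁻¹ • u) / q (‖u‖⁻¹ • u) (‖u‖⁻¹ • u) ≤ M := hmax h1
    have hqu := hpos u hu hu0
    have h3 : S (‖u‖⁻¹ • u) (‖u‖⁻¹ • u) / q (‖u‖⁻¹ • u) (‖u‖⁻¹ • u) = S u u / q u u := by
      simp only [map_smul, smul_apply, smul_eq_mul]
      field_simp
    rw [h3, div_le_iff₀ hqu] at h2
    exact h2
  refine ⟨u₀, hu₀.1, hne u₀ hu₀, M, hle, ?_⟩
  intro w hw
  -- quadratic argument
  have key : ∀ t : ℝ, 0 ≤ 2 * t * (M * q u₀ w - S u₀ w) + t ^ 2 * (M * q w w - S w w) := by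
    intro t
    have h1 := hle (u₀ + t • w) (V.add_mem hu₀.1 (V.smul_mem _ hw))
    simp only [map_add, map_smul, add_apply, smul_apply, smul_eq_mul] at h1
    rw [hS w hw u₀ hu₀.1, hq w hw u₀ hu₀.1] at h1
    nlinarith [h1, hM0]
  by_contra hcon
  set b := M * q u₀ w - S u₀ w with hb
  set a := M * q w w - S w w with ha
  have hb0 : b ≠ 0 := fun h0 => hcon (by linarith)
  have ha0 : 0 ≤ a := by
    have := hle w hw
    linarith
  have h2 := key (-b / (a + 1))
  have h3 : 2 * (-b / (a + 1)) * b + (-b / (a + 1)) ^ 2 * a = -(b ^ 2 * (a + 2)) / (a + 1) ^ 2 := by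
    field_simp
    ring
  rw [h3] at h2
  have h4 : -(b ^ 2 * (a + 2)) / (a + 1) ^ 2 < 0 := by
    apply div_neg_of_neg_of_pos
    · have : 0 < b ^ 2 := by positivity
      nlinarith
    · positivity
  linarith

variable {X Y : Type*} [NormedAddCommGroup X] [NormedSpace ℝ X] [FiniteDimensional ℝ X]
  [NormedAddCommGroup Y] [NormedSpace ℝ Y] [FiniteDimensional ℝ Y]

namespace Dat

variable {φ : X → Y} (d : Dat φ)
include d

/-- (D5) -/
lemma symm_form {x : X} (hx : x ≠ 0) {v : X} (hv : nm x v = 0) (hv0 : v ≠ 0) {u w : X}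
    (hu : nm x u = 0) (hw : nm x w = 0) (huv : hs x u v = 0) (hwv : hs x w v = 0) :
    hs (F φ x v) (F φ x w) (G φ x u v) = hs (F φ x v) (F φ x u) (G φ x w v) := by
  have hnx : 0 < ‖x‖ := norm_pos_iff.2 hx
  have hFv := d.F_ne_zero hx hv hv0
  -- derivative of `star` in the direction `w`
  have main : ∀ u w : X, nm x w = 0 → hs x u v = 0 →
      ‖x‖ * (hs (F φ x v) (F φ x w) (G φ x u v) + nm (F φ x v) (G φ x u w)) -
        hs x u w * (nm (F φ x v) (φ x) - nm v x) = 0 := by
    intro u w hw huv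
    have hline : HasDerivAt (fun t : ℝ => v + t • w) w 0 := by
      simpa using ((hasDerivAt_id (0 : ℝ)).smul_const w).const_add v
    have hFl : HasDerivAt (fun t : ℝ => F φ x (v + t • w)) (F φ x w) 0 :=
      (F φ x).hasFDerivAt.comp_hasDerivAt 0 hline
    have hGl : HasDerivAt (fun t : ℝ => G φ x u (v + t • w)) (G φ x u w) 0 :=
      (G φ x u).hasFDerivAt.comp_hasDerivAt 0 hline
    have hhl : HasDerivAt (fun t : ℝ => hs x u (v + t • w)) (hs x u w) 0 :=
      (hs x u).hasFDerivAt.comp_hasDerivAt 0 hline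
    have hnF : HasDerivAt (fun t : ℝ => nm (F φ x (v + t • w))) (hs (F φ x v) (F φ x w)) 0 :=
      (d.hY.hasFDerivAt_nm hFv).comp_hasDerivAt_of_eq 0 hFl (by simp)
    have hnv : HasDerivAt (fun t : ℝ => nm (v + t • w)) (hs v w) 0 :=
      (d.hX.hasFDerivAt_nm hv0).comp_hasDerivAt_of_eq 0 hline (by simp)
    have h1 := ((hnF.clm_apply hGl).const_mul ‖x‖).sub
      (hhl.mul ((hasDerivAt_apply hnF (φ x)).sub (hasDerivAt_apply hnv x)))
    have hev : (fun t : ℝ => ‖x‖ * nm (F φ x (v + t • w)) (G φ x u (v + t • w)) -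
        hs x u (v + t • w) * (nm (F φ x (v + t • w)) (φ x) - nm (v + t • w) x)) =ᶠ[𝓝 0]
        fun _ => 0 := by
      have h2 : ∀ᶠ t in 𝓝 (0 : ℝ), v + t • w ≠ 0 := by
        apply hline.continuousAt.eventually_ne
        simpa using hv0
      filter_upwards [h2] with t ht
      exact d.star hx (by rw [map_add, map_smul, hv, hw, smul_zero, add_zero]) ht u
    have h3 := (h1.congr_of_eventuallyEq hev.symm).unique (hasDerivAt_const (0 : ℝ) (0 : ℝ))
    simp only [Pi.sub_apply, zero_smul, add_zero, huv, zero_mul] at h3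
    exact h3
  have h1 := main u w hw huv
  have h2 := main w u hu hwv
  rw [d.G_symm hx w u, d.hX.hs_symm hx w u] at h2
  have h3 : ‖x‖ * hs (F φ x v) (F φ x w) (G φ x u v) =
      ‖x‖ * hs (F φ x v) (F φ x u) (G φ x w v) := by linarith
  exact mul_left_cancel₀ hnx.ne' h3

/-- the first derivative is injective -/
lemma F_inj {x : X} (hx : x ≠ 0) : Function.Injective (F φ x) := by
  rw [injective_iff_map_eq_zero]
  intro v hv
  have h1 : nm x v = 0 := by rw [← d.nm_F hx, hv, map_zero]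
  by_contra hv0
  exact d.F_ne_zero hx h1 hv0 hv

end Dat

namespace Ext

variable {φ : X → Y} (e : Ext φ)
include e

lemma inj : Function.Injective φ := by
  intro x y hxy
  have h1 : ‖x‖ = ‖y‖ := by rw [← e.norm x, ← e.norm y, hxy]
  have h2 := e.dist x y h1
  rw [hxy, sub_self, norm_zero] at h2
  exact sub_eq_zero.1 (norm_eq_zero.1 h2.symm)

lemma inv : Ext (Function.surjInv e.surj) := by
  have hr : ∀ y, φ (Function.surjInv e.surj y) = y := Function.surjInv_eq e.surj
  refine ⟨?_, ?_, ?_, ?_⟩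
  · intro y
    rw [← e.norm, hr]
  · intro t y
    apply e.inj
    rw [hr, e.smul, hr]
  · intro y z hyz
    rw [← e.dist, hr, hr]
    rw [← e.norm, ← e.norm, hr, hr, hyz]
  · intro x
    exact ⟨φ x, e.inj (hr _)⟩

end Ext

namespace Dat

variable {φ : X → Y} (d : Dat φ)
include d

lemma F_surj {x : X} (hx : x ≠ 0) : Function.Surjective (F φ x) := by
  have hr : ∀ y, φ (Function.surjInv d.e.surj y) = y := Function.surjInv_eq d.e.surj
  have d' : Dat (Function.surjInv d.e.surj) := ⟨d.hY, d.hX, d.e.inv⟩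
  have hxe : Function.surjInv d.e.surj (φ x) = x := d.e.inj (hr _)
  have h1 := d'.hF (d.e.ne_zero hx)
  have h2 : HasFDerivAt φ (F φ x) (Function.surjInv d.e.surj (φ x)) := by
    rw [hxe]; exact d.hF hx
  have h3 := h2.comp (φ x) h1
  have h4 : HasFDerivAt (φ ∘ Function.surjInv d.e.surj) (ContinuousLinearMap.id ℝ Y) (φ x) := by
    have : φ ∘ Function.surjInv d.e.surj = id := funext hr
    rw [this]; exact hasFDerivAt_id _
  have h5 := h3.unique h4
  intro y
  refine ⟨F (Function.surjInv d.e.surj) (φ x) y, ?_⟩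
  have := congrArg (fun L : Y →L[ℝ] Y => L y) h5
  simpa using this

/-- (D6)-(D7) conjugate directions -/
lemma G_conj {x : X} (hx : x ≠ 0) {v u : X} (hv : nm x v = 0) (hu : nm x u = 0)
    (hvu : hs x v u = 0) : G φ x v u = 0 := by
  by_cases hv0 : v = 0
  · subst hv0; simp
  have hφx := d.e.ne_zero hx
  have notspan : ∀ t : X, nm x t = 0 → t ≠ 0 → t ∉ Submodule.span ℝ {x} := by
    intro t ht ht0 hmem
    obtain ⟨c, rfl⟩ := Submodule.mem_span_singleton.1 hmem
    rw [map_smul, d.hX.nm_self hx, smul_eq_mul] at ht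
    rcases mul_eq_zero.1 ht with h1 | h1
    · exact ht0 (by rw [h1, zero_smul])
    · exact hx (norm_eq_zero.1 h1)
  have hvv : 0 < hs x v v := d.hX.hs_pos hx (notspan v hv hv0)
  have hFv := d.F_ne_zero hx hv hv0
  set A := F φ x with hA
  let V : Submodule ℝ X :=
    LinearMap.ker (nm x : X →ₗ[ℝ] ℝ) ⊓ LinearMap.ker (hs x v : X →ₗ[ℝ] ℝ)
  have memV : ∀ t, t ∈ V ↔ nm x t = 0 ∧ hs x v t = 0 := fun t => Iff.rfl
  let S : X →L[ℝ] X →L[ℝ] ℝ :=
    ((ContinuousLinearMap.compL ℝ X Y ℝ).flip A).comp ((hs (A v)).comp (G φ x v))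
  let q : X →L[ℝ] X →L[ℝ] ℝ :=
    ((ContinuousLinearMap.compL ℝ X Y ℝ).flip A).comp ((hs (A v)).comp A)
  have hSdef : ∀ s t, S s t = hs (A v) (G φ x v s) (A t) := fun s t => rfl
  have hqdef : ∀ s t, q s t = hs (A v) (A s) (A t) := fun s t => rfl
  have Asp : ∀ t ∈ V, t ≠ 0 → A t ∉ Submodule.span ℝ {A v} := by
    intro t ht ht0 hmem
    obtain ⟨c, hc⟩ := Submodule.mem_span_singleton.1 hmem
    rw [← map_smul] at hc
    have h1 := d.F_inj hx hc
    have h2 := ((memV t).1 ht).2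
    rw [← h1, map_smul, smul_eq_mul] at h2
    rcases mul_eq_zero.1 h2 with h3 | h3
    · exact ht0 (by rw [← h1, h3, zero_smul])
    · exact hvv.ne' h3
  have hSsymm : ∀ s ∈ V, ∀ t ∈ V, S s t = S t s := by
    intro s hs' t ht
    have h1 := (memV s).1 hs'
    have h2 := (memV t).1 ht
    rw [hSdef, hSdef, d.hY.hs_symm hFv, d.hY.hs_symm hFv (G φ x v t)]
    have h3 := d.symm_form hx hv hv0 (u := s) (w := t) h1.1 h2.1
      (by rw [d.hX.hs_symm hx]; exact h1.2) (by rw [d.hX.hs_symm hx]; exact h2.2)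
    rw [d.G_symm hx v s, d.G_symm hx v t]
    exact h3
  have hqsymm : ∀ s ∈ V, ∀ t ∈ V, q s t = q t s := by
    intro s _ t _
    rw [hqdef, hqdef, d.hY.hs_symm hFv]
  have hqpos : ∀ s ∈ V, s ≠ 0 → 0 < q s s := by
    intro s hs' hs0
    rw [hqdef]
    have : A s ∉ Submodule.span ℝ {A v} := Asp s hs' hs0
    exact d.hY.hs_pos hFv this
  -- the key step
  have key : ∀ s ∈ V, ∀ M : ℝ, (∀ w ∈ V, S s w = M * q s w) → G φ x v s = 0 := by
    intro s hs' M hM
    by_cases hs0 : s = 0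
    · subst hs0; simp
    have h1 := (memV s).1 hs'
    obtain ⟨t, ht⟩ := d.F_surj hx (G φ x v s - M • A s)
    have htan : nm x t = 0 := by
      rw [← d.nm_F hx, ht, map_sub, map_smul, d.nm_G hx, d.nm_F hx, h1.1, smul_zero, sub_zero]
    -- decompose `t`
    set c := hs x v t / hs x v v with hc
    have ht' : t - c • v ∈ V := by
      rw [memV, map_sub, map_smul, htan, hv, smul_zero, sub_zero, map_sub, map_smul, smul_eq_mul]
      refine ⟨rfl, ?_⟩
      rw [hc]; field_simp; ring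
    have hzero : hs (A v) (A t) (A t) = 0 := by
      have e1 : A t = A (t - c • v) + c • A v := by rw [map_sub, map_smul]; abel
      have e2 : hs (A v) (A t) (A t) = hs (A v) (A t) (A (t - c • v)) := by
        conv_lhs => rw [e1]
        rw [map_add, map_smul, ← e1, d.hY.hs_self_right hFv, smul_zero, add_zero]
      rw [e2, ht, map_sub, map_smul, sub_apply, smul_apply, smul_eq_mul]
      have := hM _ ht'
      rw [hSdef, hqdef] at this
      rw [this, sub_self]
    have hspan : A t ∈ Submodule.span ℝ {A v} := by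
      by_contra hcon
      exact (d.hY.hs_pos hFv hcon).ne' hzero
    obtain ⟨c', hc'⟩ := Submodule.mem_span_singleton.1 hspan
    have hz : G φ x v s = c' • A v + M • A s := by
      rw [hc', ht]; abel
    have k1 : nm (A v) (G φ x v s) = 0 := by
      have := d.star hx hv hv0 s
      rw [d.hX.hs_symm hx, h1.2, zero_mul, sub_zero] at this
      rw [d.G_symm hx]
      rcases mul_eq_zero.1 this with h2 | h2
      · exact absurd (norm_eq_zero.1 h2) hx
      · exact h2
    have k2 : nm (A s) (G φ x v s) = 0 := by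
      have := d.star hx h1.1 hs0 v
      rw [h1.2, zero_mul, sub_zero] at this
      rcases mul_eq_zero.1 this with h2 | h2
      · exact absurd (norm_eq_zero.1 h2) hx
      · exact h2
    have h3 := d.hY.comb_eq_zero hFv (Asp s hs' hs0) (s := c') (t := M)
      (by rw [← hz]; exact k1) (by rw [← hz]; exact k2)
    rw [hz, h3.1, h3.2, zero_smul, zero_smul, add_zero]
  have huV : u ∈ V := ⟨hu, hvu⟩
  by_cases hu0 : u = 0
  · subst hu0; simp
  -- the form `S` vanishes on `V`
  have hSle : ∀ s ∈ V, S s s ≤ 0 := by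
    obtain ⟨u₀, hu₀, hu₀0, M, hM1, hM2⟩ := exists_max_ratio V huV hu0 S q hSsymm hqsymm hqpos
    have h1 := key u₀ hu₀ M hM2
    have h2 := hM2 u₀ hu₀
    rw [hSdef, h1, map_zero] at h2
    have h3 : M = 0 := by
      rcases mul_eq_zero.1 h2.symm with h4 | h4
      · exact h4
      · exact absurd h4 (hqpos u₀ hu₀ hu₀0).ne'
    intro s hs'
    have := hM1 s hs'
    rwa [h3, zero_mul] at this
  have hSge : ∀ s ∈ V, 0 ≤ S s s := by
    obtain ⟨u₀, hu₀, hu₀0, M, hM1, hM2⟩ := exists_max_ratio V huV hu0 (-S) q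
      (by intro s hs' t ht; simp only [neg_apply]; rw [hSsymm s hs' t ht]) hqsymm hqpos
    have h1 := key u₀ hu₀ (-M) (by
      intro w hw
      have := hM2 w hw
      simp only [neg_apply] at this
      linarith)
    have h2 := hM2 u₀ hu₀
    simp only [neg_apply] at h2
    rw [hSdef, h1, map_zero] at h2
    have h3 : M = 0 := by
      rw [zero_apply, neg_zero] at h2
      rcases mul_eq_zero.1 h2.symm with h4 | h4
      · exact h4
      · exact absurd h4 (hqpos u₀ hu₀ hu₀0).ne'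
    intro s hs'
    have := hM1 s hs'
    simp only [neg_apply, h3, zero_mul] at this
    linarith
  have hS0 : ∀ s ∈ V, S s s = 0 := fun s hs' => le_antisymm (hSle s hs') (hSge s hs')
  apply key u huV 0
  intro w hw
  rw [zero_mul]
  have h1 := hS0 (u + w) (V.add_mem huV hw)
  simp only [map_add, add_apply] at h1
  rw [hS0 u huV, hS0 w hw, hSsymm w hw u huV] at h1
  linarith

end Dat

end Vale.P084
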